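/-
Row 342 (S0536, S0537), module Cond: resampling operators on product spaces.

`π` is a probability law on pairs `X × Y`; on `J → X`, `J → Y` we use the product law `∏ i, π (x i) (y i)`.
`resample π A F x y` is `Cond^y_A F (x)`: the coordinates of `x` in `A` are resampled from
the conditional law of `x` given `y`; the coordinates outside `A` are kept.
For the other player use `resample (flip π) B G y x`.

Everything is stated for functions with values in an arbitrary real module.
-/
import Mathlib

set_option linter.unusedSectionVars false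
set_option linter.unusedVariables false

namespace Crest.Agent.ParRep

open Finset Function

section Basic

variable {X Y J : Type*} [Fintype X] [Fintype Y] [Fintype J] [DecidableEq X] [DecidableEq Y]
  [DecidableEq J]

/-- Marginal of the second coordinate. -/
noncomputable def margY (π : X → Y → ℝ) (y : Y) : ℝ := ∑ x, π x y

/-- Conditional probability `π(x|y)`; it is `0` when `y` has marginal `0`. -/
noncomputable def condProb (π : X → Y → ℝ) (x : X) (y : Y) : ℝ := π x y / margY π y

/-- The product law. -/
noncomputable def prodLaw (π : X → Y → ℝ) (x : J → X) (y : J → Y) : ℝ := ∏ i, π (x i) (y i)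

/-- Expectation under the product law. -/
noncomputable def prodExp (π : X → Y → ℝ) (G : (J → X) → (J → Y) → ℝ) : ℝ :=
  ∑ x, ∑ y, prodLaw π x y * G x y

/-- The kernel of the resampling: coordinates in `A` are drawn from `π(·|y i)`, the others kept. -/
noncomputable def rsKer (π : X → Y → ℝ) (A : Finset J) (y : J → Y) (x u : J → X) : ℝ :=
  ∏ i, if i ∈ A then condProb π (u i) (y i) else if u i = x i then 1 else 0

/-- `Cond^y_A F`. -/
noncomputable def resample {M : Type*} [AddCommMonoid M] [Module ℝ M] (π : X → Y → ℝ) (A : Finset J)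
    (F : (J → X) → M) (x : J → X) (y : J → Y) : M :=
  ∑ u, rsKer π A y x u • F u

variable {π : X → Y → ℝ}

lemma margY_nonneg (hπ : ∀ x y, 0 ≤ π x y) (y : Y) : 0 ≤ margY π y :=
  Finset.sum_nonneg fun x _ => hπ x y

lemma condProb_nonneg (hπ : ∀ x y, 0 ≤ π x y) (x : X) (y : Y) : 0 ≤ condProb π x y :=
  div_nonneg (hπ x y) (margY_nonneg hπ y)

lemma margY_mul_condProb (hπ : ∀ x y, 0 ≤ π x y) (x : X) (y : Y) :
    margY π y * condProb π x y = π x y := by
  unfold condProb
  by_cases h : margY π y = 0
  · have : ∀ x, π x y = 0 := by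
      intro x
      have := (Finset.sum_eq_zero_iff_of_nonneg (fun x _ => hπ x y)).1 h
      exact this x (mem_univ x)
    simp [h, this]
  · field_simp

lemma margY_pos_of_pos (hπ : ∀ x y, 0 ≤ π x y) {x : X} {y : Y} (h : 0 < π x y) : 0 < margY π y :=
  lt_of_lt_of_le h (Finset.single_le_sum (f := fun x => π x y) (fun x _ => hπ x y) (mem_univ x))

lemma sum_condProb {y : Y} (h : 0 < margY π y) : ∑ x, condProb π x y = 1 := by
  unfold condProb
  rw [← Finset.sum_div]
  exact div_self h.ne'

lemma prodLaw_nonneg (hπ : ∀ x y, 0 ≤ π x y) (x : J → X) (y : J → Y) : 0 ≤ prodLaw π x y :=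
  Finset.prod_nonneg fun i _ => hπ _ _

lemma margY_pos_of_prodLaw (hπ : ∀ x y, 0 ≤ π x y) {x : J → X} {y : J → Y}
    (h : 0 < prodLaw π x y) (i : J) : 0 < margY π (y i) := by
  refine margY_pos_of_pos (x := x i) hπ ?_
  have hne : prodLaw π x y ≠ 0 := h.ne'
  unfold prodLaw at hne
  exact lt_of_le_of_ne (hπ _ _) (fun h0 => hne (Finset.prod_eq_zero (mem_univ i) h0.symm))

/-- Sum of a product over pairs of functions. -/
lemma sum_sum_prod (g : J → X → Y → ℝ) :
    ∑ x : J → X, ∑ y : J → Y, ∏ i, g i (x i) (y i) = ∏ i, ∑ a, ∑ b, g i a b := by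
  have h1 : ∀ x : J → X, ∑ y : J → Y, ∏ i, g i (x i) (y i) = ∏ i, ∑ b, g i (x i) b := by
    intro x
    have := (Finset.prod_univ_sum (fun _ : J => (univ : Finset Y)) (fun i b => g i (x i) b)).symm
    simpa [Fintype.piFinset_univ] using this
  simp_rw [h1]
  have := (Finset.prod_univ_sum (fun _ : J => (univ : Finset X)) (fun i a => ∑ b, g i a b)).symm
  simpa [Fintype.piFinset_univ] using this

lemma sum_prodLaw (hsum : ∑ x, ∑ y, π x y = 1) :
    ∑ x : J → X, ∑ y : J → Y, prodLaw π x y = 1 := by
  unfold prodLaw
  rw [sum_sum_prod (fun _ a b => π a b)]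
  simp [hsum]

lemma rsKer_nonneg (hπ : ∀ x y, 0 ≤ π x y) (A : Finset J) (y : J → Y) (x u : J → X) :
    0 ≤ rsKer π A y x u := by
  refine Finset.prod_nonneg fun i _ => ?_
  split_ifs
  · exact condProb_nonneg hπ _ _
  · exact zero_le_one
  · exact le_rfl

/-- The kernel is a probability when the relevant marginals are positive. -/
lemma sum_rsKer (A : Finset J) (y : J → Y) (x : J → X) (hy : ∀ i ∈ A, 0 < margY π (y i)) :
    ∑ u, rsKer π A y x u = 1 := by
  unfold rsKer
  have := (Finset.prod_univ_sum (fun _ : J => (univ : Finset X))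
    (fun i (a : X) => if i ∈ A then condProb π a (y i) else if a = x i then (1 : ℝ) else 0)).symm
  rw [Fintype.piFinset_univ] at this
  rw [this]
  refine Finset.prod_eq_one fun i _ => ?_
  by_cases hi : i ∈ A
  · simp only [hi, if_true]
    exact sum_condProb (hy i hi)
  · simp [hi]

/-- `resample` on the empty set does nothing. -/
lemma resample_empty {M : Type*} [AddCommMonoid M] [Module ℝ M] (F : (J → X) → M) (x : J → X)
    (y : J → Y) : resample π (∅ : Finset J) F x y = F x := by
  unfold resample
  rw [Finset.sum_eq_single x]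
  · have : rsKer π (∅ : Finset J) y x x = 1 := by
      unfold rsKer
      simp
    simp [this]
  · intro u _ hu
    obtain ⟨i, hi⟩ := Function.ne_iff.1 hu
    have : rsKer π (∅ : Finset J) y x u = 0 := by
      unfold rsKer
      exact Finset.prod_eq_zero (mem_univ i) (by simp [hi])
    simp [this]
  · simp

/-- The kernel does not depend on the coordinates of `x` in `A`. -/
lemma rsKer_update_of_mem {A : Finset J} {j : J} (hj : j ∈ A) (y : J → Y) (x u : J → X) (t : X) :
    rsKer π A y (update x j t) u = rsKer π A y x u := by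
  unfold rsKer
  refine Finset.prod_congr rfl fun i _ => ?_
  by_cases hi : i ∈ A
  · simp [hi]
  · have : i ≠ j := fun h => hi (h ▸ hj)
    simp [hi, Function.update_of_ne this]

/-- The kernel does not depend on the coordinates of `y` outside `A`. -/
lemma rsKer_update_y_of_notMem {A : Finset J} {j : J} (hj : j ∉ A) (y : J → Y) (x u : J → X)
    (t : Y) : rsKer π A (update y j t) x u = rsKer π A y x u := by
  unfold rsKer
  refine Finset.prod_congr rfl fun i _ => ?_
  by_cases hi : i ∈ A
  · have : i ≠ j := fun h => hj (h ▸ hi)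
    simp [hi, Function.update_of_ne this]
  · simp [hi]

lemma resample_update_of_mem {M : Type*} [AddCommMonoid M] [Module ℝ M] {A : Finset J} {j : J}
    (hj : j ∈ A) (F : (J → X) → M) (x : J → X) (y : J → Y) (t : X) :
    resample π A F (update x j t) y = resample π A F x y := by
  unfold resample
  simp_rw [rsKer_update_of_mem hj]

lemma resample_update_y_of_notMem {M : Type*} [AddCommMonoid M] [Module ℝ M] {A : Finset J} {j : J}
    (hj : j ∉ A) (F : (J → X) → M) (x : J → X) (y : J → Y) (t : Y) :
    resample π A F x (update y j t) = resample π A F x y := by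
  unfold resample
  simp_rw [rsKer_update_y_of_notMem hj]

/-- One step of the resampling. -/
lemma rsKer_insert {A : Finset J} {j : J} (hj : j ∉ A) (y : J → Y) (x u : J → X) :
    rsKer π (insert j A) y x u = ∑ t, condProb π t (y j) * rsKer π A y (update x j t) u := by
  unfold rsKer
  have hsplit : ∀ (g : J → ℝ), ∏ i, g i = g j * ∏ i ∈ univ.erase j, g i := fun g => by
    rw [Finset.mul_prod_erase _ _ (mem_univ j)]
  rw [hsplit]
  have hrest : ∏ i ∈ univ.erase j, (if i ∈ insert j A then condProb π (u i) (y i) else
        if u i = x i then (1 : ℝ) else 0)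
      = ∏ i ∈ univ.erase j, (if i ∈ A then condProb π (u i) (y i) else
        if u i = x i then (1 : ℝ) else 0) := by
    refine Finset.prod_congr rfl fun i hi => ?_
    have hij : i ≠ j := (Finset.mem_erase.1 hi).1
    simp [Finset.mem_insert, hij]
  rw [hrest]
  have hterm : ∀ t : X, (∏ i, if i ∈ A then condProb π (u i) (y i) else
        if u i = update x j t i then (1 : ℝ) else 0)
      = (if u j = t then 1 else 0) * ∏ i ∈ univ.erase j, (if i ∈ A then condProb π (u i) (y i) else
        if u i = x i then (1 : ℝ) else 0) := by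
    intro t
    rw [hsplit]
    congr 1
    · simp [hj]
    · refine Finset.prod_congr rfl fun i hi => ?_
      have hij : i ≠ j := (Finset.mem_erase.1 hi).1
      simp [Function.update_of_ne hij]
  simp_rw [hterm]
  rw [Finset.sum_eq_single (u j)]
  · simp
  · intro t _ ht
    simp [Ne.symm ht]
  · simp

lemma resample_insert {M : Type*} [AddCommMonoid M] [Module ℝ M] {A : Finset J} {j : J}
    (hj : j ∉ A) (F : (J → X) → M) (x : J → X) (y : J → Y) :
    resample π (insert j A) F x y
      = ∑ t, condProb π t (y j) • resample π A F (update x j t) y := by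
  unfold resample
  simp_rw [rsKer_insert hj, Finset.sum_smul, Finset.smul_sum, mul_smul]
  rw [Finset.sum_comm]

/-- Splitting the product law at a coordinate. -/
lemma prodLaw_split (j : J) (x : J → X) (y : J → Y) :
    prodLaw π x y = π (x j) (y j) * ∏ i ∈ univ.erase j, π (x i) (y i) := by
  unfold prodLaw
  rw [Finset.mul_prod_erase _ (fun i => π (x i) (y i)) (mem_univ j)]

lemma prod_erase_update (j : J) (x : J → X) (y : J → Y) (t : X) :
    ∏ i ∈ univ.erase j, π (update x j t i) (y i) = ∏ i ∈ univ.erase j, π (x i) (y i) := by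
  refine Finset.prod_congr rfl fun i hi => ?_
  rw [Function.update_of_ne (Finset.mem_erase.1 hi).1]

/-- Resampling one coordinate of `x` from its conditional law given `y` preserves the product law. -/
lemma prodExp_resample_one (hπ : ∀ x y, 0 ≤ π x y) (j : J) (H : (J → X) → (J → Y) → ℝ) :
    prodExp π (fun x y => ∑ t, condProb π t (y j) * H (update x j t) y) = prodExp π H := by
  unfold prodExp
  refine Finset.sum_comm.trans ?_
  refine Eq.trans ?_ Finset.sum_comm
  refine Finset.sum_congr rfl fun y _ => ?_
  -- the involution (x,t) ↦ (update x j t, x j)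
  let σ : (J → X) × X → (J → X) × X := fun p => (update p.1 j p.2, p.1 j)
  have hσ : Function.Involutive σ := by
    rintro ⟨x, t⟩
    simp [σ]
  let A : (J → X) × X → ℝ := fun p =>
    prodLaw π p.1 y * (condProb π p.2 (y j) * H (update p.1 j p.2) y)
  have h1 : ∑ x, prodLaw π x y * ∑ t, condProb π t (y j) * H (update x j t) y = ∑ p, A p := by
    rw [Fintype.sum_prod_type]
    refine Finset.sum_congr rfl fun x _ => ?_
    rw [Finset.mul_sum]
  rw [h1, ← Equiv.sum_comp hσ.toPerm A]
  rw [Fintype.sum_prod_type]
  refine Finset.sum_congr rfl fun x _ => ?_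
  simp only [Function.Involutive.coe_toPerm, σ, A]
  have h2 : ∀ t, prodLaw π (update x j t) y * (condProb π (x j) (y j) * H (update (update x j t) j (x j)) y)
      = π t (y j) * ((∏ i ∈ univ.erase j, π (x i) (y i)) * (condProb π (x j) (y j) * H x y)) := by
    intro t
    rw [prodLaw_split j, prod_erase_update]
    simp only [Function.update_self, Function.update_idem, Function.update_eq_self]
    ring
  simp_rw [h2]
  rw [← Finset.sum_mul, prodLaw_split j]
  have h3 : ∑ t, π t (y j) = margY π (y j) := rfl
  rw [h3]
  have := margY_mul_condProb hπ (x j) (y j)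
  calc margY π (y j) * ((∏ i ∈ univ.erase j, π (x i) (y i)) * (condProb π (x j) (y j) * H x y))
      = (margY π (y j) * condProb π (x j) (y j)) * (∏ i ∈ univ.erase j, π (x i) (y i)) * H x y := by ring
    _ = _ := by rw [this]

/-- Exchange of the two players: the expectation under the flipped law. -/
lemma prodExp_flip (G : (J → X) → (J → Y) → ℝ) :
    prodExp (flip π) (fun y x => G x y) = prodExp π G := by
  unfold prodExp prodLaw
  rw [Finset.sum_comm]
  rfl

/-- Replacing a coordinate pair by an independent copy preserves the product law. -/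
lemma prodExp_coord (hπ : ∀ x y, 0 ≤ π x y) (hsum : ∑ x, ∑ y, π x y = 1) (j : J)
    (G : (J → X) → (J → Y) → ℝ) :
    ∑ a, ∑ b, π a b * prodExp π (fun x y => G (update x j a) (update y j b)) = prodExp π G := by
  -- fix the other coordinates by a direct computation on `(J → X) × X` etc.
  unfold prodExp
  have hL : ∀ (x : J → X) (y : J → Y) (a : X) (b : Y), π a b * prodLaw π x y
      = π (x j) (y j) * prodLaw π (update x j a) (update y j b) := by
    intro x y a b
    rw [prodLaw_split (π := π) j x y, prodLaw_split (π := π) j (update x j a) (update y j b)]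
    have : ∏ i ∈ univ.erase j, π (update x j a i) (update y j b i)
        = ∏ i ∈ univ.erase j, π (x i) (y i) := by
      refine Finset.prod_congr rfl fun i hi => ?_
      have := (Finset.mem_erase.1 hi).1
      rw [Function.update_of_ne this, Function.update_of_ne this]
    rw [this]
    simp only [Function.update_self]
    ring
  -- bijection on tuples
  let σ : ((J → X) × (J → Y)) × (X × Y) → ((J → X) × (J → Y)) × (X × Y) :=
    fun p => ((update p.1.1 j p.2.1, update p.1.2 j p.2.2), (p.1.1 j, p.1.2 j))
  have hσ : Function.Involutive σ := by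
    rintro ⟨⟨x, y⟩, a, b⟩
    simp [σ]
  let A : ((J → X) × (J → Y)) × (X × Y) → ℝ := fun p =>
    π p.2.1 p.2.2 * (prodLaw π p.1.1 p.1.2 * G (update p.1.1 j p.2.1) (update p.1.2 j p.2.2))
  have h1 : ∑ a, ∑ b, π a b * ∑ x, ∑ y, prodLaw π x y * G (update x j a) (update y j b)
      = ∑ p, A p := by
    rw [Fintype.sum_prod_type_right]
    simp only [Fintype.sum_prod_type, A, Finset.mul_sum]
  have h2 : ∑ p, A (Function.Involutive.toPerm σ hσ p) = ∑ x, ∑ y, prodLaw π x y * G x y := by
    rw [Fintype.sum_prod_type]
    simp only [Fintype.sum_prod_type]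
    refine Finset.sum_congr rfl fun x _ => Finset.sum_congr rfl fun y _ => ?_
    have hterm : ∀ a b, A (Function.Involutive.toPerm σ hσ ((x, y), (a, b))) = π a b * (prodLaw π x y * G x y) := by
      intro a b
      simp only [Function.Involutive.coe_toPerm, σ, A]
      simp only [Function.update_self, Function.update_idem, Function.update_eq_self]
      have := hL x y a b
      linear_combination (-G x y) * this
    simp_rw [hterm, ← Finset.sum_mul, hsum, one_mul]
  rw [h1, ← Equiv.sum_comp (Function.Involutive.toPerm σ hσ) A, h2]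

/-- The indicator form of `prodExp_coord`: the mass at `x j = a`, `y j = b`. -/
lemma prodExp_indicator (hπ : ∀ x y, 0 ≤ π x y) (hsum : ∑ x, ∑ y, π x y = 1) (j : J) (a : X) (b : Y)
    (G : (J → X) → (J → Y) → ℝ) :
    prodExp π (fun x y => (if x j = a ∧ y j = b then 1 else 0) * G x y)
      = π a b * prodExp π (fun x y => G (update x j a) (update y j b)) := by
  rw [← prodExp_coord hπ hsum j]
  rw [Finset.sum_eq_single a, Finset.sum_eq_single b]
  · simp
  · intro b' _ hb'
    have : (fun (x : J → X) (y : J → Y) =>
        (if (update x j a) j = a ∧ (update y j b') j = b then (1 : ℝ) else 0)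
          * G (update x j a) (update y j b')) = fun _ _ => 0 := by
      funext x y
      simp [hb']
    rw [this]
    simp [prodExp]
  · simp
  · intro a' _ ha'
    refine Finset.sum_eq_zero fun b' _ => ?_
    have : (fun (x : J → X) (y : J → Y) =>
        (if (update x j a') j = a ∧ (update y j b') j = b then (1 : ℝ) else 0)
          * G (update x j a') (update y j b')) = fun _ _ => 0 := by
      funext x y
      simp [ha']
    rw [this]
    simp [prodExp]
  · simp

/-- The coordinate kernel: integrating the two one-coordinate kernels against `π` gives `π`. -/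
lemma coord_kernel (hπ : ∀ x y, 0 ≤ π x y) (u : X) (v : Y) :
    (∑ a, ∑ b, π a b * (condProb π u b) * (if v = b then 1 else 0)) = π u v := by
  have : ∀ a, ∑ b, π a b * condProb π u b * (if v = b then (1 : ℝ) else 0)
      = π a v * condProb π u v := by
    intro a
    rw [Finset.sum_eq_single v]
    · simp
    · intro b _ hb
      simp [Ne.symm hb]
    · simp
  simp_rw [this, ← Finset.sum_mul]
  exact margY_mul_condProb hπ u v

lemma coord_kernel' (hπ : ∀ x y, 0 ≤ π x y) (u : X) (v : Y) :
    (∑ a, ∑ b, π a b * (if u = a then 1 else 0) * condProb (flip π) v a) = π u v := by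
  rw [Finset.sum_eq_single u]
  · simp only [if_true, mul_one]
    rw [← Finset.sum_mul]
    have := margY_mul_condProb (π := flip π) (fun a b => hπ b a) v u
    exact this
  · intro a _ ha
    simp [Ne.symm ha]
  · simp

lemma coord_kernel'' (u : X) (v : Y) :
    (∑ a, ∑ b, π a b * (if u = a then 1 else 0) * (if v = b then 1 else 0)) = π u v := by
  rw [Finset.sum_eq_single u]
  · rw [Finset.sum_eq_single v]
    · simp
    · intro b _ hb
      simp [Ne.symm hb]
    · simp
  · intro a _ ha
    simp [Ne.symm ha]
  · simp

/-- Joint kernel identity behind the tower property. -/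
lemma joint_kernel (hπ : ∀ x y, 0 ≤ π x y) {A B : Finset J} (hAB : Disjoint A B) (u : J → X) (v : J → Y) :
    ∑ x : J → X, ∑ y : J → Y, prodLaw π x y * (rsKer π A y x u * rsKer (flip π) B x y v)
      = prodLaw π u v := by
  unfold prodLaw rsKer
  have h : ∀ (x : J → X) (y : J → Y), (∏ i, π (x i) (y i)) *
      ((∏ i, if i ∈ A then condProb π (u i) (y i) else if u i = x i then (1 : ℝ) else 0) *
        ∏ i, if i ∈ B then condProb (flip π) (v i) (x i) else if v i = y i then (1 : ℝ) else 0)
      = ∏ i, (π (x i) (y i) * (if i ∈ A then condProb π (u i) (y i) else if u i = x i then (1 : ℝ) else 0)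
          * (if i ∈ B then condProb (flip π) (v i) (x i) else if v i = y i then (1 : ℝ) else 0)) := by
    intro x y
    rw [Finset.prod_mul_distrib, Finset.prod_mul_distrib]
    ring
  simp_rw [h]
  rw [sum_sum_prod (fun i a b => π a b * (if i ∈ A then condProb π (u i) b else if u i = a then (1 : ℝ) else 0)
          * (if i ∈ B then condProb (flip π) (v i) a else if v i = b then (1 : ℝ) else 0))]
  refine Finset.prod_congr rfl fun i _ => ?_
  by_cases hA : i ∈ A
  · have hB : i ∉ B := Finset.disjoint_left.1 hAB hA
    simp only [hA, hB, if_true, if_false]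
    exact coord_kernel hπ (u i) (v i)
  · by_cases hB : i ∈ B
    · simp only [hA, hB, if_true, if_false]
      exact coord_kernel' hπ (u i) (v i)
    · simp only [hA, hB, if_false]
      exact coord_kernel'' (u i) (v i)

lemma sum4_comm {α β γ δ : Type*} [Fintype α] [Fintype β] [Fintype γ] [Fintype δ]
    (g : α → β → γ → δ → ℝ) :
    ∑ x, ∑ y, ∑ u, ∑ v, g x y u v = ∑ u, ∑ v, ∑ x, ∑ y, g x y u v := by
  calc ∑ x, ∑ y, ∑ u, ∑ v, g x y u v = ∑ x, ∑ u, ∑ y, ∑ v, g x y u v :=
        Finset.sum_congr rfl fun _ _ => Finset.sum_comm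
    _ = ∑ u, ∑ x, ∑ y, ∑ v, g x y u v := Finset.sum_comm
    _ = ∑ u, ∑ x, ∑ v, ∑ y, g x y u v :=
        Finset.sum_congr rfl fun _ _ => Finset.sum_congr rfl fun _ _ => Finset.sum_comm
    _ = ∑ u, ∑ v, ∑ x, ∑ y, g x y u v := Finset.sum_congr rfl fun _ _ => Finset.sum_comm

section Bilin

variable {𝒜 ℬ : Type*} [AddCommGroup 𝒜] [Module ℝ 𝒜] [AddCommGroup ℬ] [Module ℝ ℬ]

/-- The tower property: for disjoint `A`, `B`, resampling `x` on `A` and `y` on `B` does not change
the expectation of a bilinear form of `F x` and `G y`. -/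
theorem tower (hπ : ∀ x y, 0 ≤ π x y) (ω : 𝒜 →ₗ[ℝ] ℬ →ₗ[ℝ] ℝ) {A B : Finset J} (hAB : Disjoint A B)
    (F : (J → X) → 𝒜) (G : (J → Y) → ℬ) :
    prodExp π (fun x y => ω (resample π A F x y) (resample (flip π) B G y x))
      = prodExp π (fun x y => ω (F x) (G y)) := by
  unfold prodExp resample
  have h : ∀ (x : J → X) (y : J → Y),
      ω (∑ u : J → X, rsKer π A y x u • F u) (∑ v : J → Y, rsKer (flip π) B x y v • G v)
      = ∑ u : J → X, ∑ v : J → Y, (rsKer π A y x u * rsKer (flip π) B x y v) * ω (F u) (G v) := by
    intro x y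
    simp only [map_sum, LinearMap.sum_apply, map_smul, LinearMap.smul_apply, smul_eq_mul, Finset.mul_sum]
    rw [Finset.sum_comm]
    apply Finset.sum_congr rfl
    intro u _
    apply Finset.sum_congr rfl
    intro v _
    ring
  simp_rw [h]
  have h2 : ∑ x : J → X, ∑ y : J → Y, prodLaw π x y * ∑ u : J → X, ∑ v : J → Y,
        (rsKer π A y x u * rsKer (flip π) B x y v) * ω (F u) (G v)
      = ∑ u : J → X, ∑ v : J → Y,
          (∑ x : J → X, ∑ y : J → Y, prodLaw π x y * (rsKer π A y x u * rsKer (flip π) B x y v))
          * ω (F u) (G v) := by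
    simp only [Finset.mul_sum, Finset.sum_mul]
    rw [sum4_comm]
    apply Finset.sum_congr rfl
    intro u _
    apply Finset.sum_congr rfl
    intro v _
    apply Finset.sum_congr rfl
    intro x _
    apply Finset.sum_congr rfl
    intro y _
    ring
  rw [h2]
  simp_rw [joint_kernel hπ hAB]

end Bilin

end Basic

end Crest.Agent.ParRep
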