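/-
Row 342 (S0536, S0537), module Chain: the chain theorem of finding #1280 (1) in the fixed order
form of #1302. Abstract in the pair `(f, W)` and in the bilinear form `ω`.

Main results: `chain_side` (one side, along any chain of sets) and `chain_sum` (both sides, fixed
order on `Fin m`, `A = Iio j`, `B = Ioi j`).
-/
import Crest.Agent.Lib.ParRep.Cond

set_option linter.unusedSectionVars false
set_option linter.unusedVariables false

namespace Crest.Agent.ParRep

open Finset Function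

section Exp

variable {X Y J : Type*} [Fintype X] [Fintype Y] [Fintype J] [DecidableEq X] [DecidableEq Y]
  [DecidableEq J] {π : X → Y → ℝ}

lemma prodExp_add (G H : (J → X) → (J → Y) → ℝ) :
    prodExp π (fun x y => G x y + H x y) = prodExp π G + prodExp π H := by
  unfold prodExp
  simp only [mul_add, Finset.sum_add_distrib]

lemma prodExp_sub (G H : (J → X) → (J → Y) → ℝ) :
    prodExp π (fun x y => G x y - H x y) = prodExp π G - prodExp π H := by
  unfold prodExp
  simp only [mul_sub, Finset.sum_sub_distrib]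

lemma prodExp_const_mul (c : ℝ) (G : (J → X) → (J → Y) → ℝ) :
    prodExp π (fun x y => c * G x y) = c * prodExp π G := by
  unfold prodExp
  simp only [Finset.mul_sum]
  refine Finset.sum_congr rfl fun _ _ => Finset.sum_congr rfl fun _ _ => ?_
  ring

lemma prodExp_const (hsum : ∑ x, ∑ y, π x y = 1) (c : ℝ) :
    prodExp π (fun (_ : J → X) (_ : J → Y) => c) = c := by
  unfold prodExp
  simp only [← Finset.sum_mul]
  rw [sum_prodLaw hsum, one_mul]

lemma prodExp_mono (hπ : ∀ x y, 0 ≤ π x y) {G H : (J → X) → (J → Y) → ℝ}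
    (h : ∀ x y, 0 < prodLaw π x y → G x y ≤ H x y) : prodExp π G ≤ prodExp π H := by
  unfold prodExp
  refine Finset.sum_le_sum fun x _ => Finset.sum_le_sum fun y _ => ?_
  rcases (prodLaw_nonneg hπ x y).eq_or_lt with h0 | h0
  · simp [← h0]
  · exact mul_le_mul_of_nonneg_left (h x y h0) h0.le

lemma prodExp_congr {G H : (J → X) → (J → Y) → ℝ}
    (h : ∀ x y, 0 < prodLaw π x y → G x y = H x y) (hπ : ∀ x y, 0 ≤ π x y) :
    prodExp π G = prodExp π H :=
  le_antisymm (prodExp_mono hπ fun x y hp => (h x y hp).le)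
    (prodExp_mono hπ fun x y hp => (h x y hp).ge)

/-- Jensen for the entropy function under the product law. -/
lemma prodExp_negMulLog_le (hπ : ∀ x y, 0 ≤ π x y) (hsum : ∑ x, ∑ y, π x y = 1)
    (g : (J → X) → (J → Y) → ℝ) (hg : ∀ x y, 0 < prodLaw π x y → 0 ≤ g x y) :
    prodExp π (fun x y => Real.negMulLog (g x y)) ≤ Real.negMulLog (prodExp π g) := by
  classical
  let g' : (J → X) → (J → Y) → ℝ := fun x y => if 0 < prodLaw π x y then g x y else 0
  have hg' : ∀ x y, 0 ≤ g' x y := by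
    intro x y
    by_cases h : 0 < prodLaw π x y
    · simp only [g', h, if_true]
      exact hg x y h
    · simp [g', h]
  have e1 : prodExp π g = prodExp π g' :=
    prodExp_congr (fun x y h => by simp [g', h]) hπ
  have e2 : prodExp π (fun x y => Real.negMulLog (g x y)) = prodExp π (fun x y => Real.negMulLog (g' x y)) :=
    prodExp_congr (fun x y h => by simp [g', h]) hπ
  rw [e1, e2]
  have key := Real.concaveOn_negMulLog.le_map_sum (t := (univ : Finset ((J → X) × (J → Y))))
    (w := fun p => prodLaw π p.1 p.2) (p := fun p => g' p.1 p.2)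
    (fun i _ => prodLaw_nonneg hπ _ _)
    (by rw [Fintype.sum_prod_type]; exact sum_prodLaw hsum)
    (fun i _ => hg' _ _)
  simp only [Fintype.sum_prod_type, smul_eq_mul] at key
  exact key

/-- Resampling a coordinate of the second variable. -/
lemma prodExp_resample_one' (hπ : ∀ x y, 0 ≤ π x y) (j : J) (H : (J → X) → (J → Y) → ℝ) :
    prodExp π (fun x y => ∑ t, condProb (flip π) t (x j) * H x (update y j t)) = prodExp π H := by
  have h := prodExp_resample_one (π := flip π) (fun a b => hπ b a) j (fun y x => H x y)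
  rw [prodExp_flip (π := π) H] at h
  rw [← h]
  exact (prodExp_flip (π := π) _).symm

lemma prodLaw_flip (x : J → X) (y : J → Y) : prodLaw (flip π) y x = prodLaw π x y := rfl

lemma margY_flip_pos_of_prodLaw (hπ : ∀ x y, 0 ≤ π x y) {x : J → X} {y : J → Y}
    (h : 0 < prodLaw π x y) (i : J) : 0 < margY (flip π) (x i) :=
  margY_pos_of_prodLaw (π := flip π) (fun a b => hπ b a) (x := y) (y := x) h i

/-- A resampled family stays in a convex set. -/
lemma resample_mem {M : Type*} [AddCommGroup M] [Module ℝ M] {D : Set M} (hD : Convex ℝ D)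
    (hπ : ∀ x y, 0 ≤ π x y) {F : (J → X) → M} (hF : ∀ u, F u ∈ D) (A : Finset J) (x : J → X) (y : J → Y)
    (hy : ∀ i ∈ A, 0 < margY π (y i)) : resample π A F x y ∈ D :=
  hD.sum_mem (fun u _ => rsKer_nonneg hπ A y x u) (sum_rsKer A y x hy) (fun u _ => hF u)

end Exp

section Side

variable {X Y J 𝒜 ℬ : Type*} [Fintype X] [Fintype Y] [Fintype J] [DecidableEq X] [DecidableEq Y]
  [DecidableEq J] [AddCommGroup 𝒜] [Module ℝ 𝒜] [AddCommGroup ℬ] [Module ℝ ℬ]

/-- The abstract hypotheses for one side of the chain: `DA`, `DB` are convex sets of operators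
(positive contractions), `ω` a bilinear form, `f`, `W` the gauge potential and gauge distance. -/
structure ChainHyp (ω : 𝒜 →ₗ[ℝ] ℬ →ₗ[ℝ] ℝ) (DA : Set 𝒜) (DB : Set ℬ) (ι : Type*) [Fintype ι]
    (f : 𝒜 → 𝒜) (W : 𝒜 → 𝒜 → 𝒜) (f1 e1 e2 : ℝ) : Prop where
  convA : Convex ℝ DA
  convB : Convex ℝ DB
  /-- the summed STAR: `E W(R_t, Rbar) ≤ f(Rbar) - E f(R_t) + e1 + e2 Rbar` tested against `Q`. -/
  star : ∀ (c : ι → ℝ), (∀ t, 0 ≤ c t) → ∑ t, c t = 1 → ∀ R : ι → 𝒜, (∀ t, R t ∈ DA) → ∀ Q ∈ DB,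
      ∑ t, c t * ω (W (R t) (∑ s, c s • R s)) Q
        ≤ ω (f (∑ s, c s • R s)) Q - ∑ t, c t * ω (f (R t)) Q + e1 + e2 * ω (∑ s, c s • R s) Q
  low : ∀ R ∈ DA, ∀ Q ∈ DB, f1 * ω R Q ≤ ω (f R) Q
  high : ∀ R ∈ DA, ∀ Q ∈ DB, ω (f R) Q - f1 * ω R Q ≤ Real.negMulLog (ω R Q)
  nonneg : ∀ R ∈ DA, ∀ Q ∈ DB, 0 ≤ ω R Q

variable {π : X → Y → ℝ} {ω : 𝒜 →ₗ[ℝ] ℬ →ₗ[ℝ] ℝ} {DA : Set 𝒜} {DB : Set ℬ}
  {f : 𝒜 → 𝒜} {W : 𝒜 → 𝒜 → 𝒜} {f1 e1 e2 : ℝ}

/-- The potential `E ω(f(Cond^y_S P), Cond^x_B Q)`. -/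
noncomputable def chainPot (π : X → Y → ℝ) (ω : 𝒜 →ₗ[ℝ] ℬ →ₗ[ℝ] ℝ) (f : 𝒜 → 𝒜)
    (P : (J → X) → 𝒜) (Q : (J → Y) → ℬ) (S B : Finset J) : ℝ :=
  prodExp π fun x y => ω (f (resample π S P x y)) (resample (flip π) B Q y x)

/-- The mass `N = E ω(P x, Q y)`. -/
noncomputable def chainMass (π : X → Y → ℝ) (ω : 𝒜 →ₗ[ℝ] ℬ →ₗ[ℝ] ℝ)
    (P : (J → X) → 𝒜) (Q : (J → Y) → ℬ) : ℝ :=
  prodExp π fun x y => ω (P x) (Q y)

lemma chainMass_eq (hπ : ∀ x y, 0 ≤ π x y) (P : (J → X) → 𝒜) (Q : (J → Y) → ℬ) {A B : Finset J}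
    (hAB : Disjoint A B) :
    prodExp π (fun x y => ω (resample π A P x y) (resample (flip π) B Q y x)) = chainMass π ω P Q :=
  tower hπ ω hAB P Q

/-- One STAR step. -/
lemma chain_step (hπ : ∀ x y, 0 ≤ π x y) (hsum : ∑ x, ∑ y, π x y = 1)
    (H : ChainHyp ω DA DB X f W f1 e1 e2) {P : (J → X) → 𝒜} (hP : ∀ x, P x ∈ DA)
    {Q : (J → Y) → ℬ} (hQ : ∀ y, Q y ∈ DB) {S B : Finset J} {j : J} (hjS : j ∉ S) (hjB : j ∉ B) :
    prodExp π (fun x y => ω (W (resample π S P x y) (resample π (insert j S) P x y))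
        (resample (flip π) B Q y x))
      ≤ chainPot π ω f P Q (insert j S) B - chainPot π ω f P Q S B + e1
        + e2 * prodExp π (fun x y => ω (resample π (insert j S) P x y) (resample (flip π) B Q y x)) := by
  set Rb : (J → X) → (J → Y) → 𝒜 := fun x y => resample π (insert j S) P x y with hRb
  set Rs : (J → X) → (J → Y) → 𝒜 := fun x y => resample π S P x y with hRs
  set Qb : (J → X) → (J → Y) → ℬ := fun x y => resample (flip π) B Q y x with hQb
  -- the nonnegative integrand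
  let G : (J → X) → (J → Y) → ℝ := fun x y =>
    ω (f (Rb x y)) (Qb x y) - ω (f (Rs x y)) (Qb x y) - ω (W (Rs x y) (Rb x y)) (Qb x y)
      + e1 + e2 * ω (Rb x y) (Qb x y)
  have hG : 0 ≤ prodExp π G := by
    rw [← prodExp_resample_one hπ j G]
    have : (0 : ℝ) = prodExp π (fun (_ : J → X) (_ : J → Y) => (0 : ℝ)) := by
      rw [prodExp_const hsum]
    rw [this]
    refine prodExp_mono hπ fun x y hxy => ?_
    have hmy : 0 < margY π (y j) := margY_pos_of_prodLaw hπ hxy j
    have hc0 : ∀ t, 0 ≤ condProb π t (y j) := fun t => condProb_nonneg hπ t _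
    have hc1 : ∑ t, condProb π t (y j) = 1 := sum_condProb hmy
    -- values at the updated points
    have hRbu : ∀ t, Rb (update x j t) y = Rb x y := fun t =>
      resample_update_of_mem (Finset.mem_insert_self j S) P x y t
    have hQbu : ∀ t, Qb (update x j t) y = Qb x y := fun t =>
      resample_update_y_of_notMem hjB Q y x t
    have hRbsum : Rb x y = ∑ t, condProb π t (y j) • Rs (update x j t) y :=
      resample_insert hjS P x y
    have hRmem : ∀ t, Rs (update x j t) y ∈ DA := fun t =>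
      resample_mem H.convA hπ hP S _ y fun i _ => margY_pos_of_prodLaw hπ hxy i
    have hQmem : Qb x y ∈ DB :=
      resample_mem H.convB (fun a b => hπ b a) hQ B y x fun i _ =>
        margY_flip_pos_of_prodLaw hπ hxy i
    have hstar := H.star (fun t => condProb π t (y j)) hc0 hc1 (fun t => Rs (update x j t) y) hRmem
      (Qb x y) hQmem
    rw [← hRbsum] at hstar
    simp only [G, hRbu, hQbu]
    have hexp : ∑ t, condProb π t (y j) * (ω (f (Rb x y)) (Qb x y) - ω (f (Rs (update x j t) y)) (Qb x y)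
          - ω (W (Rs (update x j t) y) (Rb x y)) (Qb x y) + e1 + e2 * ω (Rb x y) (Qb x y))
        = (ω (f (Rb x y)) (Qb x y) + e1 + e2 * ω (Rb x y) (Qb x y)) * ∑ t, condProb π t (y j)
          - ∑ t, condProb π t (y j) * ω (f (Rs (update x j t) y)) (Qb x y)
          - ∑ t, condProb π t (y j) * ω (W (Rs (update x j t) y) (Rb x y)) (Qb x y) := by
      rw [Finset.mul_sum, ← Finset.sum_sub_distrib, ← Finset.sum_sub_distrib]
      refine Finset.sum_congr rfl fun t _ => ?_
      ring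
    rw [hexp, hc1]
    linarith
  -- now linearity
  have hexpand : prodExp π G = chainPot π ω f P Q (insert j S) B - chainPot π ω f P Q S B
      - prodExp π (fun x y => ω (W (Rs x y) (Rb x y)) (Qb x y)) + e1
      + e2 * prodExp π (fun x y => ω (Rb x y) (Qb x y)) := by
    have h1 : G = fun x y => (((fun x y => ω (f (Rb x y)) (Qb x y)) x y - (fun x y => ω (f (Rs x y)) (Qb x y)) x y
        - (fun x y => ω (W (Rs x y) (Rb x y)) (Qb x y)) x y) + (fun (_ : J → X) (_ : J → Y) => e1) x y)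
        + (fun x y => e2 * ω (Rb x y) (Qb x y)) x y := rfl
    rw [h1, prodExp_add, prodExp_add, prodExp_sub, prodExp_sub, prodExp_const hsum, prodExp_const_mul]
    rfl
  rw [hexpand] at hG
  linarith

/-- Integrating out `y j` given `x j` when the first factor does not see it. -/
lemma chain_shift (hπ : ∀ x y, 0 ≤ π x y) (Gf : (J → X) → (J → Y) → 𝒜) {Q : (J → Y) → ℬ} {B : Finset J}
    {j : J} (hjB : j ∉ B) (hG : ∀ x y t, Gf x (update y j t) = Gf x y) :
    prodExp π (fun x y => ω (Gf x y) (resample (flip π) (insert j B) Q y x))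
      = prodExp π (fun x y => ω (Gf x y) (resample (flip π) B Q y x)) := by
  rw [← prodExp_resample_one' hπ j (fun x y => ω (Gf x y) (resample (flip π) B Q y x))]
  congr 1
  funext x y
  rw [resample_insert hjB Q y x]
  simp only [map_sum, map_smul, smul_eq_mul, hG]

/-- The chain theorem along a chain of sets. -/
theorem chain_side (hπ : ∀ x y, 0 ≤ π x y) (hsum : ∑ x, ∑ y, π x y = 1)
    (H : ChainHyp ω DA DB X f W f1 e1 e2) {P : (J → X) → 𝒜} (hP : ∀ x, P x ∈ DA)
    {Q : (J → Y) → ℬ} (hQ : ∀ y, Q y ∈ DB) (S : J → Finset J) (hS : ∀ j, j ∉ S j)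
    (hchain : ∀ Ψ : Finset J → ℝ, ∑ j, (Ψ (insert j (S j)) - Ψ (S j)) = Ψ univ - Ψ ∅) :
    ∑ j, prodExp π (fun x y => ω (W (resample π (S j) P x y) (resample π (insert j (S j)) P x y))
        (resample (flip π) (insert j (S j))ᶜ Q y x))
      ≤ Real.negMulLog (chainMass π ω P Q) + (Fintype.card J : ℝ) * (e1 + e2 * chainMass π ω P Q) := by
  set N := chainMass π ω P Q with hN
  let Ψ : Finset J → ℝ := fun T => chainPot π ω f P Q T Tᶜ
  have hstep : ∀ j, prodExp π (fun x y => ω (W (resample π (S j) P x y) (resample π (insert j (S j)) P x y))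
        (resample (flip π) (insert j (S j))ᶜ Q y x)) ≤ Ψ (insert j (S j)) - Ψ (S j) + (e1 + e2 * N) := by
    intro j
    have hjc : j ∉ (insert j (S j))ᶜ := by simp
    have h1 := chain_step hπ hsum H hP hQ (hS j) hjc
    have hdisj : Disjoint (insert j (S j)) (insert j (S j))ᶜ := disjoint_compl_right
    rw [chainMass_eq hπ P Q hdisj] at h1
    have hins : insert j (insert j (S j))ᶜ = (S j)ᶜ := by
      ext i
      by_cases hij : i = j
      · subst hij
        simp [hS i]
      · simp [hij]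
    have h2 : chainPot π ω f P Q (S j) (insert j (S j))ᶜ = Ψ (S j) := by
      show chainPot π ω f P Q (S j) (insert j (S j))ᶜ = chainPot π ω f P Q (S j) (S j)ᶜ
      unfold chainPot
      rw [← hins]
      refine (chain_shift hπ (fun x y => f (resample π (S j) P x y)) hjc ?_).symm
      intro x y t
      rw [resample_update_y_of_notMem (hS j)]
    rw [h2] at h1
    show _ ≤ chainPot π ω f P Q (insert j (S j)) (insert j (S j))ᶜ - Ψ (S j) + (e1 + e2 * N)
    linarith
  have hsumle := Finset.sum_le_sum fun j (_ : j ∈ (univ : Finset J)) => hstep j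
  have hright : ∑ j : J, (Ψ (insert j (S j)) - Ψ (S j) + (e1 + e2 * N))
      = Ψ univ - Ψ ∅ + (Fintype.card J : ℝ) * (e1 + e2 * N) := by
    rw [Finset.sum_add_distrib, hchain]
    simp [Finset.card_univ]
    ring
  rw [hright] at hsumle
  -- endpoints
  have hlow : (f1 * N) ≤ Ψ ∅ := by
    have : f1 * N = prodExp π (fun x y => f1 * ω (resample π ∅ P x y) (resample (flip π) (∅ : Finset J)ᶜ Q y x)) := by
      rw [prodExp_const_mul, chainMass_eq hπ P Q disjoint_compl_right]
    rw [this]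
    refine prodExp_mono hπ fun x y hxy => ?_
    exact H.low _ (resample_mem H.convA hπ hP _ _ _ fun i _ => margY_pos_of_prodLaw hπ hxy i) _
      (resample_mem H.convB (fun a b => hπ b a) hQ _ _ _ fun i _ => margY_flip_pos_of_prodLaw hπ hxy i)
  have hhigh : Ψ univ ≤ f1 * N + Real.negMulLog N := by
    have hmass : prodExp π (fun x y => ω (resample π univ P x y) (resample (flip π) (univ : Finset J)ᶜ Q y x)) = N :=
      chainMass_eq hπ P Q disjoint_compl_right
    have hJ := prodExp_negMulLog_le hπ hsum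
      (fun x y => ω (resample π univ P x y) (resample (flip π) (univ : Finset J)ᶜ Q y x))
      (fun x y hxy => H.nonneg _
        (resample_mem H.convA hπ hP _ _ _ fun i _ => margY_pos_of_prodLaw hπ hxy i) _
        (resample_mem H.convB (fun a b => hπ b a) hQ _ _ _ fun i _ => margY_flip_pos_of_prodLaw hπ hxy i))
    rw [hmass] at hJ
    have hpt : Ψ univ ≤ prodExp π (fun x y =>
        f1 * ω (resample π univ P x y) (resample (flip π) (univ : Finset J)ᶜ Q y x)
          + Real.negMulLog (ω (resample π univ P x y) (resample (flip π) (univ : Finset J)ᶜ Q y x))) := by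
      refine prodExp_mono hπ fun x y hxy => ?_
      have := H.high _ (resample_mem H.convA hπ hP univ x y fun i _ => margY_pos_of_prodLaw hπ hxy i)
        (resample (flip π) (univ : Finset J)ᶜ Q y x)
        (resample_mem H.convB (fun a b => hπ b a) hQ (univ : Finset J)ᶜ y x fun i _ =>
          margY_flip_pos_of_prodLaw hπ hxy i)
      show ω (f (resample π univ P x y)) (resample (flip π) (univ : Finset J)ᶜ Q y x) ≤ _
      linarith
    rw [prodExp_add, prodExp_const_mul, hmass] at hpt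
    linarith
  linarith

end Side

section Both

variable {X Y 𝒜 ℬ : Type*} [Fintype X] [Fintype Y] [DecidableEq X] [DecidableEq Y]
  [AddCommGroup 𝒜] [Module ℝ 𝒜] [AddCommGroup ℬ] [Module ℝ ℬ] {m : ℕ}

/-- Telescoping along the initial segments of `Fin m`. -/
lemma chain_Iio (Ψ : Finset (Fin m) → ℝ) :
    ∑ j : Fin m, (Ψ (insert j (Finset.Iio j)) - Ψ (Finset.Iio j)) = Ψ univ - Ψ ∅ := by
  let a : ℕ → ℝ := fun i => Ψ (univ.filter fun k : Fin m => k.val < i)
  have h1 : ∀ j : Fin m, insert j (Finset.Iio j) = univ.filter fun k : Fin m => k.val < j.val + 1 := by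
    intro j
    ext k
    simp only [Finset.mem_insert, Finset.mem_Iio, Finset.mem_filter, Finset.mem_univ, true_and]
    have h1 : k = j ↔ k.val = j.val := Fin.ext_iff
    have h2 : k < j ↔ k.val < j.val := Iff.rfl
    omega
  have h2 : ∀ j : Fin m, Finset.Iio j = univ.filter fun k : Fin m => k.val < j.val := by
    intro j
    ext k
    simp only [Finset.mem_Iio, Finset.mem_filter, Finset.mem_univ, true_and]
    exact Iff.rfl
  have h3 : ∀ j : Fin m, Ψ (insert j (Finset.Iio j)) - Ψ (Finset.Iio j) = a (j.val + 1) - a j.val := by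
    intro j
    rw [h1, h2]
  simp_rw [h3]
  rw [Fin.sum_univ_eq_sum_range (fun i => a (i + 1) - a i) m, Finset.sum_range_sub]
  have h4 : a m = Ψ univ := by
    show Ψ _ = _
    congr 1
    ext k
    simp [k.isLt]
  have h5 : a 0 = Ψ ∅ := by
    show Ψ _ = _
    congr 1
    ext k
    simp
  rw [h4, h5]

/-- Telescoping along the final segments of `Fin m`. -/
lemma chain_Ioi (Ψ : Finset (Fin m) → ℝ) :
    ∑ j : Fin m, (Ψ (insert j (Finset.Ioi j)) - Ψ (Finset.Ioi j)) = Ψ univ - Ψ ∅ := by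
  let a : ℕ → ℝ := fun i => Ψ (univ.filter fun k : Fin m => i ≤ k.val)
  have h1 : ∀ j : Fin m, insert j (Finset.Ioi j) = univ.filter fun k : Fin m => j.val ≤ k.val := by
    intro j
    ext k
    simp only [Finset.mem_insert, Finset.mem_Ioi, Finset.mem_filter, Finset.mem_univ, true_and]
    have h1 : k = j ↔ k.val = j.val := Fin.ext_iff
    have h2 : j < k ↔ j.val < k.val := Iff.rfl
    omega
  have h2 : ∀ j : Fin m, Finset.Ioi j = univ.filter fun k : Fin m => j.val + 1 ≤ k.val := by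
    intro j
    ext k
    simp only [Finset.mem_Ioi, Finset.mem_filter, Finset.mem_univ, true_and]
    have h2 : j < k ↔ j.val < k.val := Iff.rfl
    omega
  have h3 : ∀ j : Fin m, Ψ (insert j (Finset.Ioi j)) - Ψ (Finset.Ioi j) = a j.val - a (j.val + 1) := by
    intro j
    rw [h1, h2]
  simp_rw [h3]
  rw [Fin.sum_univ_eq_sum_range (fun i => a i - a (i + 1)) m, Finset.sum_range_sub']
  have h4 : a 0 = Ψ univ := by
    show Ψ _ = _
    congr 1
    ext k
    simp
  have h5 : a m = Ψ ∅ := by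
    show Ψ _ = _
    congr 1
    ext k
    simp [k.isLt]
  rw [h4, h5]

lemma compl_insert_Iio (j : Fin m) : (insert j (Finset.Iio j))ᶜ = Finset.Ioi j := by
  ext k
  simp only [Finset.mem_compl, Finset.mem_insert, Finset.mem_Iio, Finset.mem_Ioi, not_or, not_lt]
  constructor
  · rintro ⟨h1, h2⟩
    exact lt_of_le_of_ne h2 (Ne.symm h1)
  · intro h
    exact ⟨ne_of_gt h, h.le⟩

lemma compl_insert_Ioi (j : Fin m) : (insert j (Finset.Ioi j))ᶜ = Finset.Iio j := by
  ext k
  simp only [Finset.mem_compl, Finset.mem_insert, Finset.mem_Iio, Finset.mem_Ioi, not_or, not_lt]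
  constructor
  · rintro ⟨h1, h2⟩
    exact lt_of_le_of_ne h2 h1
  · intro h
    exact ⟨ne_of_lt h, h.le⟩

variable {π : X → Y → ℝ} {ω : 𝒜 →ₗ[ℝ] ℬ →ₗ[ℝ] ℝ} {DA : Set 𝒜} {DB : Set ℬ}
  {f : 𝒜 → 𝒜} {W : 𝒜 → 𝒜 → 𝒜} {f1 e1 e2 : ℝ}
  {f' : ℬ → ℬ} {W' : ℬ → ℬ → ℬ} {f1' e1' e2' : ℝ}

/-- Alice's side in the fixed order: `Σ_j E ω(W(P_{j-1},P_j), Q_j) ≤ h(N) + m (e1 + e2 N)`, where
`P_j = Cond^y_{≤j} P`, `Q_j = Cond^x_{>j} Q`. -/
theorem chain_alice (hπ : ∀ x y, 0 ≤ π x y) (hsum : ∑ x, ∑ y, π x y = 1)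
    (H : ChainHyp ω DA DB X f W f1 e1 e2) {P : (Fin m → X) → 𝒜} (hP : ∀ x, P x ∈ DA)
    {Q : (Fin m → Y) → ℬ} (hQ : ∀ y, Q y ∈ DB) :
    ∑ j : Fin m, prodExp π (fun x y =>
        ω (W (resample π (Finset.Iio j) P x y) (resample π (insert j (Finset.Iio j)) P x y))
          (resample (flip π) (Finset.Ioi j) Q y x))
      ≤ Real.negMulLog (chainMass π ω P Q) + (m : ℝ) * (e1 + e2 * chainMass π ω P Q) := by
  have := chain_side hπ hsum H hP hQ (fun j => Finset.Iio j) (fun j => by simp) chain_Iio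
  simp only [compl_insert_Iio, Fintype.card_fin] at this
  exact this

/-- Bob's side in the fixed order: `Σ_j E ω(P_{j-1}, W'(Q_j,Q_{j-1})) ≤ h(N) + m (e1' + e2' N)`. -/
theorem chain_bob (hπ : ∀ x y, 0 ≤ π x y) (hsum : ∑ x, ∑ y, π x y = 1)
    (H : ChainHyp ω.flip DB DA Y f' W' f1' e1' e2') {P : (Fin m → X) → 𝒜} (hP : ∀ x, P x ∈ DA)
    {Q : (Fin m → Y) → ℬ} (hQ : ∀ y, Q y ∈ DB) :
    ∑ j : Fin m, prodExp π (fun x y =>
        ω (resample π (Finset.Iio j) P x y)
          (W' (resample (flip π) (Finset.Ioi j) Q y x) (resample (flip π) (insert j (Finset.Ioi j)) Q y x)))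
      ≤ Real.negMulLog (chainMass π ω P Q) + (m : ℝ) * (e1' + e2' * chainMass π ω P Q) := by
  have := chain_side (π := flip π) (fun a b => hπ b a)
    (by rw [Finset.sum_comm]; exact hsum) H hQ hP (fun j => Finset.Ioi j) (fun j => by simp) chain_Ioi
  simp only [compl_insert_Ioi, Fintype.card_fin] at this
  have hmass : chainMass (flip π) ω.flip Q P = chainMass π ω P Q := by
    unfold chainMass
    exact prodExp_flip (π := π) (fun x y => ω (P x) (Q y))
  rw [hmass] at this
  refine le_trans (le_of_eq ?_) this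
  refine Finset.sum_congr rfl fun j _ => ?_
  exact (prodExp_flip (π := π) _).symm

/-- The chain theorem, both sides. -/
theorem chain_sum (hπ : ∀ x y, 0 ≤ π x y) (hsum : ∑ x, ∑ y, π x y = 1)
    (HA : ChainHyp ω DA DB X f W f1 e1 e2) (HB : ChainHyp ω.flip DB DA Y f' W' f1' e1' e2')
    {P : (Fin m → X) → 𝒜} (hP : ∀ x, P x ∈ DA) {Q : (Fin m → Y) → ℬ} (hQ : ∀ y, Q y ∈ DB) :
    ∑ j : Fin m, (prodExp π (fun x y =>
        ω (W (resample π (Finset.Iio j) P x y) (resample π (insert j (Finset.Iio j)) P x y))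
          (resample (flip π) (Finset.Ioi j) Q y x))
      + prodExp π (fun x y =>
        ω (resample π (Finset.Iio j) P x y)
          (W' (resample (flip π) (Finset.Ioi j) Q y x) (resample (flip π) (insert j (Finset.Ioi j)) Q y x))))
      ≤ 2 * Real.negMulLog (chainMass π ω P Q)
        + (m : ℝ) * (e1 + e1' + (e2 + e2') * chainMass π ω P Q) := by
  rw [Finset.sum_add_distrib]
  have h1 := chain_alice hπ hsum HA hP hQ
  have h2 := chain_bob hπ hsum HB hP hQ
  nlinarith [h1, h2]

end Both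

end Crest.Agent.ParRep
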