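import Crest.Prelude.Def_NonlocalGame

/-!
Row 342 glue: any finite registers, unit vector and POVM families (over arbitrary Fintypes, not only
`Fin d`) give a one-play strategy, hence a bound by `v`.
-/

set_option autoImplicit false

open scoped Kronecker ComplexOrder
open Matrix Crest.MathPhysics.NonlocalGame

namespace Crest.Agent.ParRep

variable {α β : Type*} [Fintype α] [Fintype β]

/-- The value `⟨ξ, (E ⊗ F) ξ⟩`, real part. -/
noncomputable def bra (ξ : α × β → ℂ) (E : Matrix α α ℂ) (F : Matrix β β ℂ) : ℝ :=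
  (dotProduct (star ξ) ((E ⊗ₖ F).mulVec ξ)).re

/-- The one-play value of local POVM families on a vector. -/
noncomputable def oneValue (G : Game) (ξ : α × β → ℂ)
    (E : Fin G.nX → Fin G.nA → Matrix α α ℂ) (F : Fin G.nY → Fin G.nB → Matrix β β ℂ) : ℝ :=
  ∑ x, ∑ y, G.prob x y * ∑ a, ∑ b, if G.accept x y a b = true then bra ξ (E x a) (F y b) else 0

theorem bra_reindex {α' β' : Type*} [Fintype α'] [Fintype β']
    (eA : α ≃ α') (eB : β ≃ β') (ξ : α × β → ℂ) (E : Matrix α α ℂ) (F : Matrix β β ℂ) :
    bra (fun i : α' × β' => ξ (eA.symm i.1, eB.symm i.2))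
      (E.submatrix eA.symm eA.symm) (F.submatrix eB.symm eB.symm) = bra ξ E F := by
  unfold bra
  congr 1
  simp only [dotProduct, mulVec, kroneckerMap_apply, Pi.star_apply, submatrix_apply]
  rw [Fintype.sum_equiv (eA.prodCongr eB).symm
    (fun i : α' × β' => star (ξ (eA.symm i.1, eB.symm i.2)) *
      ∑ j : α' × β', E (eA.symm i.1) (eA.symm j.1) * F (eB.symm i.2) (eB.symm j.2) *
        ξ (eA.symm j.1, eB.symm j.2))
    (fun i : α × β => star (ξ i) * ∑ j : α × β, E i.1 j.1 * F i.2 j.2 * ξ j)]
  intro i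
  congr 1
  refine Fintype.sum_equiv (eA.prodCongr eB).symm _ _ ?_
  intro j
  rfl

/-- Any finite registers with a unit vector and POVM families: the value is at most `v`. -/
theorem oneValue_le [DecidableEq α] [DecidableEq β] (G : Game) (v : ℝ)
    (hv : ∀ (dA dB : ℕ) (S : Strategy G 1 dA dB), S.probWinsAtLeast 1 ≤ v)
    (ξ : α × β → ℂ) (hξ : ∑ i, ‖ξ i‖ ^ 2 = 1)
    (E : Fin G.nX → Fin G.nA → Matrix α α ℂ) (F : Fin G.nY → Fin G.nB → Matrix β β ℂ)
    (hEpsd : ∀ x a, (E x a).PosSemidef) (hFpsd : ∀ y b, (F y b).PosSemidef)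
    (hEsum : ∀ x, ∑ a, E x a = 1) (hFsum : ∀ y, ∑ b, F y b = 1) :
    oneValue G ξ E F ≤ v := by
  classical
  let eA := Fintype.equivFin α
  let eB := Fintype.equivFin β
  let uA : (Fin 1 → Fin G.nA) ≃ Fin G.nA := Equiv.funUnique (Fin 1) (Fin G.nA)
  let uB : (Fin 1 → Fin G.nB) ≃ Fin G.nB := Equiv.funUnique (Fin 1) (Fin G.nB)
  let uX : (Fin 1 → Fin G.nX) ≃ Fin G.nX := Equiv.funUnique (Fin 1) (Fin G.nX)
  let uY : (Fin 1 → Fin G.nY) ≃ Fin G.nY := Equiv.funUnique (Fin 1) (Fin G.nY)
  let S : Strategy G 1 (Fintype.card α) (Fintype.card β) :=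
    { ψ := fun i => ξ (eA.symm i.1, eB.symm i.2)
      ψ_norm := by
        rw [← hξ]
        exact Fintype.sum_equiv (eA.prodCongr eB).symm _ _ (fun i => rfl)
      M := fun x a => (E (uX x) (uA a)).submatrix eA.symm eA.symm
      N := fun y b => (F (uY y) (uB b)).submatrix eB.symm eB.symm
      M_posSemidef := fun x a => (hEpsd _ _).submatrix _
      N_posSemidef := fun y b => (hFpsd _ _).submatrix _
      M_sum := fun x => by
        have h : ∑ a, (E (uX x) (uA a)).submatrix eA.symm eA.symm
            = (∑ a, E (uX x) (uA a)).submatrix eA.symm eA.symm := by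
          ext i j; simp [Matrix.sum_apply]
        rw [h, uA.sum_comp (fun a => E (uX x) a), hEsum]
        ext i j; simp [Matrix.one_apply]
      N_sum := fun y => by
        have h : ∑ b, (F (uY y) (uB b)).submatrix eB.symm eB.symm
            = (∑ b, F (uY y) (uB b)).submatrix eB.symm eB.symm := by
          ext i j; simp [Matrix.sum_apply]
        rw [h, uB.sum_comp (fun b => F (uY y) b), hFsum]
        ext i j; simp [Matrix.one_apply] }
  have hS := hv _ _ S
  have key : S.probWinsAtLeast 1 = oneValue G ξ E F := by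
    unfold Strategy.probWinsAtLeast oneValue
    rw [← uX.sum_comp]
    refine Finset.sum_congr rfl fun x _ => ?_
    rw [← uY.sum_comp]
    refine Finset.sum_congr rfl fun y _ => ?_
    have hprod : (∏ i : Fin 1, G.prob (x i) (y i)) = G.prob (uX x) (uY y) := by
      simp [uX, uY, Equiv.funUnique]
    rw [hprod]
    congr 1
    rw [← uA.sum_comp]
    refine Finset.sum_congr rfl fun a _ => ?_
    rw [← uB.sum_comp]
    refine Finset.sum_congr rfl fun b _ => ?_
    have hw : ((1 : ℝ) ≤ (wins G 1 x y a b : ℝ)) ↔ G.accept (uX x) (uY y) (uA a) (uB b) = true := by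
      have h0 : wins G 1 x y a b = if G.accept (x 0) (y 0) (a 0) (b 0) = true then 1 else 0 := by
        unfold wins
        by_cases h : G.accept (x 0) (y 0) (a 0) (b 0) = true
        · rw [if_pos h, Finset.card_eq_one]
          refine ⟨0, ?_⟩
          ext i
          simp [Fin.eq_zero i, h]
        · rw [if_neg h, Finset.card_eq_zero]
          ext i
          simp [Fin.eq_zero i, h]
      have h1 : uX x = x 0 := by simp [uX, Equiv.funUnique]
      have h2 : uY y = y 0 := by simp [uY, Equiv.funUnique]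
      have h3 : uA a = a 0 := by simp [uA, Equiv.funUnique]
      have h4 : uB b = b 0 := by simp [uB, Equiv.funUnique]
      rw [h0, h1, h2, h3, h4]
      by_cases h : G.accept (x 0) (y 0) (a 0) (b 0) = true <;> simp [h]
    by_cases hacc : G.accept (uX x) (uY y) (uA a) (uB b) = true
    · rw [if_pos (hw.2 hacc), if_pos hacc]
      exact bra_reindex eA eB ξ _ _
    · rw [if_neg (fun h => hacc (hw.1 h)), if_neg hacc]
  rw [← key]; exact hS

end Crest.Agent.ParRep
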