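import Crest.Agent.Lib.ParRep.Grid

/-!
# Tangent line (state Jensen) for the resolvent gauge (row 342, finding #1280 (1), endpoint bound)

Scalar grid sum `fS Δ N t = ∑_{i<N} Δ t / (t + (i+1) Δ)` and matrix version
`fM Δ N R = ∑_{i<N} Δ • phi ((i+1) Δ) R`.

Main results:
* `tangent_phi`: `phi s R ≤ φ_s(τ) + φ_s'(τ) (R - τ)` in Loewner order.
* `fS_sub_le`: `fS τ - fS 1 * τ ≤ τ log (1/τ)` for `0 < τ ≤ 1`.
* `functional_fM_le`: for a positive linear functional `ω` with `ω 1 ≤ 1` and `0 ≤ R ≤ 1`,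
  `ω (fM R) - fS 1 * ω R ≤ negMulLog (ω R)`.
* `kronFuncL`, `kronFuncR`: the functionals `A ↦ Re⟨ψ|A ⊗ Q|ψ⟩`, `B ↦ Re⟨ψ|P ⊗ B|ψ⟩`.
-/

set_option linter.unusedSectionVars false
set_option autoImplicit false

open scoped Kronecker ComplexOrder Matrix BigOperators

namespace Crest.Agent.ParRep

variable {n : Type*} [Fintype n] [DecidableEq n]
variable {m : Type*} [Fintype m] [DecidableEq m]

/-- The scalar function `t ↦ t / (t + s)`. -/
noncomputable def phiS (s t : ℝ) : ℝ := t / (t + s)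

/-- Scalar grid sum. -/
noncomputable def fS (Δ : ℝ) (N : ℕ) (t : ℝ) : ℝ :=
  ∑ i ∈ Finset.range N, Δ * phiS (((i : ℝ) + 1) * Δ) t

/-- Matrix grid sum. -/
noncomputable def fM (Δ : ℝ) (N : ℕ) (R : Matrix n n ℂ) : Matrix n n ℂ :=
  ∑ i ∈ Finset.range N, Δ • phi (((i : ℝ) + 1) * Δ) R

/-- The exact identity behind the tangent inequality. -/
lemma tangent_identity {R : Matrix n n ℂ} (hR : R.PosSemidef) {s τ : ℝ} (hs : 0 < s) (hτ : 0 ≤ τ) :
    (phiS s τ) • (1 : Matrix n n ℂ) + (s / (τ + s) ^ 2) • (R - τ • (1 : Matrix n n ℂ)) - phi s R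
      = (s / (τ + s) ^ 2) • ((R - τ • (1 : Matrix n n ℂ)) * res s R * (R - τ • (1 : Matrix n n ℂ))) := by
  have hτs : τ + s ≠ 0 := by positivity
  set X := res s R with hX
  set D := R - τ • (1 : Matrix n n ℂ) with hD
  set u := τ + s with hu
  have h1 : (R + s • (1 : Matrix n n ℂ)) * X = 1 := add_mul_res hR hs
  have h2 : X * (R + s • (1 : Matrix n n ℂ)) = 1 := res_mul_add hR hs
  have e1 : D = (R + s • (1 : Matrix n n ℂ)) - u • (1 : Matrix n n ℂ) := by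
    rw [hD, hu, add_smul]; abel
  have e3 : D * X = 1 - u • X := by
    rw [e1, sub_mul, h1, smul_mul_assoc, one_mul]
  have e4 : X * D = 1 - u • X := by
    rw [e1, mul_sub, h2, Matrix.mul_smul, mul_one]
  have e2 : D * X * D = D - u • (1 : Matrix n n ℂ) + (u ^ 2) • X := by
    rw [e3, sub_mul, one_mul, smul_mul_assoc, e4, smul_sub, smul_smul, sq]
    module
  have c1 : s / u ^ 2 * u = s / u := by field_simp
  have c2 : s / u ^ 2 * u ^ 2 = s := by field_simp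
  have c3 : phiS s τ = 1 - s / u := by
    unfold phiS; rw [← hu]; field_simp; rw [hu]; ring
  have e5 : (s / u ^ 2) • (D - u • (1 : Matrix n n ℂ) + (u ^ 2) • X)
      = (s / u ^ 2) • D - (s / u ^ 2 * u) • (1 : Matrix n n ℂ) + (s / u ^ 2 * u ^ 2) • X := by
    module
  rw [e2, e5, c1, c2, c3]
  unfold phi
  rw [← hX]
  module

/-- Tangent line in Loewner order, as positive semidefiniteness of the difference. -/
theorem tangent_phi {R : Matrix n n ℂ} (hR : R.PosSemidef) {s τ : ℝ} (hs : 0 < s) (hτ : 0 ≤ τ) :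
    ((phiS s τ) • (1 : Matrix n n ℂ) + (s / (τ + s) ^ 2) • (R - τ • (1 : Matrix n n ℂ))
      - phi s R).PosSemidef := by
  rw [tangent_identity hR hs hτ]
  refine Matrix.PosSemidef.smul ?_ (by positivity)
  have hh : (R - τ • (1 : Matrix n n ℂ))ᴴ = R - τ • (1 : Matrix n n ℂ) := by
    rw [Matrix.conjTranspose_sub, hR.isHermitian.eq, Matrix.conjTranspose_smul]
    simp
  have := Matrix.PosSemidef.conjTranspose_mul_mul_same (res_posDef hR hs).posSemidef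
    (R - τ • (1 : Matrix n n ℂ))
  rwa [hh] at this

/-- `phi s R ≤ R / s`. -/
theorem phi_le_div {R : Matrix n n ℂ} (hR : R.PosSemidef) {s : ℝ} (hs : 0 < s) :
    ((1 / s) • R - phi s R).PosSemidef := by
  have := tangent_phi hR hs (le_refl (0 : ℝ))
  have e : (phiS s 0) • (1 : Matrix n n ℂ) + (s / (0 + s) ^ 2) • (R - (0 : ℝ) • (1 : Matrix n n ℂ))
      - phi s R = (1 / s) • R - phi s R := by
    have : s / (0 + s) ^ 2 = 1 / s := by field_simp; ring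
    rw [this]
    simp [phiS]
  rwa [e] at this

/-- The telescoping term of the logarithmic bound. -/
lemma div_sub_div_le_log {a b Δ : ℝ} (ha : 0 < a) (hab : a ≤ b) (hΔ : 0 < Δ) :
    Δ / (a + Δ) - Δ / (b + Δ) ≤ Real.log (b / a) - Real.log ((b + Δ) / (a + Δ)) := by
  have hb : 0 < b := lt_of_lt_of_le ha hab
  have h1 : 0 < b / a := by positivity
  have h2 : 0 < (b + Δ) / (a + Δ) := by positivity
  rw [← Real.log_div h1.ne' h2.ne']
  have hu : 0 < b / a / ((b + Δ) / (a + Δ)) := by positivity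
  refine le_trans ?_ (Real.one_sub_inv_le_log_of_pos hu)
  have e : (b / a / ((b + Δ) / (a + Δ)))⁻¹ = a * (b + Δ) / (b * (a + Δ)) := by
    field_simp
  rw [e]
  have h3 : 1 - a * (b + Δ) / (b * (a + Δ)) = Δ * (b - a) / (b * (a + Δ)) := by
    field_simp; ring
  have h4 : Δ / (a + Δ) - Δ / (b + Δ) = Δ * (b - a) / ((a + Δ) * (b + Δ)) := by
    field_simp; ring
  rw [h3, h4]
  apply div_le_div_of_nonneg_left
  · exact mul_nonneg hΔ.le (sub_nonneg.2 hab)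
  · positivity
  · nlinarith [mul_pos ha hΔ, mul_pos hb hΔ, mul_pos hΔ hΔ]

/-- Scalar endpoint estimate: `f(τ) - f(1) τ ≤ τ log (1/τ)` on `(0, 1]`. -/
theorem fS_sub_le {Δ τ : ℝ} (N : ℕ) (hΔ : 0 < Δ) (hτ0 : 0 < τ) (hτ1 : τ ≤ 1) :
    fS Δ N τ - fS Δ N 1 * τ ≤ τ * Real.log (1 / τ) := by
  set L : ℕ → ℝ := fun i => Real.log ((1 + (i : ℝ) * Δ) / (τ + (i : ℝ) * Δ)) with hL
  have hterm : ∀ i ∈ Finset.range N, Δ * phiS (((i : ℝ) + 1) * Δ) τ
      - Δ * phiS (((i : ℝ) + 1) * Δ) 1 * τ ≤ τ * (L i - L (i + 1)) := by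
    intro i _
    have hi : (0 : ℝ) ≤ (i : ℝ) * Δ := by positivity
    have ha : 0 < τ + (i : ℝ) * Δ := by positivity
    have hab : τ + (i : ℝ) * Δ ≤ 1 + (i : ℝ) * Δ := by linarith
    have key := div_sub_div_le_log ha hab hΔ
    have e1 : L i = Real.log ((1 + (i : ℝ) * Δ) / (τ + (i : ℝ) * Δ)) := rfl
    have e2 : L (i + 1) = Real.log ((1 + (i : ℝ) * Δ + Δ) / (τ + (i : ℝ) * Δ + Δ)) := by
      simp only [hL]
      congr 1
      push_cast
      ring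
    rw [e1, e2]
    have e3 : Δ * phiS (((i : ℝ) + 1) * Δ) τ - Δ * phiS (((i : ℝ) + 1) * Δ) 1 * τ
        = τ * (Δ / (τ + (i : ℝ) * Δ + Δ) - Δ / (1 + (i : ℝ) * Δ + Δ)) := by
      unfold phiS
      have h1 : τ + ((i : ℝ) + 1) * Δ = τ + (i : ℝ) * Δ + Δ := by ring
      have h2 : 1 + ((i : ℝ) + 1) * Δ = 1 + (i : ℝ) * Δ + Δ := by ring
      rw [h1, h2]
      field_simp
    rw [e3]
    exact mul_le_mul_of_nonneg_left key hτ0.le
  have hsum : fS Δ N τ - fS Δ N 1 * τ ≤ ∑ i ∈ Finset.range N, τ * (L i - L (i + 1)) := by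
    unfold fS
    rw [Finset.sum_mul, ← Finset.sum_sub_distrib]
    exact Finset.sum_le_sum hterm
  have htel : ∑ i ∈ Finset.range N, τ * (L i - L (i + 1)) = τ * (L 0 - L N) := by
    rw [← Finset.mul_sum]
    congr 1
    have := Finset.sum_range_sub' L N
    exact this
  have hL0 : L 0 = Real.log (1 / τ) := by simp [hL]
  have hLN : 0 ≤ L N := by
    apply Real.log_nonneg
    have hN : (0 : ℝ) ≤ (N : ℝ) * Δ := by positivity
    rw [le_div_iff₀ (by positivity)]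
    linarith
  calc fS Δ N τ - fS Δ N 1 * τ ≤ τ * (L 0 - L N) := by rw [← htel]; exact hsum
    _ ≤ τ * Real.log (1 / τ) := by
        rw [hL0]
        exact mul_le_mul_of_nonneg_left (by linarith) hτ0.le

section Functional

variable (ω : Matrix n n ℂ →ₗ[ℝ] ℝ) (hω : ∀ A : Matrix n n ℂ, A.PosSemidef → 0 ≤ ω A)
include hω

/-- Tangent line evaluated in a positive functional. -/
lemma functional_phi_le {R : Matrix n n ℂ} (hR : R.PosSemidef) {s τ : ℝ} (hs : 0 < s) (hτ : 0 ≤ τ) :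
    ω (phi s R) ≤ phiS s τ * ω 1 + (s / (τ + s) ^ 2) * (ω R - τ * ω 1) := by
  have h := hω _ (tangent_phi hR hs hτ)
  simp only [map_sub, map_add, map_smul, smul_eq_mul] at h
  linarith

/-- Jensen for a single resolvent. -/
lemma functional_phi_le_mul {R : Matrix n n ℂ} (hR : R.PosSemidef) {s : ℝ} (hs : 0 < s)
    (hρ : 0 < ω 1) :
    ω (phi s R) ≤ ω 1 * phiS s (ω R / ω 1) := by
  have hτ : 0 ≤ ω R / ω 1 := div_nonneg (hω _ hR) hρ.le
  have := functional_phi_le ω hω hR hs hτ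
  have e : ω R - ω R / ω 1 * ω 1 = 0 := by field_simp; ring
  rw [e, mul_zero, add_zero, mul_comm] at this
  exact this

/-- Jensen for the grid sum. -/
lemma functional_fM_le_mul {Δ : ℝ} (N : ℕ) (hΔ : 0 < Δ) {R : Matrix n n ℂ} (hR : R.PosSemidef)
    (hρ : 0 < ω 1) :
    ω (fM Δ N R) ≤ ω 1 * fS Δ N (ω R / ω 1) := by
  unfold fM fS
  rw [map_sum, Finset.mul_sum]
  refine Finset.sum_le_sum (fun i _ => ?_)
  rw [map_smul, smul_eq_mul]
  have hs : 0 < ((i : ℝ) + 1) * Δ := by positivity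
  have := functional_phi_le_mul ω hω hR hs hρ
  calc Δ * ω (phi (((i : ℝ) + 1) * Δ) R) ≤ Δ * (ω 1 * phiS (((i : ℝ) + 1) * Δ) (ω R / ω 1)) :=
        mul_le_mul_of_nonneg_left this hΔ.le
    _ = ω 1 * (Δ * phiS (((i : ℝ) + 1) * Δ) (ω R / ω 1)) := by ring

/-- **Endpoint bound**: for a positive functional `ω` with `ω 1 ≤ 1` and `0 ≤ R ≤ 1`,
`ω (f R) - f(1) ω R ≤ -ω R log (ω R)`. -/
theorem functional_fM_le {Δ : ℝ} (N : ℕ) (hΔ : 0 < Δ) (hρ1 : ω 1 ≤ 1) {R : Matrix n n ℂ}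
    (hR : R.PosSemidef) (hR1 : (1 - R).PosSemidef) :
    ω (fM Δ N R) - fS Δ N 1 * ω R ≤ Real.negMulLog (ω R) := by
  have hN0 : 0 ≤ ω R := hω _ hR
  have hNρ : ω R ≤ ω 1 := by
    have := hω _ hR1
    rw [map_sub] at this
    linarith
  rcases hN0.eq_or_lt with h0 | hpos
  · -- the degenerate case
    have : ω (fM Δ N R) ≤ 0 := by
      unfold fM
      rw [map_sum]
      refine Finset.sum_nonpos (fun i _ => ?_)
      rw [map_smul, smul_eq_mul]
      have hs : 0 < ((i : ℝ) + 1) * Δ := by positivity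
      have h1 := hω _ (phi_le_div hR hs)
      rw [map_sub, map_smul, ← h0, smul_eq_mul, mul_zero] at h1
      have : ω (phi (((i : ℝ) + 1) * Δ) R) ≤ 0 := by linarith
      exact mul_nonpos_of_nonneg_of_nonpos hΔ.le this
    rw [← h0]
    simp [Real.negMulLog]
    exact this
  · have hρ : 0 < ω 1 := lt_of_lt_of_le hpos hNρ
    set τ := ω R / ω 1 with hτ
    have hτ0 : 0 < τ := div_pos hpos hρ
    have hτ1 : τ ≤ 1 := (div_le_one hρ).2 hNρ
    have h1 := functional_fM_le_mul ω hω N hΔ hR hρ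
    rw [← hτ] at h1
    have h2 := fS_sub_le N hΔ hτ0 hτ1
    have hNeq : ω R = ω 1 * τ := by rw [hτ]; field_simp
    have h3 : ω (fM Δ N R) - fS Δ N 1 * ω R ≤ ω 1 * (τ * Real.log (1 / τ)) := by
      have : ω 1 * (fS Δ N τ - fS Δ N 1 * τ) ≤ ω 1 * (τ * Real.log (1 / τ)) :=
        mul_le_mul_of_nonneg_left h2 hρ.le
      have e1 : fS Δ N 1 * ω R = ω 1 * (fS Δ N 1 * τ) := by rw [hNeq]; ring
      have e2 : ω 1 * (fS Δ N τ - fS Δ N 1 * τ) = ω 1 * fS Δ N τ - ω 1 * (fS Δ N 1 * τ) := by ring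
      linarith
    refine le_trans h3 ?_
    have e : ω 1 * (τ * Real.log (1 / τ)) = ω R * Real.log (ω 1 / ω R) := by
      rw [← mul_assoc, mul_comm (ω 1) τ, hτ]
      have : ω R / ω 1 * ω 1 = ω R := by field_simp
      rw [this]
      congr 2
      field_simp
    rw [e, Real.negMulLog, neg_mul, ← mul_neg, ← Real.log_inv]
    apply mul_le_mul_of_nonneg_left _ hpos.le
    apply Real.log_le_log (div_pos hρ hpos)
    rw [div_eq_mul_inv]
    nlinarith [inv_pos.2 hpos]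

end Functional

section Kron

/-- The functional `A ↦ Re⟨ψ|A ⊗ Q|ψ⟩`. -/
noncomputable def kronFuncL (ψ : n × m → ℂ) (Q : Matrix m m ℂ) : Matrix n n ℂ →ₗ[ℝ] ℝ where
  toFun A := (dotProduct (Star.star ψ) ((A ⊗ₖ Q).mulVec ψ)).re
  map_add' A B := by
    rw [Matrix.add_kronecker, Matrix.add_mulVec, dotProduct_add, Complex.add_re]
  map_smul' c A := by
    have : ((c • A) ⊗ₖ Q) = c • (A ⊗ₖ Q) := by
      rw [Matrix.smul_kronecker]
    rw [this, Matrix.smul_mulVec, dotProduct_smul]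
    simp

/-- The functional `B ↦ Re⟨ψ|P ⊗ B|ψ⟩`. -/
noncomputable def kronFuncR (ψ : n × m → ℂ) (P : Matrix n n ℂ) : Matrix m m ℂ →ₗ[ℝ] ℝ where
  toFun B := (dotProduct (Star.star ψ) ((P ⊗ₖ B).mulVec ψ)).re
  map_add' A B := by
    rw [Matrix.kronecker_add, Matrix.add_mulVec, dotProduct_add, Complex.add_re]
  map_smul' c A := by
    have : (P ⊗ₖ (c • A)) = c • (P ⊗ₖ A) := by
      rw [Matrix.kronecker_smul]
    rw [this, Matrix.smul_mulVec, dotProduct_smul]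
    simp

lemma kronFuncL_apply (ψ : n × m → ℂ) (Q : Matrix m m ℂ) (A : Matrix n n ℂ) :
    kronFuncL ψ Q A = (dotProduct (Star.star ψ) ((A ⊗ₖ Q).mulVec ψ)).re := rfl

lemma kronFuncR_apply (ψ : n × m → ℂ) (P : Matrix n n ℂ) (B : Matrix m m ℂ) :
    kronFuncR ψ P B = (dotProduct (Star.star ψ) ((P ⊗ₖ B).mulVec ψ)).re := rfl

lemma kronFuncL_nonneg (ψ : n × m → ℂ) {Q : Matrix m m ℂ} (hQ : Q.PosSemidef)
    (A : Matrix n n ℂ) (hA : A.PosSemidef) : 0 ≤ kronFuncL ψ Q A := by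
  rw [kronFuncL_apply]
  exact (hA.kronecker hQ).re_dotProduct_nonneg ψ

lemma kronFuncR_nonneg (ψ : n × m → ℂ) {P : Matrix n n ℂ} (hP : P.PosSemidef)
    (B : Matrix m m ℂ) (hB : B.PosSemidef) : 0 ≤ kronFuncR ψ P B := by
  rw [kronFuncR_apply]
  exact (hP.kronecker hB).re_dotProduct_nonneg ψ

/-- Expectation of the identity is the squared norm. -/
lemma re_one_kron_one (ψ : n × m → ℂ) :
    (dotProduct (Star.star ψ) (((1 : Matrix n n ℂ) ⊗ₖ (1 : Matrix m m ℂ)).mulVec ψ)).re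
      = ∑ i, ‖ψ i‖ ^ 2 := by
  have e : ((1 : Matrix n n ℂ) ⊗ₖ (1 : Matrix m m ℂ)) = 1 := by
    ext ⟨a, b⟩ ⟨c, d⟩
    simp [Matrix.one_apply, Prod.ext_iff]
    by_cases h1 : a = c <;> by_cases h2 : b = d <;> simp [h1, h2]
  rw [e, Matrix.one_mulVec]
  simp only [dotProduct, Pi.star_apply, Complex.re_sum]
  refine Finset.sum_congr rfl (fun i _ => ?_)
  rw [RCLike.star_def, mul_comm, Complex.mul_conj, Complex.normSq_eq_norm_sq]
  exact_mod_cast Complex.ofReal_re _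

lemma kron_sub_right (A : Matrix n n ℂ) (B C : Matrix m m ℂ) :
    A ⊗ₖ (B - C) = A ⊗ₖ B - A ⊗ₖ C := by
  ext ⟨a, b⟩ ⟨c, d⟩
  simp [mul_sub]

lemma kron_sub_left (A B : Matrix n n ℂ) (C : Matrix m m ℂ) :
    (A - B) ⊗ₖ C = A ⊗ₖ C - B ⊗ₖ C := by
  ext ⟨a, b⟩ ⟨c, d⟩
  simp [sub_mul]

lemma kronFuncL_one_le (ψ : n × m → ℂ) (hψ : ∑ i, ‖ψ i‖ ^ 2 = 1) {Q : Matrix m m ℂ}
    (hQ1 : (1 - Q).PosSemidef) : kronFuncL ψ Q 1 ≤ 1 := by
  have h := ((Matrix.PosSemidef.one (n := n) (R := ℂ)).kronecker hQ1).re_dotProduct_nonneg ψ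
  rw [kron_sub_right, Matrix.sub_mulVec, dotProduct_sub, map_sub] at h
  rw [kronFuncL_apply]
  have h1 := re_one_kron_one ψ
  rw [hψ] at h1
  simp only [RCLike.re_to_complex] at h
  linarith

lemma kronFuncR_one_le (ψ : n × m → ℂ) (hψ : ∑ i, ‖ψ i‖ ^ 2 = 1) {P : Matrix n n ℂ}
    (hP1 : (1 - P).PosSemidef) : kronFuncR ψ P 1 ≤ 1 := by
  have h := (hP1.kronecker (Matrix.PosSemidef.one (n := m) (R := ℂ))).re_dotProduct_nonneg ψ
  rw [kron_sub_left, Matrix.sub_mulVec, dotProduct_sub, map_sub] at h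
  rw [kronFuncR_apply]
  have h1 := re_one_kron_one ψ
  rw [hψ] at h1
  simp only [RCLike.re_to_complex] at h
  linarith

end Kron

section Bridge

lemma ff_eq_fM (D : ℝ) (N : ℕ) (R : Matrix n n ℂ) : ff D N R = fM D N R := by
  unfold ff fM gridPt
  exact Fin.sum_univ_eq_sum_range (fun i : ℕ => D • phi (((i : ℝ) + 1) * D) R) N

lemma ffS_eq_fS (D : ℝ) (N : ℕ) (t : ℝ) : ffS D N t = fS D N t := by
  unfold ffS fS gridPt phiS
  exact Fin.sum_univ_eq_sum_range (fun i : ℕ => D * (t / (t + ((i : ℝ) + 1) * D))) N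

/-- **Endpoint bound** with `Grid.lean`'s names. -/
theorem functional_ff_le (ω : Matrix n n ℂ →ₗ[ℝ] ℝ) (hω : ∀ A : Matrix n n ℂ, A.PosSemidef → 0 ≤ ω A)
    {D : ℝ} (N : ℕ) (hD : 0 < D) (hρ1 : ω 1 ≤ 1) {R : Matrix n n ℂ}
    (hR : R.PosSemidef) (hR1 : (1 - R).PosSemidef) :
    ω (ff D N R) - ffS D N 1 * ω R ≤ Real.negMulLog (ω R) := by
  rw [ff_eq_fM, ffS_eq_fS]
  exact functional_fM_le ω hω N hD hρ1 hR hR1

/-- Endpoint bound for `A ↦ Re⟨ψ|A ⊗ Q|ψ⟩`: for unit `ψ`, `0 ≤ Q ≤ 1`, `0 ≤ R ≤ 1`. -/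
theorem kron_ff_le_left (ψ : n × m → ℂ) (hψ : ∑ i, ‖ψ i‖ ^ 2 = 1) {Q : Matrix m m ℂ}
    (hQ : Q.PosSemidef) (hQ1 : (1 - Q).PosSemidef) {D : ℝ} (N : ℕ) (hD : 0 < D)
    {R : Matrix n n ℂ} (hR : R.PosSemidef) (hR1 : (1 - R).PosSemidef) :
    kronFuncL ψ Q (ff D N R) - ffS D N 1 * kronFuncL ψ Q R ≤ Real.negMulLog (kronFuncL ψ Q R) :=
  functional_ff_le _ (kronFuncL_nonneg ψ hQ) N hD (kronFuncL_one_le ψ hψ hQ1) hR hR1

/-- Endpoint bound for `B ↦ Re⟨ψ|P ⊗ B|ψ⟩`. -/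
theorem kron_ff_le_right (ψ : n × m → ℂ) (hψ : ∑ i, ‖ψ i‖ ^ 2 = 1) {P : Matrix n n ℂ}
    (hP : P.PosSemidef) (hP1 : (1 - P).PosSemidef) {D : ℝ} (N : ℕ) (hD : 0 < D)
    {R : Matrix m m ℂ} (hR : R.PosSemidef) (hR1 : (1 - R).PosSemidef) :
    kronFuncR ψ P (ff D N R) - ffS D N 1 * kronFuncR ψ P R ≤ Real.negMulLog (kronFuncR ψ P R) :=
  functional_ff_le _ (kronFuncR_nonneg ψ hP) N hD (kronFuncR_one_le ψ hψ hP1) hR hR1

end Bridge

end Crest.Agent.ParRep
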