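/-
Row 342 (S0536, S0537), module ChainMat: the chain theorem for matrices:
`ω A B = Re ⟨ψ| A ⊗ B |ψ⟩`, `DA`, `DB` the positive contractions, `f = ff D N`, `W = WW D N`.
-/
import Crest.Agent.Lib.ParRep.Chain
import Crest.Agent.Lib.ParRep.Tangent
import Crest.Agent.Lib.ParRep.OnePlay

set_option linter.unusedSectionVars false
set_option linter.unusedVariables false

open scoped Kronecker ComplexOrder Matrix BigOperators

namespace Crest.Agent.ParRep

variable {n m : Type*} [Fintype n] [Fintype m] [DecidableEq n] [DecidableEq m]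

/-- The bilinear form `(A, B) ↦ Re ⟨ψ| A ⊗ B |ψ⟩`. -/
noncomputable def braL (ψ : n × m → ℂ) : Matrix n n ℂ →ₗ[ℝ] Matrix m m ℂ →ₗ[ℝ] ℝ :=
  LinearMap.mk₂ ℝ (fun A B => bra ψ A B)
    (fun A A' B => (kronFuncL ψ B).map_add A A')
    (fun c A B => (kronFuncL ψ B).map_smul c A)
    (fun A B B' => (kronFuncR ψ A).map_add B B')
    (fun c A B => (kronFuncR ψ A).map_smul c B)

lemma braL_apply (ψ : n × m → ℂ) (A : Matrix n n ℂ) (B : Matrix m m ℂ) :
    braL ψ A B = bra ψ A B := rfl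

lemma braL_eq_left (ψ : n × m → ℂ) (A : Matrix n n ℂ) (B : Matrix m m ℂ) :
    braL ψ A B = kronFuncL ψ B A := rfl

lemma braL_eq_right (ψ : n × m → ℂ) (A : Matrix n n ℂ) (B : Matrix m m ℂ) :
    braL ψ A B = kronFuncR ψ A B := rfl

/-- The positive contractions. -/
def contr (n : Type*) [Fintype n] [DecidableEq n] : Set (Matrix n n ℂ) :=
  {R | R.PosSemidef ∧ (1 - R).PosSemidef}

lemma convex_contr : Convex ℝ (contr n) := by
  intro R hR R' hR' a b ha hb hab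
  refine ⟨(hR.1.smul ha).add (hR'.1.smul hb), ?_⟩
  have e : (1 : Matrix n n ℂ) - (a • R + b • R') = a • (1 - R) + b • (1 - R') := by
    have : (1 : Matrix n n ℂ) = a • (1 : Matrix n n ℂ) + b • (1 : Matrix n n ℂ) := by
      rw [← add_smul, hab, one_smul]
    nth_rewrite 1 [this]
    simp only [smul_sub]
    abel
  rw [e]
  exact (hR.2.smul ha).add (hR'.2.smul hb)

/-- The STAR bound tested on a positive functional. -/
lemma star_functional {ι : Type*} [Fintype ι] (L : Matrix n n ℂ →ₗ[ℝ] ℝ)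
    (hL : ∀ A : Matrix n n ℂ, A.PosSemidef → 0 ≤ L A) (hL1 : L 1 ≤ 1) {D : ℝ} (hD : 0 < D) (N : ℕ)
    (c : ι → ℝ) (hc0 : ∀ t, 0 ≤ c t) (hc1 : ∑ t, c t = 1) (R : ι → Matrix n n ℂ)
    (hR : ∀ t, R t ∈ contr n) :
    ∑ t, c t * L (WW D N (R t) (∑ s, c s • R s))
      ≤ L (ff D N (∑ s, c s • R s)) - ∑ t, c t * L (ff D N (R t)) + 4 * D
        + (4 * (((N : ℝ) + 1) * D)⁻¹) * L (∑ s, c s • R s) := by
  have hB : (∑ s, c s • R s) ∈ contr n :=
    convex_contr.sum_mem (fun t _ => hc0 t) hc1 (fun t _ => hR t)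
  have h := one_step hc0 hc1 (fun t => (hR t).1) (fun t => (hR t).2) hB.1 hB.2 rfl hD N
  have h2 := hL _ h
  simp only [map_sub, map_add, map_sum, map_smul, smul_eq_mul] at h2
  have h3 : (4 * D) * L 1 ≤ 4 * D := by nlinarith
  have e : L (∑ s, c s • R s) = ∑ x, c x * L (R x) := by
    simp only [map_sum, map_smul, smul_eq_mul]
  rw [e]
  linarith

/-- The hypotheses of the chain for Alice. -/
theorem chainHyp_alice (ψ : n × m → ℂ) (hψ : ∑ i, ‖ψ i‖ ^ 2 = 1) {D : ℝ} (hD : 0 < D) (N : ℕ)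
    (ι : Type*) [Fintype ι] :
    ChainHyp (braL ψ) (contr n) (contr m) ι (ff D N) (WW D N) (ffS D N 1) (4 * D)
      (4 * (((N : ℝ) + 1) * D)⁻¹) where
  convA := convex_contr
  convB := convex_contr
  star := fun c hc0 hc1 R hR Q hQ =>
    star_functional (kronFuncL ψ Q) (kronFuncL_nonneg ψ hQ.1) (kronFuncL_one_le ψ hψ hQ.2) hD N c hc0
      hc1 R hR
  low := fun R hR Q hQ => by
    have h := kronFuncL_nonneg ψ hQ.1 _ (ff_ge hD N hR.1 hR.2)
    simp only [map_sub, map_smul, smul_eq_mul] at h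
    rw [braL_eq_left, braL_eq_left]
    linarith
  high := fun R hR Q hQ => kron_ff_le_left ψ hψ hQ.1 hQ.2 N hD hR.1 hR.2
  nonneg := fun R hR Q hQ => kronFuncL_nonneg ψ hQ.1 R hR.1

/-- The hypotheses of the chain for Bob. -/
theorem chainHyp_bob (ψ : n × m → ℂ) (hψ : ∑ i, ‖ψ i‖ ^ 2 = 1) {D : ℝ} (hD : 0 < D) (N : ℕ)
    (ι : Type*) [Fintype ι] :
    ChainHyp (braL ψ).flip (contr m) (contr n) ι (ff D N) (WW D N) (ffS D N 1) (4 * D)
      (4 * (((N : ℝ) + 1) * D)⁻¹) where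
  convA := convex_contr
  convB := convex_contr
  star := fun c hc0 hc1 R hR Q hQ =>
    star_functional (kronFuncR ψ Q) (kronFuncR_nonneg ψ hQ.1) (kronFuncR_one_le ψ hψ hQ.2) hD N c hc0
      hc1 R hR
  low := fun R hR Q hQ => by
    have h := kronFuncR_nonneg ψ hQ.1 _ (ff_ge hD N hR.1 hR.2)
    simp only [map_sub, map_smul, smul_eq_mul] at h
    simp only [LinearMap.flip_apply]
    rw [braL_eq_right, braL_eq_right]
    linarith
  high := fun R hR Q hQ => kron_ff_le_right ψ hψ hQ.1 hQ.2 N hD hR.1 hR.2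
  nonneg := fun R hR Q hQ => kronFuncR_nonneg ψ hQ.1 R hR.1

section Main

variable {X Y : Type*} [Fintype X] [Fintype Y] [DecidableEq X] [DecidableEq Y] {k : ℕ}
  {π : X → Y → ℝ}

/-- **The chain theorem for matrices**, fixed order. `P_{j-1} = Cond^y_{<j} P`, `P_j = Cond^y_{≤j} P`,
`Q_j = Cond^x_{>j} Q`, `Q_{j-1} = Cond^x_{≥j} Q`. With `N = E Re⟨ψ|P x ⊗ Q y|ψ⟩`:
`Σ_j (E⟨W(P_{j-1},P_j) ⊗ Q_j⟩ + E⟨P_{j-1} ⊗ W(Q_j,Q_{j-1})⟩)
  ≤ 2 h(N) + k (8 Δ + (8 / ((n+1)Δ)) N)`. -/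
theorem chain_matrix (hπ : ∀ x y, 0 ≤ π x y) (hsum : ∑ x, ∑ y, π x y = 1)
    (ψ : n × m → ℂ) (hψ : ∑ i, ‖ψ i‖ ^ 2 = 1) {D : ℝ} (hD : 0 < D) (N : ℕ)
    {P : (Fin k → X) → Matrix n n ℂ} (hP : ∀ x, P x ∈ contr n)
    {Q : (Fin k → Y) → Matrix m m ℂ} (hQ : ∀ y, Q y ∈ contr m) :
    ∑ j : Fin k, (prodExp π (fun x y =>
        bra ψ (WW D N (resample π (Finset.Iio j) P x y) (resample π (insert j (Finset.Iio j)) P x y))
          (resample (flip π) (Finset.Ioi j) Q y x))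
      + prodExp π (fun x y =>
        bra ψ (resample π (Finset.Iio j) P x y)
          (WW D N (resample (flip π) (Finset.Ioi j) Q y x)
            (resample (flip π) (insert j (Finset.Ioi j)) Q y x))))
      ≤ 2 * Real.negMulLog (chainMass π (braL ψ) P Q)
        + (k : ℝ) * (4 * D + 4 * D + (4 * (((N : ℝ) + 1) * D)⁻¹ + 4 * (((N : ℝ) + 1) * D)⁻¹)
            * chainMass π (braL ψ) P Q) :=
  chain_sum hπ hsum (chainHyp_alice ψ hψ hD N X) (chainHyp_bob ψ hψ hD N Y) hP hQ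

end Main

end Crest.Agent.ParRep
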