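import Crest.Agent.Lib.ParRep.Rect

/-!
Row 342: from `StepBound` to a bound on the probability of winning one more coordinate, for a strategy
for `k` repetitions: conditioning on the questions and answers of a set `T` of coordinates, the
entropy estimate and Jensen.
-/

set_option autoImplicit false

open scoped Kronecker ComplexOrder
open Matrix Crest.MathPhysics.NonlocalGame

namespace Crest.Agent.ParRep

/-! ### bra: linearity and positivity -/

section Bra
variable {α β : Type*} [Fintype α] [Fintype β]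

theorem bra_nonneg (ξ : α × β → ℂ) {E : Matrix α α ℂ} {F : Matrix β β ℂ}
    (hE : E.PosSemidef) (hF : F.PosSemidef) : 0 ≤ bra ξ E F := by
  classical
  have h := (hE.kronecker hF).dotProduct_mulVec_nonneg ξ
  exact (Complex.le_def.mp h).1

theorem bra_add_left (ξ : α × β → ℂ) (E E' : Matrix α α ℂ) (F : Matrix β β ℂ) :
    bra ξ (E + E') F = bra ξ E F + bra ξ E' F := by
  unfold bra
  rw [add_kronecker, add_mulVec, dotProduct_add, Complex.add_re]

theorem bra_add_right (ξ : α × β → ℂ) (E : Matrix α α ℂ) (F F' : Matrix β β ℂ) :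
    bra ξ E (F + F') = bra ξ E F + bra ξ E F' := by
  unfold bra
  rw [kronecker_add, add_mulVec, dotProduct_add, Complex.add_re]

theorem bra_zero_left (ξ : α × β → ℂ) (F : Matrix β β ℂ) : bra ξ 0 F = 0 := by
  unfold bra
  simp

theorem bra_zero_right (ξ : α × β → ℂ) (E : Matrix α α ℂ) : bra ξ E 0 = 0 := by
  unfold bra
  simp

theorem bra_sum_left {ι : Type*} (s : Finset ι) (ξ : α × β → ℂ) (E : ι → Matrix α α ℂ)
    (F : Matrix β β ℂ) : bra ξ (∑ i ∈ s, E i) F = ∑ i ∈ s, bra ξ (E i) F := by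
  classical
  induction s using Finset.induction_on with
  | empty => simp [bra_zero_left]
  | insert a s ha ih => rw [Finset.sum_insert ha, Finset.sum_insert ha, bra_add_left, ih]

theorem bra_sum_right {ι : Type*} (s : Finset ι) (ξ : α × β → ℂ) (E : Matrix α α ℂ)
    (F : ι → Matrix β β ℂ) : bra ξ E (∑ i ∈ s, F i) = ∑ i ∈ s, bra ξ E (F i) := by
  classical
  induction s using Finset.induction_on with
  | empty => simp [bra_zero_right]
  | insert a s ha ih => rw [Finset.sum_insert ha, Finset.sum_insert ha, bra_add_right, ih]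

theorem bra_one_one [DecidableEq α] [DecidableEq β] (ξ : α × β → ℂ)
    (hξ : ∑ i, ‖ξ i‖ ^ 2 = 1) : bra ξ (1 : Matrix α α ℂ) (1 : Matrix β β ℂ) = 1 := by
  unfold bra
  have h1 : ((1 : Matrix α α ℂ) ⊗ₖ (1 : Matrix β β ℂ)) = 1 := one_kronecker_one
  rw [h1, one_mulVec]
  have h2 : dotProduct (star ξ) ξ = ((∑ i, ‖ξ i‖ ^ 2 : ℝ) : ℂ) := by
    simp only [dotProduct, Pi.star_apply, Complex.ofReal_sum]
    refine Finset.sum_congr rfl fun i _ => ?_
    rw [Complex.star_def, mul_comm, Complex.mul_conj, Complex.normSq_eq_norm_sq]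
  rw [h2, hξ]
  simp

theorem bra_le_of_sub_left {ξ : α × β → ℂ} {E E' : Matrix α α ℂ} {F : Matrix β β ℂ}
    (hE : (E' - E).PosSemidef) (hF : F.PosSemidef) : bra ξ E F ≤ bra ξ E' F := by
  have h := bra_nonneg ξ hE hF
  have h2 : bra ξ E' F = bra ξ E F + bra ξ (E' - E) F := by
    rw [← bra_add_left, add_sub_cancel]
  linarith

theorem bra_le_of_sub_right {ξ : α × β → ℂ} {E : Matrix α α ℂ} {F F' : Matrix β β ℂ}
    (hE : E.PosSemidef) (hF : (F' - F).PosSemidef) : bra ξ E F ≤ bra ξ E F' := by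
  have h := bra_nonneg ξ hE hF
  have h2 : bra ξ E F' = bra ξ E F + bra ξ E (F' - F) := by
    rw [← bra_add_right, add_sub_cancel]
  linarith

end Bra

/-! ### Facts about rectangles -/

section RectFacts
variable {G : Game} {m dA dB : ℕ}

theorem prod_prob_nonneg (G : Game) {ι : Type*} [Fintype ι]
    (x : ι → Fin G.nX) (y : ι → Fin G.nY) : 0 ≤ ∏ i, G.prob (x i) (y i) :=
  Finset.prod_nonneg fun i _ => G.prob_nonneg _ _

/-- The product question law has total mass one. -/
theorem sum_prod_prob (G : Game) {ι : Type*} [Fintype ι] [DecidableEq ι] :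
    ∑ x : ι → Fin G.nX, ∑ y : ι → Fin G.nY, ∏ i, G.prob (x i) (y i) = 1 := by
  have h : ∑ z : ι → Fin G.nX × Fin G.nY, ∏ i, G.prob (z i).1 (z i).2 = 1 := by
    have := (Finset.prod_univ_sum (fun _ : ι => (Finset.univ : Finset (Fin G.nX × Fin G.nY)))
      (fun _ z => G.prob z.1 z.2)).symm
    rw [Fintype.piFinset_univ] at this
    rw [this]
    have h1 : ∑ z : Fin G.nX × Fin G.nY, G.prob z.1 z.2 = 1 := by
      rw [Fintype.sum_prod_type]; exact G.prob_sum
    simp [h1]
  rw [← h, ← Fintype.sum_prod_type']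
  refine Fintype.sum_equiv (Equiv.arrowProdEquivProdArrow ι _ _).symm _ _ ?_
  intro z
  rfl

theorem Rect.mass_nonneg (R : Rect G m dA dB) (x y a b) : 0 ≤ R.mass x y a b :=
  bra_nonneg _ (R.P_psd x a) (R.Q_psd y b)

theorem Rect.sum_mass_le_one (R : Rect G m dA dB) (x y) : ∑ a, ∑ b, R.mass x y a b ≤ 1 := by
  have h1 : ∑ a, ∑ b, R.mass x y a b = bra R.ψ (∑ a, R.P x a) (∑ b, R.Q y b) := by
    unfold Rect.mass
    rw [bra_sum_left]
    refine Finset.sum_congr rfl fun a _ => ?_
    rw [bra_sum_right]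
  have hPsum : (∑ a, R.P x a).PosSemidef := Matrix.posSemidef_sum _ fun a _ => R.P_psd x a
  have hQsum : (∑ b, R.Q y b).PosSemidef := Matrix.posSemidef_sum _ fun b _ => R.Q_psd y b
  rw [h1]
  calc bra R.ψ (∑ a, R.P x a) (∑ b, R.Q y b)
      ≤ bra R.ψ (∑ a, R.P x a) 1 := bra_le_of_sub_right hPsum (R.Q_le y)
    _ ≤ bra R.ψ 1 1 := bra_le_of_sub_left (R.P_le x) Matrix.PosSemidef.one
    _ = 1 := bra_one_one _ R.ψ_norm

theorem Rect.N_nonneg (R : Rect G m dA dB) : 0 ≤ R.N :=
  Finset.sum_nonneg fun x _ => Finset.sum_nonneg fun y _ =>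
    mul_nonneg (prod_prob_nonneg G x y) (Finset.sum_nonneg fun a _ =>
      Finset.sum_nonneg fun b _ => R.mass_nonneg x y a b)

theorem Rect.N_le_one (R : Rect G m dA dB) : R.N ≤ 1 := by
  have h : R.N ≤ ∑ x : Fin m → Fin G.nX, ∑ y : Fin m → Fin G.nY, ∏ i, G.prob (x i) (y i) := by
    refine Finset.sum_le_sum fun x _ => Finset.sum_le_sum fun y _ => ?_
    have := mul_le_mul_of_nonneg_left (R.sum_mass_le_one x y) (prod_prob_nonneg G x y)
    simpa using this
  rwa [sum_prod_prob] at h

theorem Rect.Win_nonneg (R : Rect G m dA dB) (j) : 0 ≤ R.Win j :=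
  Finset.sum_nonneg fun x _ => Finset.sum_nonneg fun y _ =>
    mul_nonneg (prod_prob_nonneg G x y) (Finset.sum_nonneg fun a _ =>
      Finset.sum_nonneg fun b _ => by
        split_ifs
        · exact R.mass_nonneg x y a b
        · exact le_rfl)

theorem Rect.Win_le_N (R : Rect G m dA dB) (j) : R.Win j ≤ R.N := by
  refine Finset.sum_le_sum fun x _ => Finset.sum_le_sum fun y _ => ?_
  refine mul_le_mul_of_nonneg_left ?_ (prod_prob_nonneg G x y)
  refine Finset.sum_le_sum fun a _ => Finset.sum_le_sum fun b _ => ?_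
  split_ifs
  · exact le_rfl
  · exact R.mass_nonneg x y a b

end RectFacts

/-! ### The abstract real estimate -/

section Abstract

/-- Gibbs-type estimate. -/
theorem entropy_bound {Θ : Type*} [Fintype Θ] (c N : Θ → ℝ) (hc : ∀ τ, 0 ≤ c τ) (hN : ∀ τ, 0 ≤ N τ)
    {p : ℝ} (hp : 0 < p) (hpsum : ∑ τ, c τ * N τ = p) {C : ℝ} (hC : 0 < C) (hcC : ∑ τ, c τ ≤ C) :
    ∑ τ, (c τ * N τ / p) * Real.log (1 / N τ) ≤ Real.log (1 / p) + Real.log C := by
  have key : ∀ τ, (c τ * N τ / p) * Real.log (1 / N τ)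
      ≤ (c τ * N τ / p) * (Real.log (1 / p) + Real.log C) + (c τ / C - c τ * N τ / p) := by
    intro τ
    by_cases hw : c τ * N τ = 0
    · have : 0 ≤ c τ / C := div_nonneg (hc τ) hC.le
      simp [hw, this]
    · have hcpos : 0 < c τ := lt_of_le_of_ne (hc τ) (fun h => hw (by rw [← h]; ring))
      have hNpos : 0 < N τ := lt_of_le_of_ne (hN τ) (fun h => hw (by rw [← h]; ring))
      set w := c τ * N τ / p with hwdef
      have hwpos : 0 < w := by positivity
      have h1 : Real.log (1 / N τ) = Real.log (1 / p) + Real.log C + Real.log (c τ / (w * C)) := by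
        have e : 1 / N τ = (1 / p) * C * (c τ / (w * C)) := by
          rw [hwdef]; field_simp
        rw [e, Real.log_mul (by positivity) (by positivity), Real.log_mul (by positivity) hC.ne']
      have h2 : Real.log (c τ / (w * C)) ≤ c τ / (w * C) - 1 :=
        Real.log_le_sub_one_of_pos (by positivity)
      rw [h1]
      have h3 : w * (c τ / (w * C) - 1) = c τ / C - w := by
        field_simp
      nlinarith [mul_le_mul_of_nonneg_left h2 hwpos.le]
  have hsum : ∑ τ, (c τ * N τ / p) = 1 := by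
    rw [← Finset.sum_div, hpsum, div_self hp.ne']
  calc ∑ τ, (c τ * N τ / p) * Real.log (1 / N τ)
      ≤ ∑ τ, ((c τ * N τ / p) * (Real.log (1 / p) + Real.log C) + (c τ / C - c τ * N τ / p)) :=
        Finset.sum_le_sum fun τ _ => key τ
    _ = (Real.log (1 / p) + Real.log C) + ((∑ τ, c τ) / C - 1) := by
        rw [Finset.sum_add_distrib, ← Finset.sum_mul, hsum, one_mul, Finset.sum_sub_distrib, hsum,
          Finset.sum_div]
    _ ≤ Real.log (1 / p) + Real.log C := by
        have : (∑ τ, c τ) / C ≤ 1 := (div_le_one hC).2 hcC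
        linarith

/-- The abstract step: Jensen and the entropy bound. -/
theorem step_abstract {Θ : Type*} [Fintype Θ] (c N D : Θ → ℝ) (hc : ∀ τ, 0 ≤ c τ) (hN0 : ∀ τ, 0 ≤ N τ)
    (hN1 : ∀ τ, N τ ≤ 1) (φ : ℝ → ℝ) (hφc : ConcaveOn ℝ (Set.Ici 0) φ) (hφm : MonotoneOn φ (Set.Ici 0))
    (M v : ℝ) (hM : 0 ≤ M) (hD : ∀ τ, D τ ≤ M * N τ * (v + φ (Real.log (1 / N τ))))
    {p : ℝ} (hp : 0 < p) (hpsum : ∑ τ, c τ * N τ = p) {C : ℝ} (hcC : ∑ τ, c τ ≤ C) :
    ∑ τ, c τ * D τ ≤ M * p * (v + φ (Real.log (1 / p) + Real.log C)) := by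
  have hC : 0 < C := by
    have h1 : ∑ τ, c τ * N τ ≤ ∑ τ, c τ := Finset.sum_le_sum fun τ _ => by
      have := mul_le_mul_of_nonneg_left (hN1 τ) (hc τ)
      simpa using this
    linarith
  have hu : ∀ τ, Real.log (1 / N τ) ∈ Set.Ici (0 : ℝ) := by
    intro τ
    rw [Set.mem_Ici, one_div, Real.log_inv]
    have := Real.log_nonpos (hN0 τ) (hN1 τ)
    linarith
  have hent := entropy_bound c N hc hN0 hp hpsum hC hcC
  set w : Θ → ℝ := fun τ => c τ * N τ / p with hw
  have hw0 : ∀ τ, 0 ≤ w τ := fun τ => div_nonneg (mul_nonneg (hc τ) (hN0 τ)) hp.le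
  have hw1 : ∑ τ, w τ = 1 := by
    simp only [hw]
    rw [← Finset.sum_div, hpsum, div_self hp.ne']
  have hmean0 : 0 ≤ ∑ τ, w τ * Real.log (1 / N τ) :=
    Finset.sum_nonneg fun τ _ => mul_nonneg (hw0 τ) (hu τ)
  have hlog : 0 ≤ Real.log (1 / p) + Real.log C := le_trans hmean0 hent
  have hJ : ∑ τ, w τ * φ (Real.log (1 / N τ)) ≤ φ (∑ τ, w τ * Real.log (1 / N τ)) := by
    have := hφc.le_map_sum (t := Finset.univ) (w := w) (p := fun τ => Real.log (1 / N τ))
      (fun τ _ => hw0 τ) hw1 (fun τ _ => hu τ)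
    simpa [smul_eq_mul] using this
  have hmono : φ (∑ τ, w τ * Real.log (1 / N τ)) ≤ φ (Real.log (1 / p) + Real.log C) :=
    hφm hmean0 hlog hent
  have h1 : ∑ τ, c τ * D τ ≤ ∑ τ, c τ * (M * N τ * (v + φ (Real.log (1 / N τ)))) :=
    Finset.sum_le_sum fun τ _ => mul_le_mul_of_nonneg_left (hD τ) (hc τ)
  have h2 : ∑ τ, c τ * (M * N τ * (v + φ (Real.log (1 / N τ))))
      = M * p * (v + ∑ τ, w τ * φ (Real.log (1 / N τ))) := by
    have e1 : ∀ τ, c τ * (M * N τ * (v + φ (Real.log (1 / N τ))))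
        = M * p * (w τ * v + w τ * φ (Real.log (1 / N τ))) := by
      intro τ
      simp only [hw]
      field_simp
    simp only [e1]
    rw [← Finset.mul_sum, Finset.sum_add_distrib, ← Finset.sum_mul, hw1, one_mul]
  rw [h2] at h1
  have h3 : M * p * (v + ∑ τ, w τ * φ (Real.log (1 / N τ)))
      ≤ M * p * (v + φ (Real.log (1 / p) + Real.log C)) := by
    refine mul_le_mul_of_nonneg_left ?_ (mul_nonneg hM hp.le)
    linarith
  linarith

end Abstract

/-! ### Winning sets of coordinates -/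

section WinProb
variable {G : Game} {k dA dB : ℕ}

/-- The probability of winning all the coordinates of `T`. -/
noncomputable def winProb (S : Strategy G k dA dB) (T : Finset (Fin k)) : ℝ :=
  ∑ x, ∑ y, (∏ i, G.prob (x i) (y i)) * ∑ a, ∑ b,
    if ∀ i ∈ T, G.accept (x i) (y i) (a i) (b i) = true then S.answerProb x y a b else 0

theorem answerProb_eq_bra (S : Strategy G k dA dB) (x y a b) :
    S.answerProb x y a b = bra S.ψ (S.M x a) (S.N y b) := rfl

theorem answerProb_nonneg (S : Strategy G k dA dB) (x y a b) : 0 ≤ S.answerProb x y a b :=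
  bra_nonneg _ (S.M_posSemidef x a) (S.N_posSemidef y b)

theorem sum_answerProb (S : Strategy G k dA dB) (x y) : ∑ a, ∑ b, S.answerProb x y a b = 1 := by
  simp only [answerProb_eq_bra]
  have h1 : ∑ a, ∑ b, bra S.ψ (S.M x a) (S.N y b) = bra S.ψ (∑ a, S.M x a) (∑ b, S.N y b) := by
    rw [bra_sum_left]
    refine Finset.sum_congr rfl fun a _ => ?_
    rw [bra_sum_right]
  rw [h1, S.M_sum, S.N_sum]
  exact bra_one_one _ S.ψ_norm

theorem winProb_empty (S : Strategy G k dA dB) : winProb S ∅ = 1 := by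
  unfold winProb
  simp only [Finset.notMem_empty, false_imp_iff, implies_true, if_true, sum_answerProb, mul_one]
  exact sum_prod_prob G

theorem winProb_nonneg (S : Strategy G k dA dB) (T : Finset (Fin k)) : 0 ≤ winProb S T :=
  Finset.sum_nonneg fun x _ => Finset.sum_nonneg fun y _ =>
    mul_nonneg (prod_prob_nonneg G x y) (Finset.sum_nonneg fun a _ =>
      Finset.sum_nonneg fun b _ => by
        split_ifs
        · exact answerProb_nonneg S x y a b
        · exact le_rfl)

theorem winProb_anti (S : Strategy G k dA dB) {T T' : Finset (Fin k)} (h : T ⊆ T') :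
    winProb S T' ≤ winProb S T := by
  refine Finset.sum_le_sum fun x _ => Finset.sum_le_sum fun y _ => ?_
  refine mul_le_mul_of_nonneg_left ?_ (prod_prob_nonneg G x y)
  refine Finset.sum_le_sum fun a _ => Finset.sum_le_sum fun b _ => ?_
  by_cases h1 : ∀ i ∈ T', G.accept (x i) (y i) (a i) (b i) = true
  · have h2 : ∀ i ∈ T, G.accept (x i) (y i) (a i) (b i) = true := fun i hi => h1 i (h hi)
    rw [if_pos h1, if_pos h2]
  · rw [if_neg h1]
    split_ifs
    · exact answerProb_nonneg S x y a b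
    · exact le_rfl

theorem winProb_le_one (S : Strategy G k dA dB) (T : Finset (Fin k)) : winProb S T ≤ 1 := by
  have := winProb_anti S (Finset.empty_subset T)
  rwa [winProb_empty] at this

/-- Double counting: the sum of `winProb` over the `t`-subsets is the mean of `choose wins t`. -/
theorem sum_winProb_powersetCard (S : Strategy G k dA dB) (t : ℕ) :
    ∑ T ∈ Finset.powersetCard t Finset.univ, winProb S T =
      ∑ x, ∑ y, (∏ i, G.prob (x i) (y i)) * ∑ a, ∑ b,
        ((wins G k x y a b).choose t : ℝ) * S.answerProb x y a b := by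
  unfold winProb
  simp only [Finset.sum_comm (s := Finset.powersetCard t Finset.univ) (t := Finset.univ)]
  refine Finset.sum_congr rfl fun x _ => Finset.sum_congr rfl fun y _ => ?_
  rw [← Finset.mul_sum]
  congr 1
  simp only [Finset.sum_comm (s := Finset.powersetCard t Finset.univ) (t := Finset.univ)]
  refine Finset.sum_congr rfl fun a _ => Finset.sum_congr rfl fun b _ => ?_
  have h1 : ∀ T ∈ Finset.powersetCard t (Finset.univ : Finset (Fin k)),
      (if ∀ i ∈ T, G.accept (x i) (y i) (a i) (b i) = true then S.answerProb x y a b else 0)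
        = if T ∈ Finset.powersetCard t
            (Finset.univ.filter fun i => G.accept (x i) (y i) (a i) (b i) = true)
          then S.answerProb x y a b else 0 := by
    intro T hT
    have h2 : T ∈ Finset.powersetCard t
        (Finset.univ.filter fun i => G.accept (x i) (y i) (a i) (b i) = true) ↔
        ∀ i ∈ T, G.accept (x i) (y i) (a i) (b i) = true := by
      rw [Finset.mem_powersetCard] at hT ⊢
      constructor
      · intro h i hi
        exact (Finset.mem_filter.1 (h.1 hi)).2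
      · intro h
        exact ⟨fun i hi => Finset.mem_filter.2 ⟨Finset.mem_univ _, h i hi⟩, hT.2⟩
    simp only [h2]
  rw [Finset.sum_congr rfl h1, Finset.sum_ite_mem]
  have h3 : Finset.powersetCard t (Finset.univ : Finset (Fin k)) ∩ Finset.powersetCard t
      (Finset.univ.filter fun i => G.accept (x i) (y i) (a i) (b i) = true)
      = Finset.powersetCard t
        (Finset.univ.filter fun i => G.accept (x i) (y i) (a i) (b i) = true) := by
    apply Finset.inter_eq_right.2
    exact Finset.powersetCard_mono (Finset.subset_univ _)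
  rw [h3, Finset.sum_const, Finset.card_powersetCard, nsmul_eq_mul]
  rfl

end WinProb

/-! ### Splitting the coordinates -/

section Split
variable {G : Game} {k m dA dB : ℕ} (T : Finset (Fin k)) (e : {i // i ∉ T} ≃ Fin m)

/-- Glue a string on `T` and a string on the complement of `T`. -/
def glue {α : Type*} (q : {i // i ∈ T} → α) (w : Fin m → α) : Fin k → α :=
  fun i => if h : i ∈ T then q ⟨i, h⟩ else w (e ⟨i, h⟩)

theorem glue_mem {α : Type*} (q : {i // i ∈ T} → α) (w : Fin m → α) (i : {i // i ∈ T}) :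
    glue T e q w i.1 = q i := by
  simp [glue, i.2]

theorem glue_compl {α : Type*} (q : {i // i ∈ T} → α) (w : Fin m → α) (j : Fin m) :
    glue T e q w (e.symm j).1 = w j := by
  have h := (e.symm j).2
  simp [glue, h]

/-- Glueing is an equivalence. -/
def glueEquiv (α : Type*) : ({i // i ∈ T} → α) × (Fin m → α) ≃ (Fin k → α) where
  toFun p := glue T e p.1 p.2
  invFun f := (fun i => f i.1, fun j => f (e.symm j).1)
  left_inv p := by
    ext i
    · exact glue_mem T e p.1 p.2 i
    · exact glue_compl T e p.1 p.2 i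
  right_inv f := by
    funext i
    by_cases h : i ∈ T
    · simp [glue, h]
    · simp [glue, h]

theorem prod_glue {α β : Type*} (f : α → β → ℝ) (qx : {i // i ∈ T} → α) (qy : {i // i ∈ T} → β)
    (w : Fin m → α) (z : Fin m → β) :
    ∏ i, f (glue T e qx w i) (glue T e qy z i)
      = (∏ i : {i // i ∈ T}, f (qx i) (qy i)) * ∏ j, f (w j) (z j) := by
  rw [← Finset.prod_mul_prod_compl T]
  congr 1
  · rw [← Finset.prod_coe_sort T]
    refine Finset.prod_congr rfl fun i _ => ?_
    rw [glue_mem, glue_mem]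
  · rw [Finset.prod_subtype Tᶜ (p := fun i => i ∉ T) (by simp), ← Equiv.prod_comp e.symm]
    refine Finset.prod_congr rfl fun j _ => ?_
    rw [glue_compl, glue_compl]

/-- Strings of questions and answers on `ι`. -/
abbrev Om (G : Game) (ι : Type) : Type :=
  (ι → Fin G.nX) × (ι → Fin G.nY) × (ι → Fin G.nA) × (ι → Fin G.nB)

/-- Splitting strings of questions and answers. -/
def splitOm : Om G {i // i ∈ T} × Om G (Fin m) ≃ Om G (Fin k) where
  toFun p := (glue T e p.1.1 p.2.1, glue T e p.1.2.1 p.2.2.1, glue T e p.1.2.2.1 p.2.2.2.1,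
    glue T e p.1.2.2.2 p.2.2.2.2)
  invFun ω := ((((glueEquiv T e _).symm ω.1).1, ((glueEquiv T e _).symm ω.2.1).1,
      ((glueEquiv T e _).symm ω.2.2.1).1, ((glueEquiv T e _).symm ω.2.2.2).1),
    (((glueEquiv T e _).symm ω.1).2, ((glueEquiv T e _).symm ω.2.1).2,
      ((glueEquiv T e _).symm ω.2.2.1).2, ((glueEquiv T e _).symm ω.2.2.2).2))
  left_inv p := by
    have h : ∀ {α : Type} (q : {i // i ∈ T} → α) (w : Fin m → α),
        (glueEquiv T e α).symm (glue T e q w) = (q, w) :=
      fun q w => (glueEquiv T e _).left_inv (q, w)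
    rcases p with ⟨⟨a1, a2, a3, a4⟩, ⟨b1, b2, b3, b4⟩⟩
    simp only [h]
  right_inv ω := by
    have h : ∀ {α : Type} (f : Fin k → α),
        glue T e ((glueEquiv T e α).symm f).1 ((glueEquiv T e α).symm f).2 = f :=
      fun f => (glueEquiv T e _).right_inv f
    rcases ω with ⟨a1, a2, a3, a4⟩
    simp only [h]

theorem nested_sum {X Y A B : Type*} [Fintype X] [Fintype Y] [Fintype A] [Fintype B]
    (W : X → Y → ℝ) (g : X → Y → A → B → ℝ) :
    ∑ x, ∑ y, W x y * ∑ a, ∑ b, g x y a b
      = ∑ ω : X × Y × A × B, W ω.1 ω.2.1 * g ω.1 ω.2.1 ω.2.2.1 ω.2.2.2 := by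
  simp only [Fintype.sum_prod_type, Finset.mul_sum]

/-- The total sum, split along `T`. -/
theorem split_sum
    (g : (Fin k → Fin G.nX) → (Fin k → Fin G.nY) → (Fin k → Fin G.nA) → (Fin k → Fin G.nB) → ℝ) :
    ∑ x, ∑ y, (∏ i, G.prob (x i) (y i)) * ∑ a, ∑ b, g x y a b
      = ∑ τ : Om G {i // i ∈ T}, (∏ i, G.prob (τ.1 i) (τ.2.1 i)) *
          ∑ x', ∑ y', (∏ j, G.prob (x' j) (y' j)) * ∑ a', ∑ b',
            g (glue T e τ.1 x') (glue T e τ.2.1 y') (glue T e τ.2.2.1 a') (glue T e τ.2.2.2 b') := by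
  rw [nested_sum (fun x y => ∏ i, G.prob (x i) (y i)) g]
  rw [← (splitOm T e).sum_comp, Fintype.sum_prod_type]
  refine Finset.sum_congr rfl fun τ _ => ?_
  rw [nested_sum (fun x' y' => ∏ j, G.prob (x' j) (y' j))
    (fun x' y' a' b' => g (glue T e τ.1 x') (glue T e τ.2.1 y') (glue T e τ.2.2.1 a')
      (glue T e τ.2.2.2 b')), Finset.mul_sum]
  refine Finset.sum_congr rfl fun ω _ => ?_
  simp only [splitOm, Equiv.coe_fn_mk]
  rw [prod_glue]
  ring

/-- A partial sum of a POVM. -/
theorem sub_sum_glue_psd {d : ℕ} {α : Type*} [Fintype α]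
    (M : (Fin k → α) → Matrix (Fin d) (Fin d) ℂ) (hM : ∀ a, (M a).PosSemidef) (hs : ∑ a, M a = 1)
    (q : {i // i ∈ T} → α) : (1 - ∑ w, M (glue T e q w)).PosSemidef := by
  classical
  have h1 : ∑ q' : {i // i ∈ T} → α, ∑ w, M (glue T e q' w) = 1 := by
    rw [← hs, ← (glueEquiv T e α).sum_comp, Fintype.sum_prod_type]
    rfl
  have h2 : (1 : Matrix (Fin d) (Fin d) ℂ) - ∑ w, M (glue T e q w)
      = ∑ q' ∈ Finset.univ.erase q, ∑ w, M (glue T e q' w) := by
    rw [← h1, ← Finset.add_sum_erase _ _ (Finset.mem_univ q), add_sub_cancel_left]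
  rw [h2]
  exact Matrix.posSemidef_sum _ fun q' _ => Matrix.posSemidef_sum _ fun w _ => hM _

/-- The rectangle of a strategy, at the questions and answers `τ` on `T`. -/
noncomputable def rectOf (S : Strategy G k dA dB) (τ : Om G {i // i ∈ T}) : Rect G m dA dB where
  ψ := S.ψ
  ψ_norm := S.ψ_norm
  P w a := S.M (glue T e τ.1 w) (glue T e τ.2.2.1 a)
  Q z b := S.N (glue T e τ.2.1 z) (glue T e τ.2.2.2 b)
  P_psd _ _ := S.M_posSemidef _ _
  Q_psd _ _ := S.N_posSemidef _ _
  P_le w := sub_sum_glue_psd T e _ (S.M_posSemidef _) (S.M_sum _) _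
  Q_le z := sub_sum_glue_psd T e _ (S.N_posSemidef _) (S.N_sum _) _

theorem rectOf_mass (S : Strategy G k dA dB) (τ : Om G {i // i ∈ T}) (x' y' a' b') :
    (rectOf T e S τ).mass x' y' a' b' = S.answerProb (glue T e τ.1 x') (glue T e τ.2.1 y')
      (glue T e τ.2.2.1 a') (glue T e τ.2.2.2 b') := rfl

/-- The weight of `τ`: its probability, if all the coordinates of `T` are won. -/
noncomputable def cw (G : Game) (T : Finset (Fin k)) (τ : Om G {i // i ∈ T}) : ℝ :=
  (∏ i, G.prob (τ.1 i) (τ.2.1 i)) *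
    if ∀ i, G.accept (τ.1 i) (τ.2.1 i) (τ.2.2.1 i) (τ.2.2.2 i) = true then 1 else 0

theorem cw_nonneg (τ : Om G {i // i ∈ T}) : 0 ≤ cw G T τ := by
  unfold cw
  refine mul_nonneg (prod_prob_nonneg G _ _) ?_
  split_ifs <;> norm_num

theorem acc_glue (τ : Om G {i // i ∈ T}) (x' y' a' b') :
    (∀ i ∈ T, G.accept (glue T e τ.1 x' i) (glue T e τ.2.1 y' i) (glue T e τ.2.2.1 a' i)
      (glue T e τ.2.2.2 b' i) = true) ↔
    ∀ i, G.accept (τ.1 i) (τ.2.1 i) (τ.2.2.1 i) (τ.2.2.2 i) = true := by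
  constructor
  · intro h i
    have := h i.1 i.2
    simpa only [glue_mem] using this
  · intro h i hi
    have := h ⟨i, hi⟩
    rw [← glue_mem T e τ.1 x' ⟨i, hi⟩, ← glue_mem T e τ.2.1 y' ⟨i, hi⟩,
      ← glue_mem T e τ.2.2.1 a' ⟨i, hi⟩, ← glue_mem T e τ.2.2.2 b' ⟨i, hi⟩] at this
    exact this

theorem winProb_split (S : Strategy G k dA dB) :
    winProb S T = ∑ τ, cw G T τ * (rectOf T e S τ).N := by
  unfold winProb
  rw [split_sum T e]
  refine Finset.sum_congr rfl fun τ _ => ?_
  unfold cw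
  by_cases hτ : ∀ i, G.accept (τ.1 i) (τ.2.1 i) (τ.2.2.1 i) (τ.2.2.2 i) = true
  · rw [if_pos hτ, mul_one]
    congr 1
    unfold Rect.N
    refine Finset.sum_congr rfl fun x' _ => Finset.sum_congr rfl fun y' _ => ?_
    congr 1
    refine Finset.sum_congr rfl fun a' _ => Finset.sum_congr rfl fun b' _ => ?_
    rw [if_pos ((acc_glue T e τ x' y' a' b').2 hτ), rectOf_mass]
  · rw [if_neg hτ, mul_zero, zero_mul]
    refine mul_eq_zero_of_right _ ?_
    refine Finset.sum_eq_zero fun x' _ => Finset.sum_eq_zero fun y' _ => ?_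
    refine mul_eq_zero_of_right _ ?_
    refine Finset.sum_eq_zero fun a' _ => Finset.sum_eq_zero fun b' _ => ?_
    rw [if_neg (fun h => hτ ((acc_glue T e τ x' y' a' b').1 h))]

theorem winProb_insert_split (S : Strategy G k dA dB) (j : Fin m) :
    winProb S (insert (e.symm j).1 T) = ∑ τ, cw G T τ * (rectOf T e S τ).Win j := by
  unfold winProb
  rw [split_sum T e]
  refine Finset.sum_congr rfl fun τ _ => ?_
  unfold cw
  by_cases hτ : ∀ i, G.accept (τ.1 i) (τ.2.1 i) (τ.2.2.1 i) (τ.2.2.2 i) = true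
  · rw [if_pos hτ, mul_one]
    congr 1
    unfold Rect.Win
    refine Finset.sum_congr rfl fun x' _ => Finset.sum_congr rfl fun y' _ => ?_
    congr 1
    refine Finset.sum_congr rfl fun a' _ => Finset.sum_congr rfl fun b' _ => ?_
    by_cases hj : G.accept (x' j) (y' j) (a' j) (b' j) = true
    · rw [if_pos hj, if_pos, rectOf_mass]
      rw [Finset.forall_mem_insert]
      refine ⟨?_, (acc_glue T e τ x' y' a' b').2 hτ⟩
      rw [glue_compl, glue_compl, glue_compl, glue_compl]
      exact hj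
    · rw [if_neg hj, if_neg]
      rw [Finset.forall_mem_insert]
      rintro ⟨h, -⟩
      rw [glue_compl, glue_compl, glue_compl, glue_compl] at h
      exact hj h
  · rw [if_neg hτ, mul_zero, zero_mul]
    refine mul_eq_zero_of_right _ ?_
    refine Finset.sum_eq_zero fun x' _ => Finset.sum_eq_zero fun y' _ => ?_
    refine mul_eq_zero_of_right _ ?_
    refine Finset.sum_eq_zero fun a' _ => Finset.sum_eq_zero fun b' _ => ?_
    rw [if_neg]
    intro h
    rw [Finset.forall_mem_insert] at h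
    exact hτ ((acc_glue T e τ x' y' a' b').1 h.2)

theorem sum_cw_le : ∑ τ, cw G T τ ≤ ((G.nA : ℝ) * G.nB) ^ T.card := by
  have h1 : ∑ τ, cw G T τ ≤ ∑ τ : Om G {i // i ∈ T}, ∏ i, G.prob (τ.1 i) (τ.2.1 i) := by
    refine Finset.sum_le_sum fun τ _ => ?_
    unfold cw
    have h0 := prod_prob_nonneg G τ.1 τ.2.1
    split_ifs
    · rw [mul_one]
    · rw [mul_zero]
      exact h0
  refine h1.trans (le_of_eq ?_)
  have h2 := sum_prod_prob G (ι := {i // i ∈ T})
  have hA : ((Fintype.card ({i // i ∈ T} → Fin G.nA) : ℕ) : ℝ) = (G.nA : ℝ) ^ T.card := by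
    rw [Fintype.card_fun, Fintype.card_coe, Fintype.card_fin]
    push_cast
    rfl
  have hB : ((Fintype.card ({i // i ∈ T} → Fin G.nB) : ℕ) : ℝ) = (G.nB : ℝ) ^ T.card := by
    rw [Fintype.card_fun, Fintype.card_coe, Fintype.card_fin]
    push_cast
    rfl
  simp only [Fintype.sum_prod_type, Finset.sum_const, Finset.card_univ, nsmul_eq_mul, hA, hB]
  simp only [← Finset.mul_sum]
  rw [h2, mul_one, mul_pow, Fintype.card_prod, Nat.cast_mul, hA, hB]

/-- **Conditioning, entropy and Jensen.** A bound for rectangles gives a bound on the probability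
of winning one more coordinate. -/
theorem sum_insert_le {v : ℝ} {F : ℝ → ℕ → ℝ} (hStep : StepBound G v F)
    (hFc : ∀ m, ConcaveOn ℝ (Set.Ici 0) (fun u => F u m))
    (hFm : ∀ m, MonotoneOn (fun u => F u m) (Set.Ici 0))
    (S : Strategy G k dA dB) (T : Finset (Fin k)) (hT : T.card < k) (hp : 0 < winProb S T) :
    ∑ j ∈ Tᶜ, winProb S (insert j T) ≤
      ((k - T.card : ℕ) : ℝ) * winProb S T *
        (v + F (Real.log (1 / winProb S T) + T.card * Real.log ((G.nA : ℝ) * G.nB))
          (k - T.card)) := by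
  classical
  have hcard : Fintype.card {i // i ∉ T} = k - T.card := by
    simp [Fintype.card_subtype_compl]
  let e : {i // i ∉ T} ≃ Fin (k - T.card) := Fintype.equivFinOfCardEq hcard
  have hm : 1 ≤ k - T.card := by omega
  have hsum : ∑ j ∈ Tᶜ, winProb S (insert j T)
      = ∑ τ, cw G T τ * ∑ j, (rectOf T e S τ).Win j := by
    rw [Finset.sum_subtype Tᶜ (p := fun i => i ∉ T) (by simp)]
    rw [← e.symm.sum_comp]
    simp only [winProb_insert_split T e, Finset.mul_sum]
    rw [Finset.sum_comm]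
  have hD : ∀ τ : Om G {i // i ∈ T}, ∑ j, (rectOf T e S τ).Win j
      ≤ ((k - T.card : ℕ) : ℝ) * (rectOf T e S τ).N *
        (v + (fun u => F u (k - T.card)) (Real.log (1 / (rectOf T e S τ).N))) := by
    intro τ
    by_cases hN : 0 < (rectOf T e S τ).N
    · exact hStep _ _ _ _ hm hN
    · have hN0 : (rectOf T e S τ).N = 0 := le_antisymm (not_lt.1 hN) (Rect.N_nonneg _)
      rw [hN0]
      have : ∑ j, (rectOf T e S τ).Win j ≤ ∑ j : Fin (k - T.card), (rectOf T e S τ).N :=
        Finset.sum_le_sum fun j _ => Rect.Win_le_N _ j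
      rw [hN0] at this
      simpa using this
  have := step_abstract (cw G T) (fun τ => (rectOf T e S τ).N)
    (fun τ => ∑ j, (rectOf T e S τ).Win j) (cw_nonneg T)
    (fun τ => Rect.N_nonneg _) (fun τ => Rect.N_le_one _) (fun u => F u (k - T.card))
    (hFc _) (hFm _) ((k - T.card : ℕ) : ℝ) v (Nat.cast_nonneg _) hD hp
    (winProb_split T e S).symm (sum_cw_le T)
  rw [hsum]
  rwa [Real.log_pow] at this

end Split

end Crest.Agent.ParRep
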