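import Crest.Agent.Lib.ParRep.Grid
import Crest.Agent.Lib.ParRep.OnePlay

/-!
# Hybrid vectors and local POVMs (row 342, finding #1280 (2))

Abstract linear algebra for one coordinate of the parallel repetition argument.

* `exists_pinv`: a Moore-Penrose inverse of a Hermitian matrix.
* `exists_povm`: if `Z` is a rectangular matrix and `∑ a, Pa a = Zᴴ * Z` with `Pa a` positive
  semidefinite then there is a POVM `E` on the rows of `Z` with `Zᴴ * E a * Z = Pa a`.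
* `hybVec`: the vector `∑ τ, √(w τ) |τ,τ⟩ (Z τ ⊗ Z' τ) ψ`, a function on `(R × τ) × (R' × τ)`.
* `hybVec_inner`: the matrix elements of block diagonal local operators between such vectors.

Registers are `R × Tau`, so that `Matrix.blockDiagonal` can be used for the dephased operators.
-/

set_option linter.unusedSectionVars false

open scoped Kronecker ComplexOrder Matrix BigOperators
open Matrix

namespace Crest.Agent.ParRep

section Pinv

variable {n : Type*} [Fintype n] [DecidableEq n]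

/-- A Moore-Penrose inverse of a Hermitian matrix. -/
theorem exists_pinv {P : Matrix n n ℂ} (hP : P.IsHermitian) :
    ∃ G : Matrix n n ℂ, G.IsHermitian ∧ P * G * P = P ∧ G * P * G = G := by
  classical
  set U := hP.eigenvectorUnitary with hU
  set c := Unitary.conjStarAlgAut ℂ (Matrix n n ℂ) U with hc
  set e : n → ℂ := fun i => ((hP.eigenvalues i : ℝ) : ℂ) with he
  set e' : n → ℂ := fun i => (((hP.eigenvalues i)⁻¹ : ℝ) : ℂ) with he'
  set D : Matrix n n ℂ := diagonal e with hD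
  set D' : Matrix n n ℂ := diagonal e' with hD'
  have hPc : P = c D := hP.spectral_theorem
  have key1 : ∀ i, e i * e' i * e i = e i := by
    intro i
    simp only [he, he']
    by_cases h : hP.eigenvalues i = 0
    · simp [h]
    · have h' : ((hP.eigenvalues i : ℝ) : ℂ) ≠ 0 := by exact_mod_cast h
      push_cast
      field_simp
  have key2 : ∀ i, e' i * e i * e' i = e' i := by
    intro i
    simp only [he, he']
    by_cases h : hP.eigenvalues i = 0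
    · simp [h]
    · have h' : ((hP.eigenvalues i : ℝ) : ℂ) ≠ 0 := by exact_mod_cast h
      push_cast
      field_simp
  refine ⟨c D', ?_, ?_, ?_⟩
  · have h : Star.star (c D') = c (Star.star D') := (map_star c D').symm
    have hs : Star.star D' = D' := by
      rw [hD', star_eq_conjTranspose, diagonal_conjTranspose]
      congr 1
      funext i
      simp [he']
    unfold Matrix.IsHermitian
    rw [← star_eq_conjTranspose, h, hs]
  · have h1 : D * D' * D = D := by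
      rw [hD, hD', diagonal_mul_diagonal, diagonal_mul_diagonal]
      congr 1
      funext i
      exact key1 i
    conv_rhs => rw [hPc]
    conv_lhs => rw [hPc]
    rw [← map_mul, ← map_mul, h1]
  · have h1 : D' * D * D' = D' := by
      rw [hD, hD', diagonal_mul_diagonal, diagonal_mul_diagonal]
      congr 1
      funext i
      exact key2 i
    conv_lhs => rw [hPc]
    rw [← map_mul, ← map_mul, h1]

end Pinv

section Povm

variable {R dA A : Type*} [Fintype R] [DecidableEq R] [Fintype dA] [DecidableEq dA]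
  [Fintype A] [DecidableEq A]

/-- Support lemma: if `0 ≤ Q ≤ P` (given as `P = Q + S`, both positive semidefinite) and `P * D = 0`
then `Q * D = 0`. -/
lemma mul_eq_zero_of_le {n m : Type*} [Fintype n] [DecidableEq n] [Fintype m]
    {P Q S : Matrix n n ℂ} (hQ : Q.PosSemidef) (hS : S.PosSemidef)
    (hP : P = Q + S) {D : Matrix n m ℂ} (hD : P * D = 0) : Q * D = 0 := by
  ext i j
  set u : n → ℂ := fun k => D k j with hu
  have hPu : P *ᵥ u = 0 := by
    funext k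
    have := congrFun (congrFun hD k) j
    simpa [Matrix.mul_apply, Matrix.mulVec, dotProduct, hu] using this
  have h0 : Star.star u ⬝ᵥ P *ᵥ u = 0 := by rw [hPu, dotProduct_zero]
  have hsum : Star.star u ⬝ᵥ Q *ᵥ u + Star.star u ⬝ᵥ S *ᵥ u = 0 := by
    rw [← dotProduct_add, ← add_mulVec, ← hP]; exact h0
  have hQn : 0 ≤ Star.star u ⬝ᵥ Q *ᵥ u := hQ.dotProduct_mulVec_nonneg u
  have hSn : 0 ≤ Star.star u ⬝ᵥ S *ᵥ u := hS.dotProduct_mulVec_nonneg u
  have hQ0 : Star.star u ⬝ᵥ Q *ᵥ u = 0 := by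
    apply le_antisymm _ hQn
    calc Star.star u ⬝ᵥ Q *ᵥ u ≤ Star.star u ⬝ᵥ Q *ᵥ u + Star.star u ⬝ᵥ S *ᵥ u := le_add_of_nonneg_right hSn
      _ = 0 := hsum
  have hQu : Q *ᵥ u = 0 := (hQ.dotProduct_mulVec_zero_iff u).1 hQ0
  have := congrFun hQu i
  simpa [Matrix.mul_apply, Matrix.mulVec, dotProduct, hu] using this

/-- From a Kraus column `Z` and a refinement of `Zᴴ * Z` to a POVM on the rows of `Z`. -/
theorem exists_povm [Nonempty A] (Z : Matrix R dA ℂ) (Pa : A → Matrix dA dA ℂ)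
    (hPa : ∀ a, (Pa a).PosSemidef) (hsum : ∑ a, Pa a = Zᴴ * Z) :
    ∃ E : A → Matrix R R ℂ, (∀ a, (E a).PosSemidef) ∧ ∑ a, E a = 1 ∧ ∀ a, Zᴴ * E a * Z = Pa a := by
  classical
  set P := Zᴴ * Z with hPdef
  have hPH : P.IsHermitian := (posSemidef_conjTranspose_mul_self Z).isHermitian
  obtain ⟨G, hG, hPGP, hGPG⟩ := exists_pinv hPH
  have hGc : Gᴴ = G := hG
  set Pi : Matrix R R ℂ := Z * G * Zᴴ with hPi
  have hPiH : Piᴴ = Pi := by
    rw [hPi, conjTranspose_mul, conjTranspose_mul, conjTranspose_conjTranspose, hGc,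
      Matrix.mul_assoc]
  have hPiI : Pi * Pi = Pi := by
    calc Pi * Pi = Z * (G * (Zᴴ * Z) * G) * Zᴴ := by
            rw [hPi]; simp only [Matrix.mul_assoc]
      _ = Pi := by rw [← hPdef, hGPG, hPi]
  have hcomp : (1 - Pi)ᴴ * (1 - Pi) = 1 - Pi := by
    rw [conjTranspose_sub, conjTranspose_one, hPiH, Matrix.sub_mul, Matrix.mul_sub, Matrix.mul_sub,
      Matrix.one_mul, Matrix.one_mul, Matrix.mul_one, hPiI]
    abel
  have hcompPSD : (1 - Pi).PosSemidef := by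
    have := posSemidef_conjTranspose_mul_self (1 - Pi)
    rwa [hcomp] at this
  set card : ℝ := (Fintype.card A : ℝ) with hcard
  have hcardpos : 0 < card := by
    rw [hcard]; exact_mod_cast Fintype.card_pos
  refine ⟨fun a => (Z * G) * Pa a * (Z * G)ᴴ + ((card⁻¹ : ℝ) : ℂ) • (1 - Pi), ?_, ?_, ?_⟩
  · intro a
    refine ((hPa a).mul_mul_conjTranspose_same (Z * G)).add (hcompPSD.smul ?_)
    have : (0 : ℝ) ≤ card⁻¹ := (inv_pos.2 hcardpos).le
    exact_mod_cast this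
  · have h1 : ∑ a, (Z * G) * Pa a * (Z * G)ᴴ = Pi := by
      have : ∑ a, (Z * G) * Pa a * (Z * G)ᴴ = (Z * G) * (∑ a, Pa a) * (Z * G)ᴴ := by
        rw [Matrix.mul_sum, Matrix.sum_mul]
      rw [this, hsum, conjTranspose_mul, hGc]
      calc Z * G * P * (G * Zᴴ) = Z * (G * P * G) * Zᴴ := by simp only [Matrix.mul_assoc]
        _ = Pi := by rw [hGPG, hPi]
    have h2 : ∑ _a : A, ((card⁻¹ : ℝ) : ℂ) • (1 - Pi) = 1 - Pi := by
      rw [Finset.sum_const, Finset.card_univ, ← Nat.cast_smul_eq_nsmul ℂ, smul_smul]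
      have : ((Fintype.card A : ℕ) : ℂ) * ((card⁻¹ : ℝ) : ℂ) = 1 := by
        have hne : (card : ℂ) ≠ 0 := by exact_mod_cast hcardpos.ne'
        rw [hcard] at hne ⊢
        push_cast
        field_simp
      rw [this, one_smul]
    rw [Finset.sum_add_distrib, h1, h2]
    abel
  · intro a
    -- the support identities
    have hD : P * (1 - G * P) = 0 := by
      rw [Matrix.mul_sub, Matrix.mul_one, ← Matrix.mul_assoc, hPGP, sub_self]
    set S : Matrix dA dA ℂ := ∑ b ∈ Finset.univ.erase a, Pa b with hS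
    have hSPSD : S.PosSemidef := posSemidef_sum _ (fun b _ => hPa b)
    have hPsplit : P = Pa a + S := by
      rw [← hsum, hS, Finset.add_sum_erase _ _ (Finset.mem_univ a)]
    have hQD : Pa a * (1 - G * P) = 0 := mul_eq_zero_of_le (hPa a) hSPSD hPsplit hD
    have hright : Pa a * (G * P) = Pa a := by
      rw [Matrix.mul_sub, Matrix.mul_one, sub_eq_zero] at hQD
      exact hQD.symm
    have hleft : (P * G) * Pa a = Pa a := by
      have h := congrArg conjTranspose hright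
      have hPH' : Pᴴ = P := hPH
      have hPaH : (Pa a)ᴴ = Pa a := (hPa a).isHermitian
      rw [conjTranspose_mul, conjTranspose_mul, hPH', hGc, hPaH] at h
      exact h
    have hZPiZ : Zᴴ * (1 - Pi) * Z = 0 := by
      rw [Matrix.mul_sub, Matrix.sub_mul, Matrix.mul_one]
      have : Zᴴ * Pi * Z = P * G * P := by
        rw [hPi, hPdef]; simp only [Matrix.mul_assoc]
      rw [this, hPGP, ← hPdef, sub_self]
    have hfirst : Zᴴ * ((Z * G) * Pa a * (Z * G)ᴴ) * Z = Pa a := by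
      rw [conjTranspose_mul, hGc]
      calc Zᴴ * (Z * G * Pa a * (G * Zᴴ)) * Z = (P * G) * Pa a * (G * P) := by
            rw [hPdef]; simp only [Matrix.mul_assoc]
        _ = Pa a := by rw [hleft, hright]
    show Zᴴ * ((Z * G) * Pa a * (Z * G)ᴴ + ((card⁻¹ : ℝ) : ℂ) • (1 - Pi)) * Z = Pa a
    rw [Matrix.mul_add, Matrix.add_mul, hfirst, Matrix.mul_smul, Matrix.smul_mul, hZPiZ, smul_zero,
      add_zero]

end Povm

section Block

variable {R R' Tau : Type*} [Fintype R] [DecidableEq R] [Fintype R'] [DecidableEq R']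
  [Fintype Tau] [DecidableEq Tau]

lemma blockDiagonal_mulVec_apply (E : Tau → Matrix R R ℂ) (x : R × Tau → ℂ) (r : R) (τ : Tau) :
    (blockDiagonal E *ᵥ x) (r, τ) = (E τ *ᵥ fun s => x (s, τ)) r := by
  simp only [mulVec, dotProduct, Fintype.sum_prod_type, blockDiagonal_apply]
  refine Finset.sum_congr rfl fun s _ => ?_
  simp [ite_mul, Finset.sum_ite_eq]

lemma posSemidef_blockDiagonal {E : Tau → Matrix R R ℂ} (hE : ∀ t, (E t).PosSemidef) :
    (blockDiagonal E).PosSemidef := by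
  classical
  refine PosSemidef.of_dotProduct_mulVec_nonneg ?_ fun x => ?_
  · unfold Matrix.IsHermitian
    rw [blockDiagonal_conjTranspose]
    congr 1
    funext t
    exact (hE t).isHermitian
  · have h : Star.star x ⬝ᵥ (blockDiagonal E *ᵥ x) =
        ∑ τ, Star.star (fun r => x (r, τ)) ⬝ᵥ (E τ *ᵥ fun r => x (r, τ)) := by
      simp only [dotProduct, Fintype.sum_prod_type, blockDiagonal_mulVec_apply]
      rw [Finset.sum_comm]
      rfl
    rw [h]
    exact Finset.sum_nonneg fun τ _ => (hE τ).dotProduct_mulVec_nonneg _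

lemma blockDiagonal_sum' {ι : Type*} (s : Finset ι) (E : ι → Tau → Matrix R R ℂ) :
    blockDiagonal (fun τ => ∑ a ∈ s, E a τ) = ∑ a ∈ s, blockDiagonal (E a) := by
  classical
  induction s using Finset.induction_on with
  | empty =>
    simp only [Finset.sum_empty]
    exact blockDiagonal_zero
  | insert a s ha ih =>
    rw [Finset.sum_insert ha, ← ih, ← blockDiagonal_add]
    congr 1
    funext τ
    rw [Finset.sum_insert ha]
    rfl

lemma blockKron_mulVec_apply (E : Tau → Matrix R R ℂ) (F : Tau → Matrix R' R' ℂ)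
    (x : (R × Tau) × (R' × Tau) → ℂ) (r : R) (τ : Tau) (r' : R') (τ' : Tau) :
    ((blockDiagonal E ⊗ₖ blockDiagonal F) *ᵥ x) ((r, τ), (r', τ')) =
      ((E τ ⊗ₖ F τ') *ᵥ fun p : R × R' => x ((p.1, τ), (p.2, τ'))) (r, r') := by
  simp only [mulVec, dotProduct, Fintype.sum_prod_type, kroneckerMap_apply, blockDiagonal_apply]
  refine Finset.sum_congr rfl fun s _ => ?_
  have : ∀ (σ : Tau) (s' : R') (σ' : Tau),
      (if τ = σ then E τ r s else 0) * (if τ' = σ' then F τ' r' s' else 0) * x ((s, σ), s', σ')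
      = if τ = σ then (if τ' = σ' then E τ r s * F τ' r' s' * x ((s, τ), s', τ') else 0) else 0 := by
    intro σ s' σ'
    by_cases h1 : τ = σ
    · by_cases h2 : τ' = σ'
      · subst h1; subst h2; simp
      · simp [h2]
    · simp [h1]
  simp only [this]
  rw [Finset.sum_comm]
  simp [Finset.sum_ite_eq]

end Block

section Hyb

variable {R R' dA dB Tau : Type*} [Fintype R] [DecidableEq R] [Fintype R'] [DecidableEq R']
  [Fintype dA] [DecidableEq dA] [Fintype dB] [DecidableEq dB] [Fintype Tau] [DecidableEq Tau]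

/-- The vector `∑ τ, √(w τ) |τ,τ⟩ (Z τ ⊗ Z' τ) ψ`. -/
noncomputable def hybVec (w : Tau → ℝ) (Z : Tau → Matrix R dA ℂ) (Z' : Tau → Matrix R' dB ℂ)
    (ψ : dA × dB → ℂ) : (R × Tau) × (R' × Tau) → ℂ :=
  fun ω => if ω.1.2 = ω.2.2 then
    ((Real.sqrt (w ω.1.2) : ℝ) : ℂ) * ((Z ω.1.2 ⊗ₖ Z' ω.1.2) *ᵥ ψ) (ω.1.1, ω.2.1) else 0

lemma hybVec_sub_left (w : Tau → ℝ) (Z Y : Tau → Matrix R dA ℂ) (Z' : Tau → Matrix R' dB ℂ)
    (ψ : dA × dB → ℂ) :
    hybVec w Z Z' ψ - hybVec w Y Z' ψ = hybVec w (fun τ => Z τ - Y τ) Z' ψ := by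
  funext ω
  by_cases h : ω.1.2 = ω.2.2
  · have hk : (Z ω.1.2 - Y ω.1.2) ⊗ₖ Z' ω.1.2 = Z ω.1.2 ⊗ₖ Z' ω.1.2 - Y ω.1.2 ⊗ₖ Z' ω.1.2 := by
      ext i j
      simp [kroneckerMap_apply, sub_mul]
    simp only [hybVec, Pi.sub_apply, if_pos h, hk, sub_mulVec, mul_sub]
  · simp [hybVec, h]

lemma hybVec_sub_right (w : Tau → ℝ) (Z : Tau → Matrix R dA ℂ) (Z' Y' : Tau → Matrix R' dB ℂ)
    (ψ : dA × dB → ℂ) :
    hybVec w Z Z' ψ - hybVec w Z Y' ψ = hybVec w Z (fun τ => Z' τ - Y' τ) ψ := by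
  funext ω
  by_cases h : ω.1.2 = ω.2.2
  · have hk : Z ω.1.2 ⊗ₖ (Z' ω.1.2 - Y' ω.1.2) = Z ω.1.2 ⊗ₖ Z' ω.1.2 - Z ω.1.2 ⊗ₖ Y' ω.1.2 := by
      ext i j
      simp [kroneckerMap_apply, mul_sub]
    simp only [hybVec, Pi.sub_apply, if_pos h, hk, sub_mulVec, mul_sub]
  · simp [hybVec, h]

/-- Block diagonal local operators act blockwise on `hybVec`. -/
lemma blockKron_mulVec_hybVec (w : Tau → ℝ) (E : Tau → Matrix R R ℂ) (F : Tau → Matrix R' R' ℂ)
    (Y : Tau → Matrix R dA ℂ) (Y' : Tau → Matrix R' dB ℂ) (ψ : dA × dB → ℂ) :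
    (blockDiagonal E ⊗ₖ blockDiagonal F) *ᵥ hybVec w Y Y' ψ =
      hybVec w (fun τ => E τ * Y τ) (fun τ => F τ * Y' τ) ψ := by
  funext ⟨⟨r, τ⟩, ⟨r', τ'⟩⟩
  rw [blockKron_mulVec_apply]
  by_cases h : τ = τ'
  · subst h
    have hx : (fun p : R × R' => hybVec w Y Y' ψ ((p.1, τ), (p.2, τ))) =
        ((Real.sqrt (w τ) : ℝ) : ℂ) • ((Y τ ⊗ₖ Y' τ) *ᵥ ψ) := by
      funext p
      simp [hybVec]
    rw [hx, mulVec_smul, mulVec_mulVec, ← mul_kronecker_mul]
    simp [hybVec]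
  · have hx : (fun p : R × R' => hybVec w Y Y' ψ ((p.1, τ), (p.2, τ'))) = 0 := by
      funext p
      simp [hybVec, h]
    rw [hx, mulVec_zero]
    simp [hybVec, h]

lemma star_mulVec_dot {m n : Type*} [Fintype m] [Fintype n] [DecidableEq n]
    (M M' : Matrix m n ℂ) (ψ : n → ℂ) :
    Star.star (M *ᵥ ψ) ⬝ᵥ (M' *ᵥ ψ) = Star.star ψ ⬝ᵥ ((Mᴴ * M') *ᵥ ψ) := by
  rw [star_mulVec, ← mulVec_mulVec, dotProduct_mulVec (Star.star ψ) Mᴴ]

/-- The scalar product of two vectors of the form `hybVec`. -/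
lemma hybVec_dot (w : Tau → ℝ) (hw : ∀ τ, 0 ≤ w τ)
    (Z Y : Tau → Matrix R dA ℂ) (Z' Y' : Tau → Matrix R' dB ℂ) (ψ : dA × dB → ℂ) :
    Star.star (hybVec w Z Z' ψ) ⬝ᵥ hybVec w Y Y' ψ =
      ∑ τ, ((w τ : ℝ) : ℂ) * (Star.star ψ ⬝ᵥ ((((Z τ)ᴴ * Y τ) ⊗ₖ ((Z' τ)ᴴ * Y' τ)) *ᵥ ψ)) := by
  have hterm : ∀ (r : R) (τ : Tau) (r' : R') (τ' : Tau),
      Star.star (hybVec w Z Z' ψ ((r, τ), (r', τ'))) * hybVec w Y Y' ψ ((r, τ), (r', τ')) =
        if τ = τ' then ((w τ : ℝ) : ℂ) *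
          (Star.star (((Z τ ⊗ₖ Z' τ) *ᵥ ψ) (r, r')) * ((Y τ ⊗ₖ Y' τ) *ᵥ ψ) (r, r')) else 0 := by
    intro r τ r' τ'
    by_cases h : τ = τ'
    · subst h
      simp only [hybVec, if_true]
      have hs : ((Real.sqrt (w τ) : ℝ) : ℂ) * ((Real.sqrt (w τ) : ℝ) : ℂ) = ((w τ : ℝ) : ℂ) := by
        rw [← Complex.ofReal_mul, Real.mul_self_sqrt (hw τ)]
      rw [star_mul', Complex.star_def, Complex.conj_ofReal, ← hs]
      ring
    · simp [hybVec, h]
  have hsum : Star.star (hybVec w Z Z' ψ) ⬝ᵥ hybVec w Y Y' ψ =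
      ∑ τ, ((w τ : ℝ) : ℂ) * ∑ p : R × R',
        Star.star (((Z τ ⊗ₖ Z' τ) *ᵥ ψ) p) * ((Y τ ⊗ₖ Y' τ) *ᵥ ψ) p := by
    simp only [dotProduct, Fintype.sum_prod_type, Pi.star_apply, hterm]
    simp only [Finset.mul_sum]
    rw [Finset.sum_comm]
    refine Finset.sum_congr rfl fun τ _ => ?_
    refine Finset.sum_congr rfl fun r _ => ?_
    rw [Finset.sum_comm]
    simp [Finset.sum_ite_eq]
  rw [hsum]
  refine Finset.sum_congr rfl fun τ _ => ?_
  congr 1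
  have := star_mulVec_dot (Z τ ⊗ₖ Z' τ) (Y τ ⊗ₖ Y' τ) ψ
  rw [conjTranspose_kronecker, ← mul_kronecker_mul] at this
  rw [← this]
  rfl

lemma sum_norm_sq_eq_re {ι : Type*} [Fintype ι] (v : ι → ℂ) :
    ∑ i, ‖v i‖ ^ 2 = (Star.star v ⬝ᵥ v).re := by
  simp only [dotProduct, Pi.star_apply, Complex.re_sum]
  refine Finset.sum_congr rfl fun i _ => ?_
  rw [Complex.star_def, Complex.conj_mul']
  norm_cast

/-- The squared norm of `hybVec`. -/
theorem hybVec_norm_sq (w : Tau → ℝ) (hw : ∀ τ, 0 ≤ w τ)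
    (Z : Tau → Matrix R dA ℂ) (Z' : Tau → Matrix R' dB ℂ) (ψ : dA × dB → ℂ) :
    ∑ ω, ‖hybVec w Z Z' ψ ω‖ ^ 2 =
      ∑ τ, w τ * bra ψ ((Z τ)ᴴ * Z τ) ((Z' τ)ᴴ * Z' τ) := by
  rw [sum_norm_sq_eq_re, hybVec_dot w hw, Complex.re_sum]
  refine Finset.sum_congr rfl fun τ _ => ?_
  rw [Complex.re_ofReal_mul]
  rfl

/-- Matrix elements of block diagonal local operators between `hybVec` and itself. -/
theorem bra_block_hybVec (w : Tau → ℝ) (hw : ∀ τ, 0 ≤ w τ)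
    (Z : Tau → Matrix R dA ℂ) (Z' : Tau → Matrix R' dB ℂ) (ψ : dA × dB → ℂ)
    (E : Tau → Matrix R R ℂ) (F : Tau → Matrix R' R' ℂ) :
    bra (hybVec w Z Z' ψ) (blockDiagonal E) (blockDiagonal F) =
      ∑ τ, w τ * bra ψ ((Z τ)ᴴ * E τ * Z τ) ((Z' τ)ᴴ * F τ * Z' τ) := by
  unfold bra
  rw [blockKron_mulVec_hybVec, hybVec_dot w hw, Complex.re_sum]
  refine Finset.sum_congr rfl fun τ _ => ?_
  rw [Complex.re_ofReal_mul]
  simp only [Matrix.mul_assoc]

end Hyb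

section Gauge

variable {n : Type*} [Fintype n] [DecidableEq n]

/-- The column `∑ i, |i⟩ ⊗ K i` of a family of square matrices. -/
def krausCol {I : Type*} (K : I → Matrix n n ℂ) : Matrix (I × n) n ℂ :=
  fun p γ => K p.1 p.2 γ

lemma krausCol_conj_mul {I : Type*} [Fintype I] (K K' : I → Matrix n n ℂ) :
    (krausCol K)ᴴ * krausCol K' = ∑ i, (K i)ᴴ * K' i := by
  ext α β
  simp only [krausCol, Matrix.mul_apply, Fintype.sum_prod_type, Matrix.sum_apply,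
    conjTranspose_apply]

lemma krausCol_sub {I : Type*} (K K' : I → Matrix n n ℂ) :
    krausCol K - krausCol K' = krausCol (fun i => K i - K' i) := by
  ext p γ
  rfl

/-- The resolvent gauge as a rectangular matrix: `Γ(R)ᴴ Γ(R) = R`. -/
noncomputable def Gam (D : ℝ) (N : ℕ) (R : Matrix n n ℂ) : Matrix (Option (Fin N) × n) n ℂ :=
  krausCol (KK D N R)

lemma Gam_conj_mul {D : ℝ} (hD : 0 < D) (N : ℕ) {R : Matrix n n ℂ} (hR : R.PosSemidef) :
    (Gam D N R)ᴴ * Gam D N R = R := by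
  rw [Gam, krausCol_conj_mul]
  have : ∀ i, (KK D N R i)ᴴ * KK D N R i = KK D N R i * KK D N R i := by
    intro i
    rw [(KK_isHermitian hD N hR i).eq]
  simp only [this]
  exact KK_sum hD N hR

lemma Gam_sub_conj_mul {D : ℝ} (hD : 0 < D) (N : ℕ) {R₁ R₂ : Matrix n n ℂ} (hR₁ : R₁.PosSemidef)
    (hR₂ : R₂.PosSemidef) :
    (Gam D N R₁ - Gam D N R₂)ᴴ * (Gam D N R₁ - Gam D N R₂) = WW D N R₁ R₂ := by
  rw [Gam, Gam, krausCol_sub, krausCol_conj_mul]
  unfold WW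
  refine Finset.sum_congr rfl fun i _ => ?_
  rw [conjTranspose_sub, (KK_isHermitian hD N hR₁ i).eq, (KK_isHermitian hD N hR₂ i).eq]

end Gauge

section Hybrid

variable {dA dB Tau : Type*} [Fintype dA] [DecidableEq dA] [Fintype dB] [DecidableEq dB]
  [Fintype Tau] [DecidableEq Tau]

/-- The hybrid vector `∑ τ, √(w τ) |τ,τ⟩ (Γ(P τ) ⊗ Γ(Q τ)) ψ`. -/
noncomputable def hybG (w : Tau → ℝ) (D : ℝ) (N : ℕ) (ψ : dA × dB → ℂ)
    (P : Tau → Matrix dA dA ℂ) (Q : Tau → Matrix dB dB ℂ) :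
    ((Option (Fin N) × dA) × Tau) × ((Option (Fin N) × dB) × Tau) → ℂ :=
  hybVec w (fun τ => Gam D N (P τ)) (fun τ => Gam D N (Q τ)) ψ

theorem hybG_norm_sq (w : Tau → ℝ) (hw : ∀ τ, 0 ≤ w τ) {D : ℝ} (hD : 0 < D) (N : ℕ)
    (ψ : dA × dB → ℂ) {P : Tau → Matrix dA dA ℂ} {Q : Tau → Matrix dB dB ℂ}
    (hP : ∀ τ, (P τ).PosSemidef) (hQ : ∀ τ, (Q τ).PosSemidef) :
    ∑ ω, ‖hybG w D N ψ P Q ω‖ ^ 2 = ∑ τ, w τ * bra ψ (P τ) (Q τ) := by
  rw [hybG, hybVec_norm_sq w hw]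
  refine Finset.sum_congr rfl fun τ _ => ?_
  rw [Gam_conj_mul hD N (hP τ), Gam_conj_mul hD N (hQ τ)]

theorem hybG_dist_left (w : Tau → ℝ) (hw : ∀ τ, 0 ≤ w τ) {D : ℝ} (hD : 0 < D) (N : ℕ)
    (ψ : dA × dB → ℂ) {P P' : Tau → Matrix dA dA ℂ} {Q : Tau → Matrix dB dB ℂ}
    (hP : ∀ τ, (P τ).PosSemidef) (hP' : ∀ τ, (P' τ).PosSemidef) (hQ : ∀ τ, (Q τ).PosSemidef) :
    ∑ ω, ‖hybG w D N ψ P Q ω - hybG w D N ψ P' Q ω‖ ^ 2 =
      ∑ τ, w τ * bra ψ (WW D N (P τ) (P' τ)) (Q τ) := by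
  have h : ∀ ω, hybG w D N ψ P Q ω - hybG w D N ψ P' Q ω =
      hybVec w (fun τ => Gam D N (P τ) - Gam D N (P' τ)) (fun τ => Gam D N (Q τ)) ψ ω := by
    intro ω
    rw [← hybVec_sub_left]
    rfl
  simp only [h]
  rw [hybVec_norm_sq w hw]
  refine Finset.sum_congr rfl fun τ _ => ?_
  rw [Gam_conj_mul hD N (hQ τ), Gam_sub_conj_mul hD N (hP τ) (hP' τ)]

theorem hybG_dist_right (w : Tau → ℝ) (hw : ∀ τ, 0 ≤ w τ) {D : ℝ} (hD : 0 < D) (N : ℕ)
    (ψ : dA × dB → ℂ) {P : Tau → Matrix dA dA ℂ} {Q Q' : Tau → Matrix dB dB ℂ}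
    (hP : ∀ τ, (P τ).PosSemidef) (hQ : ∀ τ, (Q τ).PosSemidef) (hQ' : ∀ τ, (Q' τ).PosSemidef) :
    ∑ ω, ‖hybG w D N ψ P Q ω - hybG w D N ψ P Q' ω‖ ^ 2 =
      ∑ τ, w τ * bra ψ (P τ) (WW D N (Q τ) (Q' τ)) := by
  have h : ∀ ω, hybG w D N ψ P Q ω - hybG w D N ψ P Q' ω =
      hybVec w (fun τ => Gam D N (P τ)) (fun τ => Gam D N (Q τ) - Gam D N (Q' τ)) ψ ω := by
    intro ω
    rw [← hybVec_sub_right]
    rfl
  simp only [h]
  rw [hybVec_norm_sq w hw]
  refine Finset.sum_congr rfl fun τ _ => ?_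
  rw [Gam_conj_mul hD N (hP τ), Gam_sub_conj_mul hD N (hQ τ) (hQ' τ)]

/-- A family of POVMs on the registers of the gauge, with `Γ(P τ)ᴴ E τ a Γ(P τ) = Pa τ a`. -/
theorem exists_gauge_povm {A : Type*} [Fintype A] [DecidableEq A] [Nonempty A]
    {D : ℝ} (hD : 0 < D) (N : ℕ) (P : Tau → Matrix dA dA ℂ) (hP : ∀ τ, (P τ).PosSemidef)
    (Pa : Tau → A → Matrix dA dA ℂ) (hPa : ∀ τ a, (Pa τ a).PosSemidef)
    (hsum : ∀ τ, ∑ a, Pa τ a = P τ) :
    ∃ E : Tau → A → Matrix (Option (Fin N) × dA) (Option (Fin N) × dA) ℂ,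
      (∀ τ a, (E τ a).PosSemidef) ∧ (∀ τ, ∑ a, E τ a = 1) ∧
        ∀ τ a, (Gam D N (P τ))ᴴ * E τ a * Gam D N (P τ) = Pa τ a := by
  have h : ∀ τ, ∃ E : A → Matrix (Option (Fin N) × dA) (Option (Fin N) × dA) ℂ,
      (∀ a, (E a).PosSemidef) ∧ ∑ a, E a = 1 ∧
        ∀ a, (Gam D N (P τ))ᴴ * E a * Gam D N (P τ) = Pa τ a := by
    intro τ
    exact exists_povm (Gam D N (P τ)) (Pa τ) (hPa τ) (by rw [hsum τ, Gam_conj_mul hD N (hP τ)])
  choose E hE1 hE2 hE3 using h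
  exact ⟨E, hE1, hE2, hE3⟩

/-- The block diagonal POVM assembled from a family of POVMs. -/
theorem blockPovm_psd {R A : Type*} [Fintype R] [DecidableEq R]
    {E : Tau → A → Matrix R R ℂ} (hE : ∀ τ a, (E τ a).PosSemidef) (a : A) :
    (blockDiagonal fun τ => E τ a).PosSemidef :=
  posSemidef_blockDiagonal fun τ => hE τ a

theorem blockPovm_sum {R A : Type*} [Fintype R] [DecidableEq R] [Fintype A]
    {E : Tau → A → Matrix R R ℂ} (hE : ∀ τ, ∑ a, E τ a = 1) :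
    ∑ a, (blockDiagonal fun τ => E τ a) = 1 := by
  rw [← blockDiagonal_sum' Finset.univ (fun a τ => E τ a)]
  have : (fun τ => ∑ a, E τ a) = (1 : Tau → Matrix R R ℂ) := by
    funext τ
    exact hE τ
  rw [this, blockDiagonal_one]

/-- **The one-coordinate hybrid data of #1280 (2).** Given the weights `w τ`, the families
`P τ x`, `Q τ y`, their means `Pbar τ y`, `Qbar τ x` (only positivity is used here, the fact that
they are means is used by the chain) and refinements `Pa τ x a`, `Qb τ y b`, there are vectors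
`T x y`, `Av x`, `Bv y` and POVMs `E x a`, `F y b` on finite registers with the norm and
mass identities that the path argument needs. -/
theorem exists_hybrid_data {X Y A B : Type*} [Fintype A] [DecidableEq A] [Nonempty A]
    [Fintype B] [DecidableEq B] [Nonempty B]
    (w : Tau → ℝ) (hw : ∀ τ, 0 ≤ w τ) {D : ℝ} (hD : 0 < D) (N : ℕ) (ψ : dA × dB → ℂ)
    (P : Tau → X → Matrix dA dA ℂ) (Pbar : Tau → Y → Matrix dA dA ℂ)
    (Q : Tau → Y → Matrix dB dB ℂ) (Qbar : Tau → X → Matrix dB dB ℂ)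
    (Pa : Tau → X → A → Matrix dA dA ℂ) (Qb : Tau → Y → B → Matrix dB dB ℂ)
    (hP : ∀ τ x, (P τ x).PosSemidef) (hPbar : ∀ τ y, (Pbar τ y).PosSemidef)
    (hQ : ∀ τ y, (Q τ y).PosSemidef) (hQbar : ∀ τ x, (Qbar τ x).PosSemidef)
    (hPa : ∀ τ x a, (Pa τ x a).PosSemidef) (hQb : ∀ τ y b, (Qb τ y b).PosSemidef)
    (hPasum : ∀ τ x, ∑ a, Pa τ x a = P τ x) (hQbsum : ∀ τ y, ∑ b, Qb τ y b = Q τ y) :
    ∃ (T : X → Y → ((Option (Fin N) × dA) × Tau) × ((Option (Fin N) × dB) × Tau) → ℂ)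
      (Av : X → ((Option (Fin N) × dA) × Tau) × ((Option (Fin N) × dB) × Tau) → ℂ)
      (Bv : Y → ((Option (Fin N) × dA) × Tau) × ((Option (Fin N) × dB) × Tau) → ℂ)
      (E : X → A → Matrix ((Option (Fin N) × dA) × Tau) ((Option (Fin N) × dA) × Tau) ℂ)
      (F : Y → B → Matrix ((Option (Fin N) × dB) × Tau) ((Option (Fin N) × dB) × Tau) ℂ),
      (∀ x a, (E x a).PosSemidef) ∧ (∀ x, ∑ a, E x a = 1) ∧
      (∀ y b, (F y b).PosSemidef) ∧ (∀ y, ∑ b, F y b = 1) ∧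
      (∀ x y, ∑ ω, ‖T x y ω‖ ^ 2 = ∑ τ, w τ * bra ψ (P τ x) (Q τ y)) ∧
      (∀ x, ∑ ω, ‖Av x ω‖ ^ 2 = ∑ τ, w τ * bra ψ (P τ x) (Qbar τ x)) ∧
      (∀ y, ∑ ω, ‖Bv y ω‖ ^ 2 = ∑ τ, w τ * bra ψ (Pbar τ y) (Q τ y)) ∧
      (∀ x y, ∑ ω, ‖T x y ω - Av x ω‖ ^ 2 = ∑ τ, w τ * bra ψ (P τ x) (WW D N (Q τ y) (Qbar τ x))) ∧
      (∀ x y, ∑ ω, ‖T x y ω - Bv y ω‖ ^ 2 = ∑ τ, w τ * bra ψ (WW D N (P τ x) (Pbar τ y)) (Q τ y)) ∧
      (∀ x y a b, bra (T x y) (E x a) (F y b) = ∑ τ, w τ * bra ψ (Pa τ x a) (Qb τ y b)) := by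
  classical
  -- POVMs, for each `x` separately
  have hE := fun x => exists_gauge_povm hD N (fun τ => P τ x) (fun τ => hP τ x)
    (fun τ => Pa τ x) (fun τ => hPa τ x) (fun τ => hPasum τ x)
  have hF := fun y => exists_gauge_povm hD N (fun τ => Q τ y) (fun τ => hQ τ y)
    (fun τ => Qb τ y) (fun τ => hQb τ y) (fun τ => hQbsum τ y)
  choose E' hE1 hE2 hE3 using hE
  choose F' hF1 hF2 hF3 using hF
  refine ⟨fun x y => hybG w D N ψ (fun τ => P τ x) (fun τ => Q τ y),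
    fun x => hybG w D N ψ (fun τ => P τ x) (fun τ => Qbar τ x),
    fun y => hybG w D N ψ (fun τ => Pbar τ y) (fun τ => Q τ y),
    fun x a => blockDiagonal fun τ => E' x τ a, fun y b => blockDiagonal fun τ => F' y τ b,
    fun x a => blockPovm_psd (hE1 x) a, fun x => blockPovm_sum (hE2 x),
    fun y b => blockPovm_psd (hF1 y) b, fun y => blockPovm_sum (hF2 y), ?_, ?_, ?_, ?_, ?_, ?_⟩
  · intro x y
    exact hybG_norm_sq w hw hD N ψ (fun τ => hP τ x) (fun τ => hQ τ y)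
  · intro x
    exact hybG_norm_sq w hw hD N ψ (fun τ => hP τ x) (fun τ => hQbar τ x)
  · intro y
    exact hybG_norm_sq w hw hD N ψ (fun τ => hPbar τ y) (fun τ => hQ τ y)
  · intro x y
    exact hybG_dist_right w hw hD N ψ (fun τ => hP τ x) (fun τ => hQ τ y) (fun τ => hQbar τ x)
  · intro x y
    exact hybG_dist_left w hw hD N ψ (fun τ => hP τ x) (fun τ => hPbar τ y) (fun τ => hQ τ y)
  · intro x y a b
    change bra (hybVec w (fun τ => Gam D N (P τ x)) (fun τ => Gam D N (Q τ y)) ψ)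
      (blockDiagonal fun τ => E' x τ a) (blockDiagonal fun τ => F' y τ b) = _
    rw [bra_block_hybVec w hw]
    refine Finset.sum_congr rfl fun τ _ => ?_
    rw [hE3 x τ a, hF3 y τ b]

end Hybrid

end Crest.Agent.ParRep
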