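import Crest.Agent.Lib.ParRep.WinLink
import Crest.Agent.Lib.ParRep.Vectors

/-!
Row 342: the one-coordinate data of a rectangle: the hybrid vectors and the local POVMs at a coordinate
`j`, with hybrid variable `τ` = the full strings, `A = Iio j`, `B = Ioi j`.
-/

set_option autoImplicit false
set_option linter.unusedSectionVars false

open Function Finset
open Crest.MathPhysics.NonlocalGame
open scoped Kronecker ComplexOrder

namespace Crest.Agent.ParRep

variable {G : Game} {m dA dB : ℕ}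

namespace Rect

/-- The Alice part of the defect at coordinate `j`. -/
noncomputable def VA (R : Rect G m dA dB) (D : ℝ) (n : ℕ) (j : Fin m) : ℝ :=
  prodExp G.prob (fun x y =>
    bra R.ψ (WW D n (resample G.prob (Finset.Iio j) R.PP x y)
        (resample G.prob (insert j (Finset.Iio j)) R.PP x y))
      (resample (flip G.prob) (Finset.Ioi j) R.QQ y x))

/-- The Bob part of the defect at coordinate `j`. -/
noncomputable def VB (R : Rect G m dA dB) (D : ℝ) (n : ℕ) (j : Fin m) : ℝ :=
  prodExp G.prob (fun x y =>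
    bra R.ψ (resample G.prob (Finset.Iio j) R.PP x y)
      (WW D n (resample (flip G.prob) (Finset.Ioi j) R.QQ y x)
        (resample (flip G.prob) (insert j (Finset.Ioi j)) R.QQ y x)))

lemma resample_psd {X Y J : Type*} [Fintype X] [Fintype Y] [Fintype J] [DecidableEq X]
    [DecidableEq Y] [DecidableEq J] {π : X → Y → ℝ} (hπ : ∀ x y, 0 ≤ π x y)
    {n : Type*} [Fintype n] {F : (J → X) → Matrix n n ℂ}
    (hF : ∀ u, (F u).PosSemidef) (A : Finset J) (x : J → X) (y : J → Y) :
    (resample π A F x y).PosSemidef := by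
  unfold resample
  refine Matrix.posSemidef_sum _ fun u _ => ?_
  exact (hF u).smul (rsKer_nonneg hπ A y x u)

lemma resample_sum {X Y J ι : Type*} [Fintype X] [Fintype Y] [Fintype J] [DecidableEq X]
    [DecidableEq Y] [DecidableEq J] [Fintype ι] {π : X → Y → ℝ}
    {M : Type*} [AddCommMonoid M] [Module ℝ M] (F : ι → (J → X) → M)
    (A : Finset J) (x : J → X) (y : J → Y) :
    ∑ i, resample π A (F i) x y = resample π A (fun u => ∑ i, F i u) x y := by
  unfold resample
  rw [Finset.sum_comm]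
  refine Finset.sum_congr rfl fun u _ => ?_
  rw [Finset.smul_sum]

lemma flip_nonneg (G : Game) : ∀ y x, 0 ≤ flip G.prob y x := fun _ _ => G.prob_nonneg _ _

/-- The one-coordinate data. -/
theorem exists_coord_data (R : Rect G m dA dB) [Nonempty (Fin G.nA)] [Nonempty (Fin G.nB)]
    {D : ℝ} (hD : 0 < D) (n : ℕ) (j : Fin m) :
    ∃ (T : Fin G.nX → Fin G.nY → ((Option (Fin n) × Fin dA) ×
          ((Fin m → Fin G.nX) × (Fin m → Fin G.nY))) ×
          ((Option (Fin n) × Fin dB) × ((Fin m → Fin G.nX) × (Fin m → Fin G.nY))) → ℂ)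
      (Av : Fin G.nX → ((Option (Fin n) × Fin dA) ×
          ((Fin m → Fin G.nX) × (Fin m → Fin G.nY))) ×
          ((Option (Fin n) × Fin dB) × ((Fin m → Fin G.nX) × (Fin m → Fin G.nY))) → ℂ)
      (Bv : Fin G.nY → ((Option (Fin n) × Fin dA) ×
          ((Fin m → Fin G.nX) × (Fin m → Fin G.nY))) ×
          ((Option (Fin n) × Fin dB) × ((Fin m → Fin G.nX) × (Fin m → Fin G.nY))) → ℂ)
      (E : Fin G.nX → Fin G.nA → Matrix ((Option (Fin n) × Fin dA) ×
          ((Fin m → Fin G.nX) × (Fin m → Fin G.nY))) ((Option (Fin n) × Fin dA) ×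
          ((Fin m → Fin G.nX) × (Fin m → Fin G.nY))) ℂ)
      (F : Fin G.nY → Fin G.nB → Matrix ((Option (Fin n) × Fin dB) ×
          ((Fin m → Fin G.nX) × (Fin m → Fin G.nY))) ((Option (Fin n) × Fin dB) ×
          ((Fin m → Fin G.nX) × (Fin m → Fin G.nY))) ℂ),
      (∀ x a, (E x a).PosSemidef) ∧ (∀ x, ∑ a, E x a = 1) ∧
      (∀ y b, (F y b).PosSemidef) ∧ (∀ y, ∑ b, F y b = 1) ∧
      (∀ s t, ∑ ω, ‖T s t ω‖ ^ 2 = R.Nxy j s t) ∧
      (∑ s, ∑ t, G.prob s t * ∑ ω, ‖T s t ω - Av s ω‖ ^ 2 = R.VB D n j) ∧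
      (∑ s, ∑ t, G.prob s t * ∑ ω, ‖T s t ω - Bv t ω‖ ^ 2 = R.VA D n j) ∧
      (∑ s, ∑ t, G.prob s t * ∑ a, ∑ b,
        (if G.accept s t a b = true then bra (T s t) (E s a) (F t b) else 0) = R.Win j) := by
  classical
  have hpi := G.prob_nonneg
  have hfl := flip_nonneg G
  have hA : Disjoint (Finset.Iio j) (Finset.Ioi j) := by
    rw [Finset.disjoint_left]
    intro i hi hi'
    exact lt_asymm (Finset.mem_Iio.1 hi) (Finset.mem_Ioi.1 hi')
  have hjA : j ∉ Finset.Iio j := by simp
  have hjB : j ∉ Finset.Ioi j := by simp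
  obtain ⟨T, Av, Bv, E, F, hE0, hE1, hF0, hF1, hT, -, -, hTA, hTB, hW⟩ :=
    exists_hybrid_data (Tau := (Fin m → Fin G.nX) × (Fin m → Fin G.nY))
      (X := Fin G.nX) (Y := Fin G.nY) (A := Fin G.nA) (B := Fin G.nB)
      (dA := Fin dA) (dB := Fin dB)
      (fun τ => prodLaw G.prob τ.1 τ.2) (fun τ => prodLaw_nonneg hpi _ _) hD n R.ψ
      (fun τ s => resample G.prob (Finset.Iio j) R.PP (update τ.1 j s) τ.2)
      (fun τ t => resample G.prob (insert j (Finset.Iio j)) R.PP τ.1 (update τ.2 j t))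
      (fun τ t => resample (flip G.prob) (Finset.Ioi j) R.QQ (update τ.2 j t) τ.1)
      (fun τ s => resample (flip G.prob) (insert j (Finset.Ioi j)) R.QQ τ.2 (update τ.1 j s))
      (fun τ s a => resample G.prob (Finset.Iio j) (R.PA j a) (update τ.1 j s) τ.2)
      (fun τ t b => resample (flip G.prob) (Finset.Ioi j) (R.QB j b) (update τ.2 j t) τ.1)
      (fun τ s => resample_psd hpi R.PP_psd _ _ _)
      (fun τ t => resample_psd hpi R.PP_psd _ _ _)
      (fun τ t => resample_psd hfl R.QQ_psd _ _ _)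
      (fun τ s => resample_psd hfl R.QQ_psd _ _ _)
      (fun τ s a => resample_psd hpi (R.PA_psd j a) _ _ _)
      (fun τ t b => resample_psd hfl (R.QB_psd j b) _ _ _)
      (fun τ s => by
        rw [resample_sum]
        congr 1
        funext u
        exact R.sum_PA j u)
      (fun τ t => by
        rw [resample_sum]
        congr 1
        funext u
        exact R.sum_QB j u)
  have hsumτ : ∀ H : (Fin m → Fin G.nX) × (Fin m → Fin G.nY) → ℝ,
      ∑ τ, prodLaw G.prob τ.1 τ.2 * H τ = prodExp G.prob (fun x y => H (x, y)) := by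
    intro H
    rw [Fintype.sum_prod_type]
    rfl
  refine ⟨T, Av, Bv, E, F, hE0, hE1, hF0, hF1, ?_, ?_, ?_, ?_⟩
  · intro s t
    rw [hT, hsumτ]
    exact R.Nxy_eq_resample j hA hjA hjB s t
  · -- the Bob defect
    unfold VB
    rw [← prodExp_coord hpi G.prob_sum j]
    refine Finset.sum_congr rfl fun s _ => Finset.sum_congr rfl fun t _ => ?_
    congr 1
    rw [hTA, hsumτ]
    refine congrArg (prodExp G.prob) (funext fun x => funext fun y => ?_)
    simp only [resample_update_y_of_notMem hjA]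
    rw [resample_update_y_of_notMem (π := flip G.prob) hjB]
    rw [resample_update_of_mem (π := flip G.prob) (Finset.mem_insert_self j _)]
  · -- the Alice defect
    unfold VA
    rw [← prodExp_coord hpi G.prob_sum j]
    refine Finset.sum_congr rfl fun s _ => Finset.sum_congr rfl fun t _ => ?_
    congr 1
    rw [hTB, hsumτ]
    refine congrArg (prodExp G.prob) (funext fun x => funext fun y => ?_)
    simp only [resample_update_y_of_notMem hjA]
    rw [resample_update_y_of_notMem (π := flip G.prob) hjB]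
    rw [resample_update_of_mem (π := G.prob) (Finset.mem_insert_self j _)]
  · -- the win mass
    rw [← R.Win_eq_resample j hA hjA hjB]
    refine Finset.sum_congr rfl fun s _ => Finset.sum_congr rfl fun t _ => ?_
    congr 1
    have h1 : ∀ a b, (if G.accept s t a b = true then bra (T s t) (E s a) (F t b) else 0)
        = prodExp G.prob (fun x y => if G.accept s t a b = true then
            bra R.ψ (resample G.prob (Finset.Iio j) (R.PA j a) (update x j s) y)
              (resample (flip G.prob) (Finset.Ioi j) (R.QB j b) (update y j t) x) else 0) := by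
      intro a b
      split_ifs with h
      · rw [hW, hsumτ]
      · simp [prodExp]
    simp_rw [h1]
    unfold prodExp
    simp only [Finset.mul_sum]
    exact (sum4_comm _).symm

/-- The chain bound for a rectangle. -/
theorem sum_V_le (R : Rect G m dA dB) {D : ℝ} (hD : 0 < D) (n : ℕ) :
    ∑ j, (R.VA D n j + R.VB D n j) ≤ 2 * Real.negMulLog R.N
      + (m : ℝ) * (4 * D + 4 * D + (4 * (((n : ℝ) + 1) * D)⁻¹ + 4 * (((n : ℝ) + 1) * D)⁻¹) * R.N) := by
  have h := chain_matrix G.prob_nonneg G.prob_sum R.ψ R.ψ_norm hD n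
    (P := R.PP) (fun x => ⟨R.PP_psd x, R.P_le x⟩) (Q := R.QQ) (fun y => ⟨R.QQ_psd y, R.Q_le y⟩)
  have hN : chainMass G.prob (braL R.ψ) R.PP R.QQ = R.N := (R.N_eq).symm
  rw [hN] at h
  exact h

lemma nonempty_of_N_pos (R : Rect G m dA dB) (hm : 1 ≤ m) (hN : 0 < R.N) :
    Nonempty (Fin G.nA) ∧ Nonempty (Fin G.nB) := by
  have hm0 : Nonempty (Fin m) := ⟨⟨0, hm⟩⟩
  constructor
  · by_contra h
    have h1 : IsEmpty (Fin G.nA) := not_nonempty_iff.mp h
    have h2 : IsEmpty (Fin m → Fin G.nA) := ⟨fun f => h1.false (f ⟨0, hm⟩)⟩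
    have h0 : R.N = 0 := by
      unfold Rect.N
      refine Finset.sum_eq_zero fun x _ => Finset.sum_eq_zero fun y _ => ?_
      simp
    exact hN.ne' h0
  · by_contra h
    have h1 : IsEmpty (Fin G.nB) := not_nonempty_iff.mp h
    have h2 : IsEmpty (Fin m → Fin G.nB) := ⟨fun f => h1.false (f ⟨0, hm⟩)⟩
    have h0 : R.N = 0 := by
      unfold Rect.N
      refine Finset.sum_eq_zero fun x _ => Finset.sum_eq_zero fun y _ => ?_
      simp
    exact hN.ne' h0

lemma VA_nonneg (R : Rect G m dA dB) (hm : 1 ≤ m) (hN : 0 < R.N) {D : ℝ} (hD : 0 < D) (n : ℕ)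
    (j : Fin m) : 0 ≤ R.VA D n j := by
  obtain ⟨hA, hB⟩ := R.nonempty_of_N_pos hm hN
  obtain ⟨T, Av, Bv, E, F, -, -, -, -, -, -, h, -⟩ := R.exists_coord_data hD n j
  rw [← h]
  exact Finset.sum_nonneg fun s _ => Finset.sum_nonneg fun t _ =>
    mul_nonneg (G.prob_nonneg _ _) (Finset.sum_nonneg fun _ _ => by positivity)

lemma VB_nonneg (R : Rect G m dA dB) (hm : 1 ≤ m) (hN : 0 < R.N) {D : ℝ} (hD : 0 < D) (n : ℕ)
    (j : Fin m) : 0 ≤ R.VB D n j := by
  obtain ⟨hA, hB⟩ := R.nonempty_of_N_pos hm hN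
  obtain ⟨T, Av, Bv, E, F, -, -, -, -, -, h, -, -⟩ := R.exists_coord_data hD n j
  rw [← h]
  exact Finset.sum_nonneg fun s _ => Finset.sum_nonneg fun t _ =>
    mul_nonneg (G.prob_nonneg _ _) (Finset.sum_nonneg fun _ _ => by positivity)

end Rect

end Crest.Agent.ParRep
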