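import Mathlib

/-!
Row 342, S0536: the abstract one-coordinate inequality used with the correlated sampler.
Finite sums only: Euclidean norm of a function, normalization with a fallback unit vector,
quadratic form of a positive contraction, pointwise bound, and its average.
-/

set_option autoImplicit false

open Matrix
open scoped ComplexOrder

namespace Crest.Agent.ParRep

section L2

variable {ι : Type*} [Fintype ι]

/-- The Euclidean norm of a function on a finite type. -/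
noncomputable def l2 (u : ι → ℂ) : ℝ := Real.sqrt (∑ i, ‖u i‖ ^ 2)

lemma l2_eq_norm (u : ι → ℂ) : l2 u = ‖(WithLp.toLp 2 u : EuclideanSpace ℂ ι)‖ := by
  rw [EuclideanSpace.norm_eq]
  rfl

lemma l2_nonneg (u : ι → ℂ) : 0 ≤ l2 u := Real.sqrt_nonneg _

lemma l2_sq (u : ι → ℂ) : l2 u ^ 2 = ∑ i, ‖u i‖ ^ 2 :=
  Real.sq_sqrt (Finset.sum_nonneg fun _ _ => by positivity)

lemma l2_add_le (u w : ι → ℂ) : l2 (u + w) ≤ l2 u + l2 w := by
  simp only [l2_eq_norm]
  rw [WithLp.toLp_add]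
  exact norm_add_le _ _

lemma l2_sub_comm (u w : ι → ℂ) : l2 (u - w) = l2 (w - u) := by
  unfold l2
  congr 1
  refine Finset.sum_congr rfl fun i _ => ?_
  simp only [Pi.sub_apply]
  rw [norm_sub_rev]

lemma l2_sub_le (u v w : ι → ℂ) : l2 (u - w) ≤ l2 (u - v) + l2 (v - w) := by
  have h : u - w = (u - v) + (v - w) := by abel
  rw [h]
  exact l2_add_le _ _

lemma l2_norm_sub_le (u w : ι → ℂ) : |l2 u - l2 w| ≤ l2 (u - w) := by
  simp only [l2_eq_norm]
  rw [WithLp.toLp_sub]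
  exact abs_norm_sub_norm_le _ _

lemma l2_smul (c : ℝ) (u : ι → ℂ) : l2 ((c : ℂ) • u) = |c| * l2 u := by
  simp only [l2_eq_norm]
  rw [WithLp.toLp_smul, norm_smul]
  simp

lemma l2_eq_zero {u : ι → ℂ} (h : l2 u = 0) : u = 0 := by
  rw [l2_eq_norm, norm_eq_zero] at h
  simpa using h

/-- Normalization, with a fallback vector `e` when `u` is zero. -/
noncomputable def hat (e u : ι → ℂ) : ι → ℂ :=
  if l2 u = 0 then e else (((l2 u)⁻¹ : ℝ) : ℂ) • u

lemma l2_hat {e : ι → ℂ} (he : l2 e = 1) (u : ι → ℂ) : l2 (hat e u) = 1 := by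
  unfold hat
  split_ifs with h
  · exact he
  · rw [l2_smul, abs_of_nonneg (inv_nonneg.2 (l2_nonneg u))]
    exact inv_mul_cancel₀ h

lemma sum_hat {e : ι → ℂ} (he : l2 e = 1) (u : ι → ℂ) : ∑ i, ‖hat e u i‖ ^ 2 = 1 := by
  rw [← l2_sq, l2_hat he, one_pow]

/-- `‖û - ŵ‖ ‖u‖ ≤ 2 ‖u - w‖`. -/
lemma hat_sub_le {e : ι → ℂ} (he : l2 e = 1) {u : ι → ℂ} (hu : l2 u ≠ 0) (w : ι → ℂ) :
    l2 (hat e u - hat e w) * l2 u ≤ 2 * l2 (u - w) := by
  by_cases hw : l2 w = 0
  · have hw0 : w = 0 := l2_eq_zero hw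
    have h1 : l2 (hat e u - hat e w) ≤ 2 := by
      have h2 : hat e u - hat e w = hat e u + ((-1 : ℝ) : ℂ) • hat e w := by
        simp [sub_eq_add_neg]
      rw [h2]
      refine (l2_add_le _ _).trans ?_
      rw [l2_smul, l2_hat he, l2_hat he]
      norm_num
    have h3 : u - w = u := by rw [hw0, sub_zero]
    rw [h3]
    exact mul_le_mul_of_nonneg_right h1 (l2_nonneg u)
  · have hupos : 0 < l2 u := lt_of_le_of_ne (l2_nonneg u) (Ne.symm hu)
    have hwpos : 0 < l2 w := lt_of_le_of_ne (l2_nonneg w) (Ne.symm hw)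
    have h0 : hat e u = (((l2 u)⁻¹ : ℝ) : ℂ) • u := by unfold hat; rw [if_neg hu]
    have h0' : hat e w = (((l2 w)⁻¹ : ℝ) : ℂ) • w := by unfold hat; rw [if_neg hw]
    have h2 : hat e u - hat e w =
        (((l2 u)⁻¹ : ℝ) : ℂ) • (u - w) + (((l2 u)⁻¹ - (l2 w)⁻¹ : ℝ) : ℂ) • w := by
      rw [h0, h0', smul_sub, Complex.ofReal_sub, sub_smul]
      abel
    have h3 : l2 (hat e u - hat e w) ≤
        (l2 u)⁻¹ * l2 (u - w) + |(l2 u)⁻¹ - (l2 w)⁻¹| * l2 w := by
      rw [h2]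
      refine (l2_add_le _ _).trans ?_
      rw [l2_smul, l2_smul, abs_of_nonneg (inv_nonneg.2 (l2_nonneg u))]
    have h4 : |(l2 u)⁻¹ - (l2 w)⁻¹| * l2 w = |l2 u - l2 w| * (l2 u)⁻¹ := by
      have : (l2 u)⁻¹ - (l2 w)⁻¹ = (l2 w - l2 u) * ((l2 u)⁻¹ * (l2 w)⁻¹) := by
        field_simp
      rw [this, abs_mul, abs_of_nonneg (by positivity : 0 ≤ (l2 u)⁻¹ * (l2 w)⁻¹), abs_sub_comm]
      field_simp
    rw [h4] at h3
    have h5 := l2_norm_sub_le u w
    calc l2 (hat e u - hat e w) * l2 u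
        ≤ ((l2 u)⁻¹ * l2 (u - w) + |l2 u - l2 w| * (l2 u)⁻¹) * l2 u :=
          mul_le_mul_of_nonneg_right h3 hupos.le
      _ = l2 (u - w) + |l2 u - l2 w| := by field_simp
      _ ≤ 2 * l2 (u - w) := by linarith

end L2

section Form

variable {ι : Type*} [Fintype ι] [DecidableEq ι]

/-- The quadratic form of a matrix on a function. -/
noncomputable def qfm (O : Matrix ι ι ℂ) (ξ : ι → ℂ) : ℝ := (dotProduct (star ξ) (O.mulVec ξ)).re

lemma qfm_nonneg {O : Matrix ι ι ℂ} (hO : O.PosSemidef) (ξ : ι → ℂ) : 0 ≤ qfm O ξ :=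
  (Complex.le_def.1 (hO.dotProduct_mulVec_nonneg ξ)).1

lemma qfm_one (ξ : ι → ℂ) : qfm (1 : Matrix ι ι ℂ) ξ = l2 ξ ^ 2 := by
  rw [l2_sq]
  simp only [qfm, one_mulVec, dotProduct, Complex.re_sum]
  refine Finset.sum_congr rfl fun i _ => ?_
  simp only [Pi.star_apply, Complex.star_def]
  rw [Complex.conj_mul']
  norm_cast

lemma qfm_sub_left (O O' : Matrix ι ι ℂ) (ξ : ι → ℂ) : qfm (O - O') ξ = qfm O ξ - qfm O' ξ := by
  simp [qfm, sub_mulVec, dotProduct_sub]

lemma qfm_le_of_contr {O : Matrix ι ι ℂ} (hO : (1 - O).PosSemidef) (ξ : ι → ℂ) :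
    qfm O ξ ≤ l2 ξ ^ 2 := by
  have := qfm_nonneg hO ξ
  rw [qfm_sub_left, qfm_one] at this
  linarith

lemma qfm_smul (O : Matrix ι ι ℂ) (c : ℝ) (ξ : ι → ℂ) : qfm O ((c : ℂ) • ξ) = c ^ 2 * qfm O ξ := by
  simp only [qfm, mulVec_smul, star_smul, smul_dotProduct, dotProduct_smul]
  simp only [Complex.star_def, Complex.conj_ofReal, smul_eq_mul]
  rw [← mul_assoc, ← Complex.ofReal_mul, Complex.re_ofReal_mul]
  ring_nf

lemma qfm_conj_eq (B : Matrix ι ι ℂ) (ξ : ι → ℂ) : qfm (Bᴴ * B) ξ = l2 (B.mulVec ξ) ^ 2 := by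
  rw [l2_sq]
  have h : dotProduct (star ξ) ((Bᴴ * B).mulVec ξ) =
      dotProduct (star (B.mulVec ξ)) (B.mulVec ξ) := by
    rw [← mulVec_mulVec, dotProduct_mulVec, star_mulVec]
  unfold qfm
  rw [h]
  simp only [dotProduct, Complex.re_sum]
  refine Finset.sum_congr rfl fun i _ => ?_
  simp only [Pi.star_apply, Complex.star_def]
  rw [Complex.conj_mul']
  norm_cast

open scoped MatrixOrder in
lemma exists_factor {O : Matrix ι ι ℂ} (hO : O.PosSemidef) : ∃ B : Matrix ι ι ℂ, O = Bᴴ * B := by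
  have h0 : 0 ≤ O := hO.nonneg
  have h1 : (CFC.sqrt O).PosSemidef := (CFC.sqrt_nonneg O).posSemidef
  refine ⟨CFC.sqrt O, ?_⟩
  rw [h1.1.eq]
  exact (CFC.sqrt_mul_sqrt_self O h0).symm

/-- For a positive contraction, on unit vectors: `q u ≤ q w + 4 ‖u - w‖`. -/
lemma qfm_unit_le {O : Matrix ι ι ℂ} (hO : O.PosSemidef) (hO1 : (1 - O).PosSemidef)
    {u w : ι → ℂ} (hu : l2 u = 1) (hw : l2 w = 1) :
    qfm O u ≤ qfm O w + 4 * l2 (u - w) := by
  have hd : l2 (u - w) ≤ 2 := by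
    have h2 : u - w = u + ((-1 : ℝ) : ℂ) • w := by
      simp [sub_eq_add_neg]
    rw [h2]
    refine (l2_add_le _ _).trans ?_
    rw [l2_smul, hu, hw]
    norm_num
  have hd0 : 0 ≤ l2 (u - w) := l2_nonneg _
  have hw1 : qfm O w ≤ 1 := by simpa [hw] using qfm_le_of_contr hO1 w
  have hd1 : qfm O (u - w) ≤ l2 (u - w) ^ 2 := qfm_le_of_contr hO1 _
  obtain ⟨B, rfl⟩ := exists_factor hO
  rw [qfm_conj_eq] at hw1 hd1 ⊢
  rw [qfm_conj_eq]
  have h1 : l2 (B.mulVec u) ≤ l2 (B.mulVec w) + l2 (B.mulVec (u - w)) := by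
    have : B.mulVec u = B.mulVec w + B.mulVec (u - w) := by
      rw [← mulVec_add]; congr 1; abel
    rw [this]
    have h3 := l2_add_le (B.mulVec w) (B.mulVec (u - w))
    rwa [← this] at h3 ⊢
  set a := l2 (B.mulVec u)
  set b := l2 (B.mulVec w)
  set c := l2 (B.mulVec (u - w))
  set d := l2 (u - w)
  have ha : 0 ≤ a := l2_nonneg _
  have hb : 0 ≤ b := l2_nonneg _
  have hc : 0 ≤ c := l2_nonneg _
  have hb1 : b ≤ 1 := by nlinarith
  have hcd : c ≤ d := by nlinarith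
  have h5 : a ^ 2 ≤ (b + d) ^ 2 := by
    have : a ≤ b + d := by linarith
    exact pow_le_pow_left₀ ha this 2
  nlinarith

end Form

section Average

variable {X Y ι : Type*} [Fintype X] [Fintype Y] [Fintype ι] [DecidableEq ι]

/-- The pointwise bound of a coordinate with a sampled strategy value `val`. -/
lemma pointwise_bound {O : Matrix ι ι ℂ} (hO : O.PosSemidef) (hO1 : (1 - O).PosSemidef)
    {e T A B : ι → ℂ} (he : l2 e = 1) {val c c' d : ℝ} (hc' : 0 ≤ c')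
    (hS : qfm O (hat e A) - (c + c' * l2 (hat e A - hat e B)) ≤ val)
    (hdA : l2 (T - A) ≤ d) (hdB : l2 (T - B) ≤ d) :
    qfm O T ≤ l2 T ^ 2 * (val + c) + l2 T * ((4 * c' + 8) * d) := by
  by_cases hT : l2 T = 0
  · have hT0 : T = 0 := l2_eq_zero hT
    have : qfm O T = 0 := by simp [qfm, hT0]
    rw [this, hT]
    simp
  have hTpos : 0 < l2 T := lt_of_le_of_ne (l2_nonneg T) (Ne.symm hT)
  -- `T = ‖T‖ T̂`
  have hTeq : T = ((l2 T : ℝ) : ℂ) • hat e T := by
    unfold hat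
    rw [if_neg hT, smul_smul, ← Complex.ofReal_mul, mul_inv_cancel₀ hT]
    simp
  have h1 : qfm O T = l2 T ^ 2 * qfm O (hat e T) := by
    conv_lhs => rw [hTeq]
    rw [qfm_smul]
  have hTA := hat_sub_le he hT A
  have hTB := hat_sub_le he hT B
  have h2 := qfm_unit_le hO hO1 (l2_hat he T) (l2_hat he A)
  have h3 : l2 (hat e A - hat e B) ≤ l2 (hat e T - hat e A) + l2 (hat e T - hat e B) := by
    have := l2_sub_le (hat e A) (hat e T) (hat e B)
    rwa [l2_sub_comm (hat e A) (hat e T)] at this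
  set a := l2 (hat e T - hat e A)
  set b := l2 (hat e T - hat e B)
  set s := l2 T
  have ha : 0 ≤ a := l2_nonneg _
  have hb : 0 ≤ b := l2_nonneg _
  have h4 : a * s ≤ 2 * d := hTA.trans (by linarith)
  have h5 : b * s ≤ 2 * d := hTB.trans (by linarith)
  have h6 : qfm O (hat e T) ≤ val + c + c' * (a + b) + 4 * a := by
    have := mul_le_mul_of_nonneg_left h3 hc'
    linarith
  rw [h1]
  have h7 : s ^ 2 * qfm O (hat e T) ≤ s ^ 2 * (val + c + c' * (a + b) + 4 * a) :=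
    mul_le_mul_of_nonneg_left h6 (by positivity)
  have h8 : s * (c' * (a + b) + 4 * a) ≤ (4 * c' + 8) * d := by
    have h9 : c' * (a * s + b * s) ≤ c' * (4 * d) := mul_le_mul_of_nonneg_left (by linarith) hc'
    nlinarith
  have h10 : s * (s * (c' * (a + b) + 4 * a)) ≤ s * ((4 * c' + 8) * d) :=
    mul_le_mul_of_nonneg_left h8 hTpos.le
  nlinarith

/-- The average over the questions. -/
theorem coord_average [DecidableEq X] [DecidableEq Y] {π : X → Y → ℝ} (hπ : ∀ x y, 0 ≤ π x y)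

    {O : X → Y → Matrix ι ι ℂ} (hO : ∀ x y, (O x y).PosSemidef) (hO1 : ∀ x y, (1 - O x y).PosSemidef)
    {e : ι → ℂ} (he : l2 e = 1) {T : X → Y → ι → ℂ} {A : X → ι → ℂ} {B : Y → ι → ℂ}
    {val : X → Y → ℝ} {c c' v : ℝ} (hc' : 0 ≤ c')
    (hval0 : ∀ x y, 0 ≤ val x y) (hval1 : ∀ x y, val x y ≤ 1)
    (hvalv : ∑ x, ∑ y, π x y * val x y ≤ v)
    (hS : ∀ x y, qfm (O x y) (hat e (A x)) - (c + c' * l2 (hat e (A x) - hat e (B y))) ≤ val x y) :
    let N : ℝ := ∑ x, ∑ y, π x y * l2 (T x y) ^ 2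
    let V : ℝ := ∑ x, ∑ y, π x y * (l2 (T x y - A x) ^ 2 + l2 (T x y - B y) ^ 2)
    ∑ x, ∑ y, π x y * qfm (O x y) (T x y) ≤
      N * (v + c) + (∑ x, ∑ y, π x y * |l2 (T x y) ^ 2 - N|) + (4 * c' + 8) * Real.sqrt (N * V) := by
  intro N V
  set d : X → Y → ℝ := fun x y => Real.sqrt (l2 (T x y - A x) ^ 2 + l2 (T x y - B y) ^ 2) with hd
  have hd2 : ∀ x y, d x y ^ 2 = l2 (T x y - A x) ^ 2 + l2 (T x y - B y) ^ 2 :=
    fun x y => Real.sq_sqrt (by positivity)
  have hdA : ∀ x y, l2 (T x y - A x) ≤ d x y := fun x y =>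
    Real.le_sqrt_of_sq_le (by nlinarith [sq_nonneg (l2 (T x y - B y))])
  have hdB : ∀ x y, l2 (T x y - B y) ≤ d x y := fun x y =>
    Real.le_sqrt_of_sq_le (by nlinarith [sq_nonneg (l2 (T x y - A x))])
  have hpt := fun x y => pointwise_bound (hO x y) (hO1 x y) he hc' (hS x y) (hdA x y) (hdB x y)
  -- Cauchy-Schwarz
  have hN0 : 0 ≤ N := Finset.sum_nonneg fun x _ => Finset.sum_nonneg fun y _ =>
    mul_nonneg (hπ x y) (by positivity)
  have hV0 : 0 ≤ V := Finset.sum_nonneg fun x _ => Finset.sum_nonneg fun y _ =>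
    mul_nonneg (hπ x y) (by positivity)
  have hCS : ∑ x, ∑ y, π x y * (l2 (T x y) * d x y) ≤ Real.sqrt (N * V) := by
    apply Real.le_sqrt_of_sq_le
    rw [← Finset.sum_product' (f := fun x y => π x y * (l2 (T x y) * d x y))]
    have h := Finset.sum_mul_sq_le_sq_mul_sq (Finset.univ ×ˢ Finset.univ : Finset (X × Y))
      (fun p => Real.sqrt (π p.1 p.2) * l2 (T p.1 p.2))
      (fun p => Real.sqrt (π p.1 p.2) * d p.1 p.2)
    have e1 : ∀ p : X × Y, Real.sqrt (π p.1 p.2) * l2 (T p.1 p.2) *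
        (Real.sqrt (π p.1 p.2) * d p.1 p.2) = π p.1 p.2 * (l2 (T p.1 p.2) * d p.1 p.2) := by
      intro p
      have := Real.mul_self_sqrt (hπ p.1 p.2)
      calc _ = (Real.sqrt (π p.1 p.2) * Real.sqrt (π p.1 p.2)) * (l2 (T p.1 p.2) * d p.1 p.2) := by
            ring
        _ = _ := by rw [this]
    have e2 : ∀ p : X × Y, (Real.sqrt (π p.1 p.2) * l2 (T p.1 p.2)) ^ 2
        = π p.1 p.2 * l2 (T p.1 p.2) ^ 2 := by
      intro p
      rw [mul_pow, Real.sq_sqrt (hπ p.1 p.2)]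
    have e3 : ∀ p : X × Y, (Real.sqrt (π p.1 p.2) * d p.1 p.2) ^ 2
        = π p.1 p.2 * (l2 (T p.1 p.2 - A p.1) ^ 2 + l2 (T p.1 p.2 - B p.2) ^ 2) := by
      intro p
      rw [mul_pow, Real.sq_sqrt (hπ p.1 p.2), hd2]
    simp only [e1, e2, e3] at h
    rw [Finset.sum_product' (f := fun x y => π x y * l2 (T x y) ^ 2),
      Finset.sum_product' (f := fun x y =>
        π x y * (l2 (T x y - A x) ^ 2 + l2 (T x y - B y) ^ 2))] at h
    exact h
  -- the value term
  have hval : ∑ x, ∑ y, π x y * (l2 (T x y) ^ 2 * val x y) ≤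
      N * v + ∑ x, ∑ y, π x y * |l2 (T x y) ^ 2 - N| := by
    have h1 : ∀ x y, π x y * (l2 (T x y) ^ 2 * val x y) ≤
        N * (π x y * val x y) + π x y * |l2 (T x y) ^ 2 - N| := by
      intro x y
      have h2 : l2 (T x y) ^ 2 - N ≤ |l2 (T x y) ^ 2 - N| := le_abs_self _
      have h3 : (l2 (T x y) ^ 2 - N) * val x y ≤ |l2 (T x y) ^ 2 - N| := by
        have h4 : 0 ≤ |l2 (T x y) ^ 2 - N| := abs_nonneg _
        calc (l2 (T x y) ^ 2 - N) * val x y ≤ |l2 (T x y) ^ 2 - N| * val x y :=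
              mul_le_mul_of_nonneg_right h2 (hval0 x y)
          _ ≤ |l2 (T x y) ^ 2 - N| * 1 := mul_le_mul_of_nonneg_left (hval1 x y) h4
          _ = _ := mul_one _
      have h5 := mul_le_mul_of_nonneg_left h3 (hπ x y)
      nlinarith
    calc _ ≤ ∑ x, ∑ y, (N * (π x y * val x y) + π x y * |l2 (T x y) ^ 2 - N|) :=
          Finset.sum_le_sum fun x _ => Finset.sum_le_sum fun y _ => h1 x y
      _ = N * (∑ x, ∑ y, π x y * val x y) + ∑ x, ∑ y, π x y * |l2 (T x y) ^ 2 - N| := by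
          simp only [Finset.sum_add_distrib, Finset.mul_sum]
      _ ≤ N * v + _ := by
          have := mul_le_mul_of_nonneg_left hvalv hN0
          linarith
  -- assemble
  have hc1 : 0 ≤ 4 * c' + 8 := by linarith
  calc ∑ x, ∑ y, π x y * qfm (O x y) (T x y)
      ≤ ∑ x, ∑ y, π x y * (l2 (T x y) ^ 2 * (val x y + c) + l2 (T x y) * ((4 * c' + 8) * d x y)) :=
        Finset.sum_le_sum fun x _ => Finset.sum_le_sum fun y _ =>
          mul_le_mul_of_nonneg_left (hpt x y) (hπ x y)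
    _ = (∑ x, ∑ y, π x y * (l2 (T x y) ^ 2 * val x y)) + N * c +
          (4 * c' + 8) * ∑ x, ∑ y, π x y * (l2 (T x y) * d x y) := by
        simp only [N, Finset.mul_sum, Finset.sum_mul, ← Finset.sum_add_distrib]
        refine Finset.sum_congr rfl fun x _ => Finset.sum_congr rfl fun y _ => ?_
        ring
    _ ≤ (N * v + ∑ x, ∑ y, π x y * |l2 (T x y) ^ 2 - N|) + N * c +
          (4 * c' + 8) * Real.sqrt (N * V) := by
        have := mul_le_mul_of_nonneg_left hCS hc1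
        linarith
    _ = _ := by ring

end Average

section Core

open Finset

/-- Cauchy-Schwarz for a sum of square roots. -/
lemma sum_sqrt_le' {ι : Type*} [Fintype ι] (V : ι → ℝ) (hV : ∀ j, 0 ≤ V j) :
    ∑ j, Real.sqrt (V j) ≤ Real.sqrt ((Fintype.card ι : ℝ) * ∑ j, V j) := by
  apply Real.le_sqrt_of_sq_le
  have := sq_sum_le_card_mul_sum_sq (s := (Finset.univ : Finset ι)) (f := fun j => Real.sqrt (V j))
  simp only [Finset.card_univ] at this
  calc (∑ j, Real.sqrt (V j)) ^ 2 ≤ (Fintype.card ι : ℝ) * ∑ j, Real.sqrt (V j) ^ 2 := this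
    _ = (Fintype.card ι : ℝ) * ∑ j, V j := by
        congr 1
        exact Finset.sum_congr rfl fun j _ => Real.sq_sqrt (hV j)

/-- One grid, S0536: per-coordinate bounds to the summed bound. -/
lemma step536_core_grid {m : ℕ} {N u v c C e : ℝ} (hN : 0 < N) (hC : 0 ≤ C)
    {Win V TV : Fin m → ℝ} (hV : ∀ j, 0 ≤ V j)
    (hWin : ∀ j, Win j ≤ N * (v + c) + 2 * N * TV j + C * Real.sqrt (N * V j))
    (hTV : ∑ j, TV j ≤ Real.sqrt (m * u))
    (hChain : ∑ j, V j ≤ 2 * (N * u) + m * (N * e)) :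
    ∑ j, Win j ≤ m * N * (v + c) + N * (2 * Real.sqrt (m * u)
      + C * Real.sqrt (m * (2 * u + m * e))) := by
  have h1 : ∑ j, Win j ≤ ∑ j, (N * (v + c) + 2 * N * TV j + C * Real.sqrt (N * V j)) :=
    Finset.sum_le_sum fun j _ => hWin j
  have h2 : ∑ j, Real.sqrt (N * V j) ≤ N * Real.sqrt (m * (2 * u + m * e)) := by
    have h3 := sum_sqrt_le' (fun j : Fin m => N * V j) (fun j => mul_nonneg hN.le (hV j))
    simp only [Fintype.card_fin] at h3
    refine h3.trans ?_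
    have h4 : (m : ℝ) * ∑ j, N * V j ≤ N ^ 2 * (m * (2 * u + m * e)) := by
      rw [← Finset.mul_sum]
      have h5 := mul_le_mul_of_nonneg_left hChain hN.le
      have hm : (0 : ℝ) ≤ m := m.cast_nonneg
      have h6 := mul_le_mul_of_nonneg_left h5 hm
      calc (m : ℝ) * (N * ∑ j, V j) ≤ _ := h6
        _ = _ := by ring
    refine (Real.sqrt_le_sqrt h4).trans ?_
    rw [Real.sqrt_mul (by positivity), Real.sqrt_sq hN.le]
  rw [Finset.sum_add_distrib, Finset.sum_add_distrib] at h1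
  simp only [Finset.sum_const, Finset.card_univ, Fintype.card_fin, nsmul_eq_mul] at h1
  rw [← Finset.mul_sum, ← Finset.mul_sum] at h1
  have h7 := mul_le_mul_of_nonneg_left hTV (by positivity : 0 ≤ 2 * N)
  have h8 := mul_le_mul_of_nonneg_left h2 hC
  calc ∑ j, Win j ≤ _ := h1
    _ ≤ (m : ℝ) * (N * (v + c)) + 2 * N * Real.sqrt (m * u) +
          C * (N * Real.sqrt (m * (2 * u + m * e))) := by linarith
    _ = _ := by ring

/-- The limit `e → 0`, `η → 0`, in the form used by `StepBound`. -/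
lemma step536_core_limit {m : ℕ} {N u v c C W : ℝ} (hC : 0 ≤ C) (hu : 0 ≤ u) (hN : 0 < N)
    (hm : 1 ≤ m)
    (h : ∀ e : ℝ, 0 < e → W ≤ m * N * (v + (c + e)) + N * (2 * Real.sqrt (m * u)
      + C * Real.sqrt (m * (2 * u + m * e)))) :
    W ≤ m * N * (v + (c + (2 + 2 * C) * Real.sqrt (u / m))) := by
  have hm' : (0 : ℝ) < m := by exact_mod_cast hm
  have hcont : Filter.Tendsto (fun e : ℝ => (m : ℝ) * N * (v + (c + e)) + N * (2 * Real.sqrt (m * u)
      + C * Real.sqrt (m * (2 * u + m * e)))) (nhdsWithin 0 (Set.Ioi 0))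
      (nhds ((m : ℝ) * N * (v + (c + 0)) + N * (2 * Real.sqrt (m * u)
      + C * Real.sqrt (m * (2 * u + m * 0))))) := by
    apply Filter.Tendsto.mono_left _ nhdsWithin_le_nhds
    apply Continuous.tendsto
    fun_prop
  have hlim : W ≤ (m : ℝ) * N * (v + (c + 0)) + N * (2 * Real.sqrt (m * u)
      + C * Real.sqrt (m * (2 * u + m * 0))) :=
    ge_of_tendsto hcont (by
      filter_upwards [self_mem_nhdsWithin] with e he using h e he)
  refine hlim.trans ?_
  have hs : Real.sqrt (m * u) = m * Real.sqrt (u / m) := by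
    have : (m : ℝ) * u = m ^ 2 * (u / m) := by field_simp
    rw [this, Real.sqrt_mul (by positivity), Real.sqrt_sq hm'.le]
  have hs2 : Real.sqrt (m * (2 * u + m * 0)) ≤ 2 * (m * Real.sqrt (u / m)) := by
    rw [← hs]
    have h4 : (m : ℝ) * (2 * u + m * 0) ≤ 2 ^ 2 * (m * u) := by
      have : 0 ≤ (m : ℝ) * u := by positivity
      nlinarith
    calc _ ≤ Real.sqrt (2 ^ 2 * (m * u)) := Real.sqrt_le_sqrt h4
      _ = _ := by rw [Real.sqrt_mul (by positivity), Real.sqrt_sq (by norm_num)]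
  rw [hs]
  have h5 := mul_le_mul_of_nonneg_left hs2 hC
  have h6 := mul_le_mul_of_nonneg_left h5 hN.le
  nlinarith

end Core

end Crest.Agent.ParRep
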