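/-
Row 342 (S0536, S0537): threshold recursion, pure real analysis (step (5) of finding #1280).
From the abstract recursion `Π_{r+1} ≤ Π_r (v + A + B √((log(1/Π_r) + r L)/(k-r)))` to the exponential bound.
-/
import Mathlib

namespace Crest.Agent.ParRep

open Real

/-- `y log(1/y) ≤ 1/e < 2/3` -/
lemma mul_log_one_div_le {y : ℝ} (hy : 0 < y) : y * log (1 / y) ≤ 2 / 3 := by
  have hz : 0 < 1 / y := by positivity
  have he : (0:ℝ) < exp 1 := exp_pos _
  have h1 : log (1 / y / exp 1) ≤ 1 / y / exp 1 - 1 :=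
    log_le_sub_one_of_pos (by positivity)
  rw [log_div hz.ne' he.ne', log_exp] at h1
  have h2 : log (1 / y) ≤ 1 / y / exp 1 := by linarith
  have h3 : y * log (1 / y) ≤ y * (1 / y / exp 1) := mul_le_mul_of_nonneg_left h2 hy.le
  have h4 : y * (1 / y / exp 1) = 1 / exp 1 := by field_simp
  have h5 : (2.7:ℝ) < exp 1 := by
    have := Real.exp_one_gt_d9
    linarith
  have h6 : 1 / exp 1 ≤ 2 / 3 := by
    rw [div_le_div_iff₀ he (by norm_num)]
    linarith
  linarith

/-- The threshold recursion. -/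
theorem threshold_real
    {k : ℕ} (hk : 1 ≤ k) {v δ A B L U p : ℝ} (hv : 0 ≤ v) (hδ : 0 < δ) (hδv : v + δ < 1)
    (hL : 0 ≤ L) (hU0 : 0 ≤ U) (hUk : U ≤ δ ^ 2 * k / 4)
    (hUbound : ∀ u m : ℝ, u ≤ U → 3 * k / 4 ≤ m → A + B * sqrt (u / m) ≤ δ / 2)
    (Pi : ℕ → ℝ) (hPi0 : Pi 0 = 1) (hPinn : ∀ r, 0 ≤ Pi r)
    (hPimono : ∀ r, r < k → Pi (r + 1) ≤ Pi r)
    (hPirec : ∀ r : ℕ, r < k → 0 < Pi r →
      Pi (r + 1) ≤ Pi r * (v + A + B * sqrt ((log (1 / Pi r) + r * L) / ((k : ℝ) - r))))
    (hpt : ∀ t : ℕ, t ≤ k → ∀ c : ℝ, 0 ≤ c → c ≤ (v + δ) - t / k → p * c ^ t ≤ Pi t)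
    (hp1 : p * (v + δ) ≤ Pi 1) :
    p ≤ exp (-(U * δ / (16 * (1 + L)))) := by
  have hkpos : (0:ℝ) < k := by exact_mod_cast hk
  set θ' : ℝ := v + δ / 2 with hθ'
  set θ : ℝ := v + δ with hθ
  set θ'' : ℝ := v + 3 * δ / 4 with hθ''
  have hδ1 : δ < 1 := by linarith
  have hθ'pos : 0 < θ' := by positivity
  have hθ'lt : θ' < 1 := by rw [hθ']; linarith
  have hθ''pos : 0 < θ'' := by positivity
  have hθpos : 0 < θ := by positivity
  have hlogθ' : δ / 2 ≤ log (1 / θ') := by
    have h1 : log θ' ≤ θ' - 1 := log_le_sub_one_of_pos hθ'pos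
    rw [one_div, log_inv]
    have : θ' ≤ 1 - δ / 2 := by rw [hθ']; linarith
    linarith
  set Λ : ℝ := L + log (1 / θ') with hΛ
  have hΛpos : δ / 2 ≤ Λ := by rw [hΛ]; linarith
  have hΛpos' : 0 < Λ := by linarith [half_pos hδ]
  set x : ℝ := U / (2 * Λ) with hx
  have hx0 : 0 ≤ x := by positivity
  set t : ℕ := ⌊x⌋₊ with ht
  have htx : (t : ℝ) ≤ x := Nat.floor_le hx0
  have hxU : x ≤ U / δ := by
    rw [hx]
    apply div_le_div_of_nonneg_left hU0 hδ
    linarith
  have hUδ : U / δ ≤ δ * k / 4 := by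
    rw [div_le_iff₀ hδ]
    nlinarith
  have htk : (t : ℝ) ≤ δ * k / 4 := by linarith
  have htk' : (t : ℝ) ≤ k / 4 := by nlinarith
  have hxΛ : x * Λ = U / 2 := by
    rw [hx]; field_simp
  -- bound for all `r ≤ t`
  have hclaim : ∀ r : ℕ, r ≤ t → Pi r ≤ θ' ^ r := by
    intro r
    induction r with
    | zero => intro _; simp [hPi0]
    | succ r ih =>
      intro hr
      have hrt : r ≤ t := by omega
      have ih' := ih hrt
      have hrR : ((r : ℝ) + 1) ≤ t := by exact_mod_cast hr
      have hrR' : (r : ℝ) ≤ t := by exact_mod_cast hrt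
      have hrk : r < k := by
        have : (r : ℝ) + 1 ≤ k / 4 := by linarith
        have h2 : (r : ℝ) + 1 ≤ k := by linarith
        have h3 : r + 1 ≤ k := by exact_mod_cast h2
        omega
      have hpowpos : 0 < θ' ^ (r + 1) := by positivity
      rcases (hPinn r).eq_or_lt with h0 | hpos
      · have := hPimono r hrk
        rw [← h0] at this
        linarith
      · by_cases hu : log (1 / Pi r) + r * L ≤ U
        · have hm : 3 * (k : ℝ) / 4 ≤ (k : ℝ) - r := by linarith
          have h1 := hUbound _ _ hu hm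
          have h2 := hPirec r hrk hpos
          have h3 : v + A + B * sqrt ((log (1 / Pi r) + r * L) / ((k : ℝ) - r)) ≤ θ' := by
            rw [hθ']; linarith
          calc Pi (r + 1) ≤ _ := h2
            _ ≤ Pi r * θ' := mul_le_mul_of_nonneg_left h3 hpos.le
            _ ≤ θ' ^ r * θ' := mul_le_mul_of_nonneg_right ih' hθ'pos.le
            _ = θ' ^ (r + 1) := by ring
        · push Not at hu
          have h1 : log (Pi r) < r * L - U := by
            rw [one_div, log_inv] at hu
            linarith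
          have h2 : (r + 1 : ℝ) * Λ ≤ U / 2 := by
            calc (r + 1 : ℝ) * Λ ≤ x * Λ := by
                  apply mul_le_mul_of_nonneg_right _ hΛpos'.le
                  linarith
              _ = U / 2 := hxΛ
          have h3 : r * L - U ≤ ((r + 1 : ℕ) : ℝ) * log θ' := by
            have hlog : log (1 / θ') = - log θ' := by rw [one_div, log_inv]
            rw [hΛ, hlog] at h2
            push_cast
            nlinarith
          have h4 : log (Pi r) ≤ log (θ' ^ (r + 1)) := by
            rw [log_pow]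
            linarith
          have h5 : Pi r ≤ θ' ^ (r + 1) := (log_le_log_iff hpos hpowpos).1 h4
          linarith [hPimono r hrk]
  have hk1 : (1:ℝ) ≤ k := by exact_mod_cast hk
  -- case analysis on x
  by_cases hx1 : 1 ≤ x
  · -- t ≥ 1
    have ht1 : 1 ≤ t := by
      rw [ht]
      exact Nat.le_floor (by simpa using hx1)
    have ht1R : (1:ℝ) ≤ t := by exact_mod_cast ht1
    have htx2 : x / 2 ≤ t := by
      have : x < t + 1 := Nat.lt_floor_add_one x
      linarith
    have htkN : t ≤ k := by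
      have h2 : (t : ℝ) ≤ k := by linarith
      exact_mod_cast h2
    have hc : θ'' ≤ (v + δ) - t / k := by
      have : (t : ℝ) / k ≤ δ / 4 := by
        rw [div_le_iff₀ hkpos]
        linarith
      rw [hθ'']; linarith
    have h1 := hpt t htkN θ'' hθ''pos.le hc
    have h2 := hclaim t le_rfl
    have h3 : p * θ'' ^ t ≤ θ' ^ t := by linarith
    have hqdef : θ' / θ'' = 1 - (δ / 4) / θ'' := by
      field_simp
      rw [hθ', hθ'']
      ring
    have hq0 : 0 ≤ θ' / θ'' := by positivity
    have h4 : p ≤ (θ' / θ'') ^ t := by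
      rw [div_pow, le_div_iff₀ (by positivity)]
      exact h3
    have h5 : θ' / θ'' ≤ exp (-((δ / 4) / θ'')) := by
      rw [hqdef]
      have := add_one_le_exp (-((δ / 4) / θ''))
      linarith
    have h6 : (θ' / θ'') ^ t ≤ exp (-((δ / 4) / θ'')) ^ t := pow_le_pow_left₀ hq0 h5 t
    have h7 : exp (-((δ / 4) / θ'')) ^ t = exp (-(t * ((δ / 4) / θ''))) := by
      rw [← exp_nat_mul]
      congr 1
      ring
    refine h4.trans (h6.trans ?_)
    rw [h7]
    apply exp_le_exp.2
    apply neg_le_neg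
    -- main inequality : U δ / (16 (1+L)) ≤ t (δ/4)/θ''
    have hΛθ : Λ * θ'' ≤ 1 + L := by
      have h8 : θ'' ≤ 1 := by rw [hθ'']; linarith
      have h9 : θ'' ≤ 3 / 2 * θ' := by rw [hθ'', hθ']; linarith
      have h10 := mul_log_one_div_le hθ'pos
      have hlogpos : 0 ≤ log (1 / θ') := by linarith [half_pos hδ]
      have h11 : θ'' * log (1 / θ') ≤ 3 / 2 * θ' * log (1 / θ') :=
        mul_le_mul_of_nonneg_right h9 hlogpos
      have h12 : θ'' * L ≤ L := by nlinarith
      rw [hΛ]
      nlinarith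
    have h13 : U / (4 * Λ) ≤ t := by
      have : x / 2 = U / (4 * Λ) := by rw [hx]; field_simp; ring
      linarith
    have hLp : 0 < 1 + L := by linarith
    calc U * δ / (16 * (1 + L)) ≤ U * δ / (16 * (Λ * θ'')) := by
          apply div_le_div_of_nonneg_left (by positivity) (by positivity)
          linarith
      _ = (U / (4 * Λ)) * ((δ / 4) / θ'') := by
          field_simp
          ring
      _ ≤ t * ((δ / 4) / θ'') := by
          apply mul_le_mul_of_nonneg_right h13 (by positivity)
  · -- t = 0 : Markov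
    push Not at hx1
    have hU2 : U < 2 * Λ := by
      have := (div_lt_one (by positivity : 0 < 2 * Λ)).1 hx1
      exact this
    have h1 := hPirec 0 (by omega) (by rw [hPi0]; norm_num)
    have h2 := hUbound 0 k hU0 (by linarith)
    simp only [hPi0, one_mul, one_div, inv_one, log_one, Nat.cast_zero, zero_mul, add_zero,
      sub_zero, zero_add, zero_div, Real.sqrt_zero, mul_zero] at h1 h2
    have h3 : Pi 1 ≤ θ' := by
      rw [hθ']
      linarith
    have h4 : p * θ ≤ θ' := by linarith
    have h5 : p ≤ θ' / θ := by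
      rw [le_div_iff₀ hθpos]; exact h4
    have hqdef : θ' / θ = 1 - (δ / 2) / θ := by
      field_simp
      rw [hθ', hθ]
      ring
    have h6 : θ' / θ ≤ exp (-((δ / 2) / θ)) := by
      rw [hqdef]
      have := add_one_le_exp (-((δ / 2) / θ))
      linarith
    refine h5.trans (h6.trans ?_)
    apply exp_le_exp.2
    apply neg_le_neg
    have hΛθ : Λ * θ ≤ 4 / 3 + L := by
      have h8 : θ ≤ 1 := by rw [hθ]; linarith
      have h9' : θ ≤ 2 * θ' := by rw [hθ, hθ']; linarith
      have h10 := mul_log_one_div_le hθ'pos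
      have hlogpos : 0 ≤ log (1 / θ') := by linarith [half_pos hδ]
      have h11 : θ * log (1 / θ') ≤ 2 * θ' * log (1 / θ') :=
        mul_le_mul_of_nonneg_right h9' hlogpos
      have h12 : θ * L ≤ L := by nlinarith
      rw [hΛ]
      nlinarith
    have hLp : 0 < 1 + L := by linarith
    have hUθ : U * θ ≤ 8 * (1 + L) := by
      have : U * θ ≤ 2 * Λ * θ := mul_le_mul_of_nonneg_right hU2.le hθpos.le
      nlinarith
    rw [div_le_div_iff₀ (by positivity) hθpos]
    nlinarith [mul_le_mul_of_nonneg_left hUθ hδ.le]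

end Crest.Agent.ParRep
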