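/-
Row 342 (S0536, S0537): step (5) of finding #1280. From the per-set inequality to the exponential
bound, abstract in the function `w T = P(all coordinates of T won)`.
-/
import Crest.Agent.Lib.ParRep.ThresholdReal

set_option autoImplicit false

namespace Crest.Agent.ParRep

open Real Finset

/-- Jensen for the square root with a probability vector `q`. -/
lemma sum_mul_sqrt_le {I : Type*} (s : Finset I) (q z : I → ℝ) (hq : ∀ i ∈ s, 0 ≤ q i)
    (hq1 : ∑ i ∈ s, q i = 1) (hz : ∀ i ∈ s, 0 ≤ z i) :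
    ∑ i ∈ s, q i * sqrt (z i) ≤ sqrt (∑ i ∈ s, q i * z i) := by
  have h := strictConcaveOn_sqrt.concaveOn.le_map_sum (t := s) (w := q) (p := z) hq hq1
    (fun i hi => hz i hi)
  simpa [smul_eq_mul] using h

/-- Entropy bound: `∑ q_i log (1/N_i) ≤ log (C/p)` with `q_i = pr_i N_i / p`. -/
lemma sum_mul_log_le {I : Type*} (s : Finset I) (pr N : I → ℝ) (hpr : ∀ i ∈ s, 0 ≤ pr i)
    (hN : ∀ i ∈ s, 0 ≤ N i) (hp : 0 < ∑ i ∈ s, pr i * N i) {C : ℝ} (hC : ∑ i ∈ s, pr i ≤ C) :
    (∑ i ∈ s, pr i * N i * log (1 / N i)) ≤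
      (∑ i ∈ s, pr i * N i) * log (C / ∑ i ∈ s, pr i * N i) := by
  set p := ∑ i ∈ s, pr i * N i with hpdef
  have hCpos : 0 < C := by
    have h0 : 0 < ∑ i ∈ s, pr i := by
      by_contra hcon
      push Not at hcon
      have h00 : ∑ i ∈ s, pr i = 0 :=
        le_antisymm hcon (Finset.sum_nonneg hpr)
      have h01 := (Finset.sum_eq_zero_iff_of_nonneg hpr).1 h00
      have : p = 0 := Finset.sum_eq_zero fun i hi => by rw [h01 i hi, zero_mul]
      linarith
    linarith
  have key : ∀ i ∈ s, pr i * N i * log (1 / N i) ≤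
      pr i * N i * log (C / p) + (p / C * pr i - pr i * N i) := by
    intro i hi
    rcases (hN i hi).eq_or_lt with h0 | hpos
    · rw [← h0]
      have := mul_nonneg (div_pos hp hCpos).le (hpr i hi)
      simpa using this
    · have h1 : log (p / (C * N i)) ≤ p / (C * N i) - 1 :=
        log_le_sub_one_of_pos (by positivity)
      have h2 : log (p / (C * N i)) = log (1 / N i) - log (C / p) := by
        rw [log_div hp.ne' (by positivity), log_mul hCpos.ne' hpos.ne', log_div one_ne_zero hpos.ne',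
          log_div hCpos.ne' hp.ne', log_one]
        ring
      have h3 : 0 ≤ pr i * N i := mul_nonneg (hpr i hi) hpos.le
      have h4 := mul_le_mul_of_nonneg_left h1 h3
      rw [h2] at h4
      have h5 : pr i * N i * (p / (C * N i) - 1) = p / C * pr i - pr i * N i := by
        field_simp
      rw [h5] at h4
      nlinarith
  calc ∑ i ∈ s, pr i * N i * log (1 / N i)
      ≤ ∑ i ∈ s, (pr i * N i * log (C / p) + (p / C * pr i - pr i * N i)) :=
        Finset.sum_le_sum key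
    _ = p * log (C / p) + (p / C * ∑ i ∈ s, pr i - p) := by
        rw [Finset.sum_add_distrib, ← Finset.sum_mul, Finset.sum_sub_distrib, ← Finset.mul_sum]
    _ ≤ p * log (C / p) := by
        have h6 : p / C * ∑ i ∈ s, pr i ≤ p / C * C :=
          mul_le_mul_of_nonneg_left hC (by positivity)
        have h7 : p / C * C = p := by field_simp
        linarith

/-- The combined Jensen step: with `pr, N ≥ 0`, `N ≤ 1`, `c ≥ 0`, `m > 0`,
`∑ pr_i N_i √((log (1/N_i) + c)/m) ≤ p √((log (C/p) + c)/m)` with `p = ∑ pr_i N_i`, `C ≥ ∑ pr_i`. -/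
theorem sum_mul_sqrt_log_le {I : Type*} (s : Finset I) (pr N : I → ℝ) (hpr : ∀ i ∈ s, 0 ≤ pr i)
    (hN : ∀ i ∈ s, 0 ≤ N i) (hN1 : ∀ i ∈ s, N i ≤ 1) (hp : 0 < ∑ i ∈ s, pr i * N i) {C c m : ℝ}
    (hC : ∑ i ∈ s, pr i ≤ C) (hc : 0 ≤ c) (hm : 0 < m) :
    (∑ i ∈ s, pr i * N i * sqrt ((log (1 / N i) + c) / m)) ≤
      (∑ i ∈ s, pr i * N i) * sqrt ((log (C / ∑ i ∈ s, pr i * N i) + c) / m) := by
  set p := ∑ i ∈ s, pr i * N i with hpdef
  set q : I → ℝ := fun i => pr i * N i / p with hq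
  have hq0 : ∀ i ∈ s, 0 ≤ q i := fun i hi =>
    div_nonneg (mul_nonneg (hpr i hi) (hN i hi)) hp.le
  have hq1 : ∑ i ∈ s, q i = 1 := by
    rw [hq, ← Finset.sum_div, div_self hp.ne']
  have hz : ∀ i ∈ s, 0 ≤ (log (1 / N i) + c) / m := by
    intro i hi
    have hlog : 0 ≤ log (1 / N i) := by
      rcases (hN i hi).eq_or_lt with h0 | hpos
      · rw [← h0]; simp
      · rw [one_div, log_inv]
        have := log_nonpos hpos.le (hN1 i hi)
        linarith
    positivity
  have h1 := sum_mul_sqrt_le s q _ hq0 hq1 hz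
  have h2 : ∑ i ∈ s, pr i * N i * sqrt ((log (1 / N i) + c) / m) =
      p * ∑ i ∈ s, q i * sqrt ((log (1 / N i) + c) / m) := by
    rw [Finset.mul_sum]
    refine Finset.sum_congr rfl fun i _ => ?_
    rw [hq]
    field_simp
  rw [h2]
  refine mul_le_mul_of_nonneg_left (h1.trans ?_) hp.le
  apply sqrt_le_sqrt
  have h3 : ∑ i ∈ s, q i * ((log (1 / N i) + c) / m) =
      ((∑ i ∈ s, pr i * N i * log (1 / N i)) / p + c) / m := by
    have : ∀ i ∈ s, q i * ((log (1 / N i) + c) / m) =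
        (pr i * N i * log (1 / N i) / p + q i * c) / m := by
      intro i _
      rw [hq]
      field_simp
    rw [Finset.sum_congr rfl this, ← Finset.sum_div, Finset.sum_add_distrib, ← Finset.sum_div,
      ← Finset.sum_mul, hq1, one_mul]
  rw [h3]
  apply div_le_div_of_nonneg_right _ hm.le
  have h4 := sum_mul_log_le s pr N hpr hN hp hC
  have h5 : (∑ i ∈ s, pr i * N i * log (1 / N i)) / p ≤ log (C / p) := by
    rw [div_le_iff₀ hp]
    linarith
  linarith

/-- Double counting of chains. -/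
lemma sum_powersetCard_insert {k : ℕ} (w : Finset (Fin k) → ℝ) (r : ℕ) :
    ∑ T ∈ powersetCard r (univ : Finset (Fin k)), ∑ j ∈ Tᶜ, w (insert j T) =
      (r + 1 : ℝ) * ∑ T ∈ powersetCard (r + 1) (univ : Finset (Fin k)), w T := by
  rw [Finset.sum_sigma', Finset.mul_sum]
  have hcard : ∀ T ∈ powersetCard (r + 1) (univ : Finset (Fin k)),
      (r + 1 : ℝ) * w T = ∑ j ∈ T, w T := by
    intro T hT
    rw [Finset.sum_const, (mem_powersetCard.1 hT).2, nsmul_eq_mul]
    push_cast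
    ring
  rw [Finset.sum_congr rfl hcard, Finset.sum_sigma']
  refine Finset.sum_bij' (fun x _ => ⟨insert x.2 x.1, x.2⟩) (fun x _ => ⟨x.1.erase x.2, x.2⟩)
    ?_ ?_ ?_ ?_ ?_
  · rintro ⟨T, j⟩ h
    simp only [mem_sigma, mem_powersetCard, subset_univ, true_and, mem_compl] at h ⊢
    refine ⟨?_, mem_insert_self _ _⟩
    rw [card_insert_of_notMem h.2, h.1]
  · rintro ⟨T, j⟩ h
    simp only [mem_sigma, mem_powersetCard, subset_univ, true_and, mem_compl] at h ⊢
    refine ⟨?_, notMem_erase _ _⟩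
    rw [card_erase_of_mem h.2, h.1]
    rfl
  · rintro ⟨T, j⟩ h
    simp only [mem_sigma, mem_powersetCard, subset_univ, true_and, mem_compl] at h
    simp [erase_insert h.2]
  · rintro ⟨T, j⟩ h
    simp only [mem_sigma, mem_powersetCard, subset_univ, true_and] at h
    simp [insert_erase h.2]
  · rintro ⟨T, j⟩ _
    rfl

/-- The threshold theorem, abstract in `w T = P(all coordinates of T won)`. -/
theorem threshold_abstract {k : ℕ} (hk : 1 ≤ k) {v δ A B L U p : ℝ} (hv : 0 ≤ v) (hδ : 0 < δ)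
    (hδv : v + δ < 1) (hL : 0 ≤ L) (hU0 : 0 ≤ U) (hUk : U ≤ δ ^ 2 * k / 4) (hB : 0 ≤ B)
    (hUbound : ∀ u m : ℝ, u ≤ U → 3 * k / 4 ≤ m → A + B * sqrt (u / m) ≤ δ / 2)
    (w : Finset (Fin k) → ℝ) (hw0 : ∀ T, 0 ≤ w T) (hw1 : ∀ T, w T ≤ 1) (hwe : w ∅ = 1)
    (hwmono : ∀ T j, w (insert j T) ≤ w T)
    (hstep : ∀ T : Finset (Fin k), T.card < k → 0 < w T →
      ∑ j ∈ Tᶜ, w (insert j T) ≤ ((k : ℝ) - T.card) * w T *
        (v + A + B * sqrt ((log (1 / w T) + T.card * L) / ((k : ℝ) - T.card))))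
    (hp : ∀ t : ℕ, t ≤ k → ∀ c : ℝ, 0 ≤ c → c ≤ (v + δ) - t / k →
      p * c ^ t * (k.choose t : ℝ) ≤ ∑ T ∈ powersetCard t (univ : Finset (Fin k)), w T)
    (hp1 : p * (v + δ) * k ≤ ∑ T ∈ powersetCard 1 (univ : Finset (Fin k)), w T) :
    p ≤ exp (-(U * δ / (16 * (1 + L)))) := by
  have hkpos : (0:ℝ) < k := by exact_mod_cast hk
  set Pi : ℕ → ℝ := fun r =>
    (∑ T ∈ powersetCard r (univ : Finset (Fin k)), w T) / (k.choose r : ℝ) with hPi
  have hchpos : ∀ r, r ≤ k → (0:ℝ) < (k.choose r : ℝ) := fun r hr => by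
    exact_mod_cast Nat.choose_pos hr
  have hPinn : ∀ r, 0 ≤ Pi r := fun r =>
    div_nonneg (Finset.sum_nonneg fun T _ => hw0 T) (Nat.cast_nonneg _)
  have hPi0 : Pi 0 = 1 := by
    simp [hPi, hwe]
  -- the chain identity
  have hchain : ∀ r, r < k →
      Pi (r + 1) * ((k.choose r : ℝ) * ((k : ℝ) - r)) =
        ∑ T ∈ powersetCard r (univ : Finset (Fin k)), ∑ j ∈ Tᶜ, w (insert j T) := by
    intro r hr
    rw [sum_powersetCard_insert]
    have h1 : ((k.choose (r + 1) : ℝ)) * (r + 1) = (k.choose r : ℝ) * ((k : ℝ) - r) := by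
      have := Nat.choose_succ_right_eq k r
      have h2 : ((k.choose (r + 1) * (r + 1) : ℕ) : ℝ) = ((k.choose r * (k - r) : ℕ) : ℝ) := by
        rw [this]
      push_cast [Nat.cast_sub hr.le] at h2
      linarith
    rw [← h1, hPi]
    have := hchpos (r + 1) hr
    simp only
    field_simp
  have hcardc : ∀ T : Finset (Fin k), (Tᶜ.card : ℝ) = (k : ℝ) - T.card := by
    intro T
    rw [Finset.card_compl, Fintype.card_fin, Nat.cast_sub (Finset.card_le_univ T |>.trans_eq
      (Fintype.card_fin k))]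
  have hmono : ∀ r, r < k → Pi (r + 1) ≤ Pi r := by
    intro r hr
    have hr' : (0:ℝ) < (k : ℝ) - r := by
      have : (r : ℝ) < k := by exact_mod_cast hr
      linarith
    have hc := hchpos r hr.le
    have h1 := hchain r hr
    have h2 : ∑ T ∈ powersetCard r (univ : Finset (Fin k)), ∑ j ∈ Tᶜ, w (insert j T) ≤
        ∑ T ∈ powersetCard r (univ : Finset (Fin k)), ((k : ℝ) - r) * w T := by
      refine Finset.sum_le_sum fun T hT => ?_
      have hTc := (mem_powersetCard.1 hT).2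
      calc ∑ j ∈ Tᶜ, w (insert j T) ≤ ∑ _j ∈ Tᶜ, w T := Finset.sum_le_sum fun j _ => hwmono T j
        _ = ((k : ℝ) - r) * w T := by
            rw [Finset.sum_const, nsmul_eq_mul, hcardc, hTc]
    have h3 : Pi r * ((k.choose r : ℝ) * ((k : ℝ) - r)) =
        ∑ T ∈ powersetCard r (univ : Finset (Fin k)), ((k : ℝ) - r) * w T := by
      rw [← Finset.mul_sum, hPi]
      simp only
      field_simp
    have h4 : Pi (r + 1) * ((k.choose r : ℝ) * ((k : ℝ) - r)) ≤
        Pi r * ((k.choose r : ℝ) * ((k : ℝ) - r)) := by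
      rw [h1, h3]; exact h2
    exact le_of_mul_le_mul_right h4 (by positivity)
  have hrec : ∀ r : ℕ, r < k → 0 < Pi r →
      Pi (r + 1) ≤ Pi r * (v + A + B * sqrt ((log (1 / Pi r) + r * L) / ((k : ℝ) - r))) := by
    intro r hr hPos
    have hr' : (0:ℝ) < (k : ℝ) - r := by
      have : (r : ℝ) < k := by exact_mod_cast hr
      linarith
    have hc := hchpos r hr.le
    set s := powersetCard r (univ : Finset (Fin k)) with hs
    set Z : ℝ := (k.choose r : ℝ) with hZ
    -- per-`T` inequality, also in the degenerate case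
    have hper : ∀ T ∈ s, ∑ j ∈ Tᶜ, w (insert j T) ≤ ((k : ℝ) - r) *
        (w T * (v + A) + B * (w T * sqrt ((log (1 / w T) + r * L) / ((k : ℝ) - r)))) := by
      intro T hT
      have hTc := (mem_powersetCard.1 hT).2
      rcases (hw0 T).eq_or_lt with h0 | hpos
      · have : ∑ j ∈ Tᶜ, w (insert j T) ≤ 0 := by
          refine Finset.sum_nonpos fun j _ => ?_
          have := hwmono T j
          linarith
        rw [← h0]
        simpa using this
      · have := hstep T (by rw [hTc]; exact hr) hpos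
        rw [hTc] at this
        calc _ ≤ _ := this
          _ = _ := by ring
    -- `pr = 1/Z`
    have hsum : Pi r = ∑ T ∈ s, (1 / Z) * w T := by
      have h0 : Pi r = (∑ T ∈ s, w T) / Z := rfl
      rw [h0, ← Finset.mul_sum]
      ring
    have hJ := sum_mul_sqrt_log_le s (fun _ => 1 / Z) w (fun _ _ => by positivity)
      (fun T _ => hw0 T) (fun T _ => hw1 T) (by rw [← hsum]; exact hPos)
      (C := 1) (c := r * L) (m := (k : ℝ) - r)
      (by
        rw [Finset.sum_const, hs, card_powersetCard, card_univ, Fintype.card_fin, nsmul_eq_mul]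
        rw [← hZ]
        field_simp
        exact le_rfl)
      (by positivity) hr'
    rw [← hsum] at hJ
    have hch := hchain r hr
    have h1 : Pi (r + 1) * (Z * ((k : ℝ) - r)) ≤ ∑ T ∈ s, ((k : ℝ) - r) *
        (w T * (v + A) + B * (w T * sqrt ((log (1 / w T) + r * L) / ((k : ℝ) - r)))) := by
      rw [hch]
      exact Finset.sum_le_sum hper
    have h2 : ∑ T ∈ s, ((k : ℝ) - r) *
        (w T * (v + A) + B * (w T * sqrt ((log (1 / w T) + r * L) / ((k : ℝ) - r)))) =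
        ((k : ℝ) - r) * Z * (Pi r * (v + A) + B *
          ∑ T ∈ s, (1 / Z) * w T * sqrt ((log (1 / w T) + r * L) / ((k : ℝ) - r))) := by
      rw [hsum, Finset.sum_mul, Finset.mul_sum, ← Finset.sum_add_distrib,
        Finset.mul_sum]
      refine Finset.sum_congr rfl fun T _ => ?_
      field_simp
    rw [h2] at h1
    have h3 : Pi (r + 1) ≤ Pi r * (v + A) + B *
        ∑ T ∈ s, (1 / Z) * w T * sqrt ((log (1 / w T) + r * L) / ((k : ℝ) - r)) := by
      have hpos : 0 < ((k : ℝ) - r) * Z := by positivity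
      have h4 : Pi (r + 1) * (((k : ℝ) - r) * Z) ≤
          (Pi r * (v + A) + B *
            ∑ T ∈ s, (1 / Z) * w T * sqrt ((log (1 / w T) + r * L) / ((k : ℝ) - r))) *
              (((k : ℝ) - r) * Z) := by
        calc _ = Pi (r + 1) * (Z * ((k : ℝ) - r)) := by ring
          _ ≤ _ := h1
          _ = _ := by ring
      exact le_of_mul_le_mul_right h4 hpos
    have h5 := mul_le_mul_of_nonneg_left hJ hB
    calc Pi (r + 1) ≤ _ := h3
      _ ≤ Pi r * (v + A) + B * (Pi r * sqrt ((log (1 / Pi r) + r * L) / ((k : ℝ) - r))) := by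
          linarith
      _ = _ := by ring
  have hpt : ∀ t : ℕ, t ≤ k → ∀ c : ℝ, 0 ≤ c → c ≤ (v + δ) - t / k → p * c ^ t ≤ Pi t := by
    intro t ht c hc0 hc
    have h1 := hp t ht c hc0 hc
    have h2 := hchpos t ht
    rw [hPi]
    simp only
    rw [le_div_iff₀ h2]
    exact h1
  have hp1' : p * (v + δ) ≤ Pi 1 := by
    rw [hPi]
    simp only
    rw [Nat.choose_one_right, le_div_iff₀ hkpos]
    exact hp1
  exact threshold_real hk hv hδ hδv hL hU0 hUk hUbound Pi hPi0 hPinn hmono hrec hpt hp1'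

/-- The form requested in #1324: `F u m = c₀ + c₁ √(u/m)`, `c₀ ≤ δ/4`, `c₁ ≥ 1`. -/
theorem threshold_c0c1 {k : ℕ} (hk : 1 ≤ k) {v δ c₀ c₁ L p : ℝ} (hv : 0 ≤ v) (hδ : 0 < δ)
    (hδv : v + δ < 1) (hL : 0 ≤ L) (hc₀ : c₀ ≤ δ / 4) (hc₁ : 1 ≤ c₁)
    (w : Finset (Fin k) → ℝ) (hw0 : ∀ T, 0 ≤ w T) (hw1 : ∀ T, w T ≤ 1) (hwe : w ∅ = 1)
    (hwmono : ∀ T j, w (insert j T) ≤ w T)
    (hstep : ∀ T : Finset (Fin k), T.card < k → 0 < w T →
      ∑ j ∈ Tᶜ, w (insert j T) ≤ ((k : ℝ) - T.card) * w T *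
        (v + c₀ + c₁ * sqrt ((log (1 / w T) + T.card * L) / ((k : ℝ) - T.card))))
    (hp : ∀ t : ℕ, t ≤ k → ∀ c : ℝ, 0 ≤ c → c ≤ (v + δ) - t / k →
      p * c ^ t * (k.choose t : ℝ) ≤ ∑ T ∈ powersetCard t (univ : Finset (Fin k)), w T)
    (hp1 : p * (v + δ) * k ≤ ∑ T ∈ powersetCard 1 (univ : Finset (Fin k)), w T) :
    p ≤ exp (-(3 * δ ^ 3 * k / (1024 * c₁ ^ 2 * (1 + L)))) := by
  have hkpos : (0:ℝ) < k := by exact_mod_cast hk
  have hc₁pos : 0 < c₁ := by linarith
  set U : ℝ := 3 * δ ^ 2 * k / (64 * c₁ ^ 2) with hU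
  have hU0 : 0 ≤ U := by positivity
  have hUk : U ≤ δ ^ 2 * k / 4 := by
    rw [hU, div_le_div_iff₀ (by positivity) (by norm_num)]
    have h1 : (1:ℝ) ≤ c₁ ^ 2 := by nlinarith
    have h2 : 0 ≤ δ ^ 2 * (k : ℝ) := by positivity
    nlinarith [mul_le_mul_of_nonneg_left h1 h2]
  have hUbound : ∀ u m : ℝ, u ≤ U → 3 * k / 4 ≤ m → c₀ + c₁ * sqrt (u / m) ≤ δ / 2 := by
    intro u m hu hm
    have hmpos : 0 < m := by
      have : 0 < 3 * (k : ℝ) / 4 := by positivity
      linarith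
    have h1 : u / m ≤ (δ / (4 * c₁)) ^ 2 := by
      rw [div_le_iff₀ hmpos]
      have h2 : U = (δ / (4 * c₁)) ^ 2 * (3 * k / 4) := by
        rw [hU]; field_simp; ring
      calc u ≤ U := hu
        _ = (δ / (4 * c₁)) ^ 2 * (3 * k / 4) := h2
        _ ≤ (δ / (4 * c₁)) ^ 2 * m := mul_le_mul_of_nonneg_left hm (by positivity)
    have h3 : sqrt (u / m) ≤ δ / (4 * c₁) := by
      apply (sqrt_le_sqrt h1).trans
      rw [sqrt_sq (by positivity)]
    have h4 : c₁ * sqrt (u / m) ≤ δ / 4 := by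
      calc c₁ * sqrt (u / m) ≤ c₁ * (δ / (4 * c₁)) := mul_le_mul_of_nonneg_left h3 hc₁pos.le
        _ = δ / 4 := by field_simp
    linarith
  have h := threshold_abstract hk hv hδ hδv hL hU0 hUk (by linarith) hUbound w hw0 hw1 hwe hwmono
    hstep hp hp1
  refine h.trans_eq ?_
  congr 2
  rw [hU]
  field_simp
  ring

end Crest.Agent.ParRep
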