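import Crest.Agent.Lib.ParRep.Condition
import Crest.Agent.Lib.ParRep.Threshold

/-!
Row 342: from a rectangle bound `StepBound` with `F u m = c₀ + c₁ √(u / m)` to the exponential bound on
the probability of winning at least `(v + δ) k` of `k` repetitions: the end of the whole argument.
-/

set_option autoImplicit false

open Crest.MathPhysics.NonlocalGame

namespace Crest.Agent.ParRep

variable {G : Game} {k dA dB : ℕ}

/-- A lower bound on binomial coefficients. -/
theorem choose_lower {W k t : ℕ} {c : ℝ} (ht : t ≤ k) (hc0 : 0 ≤ c)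
    (hc : c * k ≤ (W : ℝ) - t) : c ^ t * (k.choose t : ℝ) ≤ (W.choose t : ℝ) := by
  have hk0 : (0 : ℝ) ≤ k := Nat.cast_nonneg _
  have hWt : t ≤ W := by
    have h1 : (t : ℝ) ≤ W := by nlinarith [mul_nonneg hc0 hk0]
    exact_mod_cast h1
  have key : ∀ s : ℕ, s ≤ t → c ^ s * (k.choose s : ℝ) ≤ (W.choose s : ℝ) := by
    intro s
    induction s with
    | zero => intro _; simp
    | succ s ih =>
      intro hs
      have hIH := ih (by omega)
      have hsk : s ≤ k := by omega
      have hsW : s ≤ W := by omega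
      have e1 : ((k.choose (s + 1) : ℕ) : ℝ) * ((s : ℝ) + 1) = (k.choose s : ℝ) * ((k : ℝ) - s) := by
        have := Nat.choose_succ_right_eq k s
        have h2 : ((k.choose (s + 1) * (s + 1) : ℕ) : ℝ) = ((k.choose s * (k - s) : ℕ) : ℝ) := by
          rw [this]
        push_cast [Nat.cast_sub hsk] at h2
        exact h2
      have e2 : ((W.choose (s + 1) : ℕ) : ℝ) * ((s : ℝ) + 1) = (W.choose s : ℝ) * ((W : ℝ) - s) := by
        have := Nat.choose_succ_right_eq W s
        have h2 : ((W.choose (s + 1) * (s + 1) : ℕ) : ℝ) = ((W.choose s * (W - s) : ℕ) : ℝ) := by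
          rw [this]
        push_cast [Nat.cast_sub hsW] at h2
        exact h2
      have hspos : (0 : ℝ) < (s : ℝ) + 1 := by positivity
      refine le_of_mul_le_mul_right ?_ hspos
      rw [mul_assoc, e1, e2]
      have hs' : (s : ℝ) + 1 ≤ t := by exact_mod_cast hs
      have hsnn : (0 : ℝ) ≤ s := Nat.cast_nonneg _
      have hkt : (s : ℝ) ≤ k := by exact_mod_cast hsk
      have h3 : c * ((k : ℝ) - s) ≤ (W : ℝ) - s := by nlinarith [mul_nonneg hc0 hsnn]
      have h4 : 0 ≤ c * ((k : ℝ) - s) := mul_nonneg hc0 (by linarith)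
      have h5 : 0 ≤ c ^ s * (k.choose s : ℝ) := mul_nonneg (pow_nonneg hc0 _) (Nat.cast_nonneg _)
      calc c ^ (s + 1) * ((k.choose s : ℝ) * ((k : ℝ) - s))
          = (c ^ s * (k.choose s : ℝ)) * (c * ((k : ℝ) - s)) := by ring
        _ ≤ (W.choose s : ℝ) * ((W : ℝ) - s) :=
          mul_le_mul hIH h3 h4 (Nat.cast_nonneg _)
  exact key t le_rfl

/-- A Markov-type bound: the probability of winning many coordinates against `winProb`. -/
theorem prob_mul_le_sum_winProb (S : Strategy G k dA dB) (hk : 1 ≤ k) {θ c : ℝ} {t : ℕ}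
    (ht : t ≤ k) (hc0 : 0 ≤ c) (hc : c ≤ θ - t / k) :
    S.probWinsAtLeast (θ * k) * c ^ t * (k.choose t : ℝ)
      ≤ ∑ T ∈ Finset.powersetCard t Finset.univ, winProb S T := by
  have hkpos : (0 : ℝ) < k := by exact_mod_cast hk
  rw [sum_winProb_powersetCard, mul_assoc]
  unfold Strategy.probWinsAtLeast
  rw [Finset.sum_mul]
  refine Finset.sum_le_sum fun x _ => ?_
  rw [Finset.sum_mul]
  refine Finset.sum_le_sum fun y _ => ?_
  rw [mul_assoc]
  refine mul_le_mul_of_nonneg_left ?_ (prod_prob_nonneg G x y)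
  rw [Finset.sum_mul]
  refine Finset.sum_le_sum fun a _ => ?_
  rw [Finset.sum_mul]
  refine Finset.sum_le_sum fun b _ => ?_
  have hA := answerProb_nonneg S x y a b
  split_ifs with hW
  · have h1 : c * k ≤ (wins G k x y a b : ℝ) - t := by
      have h2 : c * k ≤ (θ - t / k) * k := mul_le_mul_of_nonneg_right hc hkpos.le
      have h3 : (θ - t / k) * k = θ * k - t := by
        field_simp
      linarith
    have h4 := choose_lower ht hc0 h1
    calc S.answerProb x y a b * (c ^ t * (k.choose t : ℝ))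
        ≤ S.answerProb x y a b * ((wins G k x y a b).choose t : ℝ) :=
          mul_le_mul_of_nonneg_left h4 hA
      _ = _ := mul_comm _ _
  · rw [zero_mul]
    exact mul_nonneg (Nat.cast_nonneg _) hA

/-- The case `t = 1`, without a loss. -/
theorem prob_mul_le_sum_winProb_one (S : Strategy G k dA dB) {θ : ℝ} :
    S.probWinsAtLeast (θ * k) * θ * k
      ≤ ∑ T ∈ Finset.powersetCard 1 Finset.univ, winProb S T := by
  rw [sum_winProb_powersetCard, mul_assoc]
  unfold Strategy.probWinsAtLeast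
  rw [Finset.sum_mul]
  refine Finset.sum_le_sum fun x _ => ?_
  rw [Finset.sum_mul]
  refine Finset.sum_le_sum fun y _ => ?_
  rw [mul_assoc]
  refine mul_le_mul_of_nonneg_left ?_ (prod_prob_nonneg G x y)
  rw [Finset.sum_mul]
  refine Finset.sum_le_sum fun a _ => ?_
  rw [Finset.sum_mul]
  refine Finset.sum_le_sum fun b _ => ?_
  have hA := answerProb_nonneg S x y a b
  rw [Nat.choose_one_right]
  split_ifs with hW
  · rw [mul_comm]
    exact mul_le_mul_of_nonneg_right hW hA
  · rw [zero_mul]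
    exact mul_nonneg (Nat.cast_nonneg _) hA

/-- The function `u ↦ c₀ + c₁ √(u / m)` is concave. -/
theorem concaveOn_add_sqrt (c₀ : ℝ) {c₁ : ℝ} (hc₁ : 0 ≤ c₁) (m : ℕ) :
    ConcaveOn ℝ (Set.Ici 0) (fun u : ℝ => c₀ + c₁ * √(u / m)) := by
  refine ⟨convex_Ici 0, ?_⟩
  intro x hx y hy a b ha hb hab
  have hm : (0 : ℝ) ≤ m := Nat.cast_nonneg _
  have hx' : (0 : ℝ) ≤ x / m := div_nonneg hx hm
  have hy' : (0 : ℝ) ≤ y / m := div_nonneg hy hm
  have h1 := Real.strictConcaveOn_sqrt.concaveOn.2 (Set.mem_Ici.2 hx') (Set.mem_Ici.2 hy') ha hb hab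
  simp only [smul_eq_mul] at h1 ⊢
  have h2 : (a * x + b * y) / m = a * (x / m) + b * (y / m) := by ring
  rw [h2]
  have h3 := mul_le_mul_of_nonneg_left h1 hc₁
  have e : a * (c₀ + c₁ * √(x / m)) + b * (c₀ + c₁ * √(y / m))
      = (a + b) * c₀ + c₁ * (a * √(x / m) + b * √(y / m)) := by ring
  rw [e, hab, one_mul]
  linarith

/-- The function `u ↦ c₀ + c₁ √(u / m)` is monotone. -/
theorem monotoneOn_add_sqrt (c₀ : ℝ) {c₁ : ℝ} (hc₁ : 0 ≤ c₁) (m : ℕ) :
    MonotoneOn (fun u : ℝ => c₀ + c₁ * √(u / m)) (Set.Ici 0) := by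
  intro x _ y _ hxy
  have hm : (0 : ℝ) ≤ m := Nat.cast_nonneg _
  have h1 : x / m ≤ y / m := div_le_div_of_nonneg_right hxy hm
  have h2 := mul_le_mul_of_nonneg_left (Real.sqrt_le_sqrt h1) hc₁
  simp only
  linarith

/-- **The end of the argument.** A rectangle bound with `F u m = c₀ + c₁ √(u / m)` gives the
exponential bound. -/
theorem exp_bound_of_stepBound {v δ c₀ c₁ : ℝ} (hv : 0 ≤ v) (hδ : 0 < δ) (hδv : v + δ < 1)
    (hc₀ : c₀ ≤ δ / 4) (hc₁ : 1 ≤ c₁) (hStep : StepBound G v (fun u m => c₀ + c₁ * √(u / m)))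
    (S : Strategy G k dA dB) (hk : 1 ≤ k) :
    S.probWinsAtLeast ((v + δ) * k)
      ≤ Real.exp (-(3 * δ ^ 3 * k / (1024 * c₁ ^ 2 * (1 + Real.log ((G.nA * G.nB : ℕ) : ℝ))))) := by
  have hc₁0 : 0 ≤ c₁ := by linarith
  have hL : (0 : ℝ) ≤ Real.log ((G.nA * G.nB : ℕ) : ℝ) := Real.log_natCast_nonneg _
  refine threshold_c0c1 hk hv hδ hδv hL hc₀ hc₁ (winProb S) (winProb_nonneg S) (winProb_le_one S)
    (winProb_empty S) (fun T j => winProb_anti S (Finset.subset_insert j T)) ?_ ?_ ?_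
  · intro T hT hp
    have h := sum_insert_le hStep (fun m => concaveOn_add_sqrt c₀ hc₁0 m)
      (fun m => monotoneOn_add_sqrt c₀ hc₁0 m) S T hT hp
    have e : ((k - T.card : ℕ) : ℝ) = (k : ℝ) - T.card := by
      rw [Nat.cast_sub hT.le]
    simp only [e] at h
    have e2 : Real.log ((G.nA * G.nB : ℕ) : ℝ) = Real.log ((G.nA : ℝ) * G.nB) := by
      rw [Nat.cast_mul]
    rw [e2]
    refine h.trans (le_of_eq ?_)
    ring
  · intro t ht c hc0 hc
    exact prob_mul_le_sum_winProb S hk ht hc0 hc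
  · exact prob_mul_le_sum_winProb_one S

end Crest.Agent.ParRep
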