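import Crest.Prelude.Def_NonlocalGame

/-!
# Repeat-until-accept strategies (row 342, correlated sampler)

Generic entangled strategies over arbitrary finite registers, one "trial" step:
`w_{new} ≥ s + τ w_{old}`.
-/

set_option autoImplicit false

open scoped Kronecker ComplexOrder
open Matrix

namespace Crest.Agent.ParRep.Sampler

section Form

variable {Ha Hb Ta Tb : Type} [Fintype Ha] [Fintype Hb] [Fintype Ta] [Fintype Tb]
  [DecidableEq Ha] [DecidableEq Hb] [DecidableEq Ta] [DecidableEq Tb]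

/-- the complex value `⟨ψ, (M ⊗ N) ψ⟩` -/
noncomputable def cform (ψ : Ha × Hb → ℂ) (M : Matrix Ha Ha ℂ) (N : Matrix Hb Hb ℂ) : ℂ :=
  star ψ ⬝ᵥ ((M ⊗ₖ N) *ᵥ ψ)

/-- the real value `Re ⟨ψ, (M ⊗ N) ψ⟩` -/
noncomputable def form (ψ : Ha × Hb → ℂ) (M : Matrix Ha Ha ℂ) (N : Matrix Hb Hb ℂ) : ℝ :=
  (cform ψ M N).re

theorem cform_nonneg (ψ : Ha × Hb → ℂ) {M : Matrix Ha Ha ℂ} {N : Matrix Hb Hb ℂ}
    (hM : M.PosSemidef) (hN : N.PosSemidef) : 0 ≤ cform ψ M N :=
  (hM.kronecker hN).dotProduct_mulVec_nonneg ψ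

theorem form_nonneg (ψ : Ha × Hb → ℂ) {M : Matrix Ha Ha ℂ} {N : Matrix Hb Hb ℂ}
    (hM : M.PosSemidef) (hN : N.PosSemidef) : 0 ≤ form ψ M N :=
  (Complex.le_def.mp (cform_nonneg ψ hM hN)).1

theorem cform_eq_form (ψ : Ha × Hb → ℂ) {M : Matrix Ha Ha ℂ} {N : Matrix Hb Hb ℂ}
    (hM : M.PosSemidef) (hN : N.PosSemidef) : cform ψ M N = (form ψ M N : ℂ) := by
  have h := Complex.le_def.mp (cform_nonneg ψ hM hN)
  apply Complex.ext
  · simp [form]
  · simp [← h.2]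

theorem cform_add_left (ψ : Ha × Hb → ℂ) (M M' : Matrix Ha Ha ℂ) (N : Matrix Hb Hb ℂ) :
    cform ψ (M + M') N = cform ψ M N + cform ψ M' N := by
  simp [cform, add_kronecker, add_mulVec, dotProduct_add]

theorem cform_add_right (ψ : Ha × Hb → ℂ) (M : Matrix Ha Ha ℂ) (N N' : Matrix Hb Hb ℂ) :
    cform ψ M (N + N') = cform ψ M N + cform ψ M N' := by
  simp [cform, kronecker_add, add_mulVec, dotProduct_add]

theorem form_add_left (ψ : Ha × Hb → ℂ) (M M' : Matrix Ha Ha ℂ) (N : Matrix Hb Hb ℂ) :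
    form ψ (M + M') N = form ψ M N + form ψ M' N := by
  simp [form, cform_add_left]

theorem form_add_right (ψ : Ha × Hb → ℂ) (M : Matrix Ha Ha ℂ) (N N' : Matrix Hb Hb ℂ) :
    form ψ M (N + N') = form ψ M N + form ψ M N' := by
  simp [form, cform_add_right]

theorem cform_sum_left {γ : Type} (s : Finset γ) (ψ : Ha × Hb → ℂ) (M : γ → Matrix Ha Ha ℂ)
    (N : Matrix Hb Hb ℂ) : cform ψ (∑ c ∈ s, M c) N = ∑ c ∈ s, cform ψ (M c) N := by
  classical
  induction s using Finset.induction_on with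
  | empty => simp [cform]
  | insert a s ha ih => rw [Finset.sum_insert ha, Finset.sum_insert ha, cform_add_left, ih]

theorem cform_sum_right {γ : Type} (s : Finset γ) (ψ : Ha × Hb → ℂ) (M : Matrix Ha Ha ℂ)
    (N : γ → Matrix Hb Hb ℂ) : cform ψ M (∑ c ∈ s, N c) = ∑ c ∈ s, cform ψ M (N c) := by
  classical
  induction s using Finset.induction_on with
  | empty => simp [cform]
  | insert a s ha ih => rw [Finset.sum_insert ha, Finset.sum_insert ha, cform_add_right, ih]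

theorem form_sum_left {γ : Type} (s : Finset γ) (ψ : Ha × Hb → ℂ) (M : γ → Matrix Ha Ha ℂ)
    (N : Matrix Hb Hb ℂ) : form ψ (∑ c ∈ s, M c) N = ∑ c ∈ s, form ψ (M c) N := by
  simp [form, cform_sum_left]

theorem form_sum_right {γ : Type} (s : Finset γ) (ψ : Ha × Hb → ℂ) (M : Matrix Ha Ha ℂ)
    (N : γ → Matrix Hb Hb ℂ) : form ψ M (∑ c ∈ s, N c) = ∑ c ∈ s, form ψ M (N c) := by
  simp [form, cform_sum_right]

/-- the tensor product of two states -/
def tensorState (Υ : Ta × Tb → ℂ) (ψ : Ha × Hb → ℂ) : (Ta × Ha) × (Tb × Hb) → ℂ :=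
  fun p => Υ (p.1.1, p.2.1) * ψ (p.1.2, p.2.2)

theorem cform_expand (ψ : Ha × Hb → ℂ) (M : Matrix Ha Ha ℂ) (N : Matrix Hb Hb ℂ) :
    cform ψ M N = ∑ i, ∑ j, ∑ k, ∑ l, star (ψ (i, j)) * (M i k * N j l * ψ (k, l)) := by
  simp only [cform, dotProduct, mulVec, Fintype.sum_prod_type, Pi.star_apply, kroneckerMap_apply,
    Finset.mul_sum]

theorem cform_tensor (Υ : Ta × Tb → ℂ) (ψ : Ha × Hb → ℂ) (M₁ : Matrix Ta Ta ℂ)
    (M : Matrix Ha Ha ℂ) (N₁ : Matrix Tb Tb ℂ) (N : Matrix Hb Hb ℂ) :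
    cform (tensorState Υ ψ) (M₁ ⊗ₖ M) (N₁ ⊗ₖ N) = cform Υ M₁ N₁ * cform ψ M N := by
  rw [cform_expand, cform_expand, cform_expand]
  simp only [Fintype.sum_prod_type]
  have key : ∀ (i₁ : Ta) (i : Ha) (j₁ : Tb) (j : Hb) (k₁ : Ta) (k : Ha) (l₁ : Tb) (l : Hb),
      star (tensorState Υ ψ ((i₁, i), (j₁, j))) *
        ((M₁ ⊗ₖ M) (i₁, i) (k₁, k) * (N₁ ⊗ₖ N) (j₁, j) (l₁, l) * tensorState Υ ψ ((k₁, k), (l₁, l)))
      = (star (Υ (i₁, j₁)) * (M₁ i₁ k₁ * N₁ j₁ l₁ * Υ (k₁, l₁))) *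
        (star (ψ (i, j)) * (M i k * N j l * ψ (k, l))) := by
    intro i₁ i j₁ j k₁ k l₁ l
    simp only [tensorState, kroneckerMap_apply, star_mul']
    ring
  simp only [key]
  simp only [← Finset.sum_mul_sum]

theorem form_tensor (Υ : Ta × Tb → ℂ) (ψ : Ha × Hb → ℂ) {M₁ : Matrix Ta Ta ℂ}
    {M : Matrix Ha Ha ℂ} {N₁ : Matrix Tb Tb ℂ} {N : Matrix Hb Hb ℂ}
    (hM₁ : M₁.PosSemidef) (hN₁ : N₁.PosSemidef) (hM : M.PosSemidef) (hN : N.PosSemidef) :
    form (tensorState Υ ψ) (M₁ ⊗ₖ M) (N₁ ⊗ₖ N) = form Υ M₁ N₁ * form ψ M N := by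
  rw [form, cform_tensor, cform_eq_form Υ hM₁ hN₁, cform_eq_form ψ hM hN]
  simp [← Complex.ofReal_mul]

theorem tensorState_norm (Υ : Ta × Tb → ℂ) (ψ : Ha × Hb → ℂ) (hΥ : ∑ i, ‖Υ i‖ ^ 2 = 1)
    (hψ : ∑ i, ‖ψ i‖ ^ 2 = 1) : ∑ i, ‖tensorState Υ ψ i‖ ^ 2 = 1 := by
  have : ∑ i, ‖tensorState Υ ψ i‖ ^ 2 = (∑ i, ‖Υ i‖ ^ 2) * (∑ i, ‖ψ i‖ ^ 2) := by
    simp only [Fintype.sum_prod_type, tensorState, norm_mul, mul_pow]
    simp only [← Finset.sum_mul_sum]
  rw [this, hΥ, hψ, one_mul]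

end Form

section Generic

open Crest.MathPhysics.NonlocalGame

variable {X Y A B : Type} [Fintype A] [Fintype B]

/-- A generic entangled strategy for one round, over finite registers `Ha`, `Hb`. -/
structure GS (X Y A B : Type) [Fintype A] [Fintype B] (Ha Hb : Type) [Fintype Ha] [Fintype Hb]
    [DecidableEq Ha] [DecidableEq Hb] where
  ψ : Ha × Hb → ℂ
  ψ_norm : ∑ i, ‖ψ i‖ ^ 2 = 1
  M : X → A → Matrix Ha Ha ℂ
  N : Y → B → Matrix Hb Hb ℂ
  M_psd : ∀ x a, (M x a).PosSemidef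
  N_psd : ∀ y b, (N y b).PosSemidef
  M_sum : ∀ x, ∑ a, M x a = 1
  N_sum : ∀ y, ∑ b, N y b = 1

variable {Ha Hb Ta Tb Da Db : Type} [Fintype Ha] [Fintype Hb] [Fintype Ta] [Fintype Tb]
  [Fintype Da] [Fintype Db]
  [DecidableEq Ha] [DecidableEq Hb] [DecidableEq Ta] [DecidableEq Tb]
  [DecidableEq Da] [DecidableEq Db]

/-- Winning value of a generic strategy at `(x,y)`, for the predicate `V`. -/
noncomputable def GS.win (S : GS X Y A B Ha Hb) (V : X → Y → A → B → Prop)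
    [∀ x y a b, Decidable (V x y a b)] (x : X) (y : Y) : ℝ :=
  ∑ a, ∑ b, if V x y a b then form S.ψ (S.M x a) (S.N y b) else 0

theorem GS.win_nonneg (S : GS X Y A B Ha Hb) (V : X → Y → A → B → Prop)
    [∀ x y a b, Decidable (V x y a b)] (x : X) (y : Y) : 0 ≤ S.win V x y := by
  refine Finset.sum_nonneg fun a _ => Finset.sum_nonneg fun b _ => ?_
  split_ifs
  · exact form_nonneg _ (S.M_psd x a) (S.N_psd y b)
  · exact le_rfl

/-- One trial: a resource `Υ`, Kraus maps `Fa x : Ta → Da`, `Fb y : Tb → Db`, and POVMs on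
`Da`, `Db`. -/
structure Trial (X Y A B : Type) [Fintype A] [Fintype B] (Ta Tb Da Db : Type) [Fintype Ta]
    [Fintype Tb] [Fintype Da] [Fintype Db] [DecidableEq Ta] [DecidableEq Tb] [DecidableEq Da]
    [DecidableEq Db] where
  Υ : Ta × Tb → ℂ
  Υ_norm : ∑ i, ‖Υ i‖ ^ 2 = 1
  Fa : X → Matrix Da Ta ℂ
  Fb : Y → Matrix Db Tb ℂ
  Fa_contr : ∀ x, (1 - (Fa x)ᴴ * Fa x).PosSemidef
  Fb_contr : ∀ y, (1 - (Fb y)ᴴ * Fb y).PosSemidef
  E : X → A → Matrix Da Da ℂ
  F : Y → B → Matrix Db Db ℂ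
  E_psd : ∀ x a, (E x a).PosSemidef
  F_psd : ∀ y b, (F y b).PosSemidef
  E_sum : ∀ x, ∑ a, E x a = 1
  F_sum : ∀ y, ∑ b, F y b = 1

theorem sum_kronecker_left {γ m n p q : Type} [Fintype γ] (C : γ → Matrix m n ℂ)
    (D : Matrix p q ℂ) : ∑ c, (C c ⊗ₖ D) = (∑ c, C c) ⊗ₖ D := by
  ext i j
  simp [Matrix.sum_apply, kroneckerMap_apply, Finset.sum_mul]

theorem sum_kronecker_right {γ m n p q : Type} [Fintype γ] (C : Matrix m n ℂ)
    (D : γ → Matrix p q ℂ) : ∑ c, (C ⊗ₖ D c) = C ⊗ₖ (∑ c, D c) := by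
  ext i j
  simp [Matrix.sum_apply, kroneckerMap_apply, Finset.mul_sum]

/-- The repeat step: play trial `T`; a player who accepts measures, otherwise continues with `S`. -/
noncomputable def GS.step (T : Trial X Y A B Ta Tb Da Db) (S : GS X Y A B Ha Hb) :
    GS X Y A B (Ta × Ha) (Tb × Hb) where
  ψ := tensorState T.Υ S.ψ
  ψ_norm := tensorState_norm _ _ T.Υ_norm S.ψ_norm
  M x a := ((T.Fa x)ᴴ * T.E x a * T.Fa x) ⊗ₖ (1 : Matrix Ha Ha ℂ) +
    (1 - (T.Fa x)ᴴ * T.Fa x) ⊗ₖ S.M x a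
  N y b := ((T.Fb y)ᴴ * T.F y b * T.Fb y) ⊗ₖ (1 : Matrix Hb Hb ℂ) +
    (1 - (T.Fb y)ᴴ * T.Fb y) ⊗ₖ S.N y b
  M_psd x a := by
    refine PosSemidef.add ?_ ?_
    · exact ((T.E_psd x a).conjTranspose_mul_mul_same _).kronecker PosSemidef.one
    · exact (T.Fa_contr x).kronecker (S.M_psd x a)
  N_psd y b := by
    refine PosSemidef.add ?_ ?_
    · exact ((T.F_psd y b).conjTranspose_mul_mul_same _).kronecker PosSemidef.one
    · exact (T.Fb_contr y).kronecker (S.N_psd y b)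
  M_sum x := by
    rw [Finset.sum_add_distrib, sum_kronecker_left, sum_kronecker_right, S.M_sum x]
    have : ∑ a, (T.Fa x)ᴴ * T.E x a * T.Fa x = (T.Fa x)ᴴ * T.Fa x := by
      rw [← Matrix.sum_mul, ← Matrix.mul_sum, T.E_sum x, Matrix.mul_one]
    rw [this, ← add_kronecker]
    simp
  N_sum y := by
    rw [Finset.sum_add_distrib, sum_kronecker_left, sum_kronecker_right, S.N_sum y]
    have : ∑ b, (T.Fb y)ᴴ * T.F y b * T.Fb y = (T.Fb y)ᴴ * T.Fb y := by
      rw [← Matrix.sum_mul, ← Matrix.mul_sum, T.F_sum y, Matrix.mul_one]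
    rw [this, ← add_kronecker]
    simp

/-- both-accept-and-win value of one trial -/
noncomputable def Trial.s (T : Trial X Y A B Ta Tb Da Db) (V : X → Y → A → B → Prop)
    [∀ x y a b, Decidable (V x y a b)] (x : X) (y : Y) : ℝ :=
  ∑ a, ∑ b, if V x y a b then
    form T.Υ ((T.Fa x)ᴴ * T.E x a * T.Fa x) ((T.Fb y)ᴴ * T.F y b * T.Fb y) else 0

/-- neither-accepts probability of one trial -/
noncomputable def Trial.τ (T : Trial X Y A B Ta Tb Da Db) (x : X) (y : Y) : ℝ :=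
  form T.Υ (1 - (T.Fa x)ᴴ * T.Fa x) (1 - (T.Fb y)ᴴ * T.Fb y)

theorem Trial.τ_nonneg (T : Trial X Y A B Ta Tb Da Db) (x : X) (y : Y) : 0 ≤ T.τ x y :=
  form_nonneg _ (T.Fa_contr x) (T.Fb_contr y)

theorem Trial.s_nonneg (T : Trial X Y A B Ta Tb Da Db) (V : X → Y → A → B → Prop)
    [∀ x y a b, Decidable (V x y a b)] (x : X) (y : Y) : 0 ≤ T.s V x y := by
  refine Finset.sum_nonneg fun a _ => Finset.sum_nonneg fun b _ => ?_
  split_ifs
  · exact form_nonneg _ ((T.E_psd x a).conjTranspose_mul_mul_same _)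
      ((T.F_psd y b).conjTranspose_mul_mul_same _)
  · exact le_rfl

theorem form_one_one (ψ : Ha × Hb → ℂ) (hψ : ∑ i, ‖ψ i‖ ^ 2 = 1) :
    form ψ (1 : Matrix Ha Ha ℂ) (1 : Matrix Hb Hb ℂ) = 1 := by
  have h1 : ((1 : Matrix Ha Ha ℂ) ⊗ₖ (1 : Matrix Hb Hb ℂ)) = 1 := by simp
  rw [form, cform, h1, one_mulVec]
  have : star ψ ⬝ᵥ ψ = ((∑ i, ‖ψ i‖ ^ 2 : ℝ) : ℂ) := by
    simp only [dotProduct, Pi.star_apply, Complex.ofReal_sum, Complex.ofReal_pow]
    refine Finset.sum_congr rfl fun i _ => ?_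
    rw [RCLike.star_def, Complex.conj_mul', ]
  rw [this, hψ]
  simp

theorem GS.win_step (T : Trial X Y A B Ta Tb Da Db) (S : GS X Y A B Ha Hb)
    (V : X → Y → A → B → Prop) [∀ x y a b, Decidable (V x y a b)] (x : X) (y : Y) :
    T.s V x y + T.τ x y * S.win V x y ≤ (GS.step T S).win V x y := by
  have hsplit : T.s V x y + T.τ x y * S.win V x y =
      ∑ a, ∑ b, ((if V x y a b then
        form T.Υ ((T.Fa x)ᴴ * T.E x a * T.Fa x) ((T.Fb y)ᴴ * T.F y b * T.Fb y) else 0) +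
        T.τ x y * (if V x y a b then form S.ψ (S.M x a) (S.N y b) else 0)) := by
    simp only [Trial.s, GS.win, Finset.mul_sum, Finset.sum_add_distrib]
  rw [hsplit]
  refine Finset.sum_le_sum fun a _ => Finset.sum_le_sum fun b _ => ?_
  by_cases hV : V x y a b
  · simp only [hV, if_true]
    have hA1 := (T.E_psd x a).conjTranspose_mul_mul_same (T.Fa x)
    have hB1 := (T.F_psd y b).conjTranspose_mul_mul_same (T.Fb y)
    have hA2 := T.Fa_contr x
    have hB2 := T.Fb_contr y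
    have hMo := S.M_psd x a
    have hNo := S.N_psd y b
    have h1a : (1 : Matrix Ha Ha ℂ).PosSemidef := PosSemidef.one
    have h1b : (1 : Matrix Hb Hb ℂ).PosSemidef := PosSemidef.one
    change _ ≤ form (tensorState T.Υ S.ψ)
      (((T.Fa x)ᴴ * T.E x a * T.Fa x) ⊗ₖ (1 : Matrix Ha Ha ℂ) + (1 - (T.Fa x)ᴴ * T.Fa x) ⊗ₖ S.M x a)
      (((T.Fb y)ᴴ * T.F y b * T.Fb y) ⊗ₖ (1 : Matrix Hb Hb ℂ) + (1 - (T.Fb y)ᴴ * T.Fb y) ⊗ₖ S.N y b)
    rw [form_add_left, form_add_right, form_add_right,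
      form_tensor _ _ hA1 hB1 h1a h1b, form_tensor _ _ hA1 hB2 h1a hNo,
      form_tensor _ _ hA2 hB1 hMo h1b, form_tensor _ _ hA2 hB2 hMo hNo,
      form_one_one _ S.ψ_norm, mul_one]
    have t1 : 0 ≤ form T.Υ ((T.Fa x)ᴴ * T.E x a * T.Fa x) (1 - (T.Fb y)ᴴ * T.Fb y) *
        form S.ψ 1 (S.N y b) := mul_nonneg (form_nonneg _ hA1 hB2) (form_nonneg _ h1a hNo)
    have t2 : 0 ≤ form T.Υ (1 - (T.Fa x)ᴴ * T.Fa x) ((T.Fb y)ᴴ * T.F y b * T.Fb y) *
        form S.ψ (S.M x a) 1 := mul_nonneg (form_nonneg _ hA2 hB1) (form_nonneg _ hMo h1b)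
    simp only [Trial.τ]
    linarith
  · simp [hV]

/-- iterating the trial: base strategy on trivial registers -/
noncomputable def GS.base (a₀ : A) (b₀ : B) [DecidableEq A] [DecidableEq B] :
    GS X Y A B Unit Unit where
  ψ := fun _ => 1
  ψ_norm := by simp
  M := fun _ a => if a = a₀ then 1 else 0
  N := fun _ b => if b = b₀ then 1 else 0
  M_psd := fun _ a => by
    split_ifs
    · exact PosSemidef.one
    · exact PosSemidef.zero
  N_psd := fun _ b => by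
    split_ifs
    · exact PosSemidef.one
    · exact PosSemidef.zero
  M_sum := fun _ => by simp
  N_sum := fun _ => by simp

/-- `R` repetitions. -/
theorem exists_iterate (T : Trial X Y A B Ta Tb Da Db) (V : X → Y → A → B → Prop)
    [∀ x y a b, Decidable (V x y a b)] (a₀ : A) (b₀ : B) [DecidableEq A] [DecidableEq B] (R : ℕ) :
    ∃ (Ha Hb : Type) (_ : Fintype Ha) (_ : Fintype Hb) (_ : DecidableEq Ha) (_ : DecidableEq Hb)
      (S : GS X Y A B Ha Hb), ∀ x y,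
        (∑ t ∈ Finset.range R, T.τ x y ^ t) * T.s V x y ≤ S.win V x y := by
  induction R with
  | zero =>
    exact ⟨Unit, Unit, inferInstance, inferInstance, inferInstance, inferInstance,
      GS.base a₀ b₀, fun x y => by simpa using GS.win_nonneg _ V x y⟩
  | succ R ih =>
    obtain ⟨Ha, Hb, i1, i2, i3, i4, S, hS⟩ := ih
    refine ⟨Ta × Ha, Tb × Hb, inferInstance, inferInstance, inferInstance, inferInstance,
      GS.step T S, fun x y => ?_⟩
    refine le_trans ?_ (GS.win_step T S V x y)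
    have h1 := mul_le_mul_of_nonneg_left (hS x y) (T.τ_nonneg x y)
    have h2 : (∑ t ∈ Finset.range (R + 1), T.τ x y ^ t) * T.s V x y =
        T.s V x y + T.τ x y * ((∑ t ∈ Finset.range R, T.τ x y ^ t) * T.s V x y) := by
      have h3 : ∑ t ∈ Finset.range R, T.τ x y ^ (t + 1) =
          T.τ x y * ∑ t ∈ Finset.range R, T.τ x y ^ t := by
        rw [Finset.mul_sum]
        exact Finset.sum_congr rfl fun _ _ => pow_succ' _ _
      rw [Finset.sum_range_succ', h3, pow_zero]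
      ring
    rw [h2]
    linarith

/-- Conversion of a generic strategy to a `Strategy G 1 dA dB`. -/
noncomputable def GS.reindexState {Ha Hb : Type} [Fintype Ha] [Fintype Hb]
    (ψ : Ha × Hb → ℂ) {dA dB : ℕ} (ea : Fin dA ≃ Ha) (eb : Fin dB ≃ Hb) :
    Fin dA × Fin dB → ℂ := fun p => ψ (ea p.1, eb p.2)

theorem cform_reindex (ψ : Ha × Hb → ℂ) {dA dB : ℕ}
    (ea : Fin dA ≃ Ha) (eb : Fin dB ≃ Hb) (M : Matrix Ha Ha ℂ) (N : Matrix Hb Hb ℂ) :
    cform (GS.reindexState ψ ea eb) (M.submatrix ea ea) (N.submatrix eb eb) = cform ψ M N := by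
  rw [cform_expand, cform_expand]
  rw [← Equiv.sum_comp ea]
  refine Finset.sum_congr rfl fun i _ => ?_
  rw [← Equiv.sum_comp eb]
  refine Finset.sum_congr rfl fun j _ => ?_
  rw [← Equiv.sum_comp ea]
  refine Finset.sum_congr rfl fun k _ => ?_
  rw [← Equiv.sum_comp eb]
  refine Finset.sum_congr rfl fun l _ => ?_
  simp [GS.reindexState]

end Generic

section Game

open Crest.MathPhysics.NonlocalGame

variable {Ha Hb : Type} [Fintype Ha] [Fintype Hb] [DecidableEq Ha] [DecidableEq Hb]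

/-- The winning value at `(x,y)` of a one-round `Strategy`. -/
noncomputable def winOne {G : Game} {dA dB : ℕ} (S : Strategy G 1 dA dB) (x : Fin G.nX)
    (y : Fin G.nY) : ℝ :=
  ∑ a : Fin G.nA, ∑ b : Fin G.nB, if G.accept x y a b = true then
    S.answerProb (fun _ => x) (fun _ => y) (fun _ => a) (fun _ => b) else 0

/-- question/answer strings of length one -/
def constEquiv (n : ℕ) : Fin n ≃ (Fin 1 → Fin n) where
  toFun c := fun _ => c
  invFun f := f 0
  left_inv _ := rfl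
  right_inv f := by
    funext i
    have : i = 0 := Subsingleton.elim _ _
    rw [this]

theorem sum_fin_one_fun {n : ℕ} {γ : Type} [AddCommMonoid γ] (f : (Fin 1 → Fin n) → γ) :
    ∑ a, f a = ∑ c, f (fun _ => c) := by
  rw [← (constEquiv n).sum_comp]
  rfl

theorem probWinsAtLeast_one {G : Game} {dA dB : ℕ} (S : Strategy G 1 dA dB) :
    S.probWinsAtLeast 1 = ∑ x, ∑ y, G.prob x y * winOne S x y := by
  unfold Strategy.probWinsAtLeast winOne
  rw [sum_fin_one_fun]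
  refine Finset.sum_congr rfl fun x _ => ?_
  rw [sum_fin_one_fun]
  refine Finset.sum_congr rfl fun y _ => ?_
  simp only [Fin.prod_univ_one]
  congr 1
  rw [sum_fin_one_fun]
  refine Finset.sum_congr rfl fun a _ => ?_
  rw [sum_fin_one_fun]
  refine Finset.sum_congr rfl fun b _ => ?_
  have : ((1 : ℝ) ≤ (wins G 1 (fun _ => x) (fun _ => y) (fun _ => a) (fun _ => b) : ℝ)) ↔
      G.accept x y a b = true := by
    unfold wins
    by_cases h : G.accept x y a b = true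
    · simp [h]
    · simp [h]
  simp only [this]

/-- A generic strategy for the game gives a `Strategy G 1 dA dB` with the same value. -/
theorem GS.exists_strategy {G : Game}
    (S : GS (Fin G.nX) (Fin G.nY) (Fin G.nA) (Fin G.nB) Ha Hb) :
    ∃ (dA dB : ℕ) (S' : Strategy G 1 dA dB), ∀ x y,
      winOne S' x y = S.win (fun x y a b => G.accept x y a b = true) x y := by
  let ea := (Fintype.equivFin Ha).symm
  let eb := (Fintype.equivFin Hb).symm
  refine ⟨Fintype.card Ha, Fintype.card Hb, ⟨GS.reindexState S.ψ ea eb, ?_,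
    fun x a => (S.M (x 0) (a 0)).submatrix ea ea, fun y b => (S.N (y 0) (b 0)).submatrix eb eb,
    fun x a => (S.M_psd _ _).submatrix _, fun y b => (S.N_psd _ _).submatrix _, ?_, ?_⟩, ?_⟩
  · have : ∑ i, ‖GS.reindexState S.ψ ea eb i‖ ^ 2 = ∑ i, ‖S.ψ i‖ ^ 2 := by
      rw [← (Equiv.prodCongr ea eb).sum_comp]
      rfl
    rw [this, S.ψ_norm]
  · intro x
    rw [sum_fin_one_fun]
    have h := S.M_sum (x 0)
    ext i j
    have := congrFun (congrFun h (ea i)) (ea j)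
    simpa [Matrix.sum_apply, Matrix.one_apply, ea.injective.eq_iff] using this
  · intro y
    rw [sum_fin_one_fun]
    have h := S.N_sum (y 0)
    ext i j
    have := congrFun (congrFun h (eb i)) (eb j)
    simpa [Matrix.sum_apply, Matrix.one_apply, eb.injective.eq_iff] using this
  · intro x y
    unfold winOne GS.win
    refine Finset.sum_congr rfl fun a _ => Finset.sum_congr rfl fun b _ => ?_
    split_ifs with h
    · simp only [Strategy.answerProb]
      have := cform_reindex S.ψ ea eb (S.M x a) (S.N y b)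
      rw [form, ← this]
      rfl
    · rfl

end Game

end Crest.Agent.ParRep.Sampler
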