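import Crest.Agent.Lib.ParRep.Final
import Crest.Agent.Lib.ParRep.SamplerRepeat

/-!
Row 342: the two final reductions of S0536 and S0537 to a rectangle bound, on top of `Final`.
-/

set_option autoImplicit false

open scoped Kronecker ComplexOrder
open Matrix Crest.MathPhysics.NonlocalGame

namespace Crest.Agent.ParRep

section Strat

variable {G : Game} {k dA dB : ℕ}

/-- A strategy forces answers to exist. -/
theorem Strategy.answers_pos (hk : 1 ≤ k) (S : Strategy G k dA dB) : 0 < G.nA ∧ 0 < G.nB := by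
  have hprob : 0 < G.nX ∧ 0 < G.nY := by
    by_contra hcon
    have hz : ∑ x, ∑ y, G.prob x y = 0 := by
      by_cases hX : 0 < G.nX
      · have hY : ¬ 0 < G.nY := fun hY => hcon ⟨hX, hY⟩
        have : G.nY = 0 := by omega
        refine Finset.sum_eq_zero fun x _ => Finset.sum_eq_zero fun y _ => ?_
        exact absurd y.2 (by omega)
      · have : G.nX = 0 := by omega
        refine Finset.sum_eq_zero fun x _ => ?_
        exact absurd x.2 (by omega)
    have := G.prob_sum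
    linarith
  have hd : ∃ i : Fin dA × Fin dB, True := by
    by_contra hcon
    have hemp : IsEmpty (Fin dA × Fin dB) := ⟨fun i => hcon ⟨i, trivial⟩⟩
    have h := S.ψ_norm
    rw [Finset.univ_eq_empty, Finset.sum_empty] at h
    exact zero_ne_one h
  obtain ⟨⟨i, j⟩, -⟩ := hd
  constructor
  · by_contra hA
    have hA0 : G.nA = 0 := by omega
    let x : Fin k → Fin G.nX := fun _ => ⟨0, hprob.1⟩
    have h := S.M_sum x
    have hemp : IsEmpty (Fin k → Fin G.nA) := ⟨fun a => by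
      have := (a ⟨0, hk⟩).2
      omega⟩
    rw [Finset.univ_eq_empty, Finset.sum_empty] at h
    have := congrFun (congrFun h i) i
    simp at this
  · by_contra hB
    have hB0 : G.nB = 0 := by omega
    let y : Fin k → Fin G.nY := fun _ => ⟨0, hprob.2⟩
    have h := S.N_sum y
    have hemp : IsEmpty (Fin k → Fin G.nB) := ⟨fun a => by
      have := (a ⟨0, hk⟩).2
      omega⟩
    rw [Finset.univ_eq_empty, Finset.sum_empty] at h
    have := congrFun (congrFun h j) j
    simp at this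

/-- `v ≥ 0` when answers exist. -/
theorem v_nonneg {v : ℝ} (hv : ∀ (dA dB : ℕ) (S : Strategy G 1 dA dB), S.probWinsAtLeast 1 ≤ v)
    (hA : 0 < G.nA) (hB : 0 < G.nB) : 0 ≤ v := by
  classical
  obtain ⟨dA', dB', S', hS'⟩ := Sampler.GS.exists_strategy (G := G)
    (Sampler.GS.base (X := Fin G.nX) (Y := Fin G.nY) (A := Fin G.nA) (B := Fin G.nB)
      ⟨0, hA⟩ ⟨0, hB⟩)
  refine le_trans ?_ (hv _ _ S')
  rw [Sampler.probWinsAtLeast_one]
  refine Finset.sum_nonneg fun x _ => Finset.sum_nonneg fun y _ =>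
    mul_nonneg (G.prob_nonneg x y) ?_
  rw [hS']
  exact Sampler.GS.win_nonneg _ _ x y

/-- The logarithm of the answer count is nonnegative. -/
theorem log_answers_nonneg (hA : 0 < G.nA) (hB : 0 < G.nB) :
    0 ≤ Real.log ((G.nA : ℝ) * G.nB) := by
  apply Real.log_nonneg
  have h1 : (1 : ℝ) ≤ G.nA := by exact_mod_cast hA
  have h2 : (1 : ℝ) ≤ G.nB := by exact_mod_cast hB
  nlinarith

end Strat

section Final

/-- `κ ≥ 0` from the hypothesis of S0537. -/
theorem kappa_nonneg {G : Game} {κ : ℝ}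
    (hκ : ∀ z : Fin G.nX × Fin G.nY, 0 < G.prob z.1 z.2 → ∀ w ∈ G.supportComponent z,
      8 * ((G.supportComponent z).card - 1 : ℝ) * (∑ u ∈ G.supportComponent z, G.prob u.1 u.2)
        ≤ κ * G.prob w.1 w.2) : 0 ≤ κ := by
  have hex : ∃ z : Fin G.nX × Fin G.nY, 0 < G.prob z.1 z.2 := by
    by_contra hcon
    push Not at hcon
    have h0 : ∑ x, ∑ y, G.prob x y ≤ 0 :=
      Finset.sum_nonpos fun x _ => Finset.sum_nonpos fun y _ => hcon (x, y)
    have := G.prob_sum
    linarith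
  obtain ⟨z, hz⟩ := hex
  have hzmem : z ∈ G.supportComponent z := by
    classical
    simp [Game.supportComponent]
  have h := hκ z hz z hzmem
  have hcard : (1 : ℝ) ≤ ((G.supportComponent z).card : ℝ) := by
    exact_mod_cast Finset.card_pos.mpr ⟨z, hzmem⟩
  have hsum : 0 ≤ ∑ u ∈ G.supportComponent z, G.prob u.1 u.2 :=
    Finset.sum_nonneg fun u _ => G.prob_nonneg _ _
  have hlhs : 0 ≤ 8 * ((G.supportComponent z).card - 1 : ℝ) *
      (∑ u ∈ G.supportComponent z, G.prob u.1 u.2) := by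
    have : 0 ≤ ((G.supportComponent z).card - 1 : ℝ) := by linarith
    positivity
  have : 0 ≤ κ * G.prob z.1 z.2 := le_trans hlhs h
  exact nonneg_of_mul_nonneg_left this hz

/-- S0537 from the rectangle bound. -/
theorem final_537_of_step (G : Game) (v : ℝ)
    (hv : ∀ (dA dB : ℕ) (S : Strategy G 1 dA dB), S.probWinsAtLeast 1 ≤ v) (κ : ℝ)
    (hκ : ∀ z : Fin G.nX × Fin G.nY, 0 < G.prob z.1 z.2 → ∀ w ∈ G.supportComponent z,
      8 * ((G.supportComponent z).card - 1 : ℝ) * (∑ u ∈ G.supportComponent z, G.prob u.1 u.2)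
        ≤ κ * G.prob w.1 w.2)
    (hStep : StepBound G v (fun u m => Real.sqrt (33 * (1 + κ) * u / (m : ℝ))))
    (δ : ℝ) (hδ : 0 < δ) (hδv : δ < 1 - v) (k dA dB : ℕ) (S : Strategy G k dA dB) (hk : 1 ≤ k) :
    S.probWinsAtLeast ((v + δ) * k) ≤
      Real.exp (-(δ ^ 3 / (16384 * (1 + κ) * (1 + Real.log ((G.nA * G.nB : ℕ) : ℝ))) * k)) := by
  obtain ⟨hA, hB⟩ := Strategy.answers_pos hk S
  have hv0 : 0 ≤ v := v_nonneg hv hA hB
  have hκ0 : 0 ≤ κ := kappa_nonneg hκ
  have hL := log_answers_nonneg hA hB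
  have hc1 : (1 : ℝ) ≤ Real.sqrt (33 * (1 + κ)) := by
    rw [Real.one_le_sqrt]
    linarith
  have hStep' : StepBound G v
      (fun u m => 0 + Real.sqrt (33 * (1 + κ)) * Real.sqrt (u / (m : ℝ))) := by
    intro m dA dB R hm hN
    have h := hStep m dA dB R hm hN
    have e : Real.sqrt (33 * (1 + κ) * Real.log (1 / R.N) / (m : ℝ))
        = 0 + Real.sqrt (33 * (1 + κ)) * Real.sqrt (Real.log (1 / R.N) / (m : ℝ)) := by
      rw [zero_add, mul_div_assoc, Real.sqrt_mul (by positivity)]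
    simp only at h ⊢
    rwa [e] at h
  have hcore := exp_bound_of_stepBound hv0 hδ (by linarith) (by positivity) hc1 hStep' S hk
  refine hcore.trans (Real.exp_le_exp.mpr ?_)
  have hcast : (((G.nA * G.nB : ℕ) : ℝ)) = (G.nA : ℝ) * G.nB := by push_cast; ring
  rw [hcast]
  set L := Real.log ((G.nA : ℝ) * G.nB)
  have hsq : Real.sqrt (33 * (1 + κ)) ^ 2 = 33 * (1 + κ) := Real.sq_sqrt (by positivity)
  rw [hsq]
  have hkR : (0 : ℝ) ≤ k := Nat.cast_nonneg k
  have h1κ : 0 < 1 + κ := by linarith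
  have h1L : 0 < 1 + L := by linarith
  have : δ ^ 3 / (16384 * (1 + κ) * (1 + L)) * k ≤
      3 * δ ^ 3 * k / (1024 * (33 * (1 + κ)) * (1 + L)) := by
    rw [div_mul_eq_mul_div, div_le_div_iff₀ (by positivity) (by positivity)]
    have h3 : 0 ≤ δ ^ 3 * k * ((1 + κ) * (1 + L)) := by positivity
    nlinarith
  linarith

/-- S0536 from the rectangle bound. -/
theorem final_536_of_step {C : ℝ} (hC : 1 ≤ C)
    (hStep : ∀ (G : Game) (v : ℝ),
      (∀ (dA dB : ℕ) (S : Strategy G 1 dA dB), S.probWinsAtLeast 1 ≤ v) →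
      ∀ δ : ℝ, 0 < δ → δ < 1 - v →
        StepBound G v (fun u m => δ / 8 + C / δ * Real.sqrt (u / (m : ℝ)))) :
    ∃ κ₀ : ℝ, 0 < κ₀ ∧ ∀ (G : Game) (v : ℝ),
      (∀ (dA dB : ℕ) (S : Strategy G 1 dA dB), S.probWinsAtLeast 1 ≤ v) →
      ∀ δ : ℝ, 0 < δ → δ < 1 - v → ∀ (k dA dB : ℕ) (S : Strategy G k dA dB), 1 ≤ k →
        S.probWinsAtLeast ((v + δ) * k) ≤
          Real.exp (-(κ₀ * δ ^ 5 / (1 + Real.log ((G.nA * G.nB : ℕ) : ℝ)) * k)) := by
  have hC0 : 0 < C := by linarith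
  refine ⟨3 / (1024 * C ^ 2), by positivity, ?_⟩
  intro G v hv δ hδ hδv k dA dB S hk
  obtain ⟨hA, hB⟩ := Strategy.answers_pos hk S
  have hv0 : 0 ≤ v := v_nonneg hv hA hB
  have hL := log_answers_nonneg hA hB
  have hδ1 : δ < 1 := by linarith
  have hc1 : (1 : ℝ) ≤ C / δ := by
    rw [le_div_iff₀ hδ]
    nlinarith
  have hcore := exp_bound_of_stepBound hv0 hδ (by linarith) (by linarith) hc1
    (hStep G v hv δ hδ hδv) S hk
  refine hcore.trans (Real.exp_le_exp.mpr ?_)
  have hcast : (((G.nA * G.nB : ℕ) : ℝ)) = (G.nA : ℝ) * G.nB := by push_cast; ring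
  rw [hcast]
  set L := Real.log ((G.nA : ℝ) * G.nB)
  have h1L : 0 < 1 + L := by linarith
  apply neg_le_neg
  apply le_of_eq
  field_simp

end Final

end Crest.Agent.ParRep
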