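import Crest.Agent.Lib.ParRep.Star

/-!
# The discrete resolvent gauge (row 342, finding #1280 (0), discrete version)

Grid `s i = (i + 1) Δ`, `i : Fin N`. `KK Δ N R : Option (Fin N) → Matrix` is a Kraus family of Hermitian
matrices with `∑ i, KK i * KK i = R`, functions of `R` only.
-/

set_option linter.unusedSectionVars false

open scoped Kronecker ComplexOrder Matrix BigOperators MatrixOrder

namespace Crest.Agent.ParRep

variable {n : Type*} [Fintype n] [DecidableEq n] {ι : Type*} [Fintype ι]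

/-! ### Functional calculus tools -/

lemma contOn (f : ℝ → ℝ) (A : Matrix n n ℂ) : ContinuousOn f (spectrum ℝ A) :=
  (Matrix.finite_real_spectrum (A := A)).continuousOn f

lemma spec_nonneg {A : Matrix n n ℂ} (hA : A.PosSemidef) {t : ℝ} (ht : t ∈ spectrum ℝ A) : 0 ≤ t := by
  have h0 : (0 : Matrix n n ℂ) ≤ A := Matrix.nonneg_iff_posSemidef.2 hA
  exact spectrum_nonneg_of_nonneg h0 ht

lemma spec_le_one {A : Matrix n n ℂ} (hA : (1 - A).PosSemidef) {t : ℝ} (ht : t ∈ spectrum ℝ A) :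
    t ≤ 1 := by
  have h0 : (0 : Matrix n n ℂ) ≤ 1 - A := Matrix.nonneg_iff_posSemidef.2 hA
  have h1 : (1 - t) ∈ spectrum ℝ (1 - A) := by
    have : (1 : Matrix n n ℂ) = algebraMap ℝ (Matrix n n ℂ) 1 := by simp
    rw [this, ← spectrum.singleton_sub_eq]
    exact ⟨1, rfl, t, ht, rfl⟩
  have := spectrum_nonneg_of_nonneg h0 h1
  linarith

/-- Scalar inequality on the spectrum gives positive semidefiniteness. -/
lemma cfc_posSemidef {A : Matrix n n ℂ} {g : ℝ → ℝ} (h : ∀ t ∈ spectrum ℝ A, 0 ≤ g t) :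
    (cfc g A).PosSemidef :=
  Matrix.nonneg_iff_posSemidef.1 (cfc_nonneg h)

lemma res_eq_cfc {A : Matrix n n ℂ} (hA : A.PosSemidef) {s : ℝ} (hs : 0 < s) :
    res s A = cfc (fun t : ℝ => (t + s)⁻¹) A := by
  have hH : IsSelfAdjoint A := hA.isHermitian
  have h1 : (A + s • (1 : Matrix n n ℂ)) = cfc (fun t : ℝ => t + s) A := by
    rw [cfc_add_const s (fun t => t) A (contOn _ _) hH, cfc_id' ℝ A hH]
    simp [Algebra.algebraMap_eq_smul_one]
  have h2 : (A + s • (1 : Matrix n n ℂ)) * cfc (fun t : ℝ => (t + s)⁻¹) A = 1 := by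
    rw [h1, ← cfc_mul (fun t : ℝ => t + s) _ A (contOn _ _) (contOn _ _)]
    rw [← cfc_one ℝ A hH]
    refine cfc_congr fun t ht => ?_
    have := spec_nonneg hA ht
    have hne : t + s ≠ 0 := by positivity
    simp [hne]
  unfold res
  exact Matrix.inv_eq_right_inv h2

lemma phi_eq_cfc {A : Matrix n n ℂ} (hA : A.PosSemidef) {s : ℝ} (hs : 0 < s) :
    phi s A = cfc (fun t : ℝ => t / (t + s)) A := by
  have hH : IsSelfAdjoint A := hA.isHermitian
  unfold phi
  rw [res_eq_cfc hA hs, ← cfc_smul s _ A (contOn _ _), ← cfc_one ℝ A hH]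
  rw [← cfc_sub _ _ A (contOn _ _) (contOn _ _)]
  refine cfc_congr fun t ht => ?_
  have := spec_nonneg hA ht
  have hne : t + s ≠ 0 := by positivity
  simp only [Pi.one_apply, smul_eq_mul]
  field_simp
  ring

/-! ### Grid objects -/

/-- Grid point `(i + 1) Δ`. -/
noncomputable def gridPt (D : ℝ) (i : ℕ) : ℝ := ((i : ℝ) + 1) * D

lemma gridPt_pos {D : ℝ} (hD : 0 < D) (i : ℕ) : 0 < gridPt D i := by
  unfold gridPt; positivity

/-- Kraus operator `√Δ φ_{s_i}(R)`. -/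
noncomputable def Kr (D : ℝ) (i : ℕ) (R : Matrix n n ℂ) : Matrix n n ℂ :=
  Real.sqrt D • phi (gridPt D i) R

/-- `∑ K_i(R)²`. -/
noncomputable def nn (D : ℝ) (N : ℕ) (R : Matrix n n ℂ) : Matrix n n ℂ :=
  ∑ i : Fin N, Kr D i R * Kr D i R

/-- `f = ∑ Δ φ_{s_i}`. -/
noncomputable def ff (D : ℝ) (N : ℕ) (R : Matrix n n ℂ) : Matrix n n ℂ :=
  ∑ i : Fin N, D • phi (gridPt D i) R

/-- Scalar version of `nn`. -/
noncomputable def nnS (D : ℝ) (N : ℕ) (t : ℝ) : ℝ :=
  ∑ i : Fin N, D * (t / (t + gridPt D i)) ^ 2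

/-- Scalar version of `ff`. -/
noncomputable def ffS (D : ℝ) (N : ℕ) (t : ℝ) : ℝ :=
  ∑ i : Fin N, D * (t / (t + gridPt D i))

lemma Kr_isHermitian {D : ℝ} (hD : 0 < D) (i : ℕ) {R : Matrix n n ℂ} (hR : R.PosSemidef) :
    (Kr D i R).IsHermitian :=
  smul_isHermitian (phi_isHermitian hR (gridPt_pos hD i)) _

lemma Kr_mul_self {D : ℝ} (hD : 0 < D) (i : ℕ) (R : Matrix n n ℂ) :
    Kr D i R * Kr D i R = D • (phi (gridPt D i) R * phi (gridPt D i) R) := by
  unfold Kr
  simp only [smul_mul_assoc, mul_smul_comm, smul_smul, Real.mul_self_sqrt hD.le]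

lemma nn_eq_cfc {D : ℝ} (hD : 0 < D) (N : ℕ) {R : Matrix n n ℂ} (hR : R.PosSemidef) :
    nn D N R = cfc (nnS D N) R := by
  have hfun : nnS D N = ∑ i : Fin N, fun t : ℝ => D * (t / (t + gridPt D i)) ^ 2 := by
    ext t; simp [nnS]
  rw [hfun, cfc_sum_univ _ R (fun i => contOn _ _)]
  unfold nn
  refine Finset.sum_congr rfl fun i _ => ?_
  have hH : IsSelfAdjoint R := hR.isHermitian
  rw [Kr_mul_self hD, phi_eq_cfc hR (gridPt_pos hD i), cfc_const_mul _ _ R (contOn _ _),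
    cfc_pow (fun t : ℝ => t / (t + gridPt D i)) 2 R (contOn _ _) hH, pow_two]

lemma ff_eq_cfc {D : ℝ} (hD : 0 < D) (N : ℕ) {R : Matrix n n ℂ} (hR : R.PosSemidef) :
    ff D N R = cfc (ffS D N) R := by
  have hfun : ffS D N = ∑ i : Fin N, fun t : ℝ => D * (t / (t + gridPt D i)) := by
    ext t; simp [ffS]
  rw [hfun, cfc_sum_univ _ R (fun i => contOn _ _)]
  unfold ff
  refine Finset.sum_congr rfl fun i _ => ?_
  rw [phi_eq_cfc hR (gridPt_pos hD i), cfc_const_mul _ _ R (contOn _ _)]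

/-! ### Scalar inequalities -/

lemma nnS_le_aux {D : ℝ} (hD : 0 < D) {t : ℝ} (ht : 0 < t) (N : ℕ) :
    nnS D N t ≤ t - t ^ 2 / (t + N * D) := by
  induction N with
  | zero =>
    simp only [nnS, Finset.univ_eq_empty, Finset.sum_empty, Nat.cast_zero, zero_mul, add_zero]
    have : t ^ 2 / t = t := by field_simp
    rw [this]; simp
  | succ N ih =>
    have hs : nnS D (N + 1) t = nnS D N t + D * (t / (t + gridPt D N)) ^ 2 := by
      simp [nnS, Fin.sum_univ_castSucc]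
    rw [hs]
    have hN : (0 : ℝ) ≤ N := Nat.cast_nonneg N
    have h1 : 0 < t + N * D := by positivity
    have h2 : 0 < t + (N + 1) * D := by positivity
    have key : D * (t / (t + gridPt D N)) ^ 2 ≤ t ^ 2 / (t + N * D) - t ^ 2 / (t + ((N + 1 : ℕ) : ℝ) * D) := by
      unfold gridPt
      push_cast
      rw [div_pow, div_sub_div _ _ h1.ne' h2.ne', mul_div_assoc', div_le_div_iff₀ (by positivity) (by positivity)]
      have e : t ^ 2 * (t + (N + 1) * D) - (t + N * D) * t ^ 2 = t ^ 2 * D := by ring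
      rw [e]
      have h3 : (t + N * D) * (t + (N + 1) * D) ≤ (t + (N + 1) * D) ^ 2 := by
        have : t + N * D ≤ t + (N + 1) * D := by nlinarith
        nlinarith
      have : 0 ≤ D * t ^ 2 := by positivity
      have e2 : (t + ↑N * D + D) = t + (N + 1) * D := by ring
      nlinarith [mul_le_mul_of_nonneg_left h3 this]
    linarith

lemma nnS_le {D : ℝ} (hD : 0 < D) (N : ℕ) {t : ℝ} (ht : 0 ≤ t) : nnS D N t ≤ t := by
  rcases ht.eq_or_lt with rfl | ht
  · simp [nnS]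
  · have := nnS_le_aux hD ht N
    have h2 : 0 ≤ t ^ 2 / (t + N * D) := by positivity
    linarith

lemma nnS_ge_aux {D : ℝ} (hD : 0 < D) {t : ℝ} (ht : 0 ≤ t) (N : ℕ) :
    t ^ 2 / (t + D) - t ^ 2 / (t + (N + 1) * D) ≤ nnS D N t := by
  induction N with
  | zero => simp [nnS]
  | succ N ih =>
    have hs : nnS D (N + 1) t = nnS D N t + D * (t / (t + gridPt D N)) ^ 2 := by
      simp [nnS, Fin.sum_univ_castSucc]
    rw [hs]
    have hN : (0 : ℝ) ≤ N := Nat.cast_nonneg N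
    have h1 : 0 < t + (N + 1) * D := by positivity
    have h2 : 0 < t + (N + 1 + 1) * D := by positivity
    have key : t ^ 2 / (t + (N + 1) * D) - t ^ 2 / (t + (N + 1 + 1) * D) ≤
        D * (t / (t + gridPt D N)) ^ 2 := by
      unfold gridPt
      rw [div_pow, div_sub_div _ _ h1.ne' h2.ne', mul_div_assoc', div_le_div_iff₀ (by positivity) (by positivity)]
      have e : t ^ 2 * (t + (N + 1 + 1) * D) - (t + (N + 1) * D) * t ^ 2 = t ^ 2 * D := by ring
      rw [e]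
      have h3 : (t + (N + 1) * D) ^ 2 ≤ (t + (N + 1) * D) * (t + (N + 1 + 1) * D) := by
        have : t + (N + 1) * D ≤ t + (N + 1 + 1) * D := by nlinarith
        nlinarith
      have : 0 ≤ D * t ^ 2 := by positivity
      nlinarith [mul_le_mul_of_nonneg_left h3 this]
    push_cast
    linarith

lemma sub_nnS_le {D : ℝ} (hD : 0 < D) (N : ℕ) {t : ℝ} (ht : 0 ≤ t) (ht1 : t ≤ 1) :
    t - nnS D N t ≤ D + t / ((N + 1) * D) := by
  have h := nnS_ge_aux hD ht N
  have hN : (0 : ℝ) ≤ N := Nat.cast_nonneg N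
  have h1 : t - t ^ 2 / (t + D) ≤ D := by
    have : 0 < t + D := by positivity
    rw [sub_le_iff_le_add, ← sub_le_iff_le_add', le_div_iff₀ this]
    nlinarith
  have h2 : t ^ 2 / (t + (N + 1) * D) ≤ t / ((N + 1) * D) := by
    have h3 : 0 < (N + 1) * D := by positivity
    have h4 : 0 ≤ t := ht
    rcases ht.eq_or_lt with rfl | ht'
    · simp
    · apply div_le_div₀ ht (by nlinarith) h3 (by linarith)
  linarith

/-- `t/(t+s) ≥ t/(1+s)` summed. -/
lemma ffS_ge {D : ℝ} (hD : 0 < D) (N : ℕ) {t : ℝ} (ht : 0 ≤ t) (ht1 : t ≤ 1) :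
    ffS D N 1 * t ≤ ffS D N t := by
  unfold ffS
  rw [Finset.sum_mul]
  refine Finset.sum_le_sum fun i _ => ?_
  have hs := gridPt_pos hD i
  have h1 : 1 / (1 + gridPt D i) * t ≤ t / (t + gridPt D i) := by
    rw [div_mul_eq_mul_div, one_mul]
    exact div_le_div_of_nonneg_left ht (by positivity) (by linarith)
  calc D * (1 / (1 + gridPt D i)) * t = D * (1 / (1 + gridPt D i) * t) := by ring
    _ ≤ _ := mul_le_mul_of_nonneg_left h1 hD.le

/-! ### Operator consequences -/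

lemma sub_nn_posSemidef {D : ℝ} (hD : 0 < D) (N : ℕ) {R : Matrix n n ℂ} (hR : R.PosSemidef) :
    (R - nn D N R).PosSemidef := by
  have hH : IsSelfAdjoint R := hR.isHermitian
  have : R - nn D N R = cfc (fun t => t - nnS D N t) R := by
    rw [cfc_sub _ _ R (contOn _ _) (contOn _ _), cfc_id' ℝ R hH, nn_eq_cfc hD N hR]
  rw [this]
  exact cfc_posSemidef fun t ht => sub_nonneg.2 (nnS_le hD N (spec_nonneg hR ht))

/-- `ν(R) = √(R - ∑ K_i(R)²)`. -/
noncomputable def nu (D : ℝ) (N : ℕ) (R : Matrix n n ℂ) : Matrix n n ℂ := CFC.sqrt (R - nn D N R)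

lemma nu_posSemidef (D : ℝ) (N : ℕ) (R : Matrix n n ℂ) : (nu D N R).PosSemidef :=
  Matrix.nonneg_iff_posSemidef.1 (CFC.sqrt_nonneg _)

lemma nu_mul_self {D : ℝ} (hD : 0 < D) (N : ℕ) {R : Matrix n n ℂ} (hR : R.PosSemidef) :
    nu D N R * nu D N R = R - nn D N R :=
  CFC.sqrt_mul_sqrt_self _ (Matrix.nonneg_iff_posSemidef.2 (sub_nn_posSemidef hD N hR))

/-- `R - ∑ K_i(R)² ≤ Δ + R / ((N + 1) Δ)` for `0 ≤ R ≤ 1`. -/
lemma sub_nn_le {D : ℝ} (hD : 0 < D) (N : ℕ) {R : Matrix n n ℂ} (hR : R.PosSemidef)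
    (hR1 : (1 - R).PosSemidef) :
    (D • (1 : Matrix n n ℂ) + (((N : ℝ) + 1) * D)⁻¹ • R - (R - nn D N R)).PosSemidef := by
  have hH : IsSelfAdjoint R := hR.isHermitian
  have : D • (1 : Matrix n n ℂ) + (((N : ℝ) + 1) * D)⁻¹ • R - (R - nn D N R) =
      cfc (fun t => D + (((N : ℝ) + 1) * D)⁻¹ * t - (t - nnS D N t)) R := by
    rw [cfc_sub _ _ R (contOn _ _) (contOn _ _), cfc_const_add _ _ R (contOn _ _) hH,
      cfc_const_mul _ _ R (contOn _ _), cfc_sub _ _ R (contOn _ _) (contOn _ _),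
      cfc_id' ℝ R hH, nn_eq_cfc hD N hR]
    simp [Algebra.algebraMap_eq_smul_one]
  rw [this]
  refine cfc_posSemidef fun t ht => ?_
  have := sub_nnS_le hD N (spec_nonneg hR ht) (spec_le_one hR1 ht)
  have e : t / (((N : ℝ) + 1) * D) = (((N : ℝ) + 1) * D)⁻¹ * t := by rw [div_eq_inv_mul]
  rw [e] at this
  linarith

/-- `f(R) ≥ f(1) R` for `0 ≤ R ≤ 1`. -/
lemma ff_ge {D : ℝ} (hD : 0 < D) (N : ℕ) {R : Matrix n n ℂ} (hR : R.PosSemidef)
    (hR1 : (1 - R).PosSemidef) : (ff D N R - ffS D N 1 • R).PosSemidef := by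
  have hH : IsSelfAdjoint R := hR.isHermitian
  have : ff D N R - ffS D N 1 • R = cfc (fun t => ffS D N t - ffS D N 1 * t) R := by
    rw [cfc_sub _ _ R (contOn _ _) (contOn _ _), cfc_const_mul _ _ R (contOn _ _),
      cfc_id' ℝ R hH, ff_eq_cfc hD N hR]
  rw [this]
  exact cfc_posSemidef fun t ht =>
    sub_nonneg.2 (ffS_ge hD N (spec_nonneg hR ht) (spec_le_one hR1 ht))

/-! ### The Kraus family -/

/-- The Kraus family indexed by the grid and one extra point. -/
noncomputable def KK (D : ℝ) (N : ℕ) (R : Matrix n n ℂ) : Option (Fin N) → Matrix n n ℂ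
  | none => nu D N R
  | some i => Kr D i R

lemma KK_isHermitian {D : ℝ} (hD : 0 < D) (N : ℕ) {R : Matrix n n ℂ} (hR : R.PosSemidef)
    (i : Option (Fin N)) : (KK D N R i).IsHermitian := by
  cases i with
  | none => exact (nu_posSemidef D N R).isHermitian
  | some i => exact Kr_isHermitian hD _ hR

theorem KK_sum {D : ℝ} (hD : 0 < D) (N : ℕ) {R : Matrix n n ℂ} (hR : R.PosSemidef) :
    ∑ i, KK D N R i * KK D N R i = R := by
  rw [Fintype.sum_option]
  simp only [KK]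
  rw [nu_mul_self hD N hR]
  unfold nn
  abel

/-- The residual part of the gauge distance. -/
noncomputable def Wres (D : ℝ) (N : ℕ) (R₁ R₂ : Matrix n n ℂ) : Matrix n n ℂ :=
  ∑ i : Fin N, (Kr D i R₁ - Kr D i R₂) * (Kr D i R₁ - Kr D i R₂)

/-- The gauge distance `∑ (K_i(R₁) - K_i(R₂))²` over all Kraus indices. -/
noncomputable def WW (D : ℝ) (N : ℕ) (R₁ R₂ : Matrix n n ℂ) : Matrix n n ℂ :=
  ∑ i, (KK D N R₁ i - KK D N R₂ i) * (KK D N R₁ i - KK D N R₂ i)

lemma WW_eq (D : ℝ) (N : ℕ) (R₁ R₂ : Matrix n n ℂ) :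
    WW D N R₁ R₂ = (nu D N R₁ - nu D N R₂) * (nu D N R₁ - nu D N R₂) + Wres D N R₁ R₂ := by
  unfold WW Wres
  rw [Fintype.sum_option]
  simp only [KK]

/-- `(A - B)² ≤ 2 A² + 2 B²` for Hermitian `A`, `B`. -/
lemma sub_mul_sub_le {A B : Matrix n n ℂ} (hA : A.IsHermitian) (hB : B.IsHermitian) :
    ((2 : ℝ) • (A * A) + (2 : ℝ) • (B * B) - (A - B) * (A - B)).PosSemidef := by
  have : (2 : ℝ) • (A * A) + (2 : ℝ) • (B * B) - (A - B) * (A - B) = (A + B)ᴴ * (A + B) := by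
    rw [(hA.add hB).eq]
    simp only [two_smul]
    noncomm_ring
  rw [this]
  exact Matrix.posSemidef_conjTranspose_mul_self _

/-- Summed STAR. -/
theorem wres_star {p : ι → ℝ} (hp0 : ∀ x, 0 ≤ p x) (hp1 : ∑ x, p x = 1) {R : ι → Matrix n n ℂ}
    (hR : ∀ x, (R x).PosSemidef) {B : Matrix n n ℂ} (hB : B.PosSemidef)
    (hBar : B = ∑ x, p x • R x) {D : ℝ} (hD : 0 < D) (N : ℕ) :
    (ff D N B - ∑ x, p x • ff D N (R x) - ∑ x, p x • Wres D N (R x) B).PosSemidef := by
  have e : ff D N B - ∑ x, p x • ff D N (R x) - ∑ x, p x • Wres D N (R x) B =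
      ∑ i : Fin N, D • (phi (gridPt D i) B - ∑ x, p x • phi (gridPt D i) (R x) -
        ∑ x, p x • ((phi (gridPt D i) (R x) - phi (gridPt D i) B) *
          (phi (gridPt D i) (R x) - phi (gridPt D i) B))) := by
    unfold ff Wres
    simp only [smul_sub, Finset.sum_sub_distrib, Finset.smul_sum]
    have h1 : ∑ x, ∑ i : Fin N, p x • D • phi (gridPt D i) (R x) =
        ∑ i : Fin N, ∑ x, D • p x • phi (gridPt D i) (R x) := by
      rw [Finset.sum_comm]
      refine Finset.sum_congr rfl fun i _ => Finset.sum_congr rfl fun x _ => ?_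
      rw [smul_comm]
    have h2 : ∀ (i : Fin N) (x : ι), (Kr D i (R x) - Kr D i B) * (Kr D i (R x) - Kr D i B) =
        D • ((phi (gridPt D i) (R x) - phi (gridPt D i) B) *
          (phi (gridPt D i) (R x) - phi (gridPt D i) B)) := by
      intro i x
      unfold Kr
      rw [← smul_sub]
      simp only [smul_mul_assoc, mul_smul_comm, smul_smul, Real.mul_self_sqrt hD.le]
    have h3 : ∑ x, ∑ i : Fin N, p x • ((Kr D i (R x) - Kr D i B) * (Kr D i (R x) - Kr D i B)) =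
        ∑ i : Fin N, ∑ x, D • p x • ((phi (gridPt D i) (R x) - phi (gridPt D i) B) *
          (phi (gridPt D i) (R x) - phi (gridPt D i) B)) := by
      rw [Finset.sum_comm]
      refine Finset.sum_congr rfl fun i _ => Finset.sum_congr rfl fun x _ => ?_
      rw [h2, smul_comm]
    rw [h1, h3]
  rw [e]
  refine Matrix.posSemidef_sum _ fun i _ => ?_
  exact (star hp0 hp1 hR hB hBar (gridPt_pos hD i)).smul hD.le

/-- The one-step bound: for contractions `R_x` with mean `B`,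
`E W(R_x, B) ≤ f(B) - E f(R_x) + 4 Δ + (4 / ((N + 1) Δ)) B`. -/
theorem one_step {p : ι → ℝ} (hp0 : ∀ x, 0 ≤ p x) (hp1 : ∑ x, p x = 1) {R : ι → Matrix n n ℂ}
    (hR : ∀ x, (R x).PosSemidef) (hR1 : ∀ x, (1 - R x).PosSemidef) {B : Matrix n n ℂ}
    (hB : B.PosSemidef) (hB1 : (1 - B).PosSemidef)
    (hBar : B = ∑ x, p x • R x) {D : ℝ} (hD : 0 < D) (N : ℕ) :
    (ff D N B - ∑ x, p x • ff D N (R x) + (4 * D) • (1 : Matrix n n ℂ) +
      (4 * (((N : ℝ) + 1) * D)⁻¹) • B - ∑ x, p x • WW D N (R x) B).PosSemidef := by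
  -- each `(ν(R_x) - ν(B))² ≤ 2 (R_x - nn R_x) + 2 (B - nn B) ≤ 4 Δ + 2 c R_x + 2 c B`
  set c := (((N : ℝ) + 1) * D)⁻¹ with hc
  have hcpos : 0 ≤ c := by positivity
  have hpt : ∀ x, ((4 * D) • (1 : Matrix n n ℂ) + (2 * c) • R x + (2 * c) • B -
      (nu D N (R x) - nu D N B) * (nu D N (R x) - nu D N B)).PosSemidef := by
    intro x
    have h1 := sub_mul_sub_le (nu_posSemidef D N (R x)).isHermitian (nu_posSemidef D N B).isHermitian
    rw [nu_mul_self hD N (hR x), nu_mul_self hD N hB] at h1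
    have h2 := (sub_nn_le hD N (hR x) (hR1 x)).smul (show (0 : ℝ) ≤ 2 by norm_num)
    have h3 := (sub_nn_le hD N hB hB1).smul (show (0 : ℝ) ≤ 2 by norm_num)
    have := (h1.add h2).add h3
    convert this using 1
    simp only [smul_sub, smul_add, smul_smul, ← hc]
    have e : (4 * D) • (1 : Matrix n n ℂ) = (2 * D) • (1 : Matrix n n ℂ) + (2 * D) • (1 : Matrix n n ℂ) := by
      rw [← add_smul]; ring_nf
    rw [e]
    abel
  have hsum := Matrix.posSemidef_sum (Finset.univ) (fun x _ => (hpt x).smul (hp0 x))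
  have hstar := wres_star hp0 hp1 hR hB hBar hD N
  have := hsum.add hstar
  convert this using 1
  simp only [WW_eq, smul_add, smul_sub, Finset.sum_add_distrib, Finset.sum_sub_distrib, smul_smul]
  have e1 : ∑ x, (p x * (4 * D)) • (1 : Matrix n n ℂ) = (4 * D) • (1 : Matrix n n ℂ) := by
    rw [← Finset.sum_smul, ← Finset.sum_mul, hp1, one_mul]
  have e2 : ∑ x, (p x * (2 * c)) • R x = (2 * c) • B := by
    rw [hBar, Finset.smul_sum]
    refine Finset.sum_congr rfl fun x _ => ?_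
    rw [smul_smul, mul_comm]
  have e3 : ∑ x, (p x * (2 * c)) • B = (2 * c) • B := by
    rw [← Finset.sum_smul, ← Finset.sum_mul, hp1, one_mul]
  rw [e1, e2, e3]
  have e4 : (4 * c) • B = (2 * c) • B + (2 * c) • B := by
    rw [← add_smul]; ring_nf
  rw [e4]
  abel

end Crest.Agent.ParRep
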