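import Crest.Agent.Lib.ParRep.PathLocal

/-!
Row 342, #1280 (3): the one-coordinate bound for S0537 from the support components.

Given vectors `T x y`, `A x`, `B y` in a bipartite register and local POVMs, with
`W x y = ∑ a b, accept * ⟨T x y| E x a ⊗ F y b |T x y⟩`, `N = ∑ π ‖T‖²`, `V = ∑ π (‖T-A‖²+‖T-B‖²)`
and `μ = π ‖T‖²/N`:
`(∑ π W)/N ≤ v + TV(μ,π) + sqrt (8 κ V / N)`.
-/

set_option autoImplicit false
set_option linter.unusedSectionVars false

open scoped Kronecker ComplexOrder
open Matrix Crest.MathPhysics.NonlocalGame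

namespace Crest.Agent.ParRep

/-! ### A real inequality -/

lemma walk_step_real {a b D l d : ℝ} (ha : 0 ≤ a) (hb : 0 ≤ b) (hD : 0 ≤ D) (hl : 0 ≤ l) (hd : 0 ≤ d)
    (h : D ^ 2 ≤ 2 * l * d) : (a + b + D) ^ 2 ≤ 2 * (l + 1) * (a ^ 2 + b ^ 2 + d) := by
  rcases hl.eq_or_lt with hl0 | hlpos
  · have hD0 : D = 0 := by
      have : D ^ 2 ≤ 0 := by rw [← hl0] at h; simpa using h
      nlinarith [sq_nonneg D]
    subst hD0
    rw [← hl0]
    nlinarith [sq_nonneg (a - b)]
  · -- multiply by `2 l`
    have key : 0 ≤ 2 * l * (2 * (l + 1) * (a ^ 2 + b ^ 2 + d) - (a + b + D) ^ 2) := by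
      have h1 : (2 * l + 2) * D ^ 2 ≤ (2 * l + 2) * (2 * l * d) :=
        mul_le_mul_of_nonneg_left h (by linarith)
      have h2 : 2 * l * (2 * (l + 1) * (a ^ 2 + b ^ 2 + d) - (a + b + D) ^ 2)
          = 2 * l * (a - b) ^ 2 + (2 * l * a - D) ^ 2 + (2 * l * b - D) ^ 2
            + ((2 * l + 2) * (2 * l * d) - (2 * l + 2) * D ^ 2) := by ring
      rw [h2]
      have h3 : 0 ≤ 2 * l * (a - b) ^ 2 := by positivity
      nlinarith [sq_nonneg (2 * l * a - D), sq_nonneg (2 * l * b - D)]
    have hl2 : 0 < 2 * l := by linarith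
    have := nonneg_of_mul_nonneg_right key hl2
    linarith

section Graph

variable (G : Game)

lemma mem_supportComponent {z w : Fin G.nX × Fin G.nY} :
    w ∈ G.supportComponent z ↔ G.supportGraph.Reachable z w := by
  simp [Game.supportComponent, Finset.mem_filter]

variable {ι : Type*} [Fintype ι]
  (T' : Fin G.nX × Fin G.nY → ι → ℂ) (A : Fin G.nX → ι → ℂ) (B : Fin G.nY → ι → ℂ)

/-- the local defect at a question pair -/
noncomputable def h2 (z : Fin G.nX × Fin G.nY) : ℝ := nsq (T' z - A z.1) + nsq (T' z - B z.2)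

lemma h2_nonneg (z : Fin G.nX × Fin G.nY) : 0 ≤ h2 G T' A B z :=
  add_nonneg (nsq_nonneg _) (nsq_nonneg _)

/-- Two adjacent question pairs are close through a common centre. -/
lemma edge_center {u w : Fin G.nX × Fin G.nY} (h : G.supportGraph.Adj u w) :
    ∃ X : ι → ℂ, nsq (T' u - X) ≤ h2 G T' A B u ∧ nsq (T' w - X) ≤ h2 G T' A B w := by
  obtain ⟨-, -, -, h⟩ := h
  rcases h with h | h
  · refine ⟨A u.1, ?_, ?_⟩
    · unfold h2
      linarith [nsq_nonneg (T' u - B u.2)]
    · unfold h2
      rw [h]
      linarith [nsq_nonneg (T' w - B w.2)]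
  · refine ⟨B u.2, ?_, ?_⟩
    · unfold h2
      linarith [nsq_nonneg (T' u - A u.1)]
    · unfold h2
      rw [h]
      linarith [nsq_nonneg (T' w - A w.1)]

/-- The sum over the support of a walk is at least the value at the start. -/
lemma h2_start_le {u w : Fin G.nX × Fin G.nY} (p : G.supportGraph.Walk u w) :
    h2 G T' A B u ≤ (p.support.map (h2 G T' A B)).sum := by
  cases p with
  | nil => simp
  | cons h p =>
    simp only [SimpleGraph.Walk.support_cons, List.map_cons, List.sum_cons]
    have : 0 ≤ (p.support.map (h2 G T' A B)).sum :=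
      List.sum_nonneg (by
        intro x hx
        obtain ⟨z, -, rfl⟩ := List.mem_map.1 hx
        exact h2_nonneg G T' A B z)
    linarith

/-- The bound along a walk. -/
lemma walk_bound {u w : Fin G.nX × Fin G.nY} (p : G.supportGraph.Walk u w) :
    nsq (T' u - T' w) ≤
      2 * (p.length : ℝ) * (2 * (p.support.map (h2 G T' A B)).sum - h2 G T' A B u) := by
  induction p with
  | nil => simp [nsq]
  | @cons u u' w hadj p ih =>
    obtain ⟨X, hX1, hX2⟩ := edge_center G T' A B hadj
    have hS' := h2_start_le G T' A B p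
    set S' := (p.support.map (h2 G T' A B)).sum with hS'def
    have hu := h2_nonneg G T' A B u
    have hu' := h2_nonneg G T' A B u'
    set a := vn (T' u - X) with ha
    set b := vn (T' u' - X) with hb
    set D := vn (T' u' - T' w) with hD
    have hsq1 : a ^ 2 ≤ h2 G T' A B u := by rw [ha, vn_sq]; exact hX1
    have hsq2 : b ^ 2 ≤ h2 G T' A B u' := by rw [hb, vn_sq]; exact hX2
    have hsq3 : D ^ 2 ≤ 2 * (p.length : ℝ) * (2 * S' - h2 G T' A B u') := by rw [hD, vn_sq]; exact ih
    have hstep := walk_step_real (vn_nonneg (T' u - X)) (vn_nonneg (T' u' - X))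
      (vn_nonneg (T' u' - T' w)) (Nat.cast_nonneg p.length)
      (by linarith : 0 ≤ 2 * S' - h2 G T' A B u') hsq3
    have htri : vn (T' u - T' w) ≤ a + b + D := by
      have h1 := vn_sub_le (T' u) X (T' w)
      have h2' := vn_sub_le X (T' u') (T' w)
      have h3 : vn (X - T' u') = b := vn_sub_comm _ _
      linarith
    have hsqtri : nsq (T' u - T' w) ≤ (a + b + D) ^ 2 := by
      rw [← vn_sq]
      exact pow_le_pow_left₀ (vn_nonneg _) htri 2
    simp only [SimpleGraph.Walk.length_cons, SimpleGraph.Walk.support_cons, List.map_cons,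
      List.sum_cons, Nat.cast_add, Nat.cast_one]
    rw [← hS'def]
    refine hsqtri.trans (hstep.trans ?_)
    apply mul_le_mul_of_nonneg_left _ (by positivity)
    linarith

/-- The bound inside a support component, by a path. -/
lemma component_bound {z r : Fin G.nX × Fin G.nY} (h : G.supportGraph.Reachable z r) :
    nsq (T' z - T' r) ≤
      4 * (((G.supportComponent z).card : ℝ) - 1) * ∑ u ∈ G.supportComponent z, h2 G T' A B u := by
  classical
  obtain ⟨w⟩ := h
  let p := w.toPath
  have hp : (p : G.supportGraph.Walk z r).IsPath := p.2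
  have hb := walk_bound G T' A B (p : G.supportGraph.Walk z r)
  have hnodup := hp.support_nodup
  have hsub : (p : G.supportGraph.Walk z r).support.toFinset ⊆ G.supportComponent z := by
    intro x hx
    rw [List.mem_toFinset] at hx
    rw [mem_supportComponent]
    exact ⟨(p : G.supportGraph.Walk z r).takeUntil x hx⟩
  have hsum : ((p : G.supportGraph.Walk z r).support.map (h2 G T' A B)).sum
      ≤ ∑ u ∈ G.supportComponent z, h2 G T' A B u := by
    rw [← List.sum_toFinset _ hnodup]
    exact Finset.sum_le_sum_of_subset_of_nonneg hsub (fun x _ _ => h2_nonneg G T' A B x)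
  have hlen : ((p : G.supportGraph.Walk z r).length : ℝ) ≤ ((G.supportComponent z).card : ℝ) - 1 := by
    have h1 := Finset.card_le_card hsub
    rw [List.toFinset_card_of_nodup hnodup, SimpleGraph.Walk.length_support] at h1
    have : ((p : G.supportGraph.Walk z r).length : ℝ) + 1 ≤ ((G.supportComponent z).card : ℝ) := by
      exact_mod_cast h1
    linarith
  have hz := h2_nonneg G T' A B z
  have hS0 := h2_start_le G T' A B (p : G.supportGraph.Walk z r)
  have hsum0 : 0 ≤ ∑ u ∈ G.supportComponent z, h2 G T' A B u :=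
    Finset.sum_nonneg fun x _ => h2_nonneg G T' A B x
  refine hb.trans ?_
  have hcard : 0 ≤ (((G.supportComponent z).card : ℝ) - 1) :=
    le_trans (Nat.cast_nonneg _) hlen
  calc 2 * ((p : G.supportGraph.Walk z r).length : ℝ)
        * (2 * ((p : G.supportGraph.Walk z r).support.map (h2 G T' A B)).sum - h2 G T' A B z)
      ≤ 2 * ((p : G.supportGraph.Walk z r).length : ℝ)
        * (2 * ∑ u ∈ G.supportComponent z, h2 G T' A B u) := by
        apply mul_le_mul_of_nonneg_left _ (by positivity)
        linarith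
    _ ≤ 2 * (((G.supportComponent z).card : ℝ) - 1)
        * (2 * ∑ u ∈ G.supportComponent z, h2 G T' A B u) := by
        apply mul_le_mul_of_nonneg_right _ (by positivity)
        linarith
    _ = _ := by ring

/-- Components of reachable pairs coincide. -/
lemma supportComponent_eq {z w : Fin G.nX × Fin G.nY} (h : G.supportGraph.Reachable z w) :
    G.supportComponent z = G.supportComponent w := by
  ext u
  simp only [mem_supportComponent]
  exact ⟨fun h' => h.symm.trans h', fun h' => h.trans h'⟩

/-- The weighted sum of the defects to the root, by the hypothesis on `κ`. -/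
theorem path_sum (κ : ℝ)
    (hκ : ∀ z : Fin G.nX × Fin G.nY, 0 < G.prob z.1 z.2 → ∀ w ∈ G.supportComponent z,
      8 * ((G.supportComponent z).card - 1 : ℝ) * (∑ u ∈ G.supportComponent z, G.prob u.1 u.2)
        ≤ κ * G.prob w.1 w.2)
    (hκ0 : 0 ≤ κ)
    (r : Fin G.nX × Fin G.nY → Fin G.nX × Fin G.nY)
    (hr : ∀ z, G.supportGraph.Reachable z (r z)) :
    ∑ z, G.prob z.1 z.2 * nsq (T' z - T' (r z)) ≤
      (κ / 2) * ∑ u, G.prob u.1 u.2 * h2 G T' A B u := by
  classical
  have hp := G.prob_nonneg
  -- the double sum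
  let Rel : Fin G.nX × Fin G.nY → Fin G.nX × Fin G.nY → Prop :=
    fun z u => 0 < G.prob z.1 z.2 ∧ u ∈ G.supportComponent z
  let g : Fin G.nX × Fin G.nY → Fin G.nX × Fin G.nY → ℝ := fun z u =>
    if Rel z u then
      G.prob z.1 z.2 * (4 * (((G.supportComponent z).card : ℝ) - 1)) * h2 G T' A B u else 0
  have h1 : ∀ z, G.prob z.1 z.2 * nsq (T' z - T' (r z)) ≤ ∑ u, g z u := by
    intro z
    rcases (hp z.1 z.2).eq_or_lt with h0 | hpos
    · rw [← h0, zero_mul]
      refine Finset.sum_nonneg fun u _ => ?_
      simp only [g, Rel, ← h0]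
      simp
    · have hb := component_bound G T' A B (hr z)
      have hg : ∑ u, g z u = G.prob z.1 z.2 * (4 * (((G.supportComponent z).card : ℝ) - 1)) *
          ∑ u ∈ G.supportComponent z, h2 G T' A B u := by
        simp only [g, Rel, hpos, true_and]
        rw [Finset.mul_sum, ← Finset.sum_filter]
        simp
      rw [hg, mul_assoc]
      exact mul_le_mul_of_nonneg_left hb hpos.le
  have h2' : ∀ u, ∑ z, g z u ≤ (κ / 2) * (G.prob u.1 u.2 * h2 G T' A B u) := by
    intro u
    by_cases hex : ∃ z₀, Rel z₀ u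
    · obtain ⟨z₀, hz₀, hu⟩ := hex
      have hc := hκ z₀ hz₀ u hu
      set C := G.supportComponent z₀ with hC
      have hzC : ∀ z, Rel z u → G.supportComponent z = C ∧ z ∈ C := by
        rintro z ⟨-, hzu⟩
        have h₁ := (mem_supportComponent G).1 hzu
        have h₂ := (mem_supportComponent G).1 hu
        have hzz : G.supportGraph.Reachable z₀ z := h₂.trans h₁.symm
        exact ⟨(supportComponent_eq G hzz).symm, (mem_supportComponent G).2 hzz⟩
      have hgle : ∀ z, g z u ≤ (if z ∈ C then G.prob z.1 z.2 else 0) *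
          (4 * ((C.card : ℝ) - 1)) * h2 G T' A B u := by
        intro z
        by_cases hz : Rel z u
        · obtain ⟨h₁, h₂⟩ := hzC z hz
          simp only [g, hz, if_true, h₂, h₁, le_refl]
        · simp only [g, hz, if_false]
          by_cases hzC' : z ∈ C
          · have hcard : 1 ≤ (C.card : ℝ) := by
              have : 0 < C.card := Finset.card_pos.2 ⟨z, hzC'⟩
              exact_mod_cast this
            simp only [hzC', if_true]
            have := hp z.1 z.2
            have := h2_nonneg G T' A B u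
            have h4 : 0 ≤ 4 * ((C.card : ℝ) - 1) := by linarith
            positivity
          · simp [hzC']
      have hsum : ∑ z, g z u ≤ (∑ u' ∈ C, G.prob u'.1 u'.2) *
          (4 * ((C.card : ℝ) - 1)) * h2 G T' A B u := by
        refine (Finset.sum_le_sum fun z _ => hgle z).trans ?_
        simp only [← Finset.sum_mul]
        rw [Finset.sum_ite_mem]
        simp
      refine hsum.trans ?_
      have hh := h2_nonneg G T' A B u
      have : (∑ u' ∈ C, G.prob u'.1 u'.2) * (4 * ((C.card : ℝ) - 1)) ≤
          (κ / 2) * G.prob u.1 u.2 := by linarith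
      calc _ ≤ (κ / 2) * G.prob u.1 u.2 * h2 G T' A B u := mul_le_mul_of_nonneg_right this hh
        _ = _ := by ring
    · have hzero : ∀ z, g z u = 0 := by
        intro z
        have : ¬ Rel z u := fun h => hex ⟨z, h⟩
        simp [g, this]
      simp only [hzero, Finset.sum_const_zero]
      have := hp u.1 u.2
      have := h2_nonneg G T' A B u
      positivity
  calc ∑ z, G.prob z.1 z.2 * nsq (T' z - T' (r z))
      ≤ ∑ z, ∑ u, g z u := Finset.sum_le_sum fun z _ => h1 z
    _ = ∑ u, ∑ z, g z u := Finset.sum_comm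
    _ ≤ ∑ u, (κ / 2) * (G.prob u.1 u.2 * h2 G T' A B u) := Finset.sum_le_sum fun u _ => h2' u
    _ = _ := by rw [Finset.mul_sum]

end Graph

end Crest.Agent.ParRep
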