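import Mathlib

/-!
# Row 342, basic vector calculus for finite-dimensional complex vectors written as functions

`nsq φ = ∑ i, ‖φ i‖ ^ 2`, `vn φ = sqrt (nsq φ)`: triangle inequality, scaling, Cauchy-Schwarz for
`star u ⬝ᵥ M *ᵥ w` when `0 ≤ M ≤ 1`, and the contraction estimate
`|⟨t|O|t⟩ - ⟨ξ|O|ξ⟩| ≤ (‖t‖+‖ξ‖) ‖t-ξ‖`.
-/

set_option autoImplicit false
set_option linter.unusedSectionVars false

open scoped ComplexOrder Matrix MatrixOrder Matrix.Norms.L2Operator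

namespace Crest.Agent.ParRep

variable {ι : Type*} [Fintype ι]

/-- squared norm of a vector on a finite type -/
noncomputable def nsq (φ : ι → ℂ) : ℝ := ∑ i, ‖φ i‖ ^ 2

/-- norm of a vector on a finite type -/
noncomputable def vn (φ : ι → ℂ) : ℝ := Real.sqrt (nsq φ)

lemma nsq_nonneg (φ : ι → ℂ) : 0 ≤ nsq φ := Finset.sum_nonneg fun _ _ => by positivity

lemma vn_nonneg (φ : ι → ℂ) : 0 ≤ vn φ := Real.sqrt_nonneg _

lemma vn_sq (φ : ι → ℂ) : vn φ ^ 2 = nsq φ := Real.sq_sqrt (nsq_nonneg φ)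

lemma vn_eq_norm (φ : ι → ℂ) : vn φ = ‖(WithLp.toLp 2 φ : EuclideanSpace ℂ ι)‖ := by
  unfold vn nsq
  rw [EuclideanSpace.norm_eq]

lemma vn_add_le (a b : ι → ℂ) : vn (a + b) ≤ vn a + vn b := by
  simp only [vn_eq_norm]
  have := norm_add_le (WithLp.toLp 2 a : EuclideanSpace ℂ ι) (WithLp.toLp 2 b)
  simpa [WithLp.toLp_add] using this

lemma vn_sub_comm (a b : ι → ℂ) : vn (a - b) = vn (b - a) := by
  simp only [vn, nsq, Pi.sub_apply]
  congr 1
  refine Finset.sum_congr rfl fun i _ => ?_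
  rw [norm_sub_rev]

lemma vn_sub_le (a b c : ι → ℂ) : vn (a - c) ≤ vn (a - b) + vn (b - c) := by
  have := vn_add_le (a - b) (b - c)
  simpa using this

lemma vn_zero : vn (0 : ι → ℂ) = 0 := by simp [vn, nsq]

lemma nsq_smul (c : ℂ) (φ : ι → ℂ) : nsq (c • φ) = ‖c‖ ^ 2 * nsq φ := by
  simp only [nsq, Pi.smul_apply, smul_eq_mul, norm_mul, mul_pow, Finset.mul_sum]

lemma vn_smul (c : ℂ) (φ : ι → ℂ) : vn (c • φ) = ‖c‖ * vn φ := by
  unfold vn
  rw [nsq_smul, Real.sqrt_mul (by positivity), Real.sqrt_sq (norm_nonneg _)]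

lemma nsq_eq_zero {φ : ι → ℂ} (h : nsq φ = 0) : φ = 0 := by
  funext i
  have := (Finset.sum_eq_zero_iff_of_nonneg (fun i _ => by positivity)).1 h i (Finset.mem_univ i)
  simpa using this

lemma vn_eq_zero {φ : ι → ℂ} (h : vn φ = 0) : φ = 0 := by
  apply nsq_eq_zero
  rw [← vn_sq, h]; simp

lemma nsq_eq_star_dot (φ : ι → ℂ) : ((nsq φ : ℝ) : ℂ) = star φ ⬝ᵥ φ := by
  simp only [nsq, dotProduct, Pi.star_apply]
  push_cast
  refine Finset.sum_congr rfl fun i _ => ?_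
  rw [← Complex.mul_conj' (φ i)]
  simp [mul_comm]

/-- Cauchy-Schwarz for the plain dot product. -/
lemma norm_star_dot_le (u w : ι → ℂ) : ‖star u ⬝ᵥ w‖ ≤ vn u * vn w := by
  rw [vn_eq_norm, vn_eq_norm]
  have := norm_inner_le_norm (𝕜 := ℂ) (WithLp.toLp 2 u : EuclideanSpace ℂ ι) (WithLp.toLp 2 w)
  rw [EuclideanSpace.inner_eq_star_dotProduct] at this
  rw [dotProduct_comm] at this
  simpa using this

variable [DecidableEq ι]

/-- quadratic form of a matrix -/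
noncomputable def qf (O : Matrix ι ι ℂ) (φ : ι → ℂ) : ℝ := (star φ ⬝ᵥ (O *ᵥ φ)).re

lemma qf_nonneg {O : Matrix ι ι ℂ} (hO : O.PosSemidef) (φ : ι → ℂ) : 0 ≤ qf O φ := by
  have := hO.dotProduct_mulVec_nonneg φ
  exact (Complex.nonneg_iff.1 this).1

lemma qf_one (φ : ι → ℂ) : qf (1 : Matrix ι ι ℂ) φ = nsq φ := by
  simp only [qf, Matrix.one_mulVec]
  rw [← nsq_eq_star_dot]; simp

lemma qf_sub (O O' : Matrix ι ι ℂ) (φ : ι → ℂ) : qf (O - O') φ = qf O φ - qf O' φ := by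
  simp [qf, Matrix.sub_mulVec, dotProduct_sub]

lemma qf_add (O O' : Matrix ι ι ℂ) (φ : ι → ℂ) : qf (O + O') φ = qf O φ + qf O' φ := by
  simp [qf, Matrix.add_mulVec, dotProduct_add]

lemma qf_smul_vec (O : Matrix ι ι ℂ) (c : ℂ) (φ : ι → ℂ) :
    qf O (c • φ) = ‖c‖ ^ 2 * qf O φ := by
  simp only [qf, Matrix.mulVec_smul, star_smul, dotProduct_smul, smul_dotProduct, smul_eq_mul]
  rw [← mul_assoc]
  have : c * star c = ((‖c‖ ^ 2 : ℝ) : ℂ) := by
    rw [Complex.star_def, Complex.mul_conj, Complex.normSq_eq_norm_sq]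
  rw [this, Complex.re_ofReal_mul]

lemma qf_le_nsq {O : Matrix ι ι ℂ} (hO' : (1 - O).PosSemidef) (φ : ι → ℂ) : qf O φ ≤ nsq φ := by
  have := qf_nonneg hO' φ
  rw [qf_sub, qf_one] at this
  linarith

/-- `⟨u|O|w⟩` bound for `0 ≤ O ≤ 1` (operator norm at most one). -/
lemma norm_form_le {O : Matrix ι ι ℂ} (hO : O.PosSemidef) (hO' : (1 - O).PosSemidef)
    (u w : ι → ℂ) : ‖star u ⬝ᵥ (O *ᵥ w)‖ ≤ vn u * vn w := by
  -- write `O = Bᴴ B`
  obtain ⟨B, hB⟩ := CStarAlgebra.nonneg_iff_eq_star_mul_self.mp hO.nonneg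
  have hB' : O = Bᴴ * B := by simpa [Matrix.star_eq_conjTranspose] using hB
  have hform : ∀ a b : ι → ℂ, star a ⬝ᵥ (O *ᵥ b) = star (B *ᵥ a) ⬝ᵥ (B *ᵥ b) := by
    intro a b
    rw [hB', ← Matrix.mulVec_mulVec, Matrix.star_mulVec, Matrix.dotProduct_mulVec,
      Matrix.dotProduct_mulVec, Matrix.vecMul_vecMul]
  have hq : ∀ a : ι → ℂ, nsq (B *ᵥ a) = qf O a := by
    intro a
    have := nsq_eq_star_dot (B *ᵥ a)
    unfold qf
    rw [hform a a, ← this]; simp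
  have hb : ∀ a : ι → ℂ, vn (B *ᵥ a) ≤ vn a := by
    intro a
    apply Real.sqrt_le_sqrt
    rw [hq a]
    exact qf_le_nsq hO' a
  rw [hform u w]
  refine (norm_star_dot_le _ _).trans ?_
  exact mul_le_mul (hb u) (hb w) (vn_nonneg _) (vn_nonneg _)

/-- Contraction estimate: difference of two expectation values. -/
lemma qf_diff_le {O : Matrix ι ι ℂ} (hO : O.PosSemidef) (hO' : (1 - O).PosSemidef)
    (t ξ : ι → ℂ) : qf O t - qf O ξ ≤ (vn t + vn ξ) * vn (t - ξ) := by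
  have hsplit : qf O t - qf O ξ
      = (star (t - ξ) ⬝ᵥ (O *ᵥ t)).re + (star ξ ⬝ᵥ (O *ᵥ (t - ξ))).re := by
    simp only [qf, star_sub, sub_dotProduct, Matrix.mulVec_sub, dotProduct_sub, Complex.sub_re]
    ring
  have h1 := norm_form_le hO hO' (t - ξ) t
  have h2 := norm_form_le hO hO' ξ (t - ξ)
  have h1' := (Complex.re_le_norm _).trans h1
  have h2' := (Complex.re_le_norm _).trans h2
  rw [hsplit]
  nlinarith [vn_nonneg t, vn_nonneg ξ, vn_nonneg (t - ξ)]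

end Crest.Agent.ParRep
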