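import Crest.Agent.Lib.ParRep.OnePlay
import Crest.Agent.Lib.ParRep.VecBasics

/-!
Row 342, #1280 (3): product states over a finite index set and operators acting on one factor.
`locOp c M` is `M` acting on the factor `c` of the register `C → R`; `prodVec ξ` is the tensor product
of the vectors `ξ c`. The expectation of `locOp c E ⊗ locOp c F` in `prodVec ξ` is the expectation of
`E ⊗ F` in `ξ c` times the squared norms of the other factors.
-/

set_option autoImplicit false
set_option linter.unusedSectionVars false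

open scoped Kronecker ComplexOrder
open Matrix Crest.MathPhysics.NonlocalGame

namespace Crest.Agent.ParRep

section Tensor

variable {RA RB SA SB : Type*} [Fintype RA] [Fintype RB] [Fintype SA] [Fintype SB]
  [DecidableEq RA] [DecidableEq RB] [DecidableEq SA] [DecidableEq SB]

/-- The expectation of `(E ⊗ 1) ⊗ (F ⊗ 1)` in a product vector. -/
theorem bra_tensor (ξ : RA × RB → ℂ) (ρ : SA × SB → ℂ) (E : Matrix RA RA ℂ) (F : Matrix RB RB ℂ) :
    bra (fun p : (RA × SA) × (RB × SB) => ξ (p.1.1, p.2.1) * ρ (p.1.2, p.2.2))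
      (E ⊗ₖ (1 : Matrix SA SA ℂ)) (F ⊗ₖ (1 : Matrix SB SB ℂ)) = bra ξ E F * nsq ρ := by
  unfold bra
  have hρ : ∑ s : SA × SB, star (ρ s) * ρ s = ((nsq ρ : ℝ) : ℂ) := by
    rw [nsq_eq_star_dot]; rfl
  have key : dotProduct (star fun p : (RA × SA) × (RB × SB) => ξ (p.1.1, p.2.1) * ρ (p.1.2, p.2.2))
      (((E ⊗ₖ (1 : Matrix SA SA ℂ)) ⊗ₖ (F ⊗ₖ (1 : Matrix SB SB ℂ))).mulVec
        fun p : (RA × SA) × (RB × SB) => ξ (p.1.1, p.2.1) * ρ (p.1.2, p.2.2))
      = dotProduct (star ξ) ((E ⊗ₖ F).mulVec ξ) * ((nsq ρ : ℝ) : ℂ) := by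
    rw [← hρ]
    -- abbreviations
    let Ab : RA → RB → ℂ := fun a b => ∑ a' : RA, ∑ b' : RB, star (ξ (a, b)) * (E a a' * F b b' * ξ (a', b'))
    let r : SA → SB → ℂ := fun α β => star (ρ (α, β)) * ρ (α, β)
    have hL : dotProduct (star fun p : (RA × SA) × (RB × SB) => ξ (p.1.1, p.2.1) * ρ (p.1.2, p.2.2))
      (((E ⊗ₖ (1 : Matrix SA SA ℂ)) ⊗ₖ (F ⊗ₖ (1 : Matrix SB SB ℂ))).mulVec
        fun p : (RA × SA) × (RB × SB) => ξ (p.1.1, p.2.1) * ρ (p.1.2, p.2.2))
        = ∑ a : RA, ∑ α : SA, ∑ b : RB, ∑ β : SB, Ab a b * r α β := by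
      simp only [dotProduct, mulVec, kroneckerMap_apply, Pi.star_apply, one_apply, Fintype.sum_prod_type,
        star_mul']
      refine Finset.sum_congr rfl fun a _ => Finset.sum_congr rfl fun α _ =>
        Finset.sum_congr rfl fun b _ => Finset.sum_congr rfl fun β _ => ?_
      simp only [Ab, r, Finset.sum_mul, Finset.mul_sum]
      refine Finset.sum_congr rfl fun a' _ => ?_
      rw [Finset.sum_eq_single α]
      · refine Finset.sum_congr rfl fun b' _ => ?_
        rw [Finset.sum_eq_single β]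
        · simp only [if_true]; ring
        · intro β' _ hβ
          simp [Ne.symm hβ]
        · simp
      · intro α' _ hα
        simp [Ne.symm hα]
      · simp
    have hR : dotProduct (star ξ) ((E ⊗ₖ F).mulVec ξ) = ∑ a : RA, ∑ b : RB, Ab a b := by
      simp only [dotProduct, mulVec, kroneckerMap_apply, Pi.star_apply, Fintype.sum_prod_type, Ab,
        Finset.mul_sum]
    have hS : (∑ s : SA × SB, star (ρ s) * ρ s) = ∑ α : SA, ∑ β : SB, r α β := by
      simp only [Fintype.sum_prod_type, r]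
    rw [hL, hR, hS]
    calc ∑ a : RA, ∑ α : SA, ∑ b : RB, ∑ β : SB, Ab a b * r α β
        = ∑ a : RA, ∑ b : RB, ∑ α : SA, ∑ β : SB, Ab a b * r α β :=
          Finset.sum_congr rfl fun a _ => Finset.sum_comm
      _ = ∑ a : RA, ∑ b : RB, Ab a b * ∑ α : SA, ∑ β : SB, r α β := by
          simp only [Finset.mul_sum]
      _ = _ := by
          simp only [Finset.sum_mul]
  rw [key, Complex.re_mul_ofReal]

end Tensor

section Local

variable {C R : Type*} [Fintype C] [DecidableEq C] [Fintype R] [DecidableEq R]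

/-- `M` acting on the factor `c` of the register `C → R`. -/
noncomputable def locOp (c : C) (M : Matrix R R ℂ) : Matrix (C → R) (C → R) ℂ :=
  (M ⊗ₖ (1 : Matrix ({i // i ≠ c} → R) ({i // i ≠ c} → R) ℂ)).submatrix
    (Equiv.funSplitAt c R) (Equiv.funSplitAt c R)

lemma locOp_psd (c : C) {M : Matrix R R ℂ} (hM : M.PosSemidef) : (locOp c M).PosSemidef :=
  (hM.kronecker PosSemidef.one).submatrix _

lemma locOp_one (c : C) : locOp c (1 : Matrix R R ℂ) = 1 := by
  unfold locOp
  rw [one_kronecker_one, submatrix_one_equiv]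

lemma locOp_sum {κ : Type*} (s : Finset κ) (c : C) (M : κ → Matrix R R ℂ) :
    locOp c (∑ a ∈ s, M a) = ∑ a ∈ s, locOp c (M a) := by
  classical
  ext p q
  simp only [locOp, submatrix_apply, kroneckerMap_apply, Matrix.sum_apply, Finset.sum_mul]

end Local

section Prod

variable {C : Type*} [Fintype C] [DecidableEq C]
  {RA RB : Type*} [Fintype RA] [DecidableEq RA] [Fintype RB] [DecidableEq RB]

/-- the tensor product of a family of vectors -/
noncomputable def prodVec (ξ : C → RA × RB → ℂ) : (C → RA) × (C → RB) → ℂ :=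
  fun p => ∏ c, ξ c (p.1 c, p.2 c)

/-- the squared norm of a product vector -/
theorem nsq_prodVec (ξ : C → RA × RB → ℂ) : nsq (prodVec ξ) = ∏ c, nsq (ξ c) := by
  unfold nsq prodVec
  simp only [norm_prod, ← Finset.prod_pow]
  rw [Finset.prod_univ_sum, Fintype.piFinset_univ]
  rw [← (Equiv.arrowProdEquivProdArrow C (fun _ => RA) (fun _ => RB)).sum_comp]
  rfl

/-- the expectation of local operators in a product vector -/
theorem bra_prodVec (ξ : C → RA × RB → ℂ) (c : C) (E : Matrix RA RA ℂ) (F : Matrix RB RB ℂ) :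
    bra (prodVec ξ) (locOp c E) (locOp c F) =
      bra (ξ c) E F * ∏ i : {i // i ≠ c}, nsq (ξ i) := by
  classical
  let eA := Equiv.funSplitAt c RA
  let eB := Equiv.funSplitAt c RB
  -- the rest vector
  let ρ : ({i // i ≠ c} → RA) × ({i // i ≠ c} → RB) → ℂ :=
    prodVec (fun i : {i // i ≠ c} => ξ i)
  have hρ : nsq ρ = ∏ i : {i // i ≠ c}, nsq (ξ i) := nsq_prodVec _
  rw [← hρ, ← bra_tensor (ξ c) ρ E F]
  -- reindex
  have := bra_reindex eA eB (prodVec ξ) (locOp c E) (locOp c F)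
  rw [← this]
  have hE : (locOp c E).submatrix eA.symm eA.symm = E ⊗ₖ (1 : Matrix _ _ ℂ) := by
    ext p q
    simp [locOp, eA]
  have hF : (locOp c F).submatrix eB.symm eB.symm = F ⊗ₖ (1 : Matrix _ _ ℂ) := by
    ext p q
    simp [locOp, eB]
  rw [hE, hF]
  congr 1
  funext p
  obtain ⟨⟨a, α⟩, ⟨b, β⟩⟩ := p
  simp only [prodVec, ρ]
  rw [← Fintype.prod_subtype_mul_prod_subtype (fun i => i ≠ c)
    (fun i => ξ i ((eA.symm (a, α)) i, (eB.symm (b, β)) i))]
  have hsingle : ∏ i : {i // ¬ i ≠ c}, ξ i ((eA.symm (a, α)) i, (eB.symm (b, β)) i)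
      = ξ c (a, b) := by
    have huniq : Unique {i // ¬ i ≠ c} :=
      ⟨⟨⟨c, by simp⟩⟩, fun i => Subtype.ext (by simpa using i.2)⟩
    rw [Fintype.prod_unique]
    have : ((default : {i // ¬ i ≠ c}) : C) = c := by simpa using (default : {i // ¬ i ≠ c}).2
    rw [this]
    simp [eA, eB, Equiv.funSplitAt, Equiv.piSplitAt]
  rw [hsingle, mul_comm]
  congr 1
  refine Finset.prod_congr rfl fun i _ => ?_
  simp [eA, eB, Equiv.funSplitAt, Equiv.piSplitAt, i.2]

end Prod

end Crest.Agent.ParRep
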