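import Crest.Agent.Lib.ParRep.Path

/-!
Row 342, #1280 (3), main statement: `coordinate_bound`.
-/

set_option autoImplicit false
set_option linter.unusedSectionVars false

open scoped Kronecker ComplexOrder
open Matrix Crest.MathPhysics.NonlocalGame

namespace Crest.Agent.ParRep

section WinAt

variable {RA RB : Type} [Fintype RA] [DecidableEq RA] [Fintype RB] [DecidableEq RB]
variable (G : Game)
  (E : Fin G.nX → Fin G.nA → Matrix RA RA ℂ) (F : Fin G.nY → Fin G.nB → Matrix RB RB ℂ)

/-- The winning value of the question pair `(x,y)` on a vector. -/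
noncomputable def winAt (x : Fin G.nX) (y : Fin G.nY) (ξ : RA × RB → ℂ) : ℝ :=
  ∑ a, ∑ b, if G.accept x y a b = true then bra ξ (E x a) (F y b) else 0

/-- The acceptance operator. -/
noncomputable def accOp (x : Fin G.nX) (y : Fin G.nY) : Matrix (RA × RB) (RA × RB) ℂ :=
  ∑ a, ∑ b, if G.accept x y a b = true then E x a ⊗ₖ F y b else 0

lemma winAt_eq_qf (x : Fin G.nX) (y : Fin G.nY) (ξ : RA × RB → ℂ) :
    winAt G E F x y ξ = qf (accOp G E F x y) ξ := by
  unfold winAt accOp qf bra
  simp only [Matrix.sum_mulVec, dotProduct_sum, Complex.re_sum]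
  refine Finset.sum_congr rfl fun a _ => Finset.sum_congr rfl fun b _ => ?_
  split_ifs <;> simp

variable (hE : ∀ x a, (E x a).PosSemidef) (hEs : ∀ x, ∑ a, E x a = 1)
  (hF : ∀ y b, (F y b).PosSemidef) (hFs : ∀ y, ∑ b, F y b = 1)

include hE hF in
lemma accOp_psd (x : Fin G.nX) (y : Fin G.nY) : (accOp G E F x y).PosSemidef := by
  unfold accOp
  refine Matrix.posSemidef_sum _ fun a _ => Matrix.posSemidef_sum _ fun b _ => ?_
  split_ifs
  · exact (hE x a).kronecker (hF y b)
  · exact PosSemidef.zero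

include hE hEs hF hFs in
lemma one_sub_accOp_psd (x : Fin G.nX) (y : Fin G.nY) : (1 - accOp G E F x y).PosSemidef := by
  have h1 : (1 : Matrix (RA × RB) (RA × RB) ℂ) = ∑ a, ∑ b, E x a ⊗ₖ F y b := by
    calc (1 : Matrix (RA × RB) (RA × RB) ℂ)
        = (1 : Matrix RA RA ℂ) ⊗ₖ (1 : Matrix RB RB ℂ) := one_kronecker_one.symm
      _ = (∑ a, E x a) ⊗ₖ (∑ b, F y b) := by rw [hEs x, hFs y]
      _ = _ := by
        ext p q
        simp only [kroneckerMap_apply, Matrix.sum_apply, Finset.sum_mul, Finset.mul_sum]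
        exact Finset.sum_comm
  have h2 : 1 - accOp G E F x y =
      ∑ a, ∑ b, if G.accept x y a b = true then 0 else E x a ⊗ₖ F y b := by
    rw [h1]
    unfold accOp
    rw [← Finset.sum_sub_distrib]
    refine Finset.sum_congr rfl fun a _ => ?_
    rw [← Finset.sum_sub_distrib]
    refine Finset.sum_congr rfl fun b _ => ?_
    split_ifs <;> simp
  rw [h2]
  refine Matrix.posSemidef_sum _ fun a _ => Matrix.posSemidef_sum _ fun b _ => ?_
  split_ifs
  · exact PosSemidef.zero
  · exact (hE x a).kronecker (hF y b)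

include hE hF in
lemma winAt_nonneg (x : Fin G.nX) (y : Fin G.nY) (ξ : RA × RB → ℂ) : 0 ≤ winAt G E F x y ξ := by
  rw [winAt_eq_qf]; exact qf_nonneg (accOp_psd G E F hE hF x y) ξ

include hE hEs hF hFs in
lemma winAt_le (x : Fin G.nX) (y : Fin G.nY) (ξ : RA × RB → ℂ) : winAt G E F x y ξ ≤ nsq ξ := by
  rw [winAt_eq_qf]; exact qf_le_nsq (one_sub_accOp_psd G E F hE hEs hF hFs x y) ξ

lemma winAt_smul (x : Fin G.nX) (y : Fin G.nY) (c : ℂ) (ξ : RA × RB → ℂ) :
    winAt G E F x y (c • ξ) = ‖c‖ ^ 2 * winAt G E F x y ξ := by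
  simp only [winAt_eq_qf, qf_smul_vec]

include hE hEs hF hFs in
lemma winAt_diff (x : Fin G.nX) (y : Fin G.nY) (t ξ : RA × RB → ℂ) :
    winAt G E F x y t - winAt G E F x y ξ ≤ (vn t + vn ξ) * vn (t - ξ) := by
  simp only [winAt_eq_qf]
  exact qf_diff_le (accOp_psd G E F hE hF x y) (one_sub_accOp_psd G E F hE hEs hF hFs x y) t ξ

end WinAt

section Normalize

variable {ι : Type*} [Fintype ι]

/-- normalization of a vector -/
noncomputable def nrm (a : ι → ℂ) : ι → ℂ := (((vn a)⁻¹ : ℝ) : ℂ) • a

lemma nsq_nrm {a : ι → ℂ} (h : vn a ≠ 0) : nsq (nrm a) = 1 := by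
  unfold nrm
  rw [nsq_smul, ← vn_sq a]
  simp only [Complex.norm_real, norm_inv, Real.norm_eq_abs, abs_of_nonneg (vn_nonneg a)]
  field_simp

lemma vn_of_nsq_one {ξ : ι → ℂ} (h : nsq ξ = 1) : vn ξ = 1 := by
  unfold vn; rw [h]; simp

lemma smul_nrm {a : ι → ℂ} (h : vn a ≠ 0) : ((vn a : ℝ) : ℂ) • nrm a = a := by
  unfold nrm
  rw [smul_smul, ← Complex.ofReal_mul, mul_inv_cancel₀ h]
  simp

/-- Normalization is Lipschitz, with the convention on a zero vector. -/
lemma normalized_close {a b ξ : ι → ℂ} (ha : vn a ≠ 0) (hξ : nsq ξ = 1)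
    (hb : vn b ≠ 0 → ξ = nrm b) :
    vn a * vn (nrm a - ξ) ≤ 2 * vn (a - b) := by
  have hapos : 0 < vn a := lt_of_le_of_ne (vn_nonneg a) (Ne.symm ha)
  by_cases hb0 : vn b = 0
  · have hb' : b = 0 := vn_eq_zero hb0
    subst hb'
    have h1 : vn (nrm a - ξ) ≤ 2 := by
      have := vn_sub_le (nrm a) 0 ξ
      rw [show vn (nrm a - 0) = 1 by rw [sub_zero]; exact vn_of_nsq_one (nsq_nrm ha)] at this
      have h2 : vn (0 - ξ) = 1 := by rw [vn_sub_comm, sub_zero]; exact vn_of_nsq_one hξ
      linarith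
    rw [sub_zero]
    nlinarith
  · rw [hb hb0]
    -- `|a| (t - s) = (a - b) + (b - |a| s)`, with `b - |a| s = (|b| - |a|) s`
    have hbs : ((vn b : ℝ) : ℂ) • nrm b = b := smul_nrm hb0
    have hs : vn (nrm b) = 1 := vn_of_nsq_one (nsq_nrm hb0)
    have e1 : ((vn a : ℝ) : ℂ) • (nrm a - nrm b) = (a - b) + (((vn b - vn a : ℝ) : ℝ) : ℂ) • nrm b := by
      rw [smul_sub, smul_nrm ha]
      push_cast
      rw [sub_smul, hbs]
      abel
    have e2 : vn a * vn (nrm a - nrm b) = vn (((vn a : ℝ) : ℂ) • (nrm a - nrm b)) := by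
      rw [vn_smul]
      simp [abs_of_nonneg (vn_nonneg a)]
    rw [e2, e1]
    refine (vn_add_le _ _).trans ?_
    rw [vn_smul, hs, mul_one]
    simp only [Complex.norm_real, Real.norm_eq_abs]
    have h3 : |vn b - vn a| ≤ vn (a - b) := by
      rw [abs_le]
      constructor
      · have := vn_sub_le a b 0
        simp only [sub_zero] at this
        linarith
      · have := vn_sub_le b a 0
        simp only [sub_zero] at this
        rw [vn_sub_comm b a] at this
        linarith
    linarith

end Normalize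

section Comp

variable (G : Game)

/-- The question `x` determines the component of every pair of positive probability containing it. -/
lemma exists_cX [Nonempty G.supportGraph.ConnectedComponent] :
    ∃ c : Fin G.nX → G.supportGraph.ConnectedComponent,
      ∀ x y, 0 < G.prob x y → c x = G.supportGraph.connectedComponentMk (x, y) := by
  classical
  have : ∀ x : Fin G.nX, ∃ c : G.supportGraph.ConnectedComponent,
      ∀ y, 0 < G.prob x y → c = G.supportGraph.connectedComponentMk (x, y) := by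
    intro x
    by_cases h : ∃ y, 0 < G.prob x y
    · obtain ⟨y₀, hy₀⟩ := h
      refine ⟨G.supportGraph.connectedComponentMk (x, y₀), fun y hy => ?_⟩
      by_cases hyy : y₀ = y
      · rw [hyy]
      · apply SimpleGraph.ConnectedComponent.sound
        exact SimpleGraph.Adj.reachable ⟨fun h => hyy (congrArg Prod.snd h), hy₀, hy, Or.inl rfl⟩
    · push Not at h
      exact ⟨Classical.arbitrary _, fun y hy => absurd hy (not_lt.2 (h y))⟩
  choose c hc using this
  exact ⟨c, hc⟩

lemma exists_cY [Nonempty G.supportGraph.ConnectedComponent] :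
    ∃ c : Fin G.nY → G.supportGraph.ConnectedComponent,
      ∀ x y, 0 < G.prob x y → c y = G.supportGraph.connectedComponentMk (x, y) := by
  classical
  have : ∀ y : Fin G.nY, ∃ c : G.supportGraph.ConnectedComponent,
      ∀ x, 0 < G.prob x y → c = G.supportGraph.connectedComponentMk (x, y) := by
    intro y
    by_cases h : ∃ x, 0 < G.prob x y
    · obtain ⟨x₀, hx₀⟩ := h
      refine ⟨G.supportGraph.connectedComponentMk (x₀, y), fun x hx => ?_⟩
      by_cases hxx : x₀ = x
      · rw [hxx]
      · apply SimpleGraph.ConnectedComponent.sound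
        exact SimpleGraph.Adj.reachable ⟨fun h => hxx (congrArg Prod.fst h), hx₀, hx, Or.inr rfl⟩
    · push Not at h
      exact ⟨Classical.arbitrary _, fun x hx => absurd hx (not_lt.2 (h x))⟩
  choose c hc using this
  exact ⟨fun y => c y, fun x y h => hc y x h⟩

lemma exists_pos_prob : ∃ z : Fin G.nX × Fin G.nY, 0 < G.prob z.1 z.2 := by
  by_contra h
  push Not at h
  have h0 : ∀ x y, G.prob x y = 0 := fun x y => le_antisymm (h (x, y)) (G.prob_nonneg x y)
  have := G.prob_sum
  simp [h0] at this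

variable {RA RB : Type} [Fintype RA] [DecidableEq RA] [Fintype RB] [DecidableEq RB]
  (E : Fin G.nX → Fin G.nA → Matrix RA RA ℂ) (F : Fin G.nY → Fin G.nB → Matrix RB RB ℂ)
  (hE : ∀ x a, (E x a).PosSemidef) (hEs : ∀ x, ∑ a, E x a = 1)
  (hF : ∀ y b, (F y b).PosSemidef) (hFs : ∀ y, ∑ b, F y b = 1)

include hE hEs hF hFs in
/-- The value of a family of unit vectors indexed by the components is at most `v`. -/
theorem component_value (v : ℝ)
    (hv : ∀ (dA dB : ℕ) (S : Strategy G 1 dA dB), S.probWinsAtLeast 1 ≤ v)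
    (ξ : G.supportGraph.ConnectedComponent → RA × RB → ℂ) (hξ : ∀ c, nsq (ξ c) = 1) :
    ∑ x, ∑ y, G.prob x y * winAt G E F x y (ξ (G.supportGraph.connectedComponentMk (x, y))) ≤ v := by
  classical
  have : Fintype G.supportGraph.ConnectedComponent := Fintype.ofFinite _
  have : Nonempty G.supportGraph.ConnectedComponent :=
    ⟨G.supportGraph.connectedComponentMk (exists_pos_prob G).choose⟩
  obtain ⟨cX, hcX⟩ := exists_cX G
  obtain ⟨cY, hcY⟩ := exists_cY G
  have hone : ∑ i, ‖prodVec ξ i‖ ^ 2 = 1 := by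
    have := nsq_prodVec ξ
    unfold nsq at this
    rw [this]
    simpa [nsq] using Finset.prod_eq_one (s := Finset.univ) (fun c _ => hξ c)
  have hval := oneValue_le G v hv (prodVec ξ) hone
    (fun x a => locOp (cX x) (E x a)) (fun y b => locOp (cY y) (F y b))
    (fun x a => locOp_psd _ (hE x a)) (fun y b => locOp_psd _ (hF y b))
    (fun x => by rw [← locOp_sum, hEs x, locOp_one]) (fun y => by rw [← locOp_sum, hFs y, locOp_one])
  refine le_trans (le_of_eq ?_) hval
  unfold oneValue
  refine Finset.sum_congr rfl fun x _ => Finset.sum_congr rfl fun y _ => ?_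
  rcases (G.prob_nonneg x y).eq_or_lt with h0 | hpos
  · rw [← h0, zero_mul, zero_mul]
  · congr 1
    unfold winAt
    refine Finset.sum_congr rfl fun a _ => Finset.sum_congr rfl fun b _ => ?_
    dsimp only
    rw [hcX x y hpos, hcY x y hpos]
    split_ifs
    · rw [bra_prodVec]
      have : ∏ i : {i // i ≠ G.supportGraph.connectedComponentMk (x, y)}, nsq (ξ i) = 1 :=
        Finset.prod_eq_one fun i _ => hξ i
      rw [this, mul_one]
    · rfl

end Comp

section Main

variable (G : Game) {RA RB : Type} [Fintype RA] [DecidableEq RA] [Fintype RB] [DecidableEq RB]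
  (T : Fin G.nX → Fin G.nY → RA × RB → ℂ) (A : Fin G.nX → RA × RB → ℂ) (B : Fin G.nY → RA × RB → ℂ)

/-- total mass -/
noncomputable def massT : ℝ := ∑ x, ∑ y, G.prob x y * nsq (T x y)

/-- total defect -/
noncomputable def defectT : ℝ :=
  ∑ x, ∑ y, G.prob x y * (nsq (T x y - A x) + nsq (T x y - B y))

/-- total variation distance (one-sided form) between the posterior `π ‖T‖²/N` and `π` -/
noncomputable def tvT : ℝ :=
  ∑ x, ∑ y, max 0 (G.prob x y * nsq (T x y) / massT G T - G.prob x y)

/-- **Row 342, #1280 (3).** The one-coordinate bound with the support component hypothesis. -/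
theorem coordinate_bound (v : ℝ)
    (hv : ∀ (dA dB : ℕ) (S : Strategy G 1 dA dB), S.probWinsAtLeast 1 ≤ v) (κ : ℝ)
    (hκ : ∀ z : Fin G.nX × Fin G.nY, 0 < G.prob z.1 z.2 → ∀ w ∈ G.supportComponent z,
      8 * ((G.supportComponent z).card - 1 : ℝ) * (∑ u ∈ G.supportComponent z, G.prob u.1 u.2)
        ≤ κ * G.prob w.1 w.2)
    (E : Fin G.nX → Fin G.nA → Matrix RA RA ℂ) (F : Fin G.nY → Fin G.nB → Matrix RB RB ℂ)
    (hE : ∀ x a, (E x a).PosSemidef) (hEs : ∀ x, ∑ a, E x a = 1)
    (hF : ∀ y b, (F y b).PosSemidef) (hFs : ∀ y, ∑ b, F y b = 1)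
    (hN : 0 < massT G T) :
    (∑ x, ∑ y, G.prob x y * winAt G E F x y (T x y)) / massT G T ≤
      v + tvT G T + Real.sqrt (8 * κ * defectT G T A B / massT G T) := by
  classical
  set N := massT G T with hNdef
  have hp := G.prob_nonneg
  -- `κ ≥ 0`
  have hκ0 : 0 ≤ κ := by
    obtain ⟨z, hz⟩ := exists_pos_prob G
    have hmem : z ∈ G.supportComponent z := (mem_supportComponent G).2 (SimpleGraph.Reachable.refl z)
    have h1 := hκ z hz z hmem
    have h2 : 0 ≤ 8 * ((G.supportComponent z).card - 1 : ℝ) *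
        (∑ u ∈ G.supportComponent z, G.prob u.1 u.2) := by
      have hcard : (1 : ℝ) ≤ (G.supportComponent z).card := by
        have : 0 < (G.supportComponent z).card := Finset.card_pos.2 ⟨z, hmem⟩
        exact_mod_cast this
      have h3 : 0 ≤ ∑ u ∈ G.supportComponent z, G.prob u.1 u.2 :=
        Finset.sum_nonneg fun u _ => hp _ _
      have h4 : 0 ≤ ((G.supportComponent z).card - 1 : ℝ) := by linarith
      positivity
    have h5 := h1.trans' h2
    by_contra hneg
    push Not at hneg
    nlinarith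
  -- a unit vector exists
  have hne : ∃ i₀ : RA × RB, True := by
    by_contra hne
    push Not at hne
    have : ∀ x y, nsq (T x y) = 0 := fun x y => by
      unfold nsq
      exact Finset.sum_eq_zero fun i _ => (hne i).elim
    have h0 : N = 0 := by
      simp [hNdef, massT, this]
    linarith
  obtain ⟨i₀, -⟩ := hne
  let e₀ : RA × RB → ℂ := Pi.single i₀ 1
  have he₀ : nsq e₀ = 1 := by
    unfold nsq
    rw [Finset.sum_eq_single i₀]
    · simp [e₀]
    · intro b _ hb
      simp [e₀, Pi.single_eq_of_ne hb]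
    · simp
  -- pairs
  let T' : Fin G.nX × Fin G.nY → RA × RB → ℂ := fun z => T z.1 z.2
  let conn : Fin G.nX × Fin G.nY → G.supportGraph.ConnectedComponent :=
    fun z => G.supportGraph.connectedComponentMk z
  let root : G.supportGraph.ConnectedComponent → Fin G.nX × Fin G.nY := fun c => Quot.out c
  have hroot : ∀ c, conn (root c) = c := fun c => Quot.out_eq c
  let r : Fin G.nX × Fin G.nY → Fin G.nX × Fin G.nY := fun z => root (conn z)
  have hr : ∀ z, G.supportGraph.Reachable z (r z) := fun z =>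
    SimpleGraph.ConnectedComponent.exact (hroot (conn z)).symm
  -- the unit vectors
  let ξ : G.supportGraph.ConnectedComponent → RA × RB → ℂ := fun c =>
    if vn (T' (root c)) ≠ 0 then nrm (T' (root c)) else e₀
  have hξ : ∀ c, nsq (ξ c) = 1 := by
    intro c
    by_cases h : vn (T' (root c)) ≠ 0
    · simp only [ξ, h, ne_eq, not_false_eq_true, if_true]
      exact nsq_nrm h
    · simp only [ξ, h, if_false]
      exact he₀
  have hξ' : ∀ c, vn (T' (root c)) ≠ 0 → ξ c = nrm (T' (root c)) := by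
    intro c h
    simp only [ξ, h, ne_eq, not_false_eq_true, if_true]
  -- value of the unit vectors
  have hval := component_value G E F hE hEs hF hFs v hv ξ hξ
  -- abbreviations
  let Q : Fin G.nX × Fin G.nY → ℝ := fun z => winAt G E F z.1 z.2 (ξ (conn z))
  have hQ0 : ∀ z, 0 ≤ Q z := fun z => winAt_nonneg G E F hE hF _ _ _
  have hQ1 : ∀ z, Q z ≤ 1 := fun z => by
    have := winAt_le G E F hE hEs hF hFs z.1 z.2 (ξ (conn z))
    rwa [hξ] at this
  let π : Fin G.nX × Fin G.nY → ℝ := fun z => G.prob z.1 z.2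
  have hπ : ∀ z, 0 ≤ π z := fun z => hp _ _
  let n : Fin G.nX × Fin G.nY → ℝ := fun z => vn (T' z)
  let D : Fin G.nX × Fin G.nY → ℝ := fun z => vn (T' z - T' (r z))
  have hn0 : ∀ z, 0 ≤ n z := fun z => vn_nonneg _
  have hD0 : ∀ z, 0 ≤ D z := fun z => vn_nonneg _
  -- sums over pairs
  have hsumW : ∑ x, ∑ y, G.prob x y * winAt G E F x y (T x y)
      = ∑ z, π z * winAt G E F z.1 z.2 (T' z) := by
    rw [Fintype.sum_prod_type]
  have hsumN : N = ∑ z, π z * n z ^ 2 := by
    rw [hNdef, massT, Fintype.sum_prod_type]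
    refine Finset.sum_congr rfl fun x _ => Finset.sum_congr rfl fun y _ => ?_
    simp only [n, π, T', vn_sq]
  -- pointwise inequality
  have hpoint : ∀ z, π z * winAt G E F z.1 z.2 (T' z) ≤ π z * n z ^ 2 * Q z + 4 * (π z * n z * D z) := by
    intro z
    by_cases hz : n z = 0
    · have h0 : T' z = 0 := vn_eq_zero hz
      have : winAt G E F z.1 z.2 (T' z) = 0 := by
        rw [h0]
        have := winAt_smul G E F z.1 z.2 0 (0 : RA × RB → ℂ)
        simpa using this
      rw [this, hz]
      simp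
    · have hnpos : 0 < n z := lt_of_le_of_ne (hn0 z) (Ne.symm hz)
      have hT : winAt G E F z.1 z.2 (T' z) = n z ^ 2 * winAt G E F z.1 z.2 (nrm (T' z)) := by
        conv_lhs => rw [← smul_nrm hz]
        rw [winAt_smul]
        simp [n, abs_of_nonneg (vn_nonneg (T' z))]
      have hdiff := winAt_diff G E F hE hEs hF hFs z.1 z.2 (nrm (T' z)) (ξ (conn z))
      rw [vn_of_nsq_one (nsq_nrm hz), vn_of_nsq_one (hξ _)] at hdiff
      have hclose : n z * vn (nrm (T' z) - ξ (conn z)) ≤ 2 * D z :=
        normalized_close hz (hξ _) (fun h => hξ' _ h)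
      rw [hT]
      have hQz : Q z = winAt G E F z.1 z.2 (ξ (conn z)) := rfl
      rw [← hQz] at hdiff
      have h1 : n z ^ 2 * winAt G E F z.1 z.2 (nrm (T' z)) ≤ n z ^ 2 * Q z + 4 * (n z * D z) := by
        have h2 : winAt G E F z.1 z.2 (nrm (T' z)) ≤ Q z + 2 * vn (nrm (T' z) - ξ (conn z)) := by
          linarith
        have h3 : n z ^ 2 * winAt G E F z.1 z.2 (nrm (T' z))
            ≤ n z ^ 2 * (Q z + 2 * vn (nrm (T' z) - ξ (conn z))) :=
          mul_le_mul_of_nonneg_left h2 (by positivity)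
        have h4 : n z ^ 2 * (2 * vn (nrm (T' z) - ξ (conn z)))
            = 2 * n z * (n z * vn (nrm (T' z) - ξ (conn z))) := by ring
        have h5 : 2 * n z * (n z * vn (nrm (T' z) - ξ (conn z))) ≤ 2 * n z * (2 * D z) :=
          mul_le_mul_of_nonneg_left hclose (by positivity)
        nlinarith
      have := mul_le_mul_of_nonneg_left h1 (hπ z)
      nlinarith
  -- main sum
  have hW : ∑ z, π z * winAt G E F z.1 z.2 (T' z) ≤
      ∑ z, π z * n z ^ 2 * Q z + 4 * ∑ z, π z * n z * D z := by
    rw [Finset.mul_sum, ← Finset.sum_add_distrib]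
    exact Finset.sum_le_sum fun z _ => hpoint z
  -- first term
  have htv : tvT G T = ∑ z, max 0 (π z * n z ^ 2 / N - π z) := by
    rw [tvT, Fintype.sum_prod_type]
    refine Finset.sum_congr rfl fun x _ => Finset.sum_congr rfl fun y _ => ?_
    simp only [n, π, T', vn_sq, hNdef]
  have hval' : ∑ z, π z * Q z ≤ v := by
    rw [Fintype.sum_prod_type]
    exact hval
  have hfirst : (∑ z, π z * n z ^ 2 * Q z) / N ≤ v + tvT G T := by
    rw [Finset.sum_div, htv]
    have : ∀ z, π z * n z ^ 2 * Q z / N ≤ π z * Q z + max 0 (π z * n z ^ 2 / N - π z) := by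
      intro z
      have h1 : π z * n z ^ 2 * Q z / N = (π z * n z ^ 2 / N) * Q z := by ring
      rw [h1]
      have h2 : (π z * n z ^ 2 / N - π z) * Q z ≤ max 0 (π z * n z ^ 2 / N - π z) := by
        rcases le_total 0 (π z * n z ^ 2 / N - π z) with h | h
        · rw [max_eq_right h]
          have := hQ1 z
          nlinarith
        · rw [max_eq_left h]
          have := hQ0 z
          nlinarith
      nlinarith
    refine (Finset.sum_le_sum fun z _ => this z).trans ?_
    rw [Finset.sum_add_distrib]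
    linarith
  -- second term
  set S := ∑ z, π z * D z ^ 2 with hS
  have hSnonneg : 0 ≤ S := Finset.sum_nonneg fun z _ => mul_nonneg (hπ z) (sq_nonneg _)
  have hSle : S ≤ (κ / 2) * defectT G T A B := by
    have := path_sum G T' A B κ hκ hκ0 r hr
    have hdef : defectT G T A B = ∑ u, G.prob u.1 u.2 * h2 G T' A B u := by
      rw [defectT, Fintype.sum_prod_type]
      rfl
    rw [hdef]
    refine le_trans (le_of_eq ?_) this
    refine Finset.sum_congr rfl fun z _ => ?_
    simp only [π, D, vn_sq]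
  have hCS : ∑ z, π z * n z * D z ≤ Real.sqrt N * Real.sqrt S := by
    have := Real.sum_mul_le_sqrt_mul_sqrt Finset.univ
      (fun z => Real.sqrt (π z) * n z) (fun z => Real.sqrt (π z) * D z)
    have e1 : ∀ z, Real.sqrt (π z) * n z * (Real.sqrt (π z) * D z) = π z * n z * D z := by
      intro z
      have := Real.mul_self_sqrt (hπ z)
      calc _ = (Real.sqrt (π z) * Real.sqrt (π z)) * n z * D z := by ring
        _ = _ := by rw [this]
    have e2 : ∀ z, (Real.sqrt (π z) * n z) ^ 2 = π z * n z ^ 2 := by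
      intro z
      rw [mul_pow, Real.sq_sqrt (hπ z)]
    have e3 : ∀ z, (Real.sqrt (π z) * D z) ^ 2 = π z * D z ^ 2 := by
      intro z
      rw [mul_pow, Real.sq_sqrt (hπ z)]
    simp only [e1, e2, e3] at this
    rw [hsumN]
    exact this
  have hsecond : 4 * (∑ z, π z * n z * D z) / N ≤
      Real.sqrt (8 * κ * defectT G T A B / N) := by
    have hnn : 0 ≤ 4 * (Real.sqrt N * Real.sqrt S) / N := by positivity
    have h1 : 4 * (∑ z, π z * n z * D z) / N ≤ 4 * (Real.sqrt N * Real.sqrt S) / N := by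
      apply div_le_div_of_nonneg_right _ hN.le
      linarith
    refine h1.trans ?_
    apply Real.le_sqrt_of_sq_le
    have h2 : (4 * (Real.sqrt N * Real.sqrt S) / N) ^ 2 = 16 * S / N := by
      have hsN : Real.sqrt N ^ 2 = N := Real.sq_sqrt hN.le
      have hsS : Real.sqrt S ^ 2 = S := Real.sq_sqrt hSnonneg
      field_simp
      rw [hsN, hsS]
      ring
    rw [h2]
    apply div_le_div_of_nonneg_right _ hN.le
    linarith
  -- conclusion
  rw [hsumW]
  calc (∑ z, π z * winAt G E F z.1 z.2 (T' z)) / N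
      ≤ (∑ z, π z * n z ^ 2 * Q z + 4 * ∑ z, π z * n z * D z) / N :=
        div_le_div_of_nonneg_right hW hN.le
    _ = (∑ z, π z * n z ^ 2 * Q z) / N + 4 * (∑ z, π z * n z * D z) / N := by rw [add_div]
    _ ≤ _ := add_le_add hfirst hsecond

end Main

end Crest.Agent.ParRep
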