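import Mathlib

/-!
Classical posterior lemma for the parallel repetition argument (row 342, #1280 (2), last line).
`J`, `Z` finite, `π` a probability vector on `Z`, `f : (J → Z) → [0,1]`, `N = E_{π^J} f > 0`,
`μ j w` the `j`-th marginal of the tilted law `π^J f / N`.  Then
`∑ j, TV (μ j, π) ≤ √(|J| log (1/N))`.
No game, no quantum: only finite sums, `log x ≤ x - 1` and Cauchy-Schwarz.
-/

set_option autoImplicit false

namespace Crest.Agent.ParRep

open Finset

section KL

variable {α : Type*} [Fintype α]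

/-- Relative entropy of finite vectors (with the Lean conventions for `log 0` and `x / 0`). -/
noncomputable def kl (p q : α → ℝ) : ℝ := ∑ a, p a * Real.log (p a / q a)

lemma kl_term_ge {p q : ℝ} (hp : 0 ≤ p) (hq : 0 ≤ q) (h : q = 0 → p = 0) :
    2 * p - 2 * Real.sqrt (p * q) ≤ p * Real.log (p / q) := by
  rcases hp.eq_or_lt with rfl | hp'
  · simp
  have hq' : 0 < q := by
    rcases hq.eq_or_lt with h0 | h0
    · exact absurd (h h0.symm) hp'.ne'
    · exact h0
  set r := Real.sqrt (q / p) with hr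
  have hr0 : 0 < r := Real.sqrt_pos.mpr (div_pos hq' hp')
  have hr2 : r ^ 2 = q / p := Real.sq_sqrt (div_pos hq' hp').le
  have hlog : Real.log (p / q) = -(2 * Real.log r) := by
    have : p / q = (r ^ 2)⁻¹ := by rw [hr2, inv_div]
    rw [this, Real.log_inv, Real.log_pow]; push_cast; ring
  have hle : Real.log r ≤ r - 1 := Real.log_le_sub_one_of_pos hr0
  have hsq : Real.sqrt (p * q) = p * r := by
    rw [hr, show p * q = p ^ 2 * (q / p) by field_simp,
      Real.sqrt_mul (sq_nonneg p), Real.sqrt_sq hp'.le]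
  rw [hlog, hsq]
  nlinarith

/-- `∑ |p - q| ≤ 2 √KL` (Pinsker with a worse constant, via the Hellinger distance), in squared form. -/
theorem sq_sum_abs_sub_le_kl {p q : α → ℝ} (hp : ∀ a, 0 ≤ p a) (hq : ∀ a, 0 ≤ q a)
    (hpq : ∀ a, q a = 0 → p a = 0) (hp1 : ∑ a, p a = 1) (hq1 : ∑ a, q a = 1) :
    (∑ a, |p a - q a|) ^ 2 ≤ 4 * kl p q := by
  set sp : α → ℝ := fun a => Real.sqrt (p a) with hsp
  set sq : α → ℝ := fun a => Real.sqrt (q a) with hsq
  have hsp2 : ∀ a, sp a ^ 2 = p a := fun a => Real.sq_sqrt (hp a)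
  have hsq2 : ∀ a, sq a ^ 2 = q a := fun a => Real.sq_sqrt (hq a)
  have hmul : ∀ a, Real.sqrt (p a * q a) = sp a * sq a := fun a => Real.sqrt_mul (hp a) _
  -- Hellinger ≤ KL
  have hH : ∑ a, (sp a - sq a) ^ 2 ≤ kl p q := by
    unfold kl
    calc ∑ a, (sp a - sq a) ^ 2 = ∑ a, (p a + q a - 2 * Real.sqrt (p a * q a)) := by
            refine sum_congr rfl fun a _ => ?_
            rw [hmul, sub_sq, hsp2, hsq2]; ring
      _ = ∑ a, (2 * p a - 2 * Real.sqrt (p a * q a)) := by
            simp only [sum_sub_distrib, sum_add_distrib, ← mul_sum, hp1, hq1]; norm_num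
      _ ≤ ∑ a, p a * Real.log (p a / q a) :=
            sum_le_sum fun a _ => kl_term_ge (hp a) (hq a) (hpq a)
  have hpp : ∀ a, |p a - q a| = |sp a - sq a| * (sp a + sq a) := by
    intro a
    have h1 : p a - q a = (sp a - sq a) * (sp a + sq a) := by
      rw [← hsp2 a, ← hsq2 a]; ring
    rw [h1, abs_mul, abs_of_nonneg (add_nonneg (Real.sqrt_nonneg _) (Real.sqrt_nonneg _))]
  have hCS := Finset.sum_mul_sq_le_sq_mul_sq (univ : Finset α) (fun a => |sp a - sq a|)
    (fun a => sp a + sq a)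
  have hsum2 : ∑ a, (sp a + sq a) ^ 2 ≤ 4 := by
    have : ∀ a, (sp a + sq a) ^ 2 ≤ 2 * (p a + q a) := by
      intro a
      rw [← hsp2 a, ← hsq2 a]
      nlinarith [sq_nonneg (sp a - sq a)]
    calc ∑ a, (sp a + sq a) ^ 2 ≤ ∑ a, 2 * (p a + q a) := sum_le_sum fun a _ => this a
      _ = 4 := by rw [← mul_sum, sum_add_distrib, hp1, hq1]; norm_num
  have hH0 : 0 ≤ ∑ a, (sp a - sq a) ^ 2 := sum_nonneg fun a _ => sq_nonneg _
  calc (∑ a, |p a - q a|) ^ 2 = (∑ a, |sp a - sq a| * (sp a + sq a)) ^ 2 := by simp only [hpp]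
    _ ≤ (∑ a, |sp a - sq a| ^ 2) * ∑ a, (sp a + sq a) ^ 2 := hCS
    _ = (∑ a, (sp a - sq a) ^ 2) * ∑ a, (sp a + sq a) ^ 2 := by simp only [sq_abs]
    _ ≤ (∑ a, (sp a - sq a) ^ 2) * 4 := mul_le_mul_of_nonneg_left hsum2 hH0
    _ ≤ kl p q * 4 := by nlinarith
    _ = 4 * kl p q := by ring

/-- Gibbs: `0 ≤ KL`. -/
theorem kl_nonneg {p q : α → ℝ} (hp : ∀ a, 0 ≤ p a) (hq : ∀ a, 0 ≤ q a)
    (hpq : ∀ a, q a = 0 → p a = 0) (hp1 : ∑ a, p a = 1) (hq1 : ∑ a, q a = 1) :
    0 ≤ kl p q := by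
  have := sq_sum_abs_sub_le_kl hp hq hpq hp1 hq1
  nlinarith [sq_nonneg (∑ a, |p a - q a|)]

end KL

section Posterior

variable {J Z : Type*} [Fintype J] [DecidableEq J] [Fintype Z] [DecidableEq Z]

/-- The product weight `π^J`. -/
noncomputable def piJ (π : Z → ℝ) (z : J → Z) : ℝ := ∏ j, π (z j)

/-- `E_{π^J} f`. -/
noncomputable def massN (π : Z → ℝ) (f : (J → Z) → ℝ) : ℝ := ∑ z, piJ π z * f z

/-- The tilted law `π^J f / N` on `J → Z`. -/
noncomputable def tilted (π : Z → ℝ) (f : (J → Z) → ℝ) (z : J → Z) : ℝ :=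
  piJ π z * f z / massN π f

/-- The `j`-th marginal of the tilted law. -/
noncomputable def post (π : Z → ℝ) (f : (J → Z) → ℝ) (j : J) (w : Z) : ℝ :=
  ∑ z, if z j = w then tilted π f z else 0

variable {π : Z → ℝ} {f : (J → Z) → ℝ}

lemma piJ_nonneg (hπ0 : ∀ w, 0 ≤ π w) (z : J → Z) : 0 ≤ piJ π z :=
  prod_nonneg fun j _ => hπ0 (z j)

lemma sum_piJ (hπ1 : ∑ w, π w = 1) : ∑ z : J → Z, piJ π z = 1 := by
  unfold piJ
  have := Finset.prod_univ_sum (fun _ : J => (univ : Finset Z)) (fun _ w => π w)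
  simp only [Fintype.piFinset_univ] at this
  rw [← this]
  simp [hπ1]

lemma tilted_nonneg (hπ0 : ∀ w, 0 ≤ π w) (hf0 : ∀ z, 0 ≤ f z) (hN : 0 < massN π f) (z : J → Z) :
    0 ≤ tilted π f z :=
  div_nonneg (mul_nonneg (piJ_nonneg hπ0 z) (hf0 z)) hN.le

lemma sum_tilted (hN : 0 < massN π f) : ∑ z, tilted π f z = 1 := by
  unfold tilted
  rw [← sum_div]
  exact div_self hN.ne'

lemma post_nonneg (hπ0 : ∀ w, 0 ≤ π w) (hf0 : ∀ z, 0 ≤ f z) (hN : 0 < massN π f) (j : J) (w : Z) :
    0 ≤ post π f j w :=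
  sum_nonneg fun z _ => by
    split_ifs
    · exact tilted_nonneg hπ0 hf0 hN z
    · exact le_rfl

lemma sum_fun_post (φ : Z → ℝ) (j : J) :
    ∑ w, post π f j w * φ w = ∑ z, tilted π f z * φ (z j) := by
  unfold post
  simp only [sum_mul]
  rw [sum_comm]
  refine sum_congr rfl fun z _ => ?_
  simp [ite_mul, Finset.sum_ite_eq]

lemma sum_post (hN : 0 < massN π f) (j : J) : ∑ w, post π f j w = 1 := by
  have := sum_fun_post (π := π) (f := f) (fun _ => (1 : ℝ)) j
  simpa [sum_tilted hN] using this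

lemma tilted_le_post (hπ0 : ∀ w, 0 ≤ π w) (hf0 : ∀ z, 0 ≤ f z) (hN : 0 < massN π f) (j : J)
    (z : J → Z) : tilted π f z ≤ post π f j (z j) := by
  unfold post
  have := Finset.single_le_sum (f := fun y : J → Z => if y j = z j then tilted π f y else 0)
    (s := univ) (a := z)
    (fun y _ => by
      split_ifs
      · exact tilted_nonneg hπ0 hf0 hN y
      · exact le_rfl) (mem_univ z)
  simpa using this

/-- If `π w = 0` then the marginal at `w` vanishes. -/
lemma post_eq_zero_of_pi_zero (hπ0 : ∀ w, 0 ≤ π w) (hf0 : ∀ z, 0 ≤ f z) (hN : 0 < massN π f)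
    (j : J) (w : Z) (hw : π w = 0) : post π f j w = 0 := by
  unfold post
  refine sum_eq_zero fun z _ => ?_
  split_ifs with h
  · unfold tilted piJ
    rw [Finset.prod_eq_zero (mem_univ j) (by rw [h, hw])]
    simp
  · rfl

/-- Superadditivity of relative entropy against a product reference. -/
theorem sum_kl_post_le (hπ0 : ∀ w, 0 ≤ π w) (hf0 : ∀ z, 0 ≤ f z) (hN : 0 < massN π f) :
    ∑ j, kl (post π f j) π ≤ kl (tilted π f) (piJ π) := by
  classical
  set μ := tilted π f with hμ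
  set ν : (J → Z) → ℝ := fun z => ∏ j, post π f j (z j) with hν
  have hν0 : ∀ z, 0 ≤ ν z := fun z => prod_nonneg fun j _ => post_nonneg hπ0 hf0 hN j (z j)
  have hν1 : ∑ z, ν z = 1 := by
    have := Finset.prod_univ_sum (fun _ : J => (univ : Finset Z)) (fun j w => post π f j w)
    simp only [Fintype.piFinset_univ] at this
    rw [hν, ← this]
    simp [sum_post hN]
  have hμ0 : ∀ z, 0 ≤ μ z := tilted_nonneg hπ0 hf0 hN
  have hμ1 : ∑ z, μ z = 1 := sum_tilted hN
  -- positivity of the marginals on the support of μ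
  have hpos : ∀ z, 0 < μ z → ∀ j, 0 < post π f j (z j) := fun z hz j =>
    lt_of_lt_of_le hz (tilted_le_post hπ0 hf0 hN j z)
  have hμν : ∀ z, ν z = 0 → μ z = 0 := by
    intro z hz
    by_contra h
    have h' : 0 < μ z := lt_of_le_of_ne (hμ0 z) (Ne.symm h)
    have : 0 < ν z := prod_pos fun j _ => hpos z h' j
    exact this.ne' hz
  have hgibbs : 0 ≤ kl μ ν := kl_nonneg hμ0 hν0 hμν hμ1 hν1
  -- pointwise splitting
  have hsplit : ∀ z, μ z * Real.log (μ z / piJ π z) =
      μ z * Real.log (μ z / ν z) + ∑ j, μ z * Real.log (post π f j (z j) / π (z j)) := by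
    intro z
    rcases (hμ0 z).eq_or_lt with h0 | h0
    · rw [← h0]; simp
    have hpiJ : ∀ j, 0 < π (z j) := by
      intro j
      rcases (hπ0 (z j)).eq_or_lt with h1 | h1
      · exfalso
        have : post π f j (z j) = 0 := post_eq_zero_of_pi_zero hπ0 hf0 hN j (z j) h1.symm
        exact (hpos z h0 j).ne' this
      · exact h1
    have hνz : 0 < ν z := prod_pos fun j _ => hpos z h0 j
    have hPz : 0 < piJ π z := prod_pos fun j _ => hpiJ j
    rw [← mul_sum, ← mul_add]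
    congr 1
    rw [← Real.log_prod (s := univ) (fun j _ => (div_pos (hpos z h0 j) (hpiJ j)).ne'),
      ← Real.log_mul (div_pos h0 hνz).ne'
        (prod_pos fun j _ => div_pos (hpos z h0 j) (hpiJ j)).ne']
    congr 1
    rw [Finset.prod_div_distrib]
    change μ z / piJ π z = μ z / ν z * (ν z / piJ π z)
    field_simp
  have hmarg : ∀ j, ∑ z, μ z * Real.log (post π f j (z j) / π (z j)) = kl (post π f j) π := by
    intro j
    unfold kl
    exact (sum_fun_post (π := π) (f := f) (fun w => Real.log (post π f j w / π w)) j).symm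
  calc ∑ j, kl (post π f j) π
      = ∑ j, ∑ z, μ z * Real.log (post π f j (z j) / π (z j)) := by simp only [hmarg]
    _ ≤ kl μ ν + ∑ j, ∑ z, μ z * Real.log (post π f j (z j) / π (z j)) :=
        le_add_of_nonneg_left hgibbs
    _ = kl μ (piJ π) := by
        unfold kl
        rw [sum_comm, ← sum_add_distrib]
        exact sum_congr rfl fun z _ => (hsplit z).symm

/-- `KL (π^J f / N ‖ π^J) ≤ log (1/N)` for `f ≤ 1`. -/
theorem kl_tilted_le (hπ0 : ∀ w, 0 ≤ π w) (hf0 : ∀ z, 0 ≤ f z) (hf1 : ∀ z, f z ≤ 1)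
    (hN : 0 < massN π f) : kl (tilted π f) (piJ π) ≤ Real.log (1 / massN π f) := by
  have hterm : ∀ z, tilted π f z * Real.log (tilted π f z / piJ π z) ≤
      tilted π f z * Real.log (1 / massN π f) := by
    intro z
    rcases (tilted_nonneg hπ0 hf0 hN z).eq_or_lt with h0 | h0
    · rw [← h0]; simp
    refine mul_le_mul_of_nonneg_left ?_ h0.le
    have hf' : 0 < piJ π z * f z := by
      have := h0
      unfold tilted at this
      exact (div_pos_iff_of_pos_right hN).mp this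
    have hP : 0 < piJ π z := by
      rcases (piJ_nonneg hπ0 z).eq_or_lt with h1 | h1
      · rw [← h1] at hf'; simp at hf'
      · exact h1
    have hfz : 0 < f z := by
      by_contra hneg
      have : f z = 0 := le_antisymm (not_lt.mp hneg) (hf0 z)
      rw [this] at hf'; simp at hf'
    apply Real.log_le_log (div_pos h0 hP)
    unfold tilted
    rw [div_le_iff₀ hP, div_le_iff₀ hN]
    have : piJ π z * f z ≤ piJ π z * 1 := mul_le_mul_of_nonneg_left (hf1 z) hP.le
    field_simp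
    nlinarith
  unfold kl
  calc ∑ z, tilted π f z * Real.log (tilted π f z / piJ π z)
      ≤ ∑ z, tilted π f z * Real.log (1 / massN π f) := sum_le_sum fun z _ => hterm z
    _ = Real.log (1 / massN π f) := by rw [← sum_mul, sum_tilted hN, one_mul]

/-- **Posterior lemma.**  The total variation distances of the marginals of the tilted law from
`π` are small on average: `∑ j, TV (μ j, π) ≤ √(|J| log (1/N))`, `N = E_{π^J} f`, `0 ≤ f ≤ 1`. -/
theorem sum_tv_post_le (hπ0 : ∀ w, 0 ≤ π w) (hπ1 : ∑ w, π w = 1) (hf0 : ∀ z, 0 ≤ f z)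
    (hf1 : ∀ z, f z ≤ 1) (hN : 0 < massN π f) :
    ∑ j, ((1 : ℝ) / 2) * ∑ w, |post π f j w - π w| ≤
      Real.sqrt ((Fintype.card J : ℝ) * Real.log (1 / massN π f)) := by
  have hj : ∀ j, (((1 : ℝ) / 2) * ∑ w, |post π f j w - π w|) ^ 2 ≤ kl (post π f j) π := by
    intro j
    have := sq_sum_abs_sub_le_kl (post_nonneg hπ0 hf0 hN j) hπ0
      (post_eq_zero_of_pi_zero hπ0 hf0 hN j) (sum_post hN j) hπ1
    nlinarith
  have hCS := sq_sum_le_card_mul_sum_sq (s := (univ : Finset J))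
    (f := fun j => ((1 : ℝ) / 2) * ∑ w, |post π f j w - π w|)
  have hsum : ∑ j, (((1 : ℝ) / 2) * ∑ w, |post π f j w - π w|) ^ 2 ≤
      Real.log (1 / massN π f) :=
    (sum_le_sum fun j _ => hj j).trans ((sum_kl_post_le hπ0 hf0 hN).trans (kl_tilted_le hπ0 hf0 hf1 hN))
  apply Real.le_sqrt_of_sq_le
  calc (∑ j, ((1 : ℝ) / 2) * ∑ w, |post π f j w - π w|) ^ 2
      ≤ ((univ : Finset J).card : ℝ) * ∑ j, (((1 : ℝ) / 2) * ∑ w, |post π f j w - π w|) ^ 2 := hCS
    _ ≤ (Fintype.card J : ℝ) * Real.log (1 / massN π f) := by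
        rw [card_univ]
        exact mul_le_mul_of_nonneg_left hsum (Nat.cast_nonneg _)

end Posterior

end Crest.Agent.ParRep
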