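import Crest.Agent.Lib.ParRep.OnePlay

/-!
Row 342: rectangles. The interface between the one-coordinate analysis (`StepBound`) and a strategy
for `k` parallel repetitions, by conditioning on the questions and answers of a set `T` of coordinates.
-/

set_option autoImplicit false

open scoped Kronecker ComplexOrder
open Matrix Crest.MathPhysics.NonlocalGame

namespace Crest.Agent.ParRep

/-- Rectangle data on `m` coordinates: a unit vector and sub-normalized families of positive
operators indexed by question and answer strings. -/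
structure Rect (G : Game) (m dA dB : ℕ) where
  ψ : Fin dA × Fin dB → ℂ
  ψ_norm : ∑ i, ‖ψ i‖ ^ 2 = 1
  P : (Fin m → Fin G.nX) → (Fin m → Fin G.nA) → Matrix (Fin dA) (Fin dA) ℂ
  Q : (Fin m → Fin G.nY) → (Fin m → Fin G.nB) → Matrix (Fin dB) (Fin dB) ℂ
  P_psd : ∀ x a, (P x a).PosSemidef
  Q_psd : ∀ y b, (Q y b).PosSemidef
  P_le : ∀ x, (1 - ∑ a, P x a).PosSemidef
  Q_le : ∀ y, (1 - ∑ b, Q y b).PosSemidef

variable {G : Game} {m dA dB : ℕ}

/-- The mass of the answers `a, b` at the questions `x, y`. -/
noncomputable def Rect.mass (R : Rect G m dA dB) (x : Fin m → Fin G.nX) (y : Fin m → Fin G.nY)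
    (a : Fin m → Fin G.nA) (b : Fin m → Fin G.nB) : ℝ :=
  bra R.ψ (R.P x a) (R.Q y b)

/-- The total mass of the rectangle under the product question law. -/
noncomputable def Rect.N (R : Rect G m dA dB) : ℝ :=
  ∑ x, ∑ y, (∏ i, G.prob (x i) (y i)) * ∑ a, ∑ b, R.mass x y a b

/-- The mass of winning coordinate `j`. -/
noncomputable def Rect.Win (R : Rect G m dA dB) (j : Fin m) : ℝ :=
  ∑ x, ∑ y, (∏ i, G.prob (x i) (y i)) * ∑ a, ∑ b,
    if G.accept (x j) (y j) (a j) (b j) = true then R.mass x y a b else 0

/-- The one-coordinate bound: the average conditional winning probability of a coordinate in a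
rectangle of mass `N` is at most `v + F (log (1 / N)) m`. -/
def StepBound (G : Game) (v : ℝ) (F : ℝ → ℕ → ℝ) : Prop :=
  ∀ (m dA dB : ℕ) (R : Rect G m dA dB), 1 ≤ m → 0 < R.N →
    ∑ j, R.Win j ≤ (m : ℝ) * R.N * (v + F (Real.log (1 / R.N)) m)

end Crest.Agent.ParRep
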