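import Mathlib

/-!
# The ladder kernel of the correlated sampler (row 342): scalar part

`ϱ = exp (-L / (2 W))`; windows `[b, b + W)`; `kap b b' = ∑_D ϱ^D win b D win b' D`.
-/

set_option autoImplicit false

namespace Crest.Agent.ParRep.Sampler

noncomputable section

/-- normalized window -/
def win (W b D : ℕ) : ℝ := if b ≤ D ∧ D < b + W then (Real.sqrt W)⁻¹ else 0

/-- the kernel over the ladder `D < Dm` with amplitude `ϱ^D` -/
def kap (ϱ : ℝ) (W Dm b b' : ℕ) : ℝ :=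
  ∑ D ∈ Finset.range Dm, ϱ ^ D * (win W b D * win W b' D)

/-- average amplitude `γ = (1/W) ∑_{l<W} ϱ^l` -/
def gam (ϱ : ℝ) (W : ℕ) : ℝ := (∑ l ∈ Finset.range W, ϱ ^ l) / W

/-- average intensity `ρ = (1/W) ∑_{l<W} ϱ^(2l)` -/
def rho (ϱ : ℝ) (W : ℕ) : ℝ := (∑ l ∈ Finset.range W, (ϱ ^ 2) ^ l) / W

theorem win_mul_win {W b b' D : ℕ} (hW : 0 < W) :
    win W b D * win W b' D = if max b b' ≤ D ∧ D < min b b' + W then (W : ℝ)⁻¹ else 0 := by
  have hW' : (0 : ℝ) < W := by exact_mod_cast hW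
  have hs : (Real.sqrt W)⁻¹ * (Real.sqrt W)⁻¹ = (W : ℝ)⁻¹ := by
    rw [← mul_inv, Real.mul_self_sqrt hW'.le]
  unfold win
  by_cases h1 : b ≤ D ∧ D < b + W
  · by_cases h2 : b' ≤ D ∧ D < b' + W
    · have h3 : max b b' ≤ D ∧ D < min b b' + W := by omega
      rw [if_pos h1, if_pos h2, if_pos h3, hs]
    · have h3 : ¬ (max b b' ≤ D ∧ D < min b b' + W) := by omega
      rw [if_pos h1, if_neg h2, if_neg h3, mul_zero]
  · have h3 : ¬ (max b b' ≤ D ∧ D < min b b' + W) := by omega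
    rw [if_neg h1, if_neg h3, zero_mul]

theorem sum_ite_window {f : ℕ → ℝ} {Dm lo hi : ℕ} (c : ℝ) (hhi : hi ≤ Dm) :
    ∑ D ∈ Finset.range Dm, f D * (if lo ≤ D ∧ D < hi then c else 0) =
      c * ∑ D ∈ Finset.Ico lo hi, f D := by
  rw [Finset.mul_sum]
  have hsub : Finset.Ico lo hi ⊆ Finset.range Dm := by
    intro D hD
    simp only [Finset.mem_Ico] at hD
    simp only [Finset.mem_range]
    omega
  rw [← Finset.sum_subset hsub]
  · refine Finset.sum_congr rfl fun D hD => ?_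
    have hD' := Finset.mem_Ico.mp hD
    rw [if_pos hD']
    ring
  · intro D _ hD
    have : ¬ (lo ≤ D ∧ D < hi) := by simpa [Finset.mem_Ico] using hD
    rw [if_neg this, mul_zero]

/-- closed form of the kernel -/
theorem kap_eq {ϱ : ℝ} {W Dm b b' : ℕ} (hW : 0 < W) (hb : min b b' + W ≤ Dm) :
    kap ϱ W Dm b b' = ϱ ^ max b b' * (∑ l ∈ Finset.range (min b b' + W - max b b'), ϱ ^ l) / W := by
  unfold kap
  simp_rw [win_mul_win (W := W) (b := b) (b' := b') hW]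
  rw [sum_ite_window _ hb, Finset.sum_Ico_eq_sum_range]
  simp_rw [pow_add]
  rw [← Finset.mul_sum]
  field_simp

theorem kap_comm (ϱ : ℝ) (W Dm b b' : ℕ) : kap ϱ W Dm b b' = kap ϱ W Dm b' b := by
  unfold kap
  refine Finset.sum_congr rfl fun _ _ => by ring

/-- diagonal of the kernel -/
theorem kap_self {ϱ : ℝ} {W Dm b : ℕ} (hW : 0 < W) (hb : b + W ≤ Dm) :
    kap ϱ W Dm b b = gam ϱ W * ϱ ^ b := by
  rw [kap_eq hW (by simpa using hb), gam]
  simp only [max_self, min_self, Nat.add_sub_cancel_left]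
  field_simp

theorem gam_nonneg {ϱ : ℝ} (h0 : 0 ≤ ϱ) (W : ℕ) : 0 ≤ gam ϱ W :=
  div_nonneg (Finset.sum_nonneg fun _ _ => pow_nonneg h0 _) (Nat.cast_nonneg _)

theorem gam_le_one {ϱ : ℝ} (h0 : 0 ≤ ϱ) (h1 : ϱ ≤ 1) {W : ℕ} (hW : 0 < W) : gam ϱ W ≤ 1 := by
  have hW' : (0 : ℝ) < W := by exact_mod_cast hW
  rw [gam, div_le_one hW']
  calc ∑ l ∈ Finset.range W, ϱ ^ l ≤ ∑ _l ∈ Finset.range W, (1 : ℝ) :=
        Finset.sum_le_sum fun l _ => pow_le_one₀ h0 h1
    _ = W := by simp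

theorem rho_nonneg (ϱ : ℝ) (W : ℕ) : 0 ≤ rho ϱ W :=
  div_nonneg (Finset.sum_nonneg fun _ _ => pow_nonneg (sq_nonneg _) _) (Nat.cast_nonneg _)

theorem rho_le_one {ϱ : ℝ} (h0 : 0 ≤ ϱ) (h1 : ϱ ≤ 1) {W : ℕ} (hW : 0 < W) : rho ϱ W ≤ 1 := by
  have hW' : (0 : ℝ) < W := by exact_mod_cast hW
  rw [rho, div_le_one hW']
  calc ∑ l ∈ Finset.range W, (ϱ ^ 2) ^ l ≤ ∑ _l ∈ Finset.range W, (1 : ℝ) :=
        Finset.sum_le_sum fun l _ => pow_le_one₀ (sq_nonneg _) (pow_le_one₀ h0 h1)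
    _ = W := by simp

/-- `ϱ^l ≥ ϱ^W` on `l < W`, so `γ ≥ ϱ^W`. -/
theorem gam_ge_pow {ϱ : ℝ} (h0 : 0 ≤ ϱ) (h1 : ϱ ≤ 1) {W : ℕ} (hW : 0 < W) : ϱ ^ W ≤ gam ϱ W := by
  have hW' : (0 : ℝ) < W := by exact_mod_cast hW
  rw [gam, le_div_iff₀ hW']
  calc ϱ ^ W * W = ∑ _l ∈ Finset.range W, ϱ ^ W := by simp [mul_comm]
    _ ≤ ∑ l ∈ Finset.range W, ϱ ^ l := by
        refine Finset.sum_le_sum fun l hl => ?_
        exact pow_le_pow_of_le_one h0 h1 (Finset.mem_range.mp hl).le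

/-- the sum over the ladder of the intensity in one window -/
theorem sum_win_sq {ϱ : ℝ} {W Dm b : ℕ} (hW : 0 < W) (hb : b + W ≤ Dm) :
    ∑ D ∈ Finset.range Dm, (ϱ ^ 2) ^ D * win W b D ^ 2 = rho ϱ W * (ϱ ^ 2) ^ b := by
  have hsq : ∀ D, win W b D ^ 2 = if b ≤ D ∧ D < b + W then (W : ℝ)⁻¹ else 0 := by
    intro D
    have := win_mul_win (W := W) (b := b) (b' := b) (D := D) hW
    simp only [max_self, min_self] at this
    rw [sq, this]
  simp_rw [hsq]
  rw [sum_ite_window _ hb, Finset.sum_Ico_eq_sum_range, rho]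
  simp only [Nat.add_sub_cancel_left, pow_add]
  rw [← Finset.mul_sum]
  field_simp

theorem sum_win_sq_one {W Dm b : ℕ} (hW : 0 < W) (hb : b + W ≤ Dm) :
    ∑ D ∈ Finset.range Dm, win W b D ^ 2 = 1 := by
  have hW' : (0 : ℝ) < W := by exact_mod_cast hW
  have h := sum_win_sq (ϱ := 1) hW hb
  simp only [one_pow, one_mul, mul_one] at h
  rw [h]
  simp [rho, hW'.ne']

/-- The main pairwise bound: `|κ(b,b') - γ ϱ^b| ≤ (1 + 2/L) |ϱ^b - ϱ^b'|`, where
`ϱ = exp (-L/(2W))`. -/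
theorem kap_sub_le {L : ℝ} (hL : 0 < L) {W Dm b b' : ℕ} (hW : 0 < W)
    (hb : min b b' + W ≤ Dm) :
    let ϱ := Real.exp (-(L / (2 * W)))
    |kap ϱ W Dm b b' - gam ϱ W * ϱ ^ b| ≤ (1 + 2 / L) * |ϱ ^ b - ϱ ^ b'| := by
  intro ϱ
  have hW' : (0 : ℝ) < W := by exact_mod_cast hW
  have h0 : 0 < ϱ := Real.exp_pos _
  have h1 : ϱ ≤ 1 := by
    apply Real.exp_le_one_iff.mpr
    have : 0 < L / (2 * W) := by positivity
    linarith
  have hg0 := gam_nonneg h0.le W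
  have hg1 := gam_le_one h0.le h1 hW
  -- the core estimate for the pair `lo = ϱ^max`, `hi = ϱ^min`
  have core : ∀ c c' : ℕ, c ≤ c' → min c c' + W ≤ Dm →
      |kap ϱ W Dm c c' - gam ϱ W * ϱ ^ c'| ≤ (2 / L) * (ϱ ^ c - ϱ ^ c') := by
    intro c c' hcc hD
    obtain ⟨d, rfl⟩ := Nat.exists_eq_add_of_le hcc
    have hk := kap_eq (ϱ := ϱ) hW hD
    have hmin : min c (c + d) = c := min_eq_left (by omega)
    have hmax : max c (c + d) = c + d := max_eq_right (by omega)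
    rw [hmin, hmax] at hk
    have hr : c + W - (c + d) = W - d := by omega
    rw [hr] at hk
    -- tail estimate
    have htail : ∑ l ∈ Finset.range W, ϱ ^ l - ∑ l ∈ Finset.range (W - d), ϱ ^ l ∈ Set.Icc (0 : ℝ) d := by
      have hsub : Finset.range (W - d) ⊆ Finset.range W := by
        intro l hl
        simp only [Finset.mem_range] at hl ⊢
        omega
      have hsd : ∑ l ∈ Finset.range W \ Finset.range (W - d), ϱ ^ l +
          ∑ l ∈ Finset.range (W - d), ϱ ^ l = ∑ l ∈ Finset.range W, ϱ ^ l := Finset.sum_sdiff hsub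
      have hcard : (Finset.range W \ Finset.range (W - d)).card ≤ d := by
        rw [Finset.card_sdiff_of_subset hsub]
        simp only [Finset.card_range]
        omega
      have hsum : ∑ l ∈ Finset.range W \ Finset.range (W - d), ϱ ^ l ≤ d := by
        calc ∑ l ∈ Finset.range W \ Finset.range (W - d), ϱ ^ l
            ≤ ∑ _l ∈ Finset.range W \ Finset.range (W - d), (1 : ℝ) :=
              Finset.sum_le_sum fun l _ => pow_le_one₀ h0.le h1
          _ = ((Finset.range W \ Finset.range (W - d)).card : ℝ) := by simp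
          _ ≤ d := by exact_mod_cast hcard
      have hnn : 0 ≤ ∑ l ∈ Finset.range W \ Finset.range (W - d), ϱ ^ l :=
        Finset.sum_nonneg fun _ _ => pow_nonneg h0.le _
      exact ⟨by linarith, by linarith⟩
    have hlo : 0 < ϱ ^ (c + d) := pow_pos h0 _
    -- difference identity
    have hdiff : gam ϱ W * ϱ ^ (c + d) - kap ϱ W Dm c (c + d) =
        ϱ ^ (c + d) * (∑ l ∈ Finset.range W, ϱ ^ l - ∑ l ∈ Finset.range (W - d), ϱ ^ l) / W := by
      rw [hk, gam]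
      field_simp
    have h2 : |kap ϱ W Dm c (c + d) - gam ϱ W * ϱ ^ (c + d)| ≤ ϱ ^ (c + d) * d / W := by
      rw [abs_sub_comm, hdiff, abs_of_nonneg]
      · apply div_le_div_of_nonneg_right _ hW'.le
        exact mul_le_mul_of_nonneg_left htail.2 hlo.le
      · apply div_nonneg _ hW'.le
        exact mul_nonneg hlo.le htail.1
    -- compare with hi - lo
    have h3 : ϱ ^ c = ϱ ^ (c + d) * Real.exp (L * d / (2 * W)) := by
      have e1 : ϱ ^ (c + d) = ϱ ^ c * ϱ ^ d := pow_add _ _ _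
      have e2 : ϱ ^ d * Real.exp (L * d / (2 * W)) = 1 := by
        simp only [ϱ]
        rw [← Real.exp_nat_mul, ← Real.exp_add]
        have : (d : ℝ) * -(L / (2 * W)) + L * d / (2 * W) = 0 := by ring
        rw [this, Real.exp_zero]
      rw [e1, mul_assoc, e2, mul_one]
    have h4 : 1 + L * d / (2 * W) ≤ Real.exp (L * d / (2 * W)) := by
      have := Real.add_one_le_exp (L * d / (2 * W))
      linarith
    have h5 : ϱ ^ (c + d) * (L * d / (2 * W)) ≤ ϱ ^ c - ϱ ^ (c + d) := by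
      rw [h3]
      nlinarith [mul_le_mul_of_nonneg_left h4 hlo.le]
    calc |kap ϱ W Dm c (c + d) - gam ϱ W * ϱ ^ (c + d)| ≤ ϱ ^ (c + d) * d / W := h2
      _ = (2 / L) * (ϱ ^ (c + d) * (L * d / (2 * W))) := by field_simp
      _ ≤ (2 / L) * (ϱ ^ c - ϱ ^ (c + d)) :=
        mul_le_mul_of_nonneg_left h5 (by positivity)
  have h2L : 0 < 2 / L := by positivity
  rcases le_total b b' with hbb | hbb
  · -- `b ≤ b'`: target `γ ϱ^b`, `ϱ^b` is the high value
    have hc := core b b' hbb hb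
    have hmono : ϱ ^ b' ≤ ϱ ^ b := pow_le_pow_of_le_one h0.le h1 hbb
    rw [abs_of_nonneg (sub_nonneg.mpr hmono)]
    have hsplit : kap ϱ W Dm b b' - gam ϱ W * ϱ ^ b =
        (kap ϱ W Dm b b' - gam ϱ W * ϱ ^ b') - gam ϱ W * (ϱ ^ b - ϱ ^ b') := by ring
    rw [hsplit]
    refine (abs_sub _ _).trans ?_
    rw [abs_of_nonneg (mul_nonneg hg0 (sub_nonneg.mpr hmono))]
    nlinarith [mul_le_mul_of_nonneg_right hg1 (sub_nonneg.mpr hmono)]
  · -- `b' ≤ b`: target `γ ϱ^b`, `ϱ^b` is the low value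
    have hc := core b' b hbb (by rwa [min_comm])
    have hmono : ϱ ^ b ≤ ϱ ^ b' := pow_le_pow_of_le_one h0.le h1 hbb
    rw [kap_comm, abs_sub_comm (ϱ ^ b) (ϱ ^ b'), abs_of_nonneg (sub_nonneg.mpr hmono)]
    refine hc.trans ?_
    nlinarith [sub_nonneg.mpr hmono]

end

end Crest.Agent.ParRep.Sampler
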