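import Crest.Agent.Lib.ParRep.SamplerSpectral
import Crest.Agent.Lib.ParRep.SamplerKernel

/-!
# The ladder trial of the correlated sampler (row 342)
-/

set_option autoImplicit false

open scoped Kronecker ComplexOrder
open Matrix

namespace Crest.Agent.ParRep.Sampler

noncomputable section

variable {ι : Type} [Fintype ι] [DecidableEq ι]

/-- the window filter at ladder level `D` -/
def Phi (W : ℕ) (U : Matrix ι ι ℂ) (b : ι → ℕ) (D : ℕ) : Matrix ι ι ℂ :=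
  U * diagonal (fun i => ((win W (b i) D : ℝ) : ℂ)) * Uᴴ

/-- the rounded matrix with eigenvalues `ϱ^(b i)` -/
def tld (ϱ : ℝ) (U : Matrix ι ι ℂ) (b : ι → ℕ) : Matrix ι ι ℂ :=
  U * diagonal (fun i => (((ϱ ^ b i : ℝ)) : ℂ)) * Uᴴ

/-- the output of one trial -/
def Mbar (ϱ : ℝ) (W Dm : ℕ) (U U' : Matrix ι ι ℂ) (b b' : ι → ℕ) : Matrix ι ι ℂ :=
  ∑ D ∈ Finset.range Dm, ((ϱ ^ D : ℝ) : ℂ) • (Phi W U b D * Phi W U' b' D)

theorem Phi_isHermitian (W : ℕ) (U : Matrix ι ι ℂ) (b : ι → ℕ) (D : ℕ) :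
    (Phi W U b D)ᴴ = Phi W U b D := by
  have hd : star (fun i => ((win W (b i) D : ℝ) : ℂ)) = fun i => ((win W (b i) D : ℝ) : ℂ) := by
    funext i
    simp [Pi.star_apply]
  unfold Phi
  rw [conjTranspose_mul, conjTranspose_mul, conjTranspose_conjTranspose, Matrix.mul_assoc,
    diagonal_conjTranspose, hd]

/-- `Uᴴ X U'` coordinates of the trial output -/
theorem sandwich_Mbar {U U' : Matrix ι ι ℂ} (hU : Uᴴ * U = 1) (hU' : U'ᴴ * U' = 1)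
    (ϱ : ℝ) (W Dm : ℕ) (b b' : ι → ℕ) (i j : ι) :
    (Uᴴ * Mbar ϱ W Dm U U' b b' * U') i j = (Uᴴ * U') i j * ((kap ϱ W Dm (b i) (b' j) : ℝ) : ℂ) := by
  have hstep : ∀ D, Uᴴ * (Phi W U b D * Phi W U' b' D) * U' =
      diagonal (fun i => ((win W (b i) D : ℝ) : ℂ)) * (Uᴴ * U') *
        diagonal (fun i => ((win W (b' i) D : ℝ) : ℂ)) := by
    intro D
    simp only [Phi]
    calc Uᴴ * (U * diagonal (fun i => ((win W (b i) D : ℝ) : ℂ)) * Uᴴ *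
          (U' * diagonal (fun i => ((win W (b' i) D : ℝ) : ℂ)) * U'ᴴ)) * U'
        = (Uᴴ * U) * diagonal (fun i => ((win W (b i) D : ℝ) : ℂ)) * (Uᴴ * U') *
          diagonal (fun i => ((win W (b' i) D : ℝ) : ℂ)) * (U'ᴴ * U') := by
          simp only [Matrix.mul_assoc]
      _ = _ := by rw [hU, hU', Matrix.one_mul, Matrix.mul_one]
  have hsum : Uᴴ * Mbar ϱ W Dm U U' b b' * U' = ∑ D ∈ Finset.range Dm, ((ϱ ^ D : ℝ) : ℂ) •
      (diagonal (fun i => ((win W (b i) D : ℝ) : ℂ)) * (Uᴴ * U') *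
        diagonal (fun i => ((win W (b' i) D : ℝ) : ℂ))) := by
    unfold Mbar
    rw [Matrix.mul_sum, Matrix.sum_mul]
    refine Finset.sum_congr rfl fun D _ => ?_
    rw [Matrix.mul_smul, Matrix.smul_mul, hstep]
  rw [hsum, Matrix.sum_apply]
  simp only [Matrix.smul_apply, smul_eq_mul, mul_diagonal, diagonal_mul, kap, Complex.ofReal_sum,
    Complex.ofReal_mul, Complex.ofReal_pow, Finset.mul_sum]
  refine Finset.sum_congr rfl fun D _ => ?_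
  ring

theorem sandwich_tld_left {U U' : Matrix ι ι ℂ} (hU : Uᴴ * U = 1) (ϱ : ℝ) (b : ι → ℕ) (i j : ι) :
    (Uᴴ * tld ϱ U b * U') i j = (Uᴴ * U') i j * (((ϱ ^ b i : ℝ)) : ℂ) := by
  have : Uᴴ * tld ϱ U b * U' = diagonal (fun i => (((ϱ ^ b i : ℝ)) : ℂ)) * (Uᴴ * U') := by
    simp only [tld]
    calc Uᴴ * (U * diagonal (fun i => (((ϱ ^ b i : ℝ)) : ℂ)) * Uᴴ) * U'
        = (Uᴴ * U) * diagonal (fun i => (((ϱ ^ b i : ℝ)) : ℂ)) * (Uᴴ * U') := by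
          simp only [Matrix.mul_assoc]
      _ = _ := by rw [hU, Matrix.one_mul]
  rw [this, diagonal_mul]
  ring

theorem sandwich_tld_right {U U' : Matrix ι ι ℂ} (hU' : U'ᴴ * U' = 1) (ϱ : ℝ) (b' : ι → ℕ) (i j : ι) :
    (Uᴴ * tld ϱ U' b' * U') i j = (Uᴴ * U') i j * (((ϱ ^ b' j : ℝ)) : ℂ) := by
  have : Uᴴ * tld ϱ U' b' * U' = (Uᴴ * U') * diagonal (fun i => (((ϱ ^ b' i : ℝ)) : ℂ)) := by
    simp only [tld]
    calc Uᴴ * (U' * diagonal (fun i => (((ϱ ^ b' i : ℝ)) : ℂ)) * U'ᴴ) * U'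
        = (Uᴴ * U') * diagonal (fun i => (((ϱ ^ b' i : ℝ)) : ℂ)) * (U'ᴴ * U') := by
          simp only [Matrix.mul_assoc]
      _ = _ := by rw [hU', Matrix.mul_one]
  rw [this, mul_diagonal]

/-- `hsq` invariance under the sandwich -/
theorem hsq_sandwich {U U' : Matrix ι ι ℂ} (hU : Uᴴ * U = 1) (hU' : U'ᴴ * U' = 1) (X : Matrix ι ι ℂ) :
    hsq (Uᴴ * X * U') = hsq X := by
  have hU2 : U * Uᴴ = 1 := mul_eq_one_comm.mp hU
  rw [hsq_mul_unitary (mul_eq_one_comm.mp hU'), hsq_unitary_mul (by simpa using hU2)]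

/-- **Main matrix estimate**: the output of one trial is close to `γ • tld`. -/
theorem hsq_Mbar_sub_le {U U' : Matrix ι ι ℂ} (hU : Uᴴ * U = 1) (hU' : U'ᴴ * U' = 1)
    {L : ℝ} (hL : 0 < L) {W Dm : ℕ} (hW : 0 < W) {b b' : ι → ℕ} (hb : ∀ i, b i + W ≤ Dm) :
    let ϱ := Real.exp (-(L / (2 * W)))
    hsq (Mbar ϱ W Dm U U' b b' - ((gam ϱ W : ℝ) : ℂ) • tld ϱ U b) ≤
      (1 + 2 / L) ^ 2 * hsq (tld ϱ U b - tld ϱ U' b') := by
  intro ϱ
  rw [← hsq_sandwich hU hU' (Mbar ϱ W Dm U U' b b' - ((gam ϱ W : ℝ) : ℂ) • tld ϱ U b),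
    ← hsq_sandwich hU hU' (tld ϱ U b - tld ϱ U' b')]
  simp only [hsq, Finset.mul_sum]
  refine Finset.sum_le_sum fun i _ => Finset.sum_le_sum fun j _ => ?_
  have e1 : (Uᴴ * (Mbar ϱ W Dm U U' b b' - ((gam ϱ W : ℝ) : ℂ) • tld ϱ U b) * U') i j =
      (Uᴴ * U') i j * ((kap ϱ W Dm (b i) (b' j) - gam ϱ W * ϱ ^ b i : ℝ) : ℂ) := by
    rw [Matrix.mul_sub, Matrix.sub_mul, Matrix.mul_smul, Matrix.smul_mul, Matrix.sub_apply,
      Matrix.smul_apply, sandwich_Mbar hU hU', sandwich_tld_left hU]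
    simp only [smul_eq_mul, Complex.ofReal_sub, Complex.ofReal_mul, Complex.ofReal_pow]
    ring
  have e2 : (Uᴴ * (tld ϱ U b - tld ϱ U' b') * U') i j =
      (Uᴴ * U') i j * ((ϱ ^ b i - ϱ ^ b' j : ℝ) : ℂ) := by
    rw [Matrix.mul_sub, Matrix.sub_mul, Matrix.sub_apply, sandwich_tld_left hU, sandwich_tld_right hU']
    simp only [Complex.ofReal_sub, Complex.ofReal_pow]
    ring
  rw [e1, e2, norm_mul, norm_mul, Complex.norm_real, Complex.norm_real, mul_pow, mul_pow,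
    Real.norm_eq_abs, Real.norm_eq_abs]
  have hk := kap_sub_le (W := W) (Dm := Dm) (b := b i) (b' := b' j) hL hW
    (by
      have := hb i
      have h2 : min (b i) (b' j) ≤ b i := min_le_left _ _
      omega)
  have hk' : |kap ϱ W Dm (b i) (b' j) - gam ϱ W * ϱ ^ b i| ≤ (1 + 2 / L) * |ϱ ^ b i - ϱ ^ b' j| := hk
  have hsq' := pow_le_pow_left₀ (abs_nonneg _) hk' 2
  have hC : 0 ≤ ‖(Uᴴ * U') i j‖ ^ 2 := sq_nonneg _
  calc ‖(Uᴴ * U') i j‖ ^ 2 * |kap ϱ W Dm (b i) (b' j) - gam ϱ W * ϱ ^ b i| ^ 2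
      ≤ ‖(Uᴴ * U') i j‖ ^ 2 * ((1 + 2 / L) * |ϱ ^ b i - ϱ ^ b' j|) ^ 2 :=
        mul_le_mul_of_nonneg_left hsq' hC
    _ = (1 + 2 / L) ^ 2 * (‖(Uᴴ * U') i j‖ ^ 2 * |ϱ ^ b i - ϱ ^ b' j| ^ 2) := by ring

end

end Crest.Agent.ParRep.Sampler
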