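import Mathlib

/-!
# Real analysis of the correlated sampler (row 342, finding #1280 (4), #1308)

The ladder kernel `kap`, the bound `|κ - γ g| ≤ γ (1 + 2/L) |g - g'|` (no case split on the window),
the bounds on `θ = γ² / ρ`, the final inequality for the stationary value of the repeat-until-accept
strategy, the geometric series limit and the choice of parameters.  Only real numbers.
-/

set_option autoImplicit false

namespace Crest.Agent.ParRep.SamplerReal

open Finset

/-- `σ(n) = ∑_{l<n} r^l`. -/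
noncomputable def sig (r : ℝ) (n : ℕ) : ℝ := ∑ l ∈ range n, r ^ l

lemma sig_nonneg {r : ℝ} (hr : 0 ≤ r) (n : ℕ) : 0 ≤ sig r n :=
  sum_nonneg fun _ _ => pow_nonneg hr _

lemma sig_pos {r : ℝ} (hr : 0 < r) {n : ℕ} (hn : 0 < n) : 0 < sig r n :=
  sum_pos (fun _ _ => pow_pos hr _) ⟨0, mem_range.2 hn⟩

/-- The last `D` terms of a decreasing geometric sum have at most the average size. -/
lemma sig_sub_le {r : ℝ} (hr0 : 0 < r) (hr1 : r ≤ 1) (W D : ℕ) (hW : 0 < W) :
    sig r W - sig r (W - D) ≤ ((D : ℝ) / W) * sig r W := by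
  have hWR : (0 : ℝ) < W := by exact_mod_cast hW
  by_cases hDW : W ≤ D
  · have h0 : W - D = 0 := by omega
    rw [h0]
    have h1 : sig r 0 = 0 := by simp [sig]
    rw [h1, sub_zero]
    have h2 : (1 : ℝ) ≤ (D : ℝ) / W := by
      rw [one_le_div hWR]; exact_mod_cast hDW
    have h3 := sig_nonneg hr0.le W
    nlinarith
  · push Not at hDW
    obtain ⟨n, rfl⟩ : ∃ n, W = n + D := ⟨W - D, by omega⟩
    have hn : n + D - D = n := by omega
    rw [hn]
    have hsplit : sig r (n + D) = sig r n + ∑ l ∈ range D, r ^ (n + l) := by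
      simp [sig, sum_range_add]
    set B := ∑ l ∈ range D, r ^ (n + l) with hB
    have hB1 : B ≤ D * r ^ n := by
      calc B ≤ ∑ _l ∈ range D, r ^ n := sum_le_sum fun l _ =>
            pow_le_pow_of_le_one hr0.le hr1 (by omega)
        _ = D * r ^ n := by simp
    have hA1 : (n : ℝ) * r ^ n ≤ sig r n := by
      calc (n : ℝ) * r ^ n = ∑ _l ∈ range n, r ^ n := by simp
        _ ≤ sig r n := sum_le_sum fun l hl =>
            pow_le_pow_of_le_one hr0.le hr1 (le_of_lt (mem_range.1 hl))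
    have hpos : (0 : ℝ) < ((n + D : ℕ) : ℝ) := hWR
    rw [hsplit, add_sub_cancel_left, div_mul_eq_mul_div, le_div_iff₀ hpos]
    push_cast
    have hn0 : (0 : ℝ) ≤ n := Nat.cast_nonneg n
    have hD0 : (0 : ℝ) ≤ D := Nat.cast_nonneg D
    have h1 : (n : ℝ) * B ≤ (n : ℝ) * (D * r ^ n) := mul_le_mul_of_nonneg_left hB1 hn0
    have h2 : (D : ℝ) * ((n : ℝ) * r ^ n) ≤ D * sig r n := mul_le_mul_of_nonneg_left hA1 hD0
    nlinarith

/-- The distance of indices on the ladder. -/
def dst (b b' : ℕ) : ℕ := max b b' - min b b'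

/-- The kernel of the ladder: `κ(b,b') = r^{max(b,b')} σ(W - |b-b'|) / W`. -/
noncomputable def kap (r : ℝ) (W b b' : ℕ) : ℝ := r ^ max b b' * sig r (W - dst b b') / W

/-- `γ = σ(W)/W`. -/
noncomputable def gam (r : ℝ) (W : ℕ) : ℝ := sig r W / W

/-- `ρ = avg_{l<W} r^{2l}`. -/
noncomputable def rho (r : ℝ) (W : ℕ) : ℝ := sig (r ^ 2) W / W

/-- `g' D c ≤ g - g'` when `g = r^b`, `g' = r^{b+D}`, `r = exp (-c)`. -/
lemma pow_gap {c : ℝ} (hc : 0 ≤ c) (b D : ℕ) :
    Real.exp (-c) ^ (b + D) * (D * c) ≤ Real.exp (-c) ^ b - Real.exp (-c) ^ (b + D) := by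
  have h1 : Real.exp (-c) ^ b = Real.exp (-c) ^ (b + D) * Real.exp (D * c) := by
    rw [pow_add, mul_assoc, ← Real.exp_nat_mul (-c) D, ← Real.exp_add]
    have : (D : ℝ) * -c + D * c = 0 := by ring
    rw [this, Real.exp_zero, mul_one]
  have h2 : (D : ℝ) * c + 1 ≤ Real.exp (D * c) := Real.add_one_le_exp _
  have h3 : 0 ≤ Real.exp (-c) ^ (b + D) := by positivity
  rw [h1]
  nlinarith

/-- The kernel bound, with `r = exp (-L/(2W))`. -/
theorem kap_bound {L : ℝ} (hL : 0 < L) {W : ℕ} (hW : 0 < W) (b b' : ℕ)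
    (r : ℝ) (hr : r = Real.exp (-(L / (2 * W)))) :
    |kap r W b b' - gam r W * r ^ b| ≤ gam r W * (1 + 2 / L) * |r ^ b - r ^ b'| := by
  have hWR : (0 : ℝ) < W := by exact_mod_cast hW
  set c : ℝ := L / (2 * W) with hc
  have hc0 : 0 < c := by positivity
  have hr0 : 0 < r := by rw [hr]; exact Real.exp_pos _
  have hr1 : r ≤ 1 := by rw [hr]; exact Real.exp_le_one_iff.2 (by linarith)
  have hgam : 0 ≤ gam r W := div_nonneg (sig_nonneg hr0.le _) hWR.le
  have hgam' : gam r W = sig r W / W := rfl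
  -- the two basic facts
  have key : ∀ (D e : ℕ), r ^ (e + D) * ((D : ℝ) / W) ≤ (2 / L) * (r ^ e - r ^ (e + D)) := by
    intro D e
    have h := pow_gap hc0.le e D
    rw [← hr] at h
    have hcL : (D : ℝ) * c = (L / 2) * ((D : ℝ) / W) := by
      rw [hc]; field_simp
    rw [hcL] at h
    have : r ^ (e + D) * ((D : ℝ) / W) = (2 / L) * (r ^ (e + D) * ((L / 2) * ((D : ℝ) / W))) := by
      field_simp
    rw [this]
    exact mul_le_mul_of_nonneg_left h (by positivity)
  have hsig := fun D => sig_sub_le hr0 hr1 W D hW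
  rcases le_total b b' with hbb | hbb
  · -- `g ≥ g'`
    obtain ⟨D, rfl⟩ : ∃ D, b' = b + D := ⟨b' - b, by omega⟩
    have hd : dst b (b + D) = D := by
      unfold dst; rw [max_eq_right (by omega), min_eq_left (by omega)]; omega
    have hmax : max b (b + D) = b + D := max_eq_right (by omega)
    have hk : kap r W b (b + D) = r ^ (b + D) * sig r (W - D) / W := by
      unfold kap; rw [hd, hmax]
    have hgg : r ^ (b + D) ≤ r ^ b := pow_le_pow_of_le_one hr0.le hr1 (by omega)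
    rw [hk, abs_of_nonneg (by linarith : 0 ≤ r ^ b - r ^ (b + D))]
    have hS := hsig D
    have hS0 := sig_nonneg hr0.le (W - D)
    have hS1 : sig r (W - D) ≤ sig r W := by
      apply sum_le_sum_of_subset_of_nonneg
      · intro l hl; simp only [mem_range] at hl ⊢; omega
      · intro _ _ _; exact pow_nonneg hr0.le _
    have hpow : 0 ≤ r ^ (b + D) := by positivity
    have e1 : gam r W * r ^ b - r ^ (b + D) * sig r (W - D) / W
        = gam r W * (r ^ b - r ^ (b + D)) + r ^ (b + D) * (sig r W - sig r (W - D)) / W := by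
      rw [hgam']; field_simp; ring
    have e2 : r ^ (b + D) * (sig r W - sig r (W - D)) / W
        ≤ gam r W * ((2 / L) * (r ^ b - r ^ (b + D))) := by
      have h3 : r ^ (b + D) * (sig r W - sig r (W - D)) / W
          ≤ r ^ (b + D) * (((D : ℝ) / W) * sig r W) / W :=
        div_le_div_of_nonneg_right (mul_le_mul_of_nonneg_left hS hpow) hWR.le
      have h4 : r ^ (b + D) * (((D : ℝ) / W) * sig r W) / W
          = gam r W * (r ^ (b + D) * ((D : ℝ) / W)) := by
        rw [hgam']; field_simp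
      rw [h4] at h3
      exact h3.trans (mul_le_mul_of_nonneg_left (key D b) hgam)
    have e3 : 0 ≤ r ^ (b + D) * (sig r W - sig r (W - D)) / W :=
      div_nonneg (mul_nonneg hpow (by linarith)) hWR.le
    have e4 : 0 ≤ gam r W * (r ^ b - r ^ (b + D)) := mul_nonneg hgam (by linarith)
    rw [abs_le]
    constructor
    · have e5 : 0 ≤ gam r W * (1 + 2 / L) * (r ^ b - r ^ (b + D)) :=
        mul_nonneg (mul_nonneg hgam (by positivity)) (by linarith)
      nlinarith
    · have : gam r W * (1 + 2 / L) * (r ^ b - r ^ (b + D))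
          = gam r W * (r ^ b - r ^ (b + D)) + gam r W * ((2 / L) * (r ^ b - r ^ (b + D))) := by ring
      rw [this]
      linarith
  · -- `g < g'`
    obtain ⟨D, rfl⟩ : ∃ D, b = b' + D := ⟨b - b', by omega⟩
    have hd : dst (b' + D) b' = D := by
      unfold dst; rw [max_eq_left (by omega), min_eq_right (by omega)]; omega
    have hmax : max (b' + D) b' = b' + D := max_eq_left (by omega)
    have hk : kap r W (b' + D) b' = r ^ (b' + D) * sig r (W - D) / W := by
      unfold kap; rw [hd, hmax]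
    have hgg : r ^ (b' + D) ≤ r ^ b' := pow_le_pow_of_le_one hr0.le hr1 (by omega)
    rw [hk, abs_of_nonpos (by linarith : r ^ (b' + D) - r ^ b' ≤ 0)]
    have hS := hsig D
    have hS1 : sig r (W - D) ≤ sig r W := by
      apply sum_le_sum_of_subset_of_nonneg
      · intro l hl; simp only [mem_range] at hl ⊢; omega
      · intro _ _ _; exact pow_nonneg hr0.le _
    have hpow : 0 ≤ r ^ (b' + D) := by positivity
    have e1 : gam r W * r ^ (b' + D) - r ^ (b' + D) * sig r (W - D) / W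
        = r ^ (b' + D) * (sig r W - sig r (W - D)) / W := by
      rw [hgam']; field_simp
    have e2 : r ^ (b' + D) * (sig r W - sig r (W - D)) / W
        ≤ gam r W * ((2 / L) * (r ^ b' - r ^ (b' + D))) := by
      have h3 : r ^ (b' + D) * (sig r W - sig r (W - D)) / W
          ≤ r ^ (b' + D) * (((D : ℝ) / W) * sig r W) / W :=
        div_le_div_of_nonneg_right (mul_le_mul_of_nonneg_left hS hpow) hWR.le
      have h4 : r ^ (b' + D) * (((D : ℝ) / W) * sig r W) / W
          = gam r W * (r ^ (b' + D) * ((D : ℝ) / W)) := by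
        rw [hgam']; field_simp
      rw [h4] at h3
      exact h3.trans (mul_le_mul_of_nonneg_left (key D b') hgam)
    have e3 : 0 ≤ r ^ (b' + D) * (sig r W - sig r (W - D)) / W :=
      div_nonneg (mul_nonneg hpow (by linarith)) hWR.le
    have e6 : 0 ≤ gam r W * (r ^ b' - r ^ (b' + D)) := mul_nonneg hgam (by linarith)
    rw [abs_le]
    have : gam r W * (1 + 2 / L) * -(r ^ (b' + D) - r ^ b')
        = gam r W * (r ^ b' - r ^ (b' + D)) + gam r W * ((2 / L) * (r ^ b' - r ^ (b' + D))) := by ring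
    rw [this]
    constructor
    · have e7 : 0 ≤ gam r W * ((2 / L) * (r ^ b' - r ^ (b' + D))) :=
        mul_nonneg hgam (mul_nonneg (by positivity) (by linarith))
      linarith
    · linarith

/-- The ladder sum computing the kernel. -/
theorem ladder_sum (r : ℝ) (W b b' Dmax : ℕ) (hb : b + W ≤ Dmax) (hb' : b' + W ≤ Dmax) :
    ∑ D ∈ range Dmax, (if b ≤ D ∧ D < b + W then (1 : ℝ) else 0) *
        (if b' ≤ D ∧ D < b' + W then (1 : ℝ) else 0) * r ^ D
      = r ^ max b b' * sig r (W - dst b b') := by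
  classical
  have hfilter : ∑ D ∈ range Dmax, (if b ≤ D ∧ D < b + W then (1 : ℝ) else 0) *
        (if b' ≤ D ∧ D < b' + W then (1 : ℝ) else 0) * r ^ D
      = ∑ l ∈ range (W - dst b b'), r ^ (max b b' + l) := by
    have himg : ∑ l ∈ range (W - dst b b'), r ^ (max b b' + l)
        = ∑ D ∈ (range (W - dst b b')).image (fun l => max b b' + l), r ^ D := by
      rw [sum_image]
      intro x _ y _ h
      simpa using h
    rw [himg]
    rw [← sum_subset (s₁ := (range (W - dst b b')).image (fun l => max b b' + l))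
      (s₂ := range Dmax)]
    · refine sum_congr rfl fun D hD => ?_
      simp only [mem_image, mem_range] at hD
      obtain ⟨l, hl, rfl⟩ := hD
      have hd : dst b b' = max b b' - min b b' := rfl
      have hmm : max b b' + min b b' = b + b' := max_add_min b b'
      have hle : min b b' ≤ max b b' := min_le_max
      have h1 : b ≤ max b b' := le_max_left _ _
      have h2 : b' ≤ max b b' := le_max_right _ _
      have h3 : min b b' ≤ b := min_le_left _ _
      have h4 : min b b' ≤ b' := min_le_right _ _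
      rw [if_pos ⟨by omega, by omega⟩, if_pos ⟨by omega, by omega⟩]
      simp
    · intro D hD
      simp only [mem_image, mem_range] at hD ⊢
      obtain ⟨l, hl, rfl⟩ := hD
      have hd : dst b b' = max b b' - min b b' := rfl
      have hmm : max b b' + min b b' = b + b' := max_add_min b b'
      have hle : min b b' ≤ max b b' := min_le_max
      rcases le_total b b' with h | h
      · rw [max_eq_right h, min_eq_left h] at *; omega
      · rw [max_eq_left h, min_eq_right h] at *; omega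
    · intro D _ hD
      simp only [mem_image, mem_range, not_exists, not_and] at hD
      by_cases h1 : b ≤ D ∧ D < b + W
      · by_cases h2 : b' ≤ D ∧ D < b' + W
        · exfalso
          have hd : dst b b' = max b b' - min b b' := rfl
          have hmm : max b b' + min b b' = b + b' := max_add_min b b'
          have hle : min b b' ≤ max b b' := min_le_max
          have hm : max b b' ≤ D := max_le h1.1 h2.1
          refine hD (D - max b b') ?_ (by omega)
          rcases le_total b b' with h | h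
          · rw [max_eq_right h, min_eq_left h] at *; omega
          · rw [max_eq_left h, min_eq_right h] at *; omega
        · simp [h2]
      · simp [h1]
  rw [hfilter, sig, mul_sum]
  exact sum_congr rfl fun l _ => pow_add _ _ _

/-- `ladder_sum` divided by `W`: the kernel. -/
theorem ladder_kap (r : ℝ) (W b b' Dmax : ℕ) (hb : b + W ≤ Dmax) (hb' : b' + W ≤ Dmax) :
    (∑ D ∈ range Dmax, (if b ≤ D ∧ D < b + W then (1 : ℝ) else 0) *
        (if b' ≤ D ∧ D < b' + W then (1 : ℝ) else 0) * r ^ D) / W = kap r W b b' := by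
  rw [ladder_sum r W b b' Dmax hb hb', kap]

/-- The diagonal ladder sum: `∑_{D∈[b,b+W)} r^{2D} = r^{2b} σ_{r²}(W)`. -/
theorem ladder_diag (r : ℝ) (W b Dmax : ℕ) (hb : b + W ≤ Dmax) :
    ∑ D ∈ range Dmax, (if b ≤ D ∧ D < b + W then (1 : ℝ) else 0) * (r ^ 2) ^ D
      = (r ^ 2) ^ b * sig (r ^ 2) W := by
  have h := ladder_sum (r ^ 2) W b b Dmax hb hb
  have hd : dst b b = 0 := by simp [dst]
  rw [hd, max_self, Nat.sub_zero] at h
  rw [← h]
  refine sum_congr rfl fun D _ => ?_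
  by_cases h1 : b ≤ D ∧ D < b + W <;> simp [h1]

/-- Bounds on `γ` and `ρ`. -/
lemma rho_pos {r : ℝ} (hr0 : 0 < r) {W : ℕ} (hW : 0 < W) : 0 < rho r W :=
  div_pos (sig_pos (by positivity) hW) (by exact_mod_cast hW)

lemma gam_pos {r : ℝ} (hr0 : 0 < r) {W : ℕ} (hW : 0 < W) : 0 < gam r W :=
  div_pos (sig_pos hr0 hW) (by exact_mod_cast hW)

lemma rho_le_one {r : ℝ} (hr0 : 0 < r) (hr1 : r ≤ 1) {W : ℕ} (hW : 0 < W) : rho r W ≤ 1 := by
  have hWR : (0 : ℝ) < W := by exact_mod_cast hW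
  rw [rho, div_le_one hWR]
  calc sig (r ^ 2) W ≤ ∑ _l ∈ range W, (1 : ℝ) :=
        sum_le_sum fun l _ => pow_le_one₀ (by positivity) (pow_le_one₀ hr0.le hr1)
    _ = W := by simp

lemma gam_ge {r : ℝ} (hr0 : 0 < r) (hr1 : r ≤ 1) {W : ℕ} (hW : 0 < W) : r ^ W ≤ gam r W := by
  have hWR : (0 : ℝ) < W := by exact_mod_cast hW
  rw [gam, le_div_iff₀ hWR]
  calc r ^ W * W = ∑ _l ∈ range W, r ^ W := by simp [mul_comm]
    _ ≤ sig r W := sum_le_sum fun l hl =>
        pow_le_pow_of_le_one hr0.le hr1 (le_of_lt (mem_range.1 hl))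

/-- `γ² ≤ ρ`. -/
lemma gam_sq_le_rho (r : ℝ) {W : ℕ} (hW : 0 < W) : gam r W ^ 2 ≤ rho r W := by
  have hWR : (0 : ℝ) < W := by exact_mod_cast hW
  have h := sq_sum_le_card_mul_sum_sq (s := range W) (f := fun l => r ^ l)
  simp only [card_range] at h
  have h2 : ∑ l ∈ range W, (r ^ l) ^ 2 = sig (r ^ 2) W :=
    sum_congr rfl fun l _ => by rw [← pow_mul, ← pow_mul, mul_comm]
  rw [h2] at h
  change (∑ l ∈ range W, r ^ l) ^ 2 ≤ _ at h
  rw [gam, rho, div_pow, div_le_div_iff₀ (by positivity) hWR]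
  change (∑ l ∈ range W, r ^ l) ^ 2 * W ≤ _
  nlinarith

/-- `e^{-L} ≤ γ²/ρ ≤ 1`, with `r = exp (-L/(2W))`. -/
theorem theta_bounds {L : ℝ} (hL : 0 ≤ L) {W : ℕ} (hW : 0 < W) (r : ℝ)
    (hr : r = Real.exp (-(L / (2 * W)))) :
    Real.exp (-L) ≤ gam r W ^ 2 / rho r W ∧ gam r W ^ 2 / rho r W ≤ 1 := by
  have hWR : (0 : ℝ) < W := by exact_mod_cast hW
  have hr0 : 0 < r := by rw [hr]; exact Real.exp_pos _
  have hr1 : r ≤ 1 := by
    rw [hr]; exact Real.exp_le_one_iff.2 (neg_nonpos.2 (by positivity))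
  have hρ := rho_pos hr0 hW
  refine ⟨?_, (div_le_one hρ).2 (gam_sq_le_rho r hW)⟩
  rw [le_div_iff₀ hρ]
  have h1 : r ^ (2 * W) = Real.exp (-L) := by
    rw [hr, ← Real.exp_nat_mul]
    congr 1
    push_cast
    field_simp
  have h2 : r ^ (2 * W) ≤ gam r W ^ 2 := by
    rw [mul_comm, pow_mul]
    exact pow_le_pow_left₀ (by positivity) (gam_ge hr0 hr1 hW) 2
  have h3 := rho_le_one hr0 hr1 hW
  have h4 : 0 ≤ Real.exp (-L) := (Real.exp_pos _).le
  rw [← h1] at h4 ⊢
  nlinarith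

/-- `1 - L ≤ γ²/ρ`. -/
theorem theta_ge {L : ℝ} (hL : 0 ≤ L) {W : ℕ} (hW : 0 < W) (r : ℝ)
    (hr : r = Real.exp (-(L / (2 * W)))) : 1 - L ≤ gam r W ^ 2 / rho r W := by
  have h := (theta_bounds hL hW r hr).1
  have h2 := Real.add_one_le_exp (-L)
  linarith

/-- THE FINAL INEQUALITY for the stationary value `θ x / D` of the repeat-until-accept strategy. -/
theorem final_real {v x pA pB θ hZ e0 η L : ℝ}
    (hv1 : v ≤ 1) (hx0 : 0 ≤ x) (hx : e0 ≤ 1 → v - 3 * e0 ≤ x)
    (hθ0 : 0 ≤ θ) (hθ1 : θ ≤ 1) (hθL : 1 - L ≤ θ) (hp : pA + pB ≤ 2 + 6 * η) (hZ1 : 1 - 2 * e0 ≤ hZ)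
    (hD : 0 < pA + pB - θ * hZ) (hL : 0 ≤ L) (he0 : 0 ≤ e0) (hη : 0 ≤ η) :
    v - 2 * L - 5 * e0 - 6 * η ≤ θ * x / (pA + pB - θ * hZ) := by
  set D := pA + pB - θ * hZ with hDdef
  have hy : 0 ≤ θ * x := mul_nonneg hθ0 hx0
  by_cases ht : v - 2 * L - 5 * e0 - 6 * η ≤ 0
  · exact ht.trans (div_nonneg hy hD.le)
  push Not at ht
  have he1 : e0 ≤ 1 := by linarith
  have hx' := hx he1
  rw [le_div_iff₀ hD]
  have hθZ : 1 - L - 2 * e0 ≤ θ * hZ := by
    have h1 : θ * (1 - 2 * e0) ≤ θ * hZ := mul_le_mul_of_nonneg_left hZ1 hθ0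
    nlinarith
  have hD2 : D ≤ 1 + (L + 2 * e0 + 6 * η) := by rw [hDdef]; linarith
  set t := v - 2 * L - 5 * e0 - 6 * η with htdef
  have ht1 : t ≤ 1 := by rw [htdef]; linarith
  have h1 : t * D ≤ t * (1 + (L + 2 * e0 + 6 * η)) := mul_le_mul_of_nonneg_left hD2 ht.le
  have h2 : t * (1 + (L + 2 * e0 + 6 * η)) ≤ t + (L + 2 * e0 + 6 * η) := by nlinarith
  have h3 : (1 - L) * x ≤ θ * x := mul_le_mul_of_nonneg_right hθL hx0
  have hL1 : 1 - L ≥ 0 := by
    have : 2 * L < 1 := by rw [htdef] at ht; linarith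
    linarith
  have h4 : (1 - L) * (v - 3 * e0) ≤ (1 - L) * x := mul_le_mul_of_nonneg_left hx' hL1
  have h5 : v - 3 * e0 - L ≤ (1 - L) * (v - 3 * e0) := by nlinarith
  have h6 : t + (L + 2 * e0 + 6 * η) = v - L - 3 * e0 := by rw [htdef]; ring
  linarith

/-- THE FINAL INEQUALITY in the form requested by the assembly (`#1338`, (B)): with
`D = ρ (Ha + Hb) - HM`, the stationary value `(1 - tR) Vm / D` is at least `om - 6 (L + η + e)`. -/
theorem final_real2 {om L eta e gam rho tR Vm HM Ha Hb : ℝ} (hom1 : om ≤ 1) (hL0 : 0 ≤ L)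
    (hL1 : L ≤ 1) (heta : 0 ≤ eta) (he : 0 ≤ e) (hgam0 : 0 ≤ gam) (hgam1 : gam ≤ 1)
    (hgamL : 1 - L ≤ gam ^ 2) (hrho0 : 0 ≤ rho) (hrho1 : rho ≤ 1) (htR0 : 0 ≤ tR) (htRL : tR ≤ L)
    (hVm : gam ^ 2 * om - eta * (2 * gam + eta) ≤ Vm) (hVm0 : 0 ≤ Vm)
    (hHM : eta ≤ gam → (gam - eta) ^ 2 ≤ HM) (hHa : Ha ≤ (1 + e) ^ 2) (hHb : Hb ≤ (1 + e) ^ 2)
    (hD : 0 < rho * (Ha + Hb) - HM) :
    om - 6 * (L + eta + e) ≤ (1 - tR) * Vm / (rho * (Ha + Hb) - HM) := by
  set D := rho * (Ha + Hb) - HM with hDdef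
  have h1tR : 0 ≤ 1 - tR := by linarith
  by_cases ht : om - 6 * (L + eta + e) ≤ 0
  · exact ht.trans (div_nonneg (mul_nonneg h1tR hVm0) hD.le)
  push Not at ht
  set t := om - 6 * (L + eta + e) with htdef
  have hs : 6 * (L + eta + e) < 1 := by rw [htdef] at ht; linarith
  have hLs : L < 1 / 6 := by linarith
  have hetas : eta < 1 / 6 := by linarith
  have hes : e < 1 / 6 := by linarith
  have hgam2 : 5 / 6 < gam ^ 2 := by linarith
  have hgamη : eta ≤ gam := by
    by_contra hc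
    push Not at hc
    have : gam ^ 2 ≤ (1 / 6 : ℝ) ^ 2 := pow_le_pow_left₀ hgam0 (by linarith) 2
    norm_num at this
    linarith
  have hHM' := hHM hgamη
  rw [le_div_iff₀ hD]
  -- upper bound on the denominator
  have hsum : Ha + Hb ≤ 2 * (1 + e) ^ 2 := by linarith
  have hρ : rho * (Ha + Hb) ≤ 2 * (1 + e) ^ 2 := by
    calc rho * (Ha + Hb) ≤ rho * (2 * (1 + e) ^ 2) := mul_le_mul_of_nonneg_left hsum hrho0
      _ ≤ 1 * (2 * (1 + e) ^ 2) := mul_le_mul_of_nonneg_right hrho1 (by positivity)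
      _ = 2 * (1 + e) ^ 2 := one_mul _
  have he2 : (1 + e) ^ 2 ≤ 1 + 3 * e := by
    have : e * e ≤ e * 1 := mul_le_mul_of_nonneg_left (by linarith) he
    have e3 : (1 + e) ^ 2 = 1 + 2 * e + e * e := by ring
    linarith
  have hγη : gam * eta ≤ eta := mul_le_of_le_one_left heta hgam1
  have hHM2 : 1 - L - 2 * eta ≤ HM := by
    have e3 : (gam - eta) ^ 2 = gam ^ 2 - 2 * (gam * eta) + eta ^ 2 := by ring
    have e4 := sq_nonneg eta
    linarith
  have hD2 : D ≤ 1 + (6 * e + L + 2 * eta) := by rw [hDdef]; linarith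
  have hom0 : 0 < om := by rw [htdef] at ht; linarith
  have ht1 : t ≤ 1 := by rw [htdef]; linarith
  have hε : 0 ≤ 6 * e + L + 2 * eta := by linarith
  have h1 : t * D ≤ t * (1 + (6 * e + L + 2 * eta)) := mul_le_mul_of_nonneg_left hD2 ht.le
  have h2 : t * (1 + (6 * e + L + 2 * eta)) ≤ t + (6 * e + L + 2 * eta) := by
    have : t * (6 * e + L + 2 * eta) ≤ 1 * (6 * e + L + 2 * eta) :=
      mul_le_mul_of_nonneg_right ht1 hε
    linarith
  -- lower bound on the numerator
  have hn1 : (1 - L) * om ≤ gam ^ 2 * om := mul_le_mul_of_nonneg_right hgamL hom0.le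
  have hn2 : eta * (2 * gam + eta) ≤ 3 * eta := by
    have : eta * (2 * gam + eta) ≤ eta * 3 := mul_le_mul_of_nonneg_left (by linarith) heta
    linarith
  have hLom : L * om ≤ L := mul_le_of_le_one_right hL0 hom1
  have hVm2 : om - L - 3 * eta ≤ Vm := by
    have e3 : (1 - L) * om = om - L * om := by ring
    linarith
  have h3 : (1 - L) * Vm ≤ (1 - tR) * Vm := mul_le_mul_of_nonneg_right (by linarith) hVm0
  have h4 : (1 - L) * (om - L - 3 * eta) ≤ (1 - L) * Vm :=
    mul_le_mul_of_nonneg_left hVm2 (by linarith)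
  have h5 : om - 2 * L - 3 * eta ≤ (1 - L) * (om - L - 3 * eta) := by
    have e3 : (1 - L) * (om - L - 3 * eta) = om - L - 3 * eta - L * om + L * L + 3 * (L * eta) := by
      ring
    have e4 : 0 ≤ L * L := mul_nonneg hL0 hL0
    have e5 : 0 ≤ L * eta := mul_nonneg hL0 heta
    linarith
  have h6 : t + (6 * e + L + 2 * eta) ≤ om - 2 * L - 3 * eta := by rw [htdef]; linarith
  linarith

/-- Geometric series: the finite repetition approximates the stationary value. -/
theorem geom_limit {τ s ε : ℝ} (hτ0 : 0 ≤ τ) (hτ1 : τ < 1) (hs0 : 0 ≤ s) (hs1 : s ≤ 1 - τ)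
    (hε : 0 < ε) : ∃ R₀ : ℕ, ∀ R, R₀ ≤ R → s / (1 - τ) - ε ≤ (∑ t ∈ range R, τ ^ t) * s := by
  obtain ⟨R₀, hR₀⟩ := exists_pow_lt_of_lt_one hε hτ1
  refine ⟨R₀, fun R hR => ?_⟩
  have hpos : 0 < 1 - τ := by linarith
  have hg : (∑ t ∈ range R, τ ^ t) = (1 - τ ^ R) / (1 - τ) := by
    rw [geom_sum_eq hτ1.ne, ← neg_div_neg_eq]
    congr 1 <;> ring
  have hR' : τ ^ R ≤ τ ^ R₀ := pow_le_pow_of_le_one hτ0 hτ1.le hR
  have hle : s / (1 - τ) ≤ 1 := (div_le_one hpos).2 hs1
  have hge : 0 ≤ s / (1 - τ) := div_nonneg hs0 hpos.le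
  rw [hg]
  have : (1 - τ ^ R) / (1 - τ) * s = (1 - τ ^ R) * (s / (1 - τ)) := by ring
  rw [this]
  have hp0 : 0 ≤ τ ^ R := pow_nonneg hτ0 _
  nlinarith

/-- Choice of the parameters: for `L > 0`, `e > 0` there are `W ≥ 1` and `M` with
`r = exp (-L/(2W))`, `1 - r ≤ e`, `r^M ≤ e`. -/
theorem exists_params {L e : ℝ} (hL : 0 < L) (he : 0 < e) :
    ∃ (W M : ℕ) (r : ℝ), 0 < W ∧ r = Real.exp (-(L / (2 * W))) ∧ 0 < r ∧ r < 1 ∧ 1 - r ≤ e ∧
      r ^ M ≤ e := by
  obtain ⟨W, hW⟩ := exists_nat_gt (L / (2 * e))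
  have hW0 : (0 : ℝ) < W := lt_trans (by positivity) hW
  have hWn : 0 < W := by exact_mod_cast hW0
  set r := Real.exp (-(L / (2 * W))) with hr
  have hr0 : 0 < r := Real.exp_pos _
  have hr1 : r < 1 := Real.exp_lt_one_iff.2 (neg_lt_zero.2 (by positivity))
  have h1 : 1 - r ≤ e := by
    have h2 := Real.add_one_le_exp (-(L / (2 * W)))
    have h3 : L / (2 * W) ≤ e := by
      rw [div_le_iff₀ (by positivity)]
      rw [div_lt_iff₀ (by positivity)] at hW
      nlinarith
    rw [hr]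
    linarith
  obtain ⟨M, hM⟩ := exists_pow_lt_of_lt_one he hr1
  exact ⟨W, M, r, hWn, rfl, hr0, hr1, h1, hM.le⟩

end Crest.Agent.ParRep.SamplerReal
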