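import Crest.Agent.Lib.ParRep.SamplerQuad

/-!
# The value of a matrix `X` under POVMs (row 342, correlated sampler, #1338 (A))

`val E F V X = ∑ a b, if V a b then ⟨vec X, (E a ⊗ F b) vec X⟩ else 0`, its positivity, its bound by
`hsq X`, homogeneity and the perturbation inequality; triangle inequality for `√hsq`.
-/

set_option autoImplicit false

open scoped Kronecker ComplexOrder Matrix BigOperators
open Matrix

namespace Crest.Agent.ParRep

open Sampler

variable {i k A B : Type} [Fintype i] [Fintype k] [Fintype A] [Fintype B]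
  [DecidableEq i] [DecidableEq k]

/-- The value of `X`: `∑_{a,b} V(a,b) ⟨vec X, (E a ⊗ F b) vec X⟩`. -/
noncomputable def val (E : A → Matrix i i ℂ) (F : B → Matrix k k ℂ) (V : A → B → Prop)
    [∀ a b, Decidable (V a b)] (X : Matrix i k ℂ) : ℝ :=
  ∑ a, ∑ b, if V a b then form (vec X) (E a) (F b) else 0

/-- The operator `O = ∑_{a,b} V(a,b) E a ⊗ F b`. -/
noncomputable def opO (E : A → Matrix i i ℂ) (F : B → Matrix k k ℂ) (V : A → B → Prop)
    [∀ a b, Decidable (V a b)] : Matrix (i × k) (i × k) ℂ :=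
  ∑ a, ∑ b, if V a b then E a ⊗ₖ F b else 0

variable (E : A → Matrix i i ℂ) (F : B → Matrix k k ℂ) (V : A → B → Prop)
  [∀ a b, Decidable (V a b)]

lemma val_eq (X : Matrix i k ℂ) :
    val E F V X = (star (vec X) ⬝ᵥ (opO E F V *ᵥ vec X)).re := by
  unfold val opO
  rw [Matrix.sum_mulVec, dotProduct_sum, Complex.re_sum]
  refine Finset.sum_congr rfl fun a _ => ?_
  rw [Matrix.sum_mulVec, dotProduct_sum, Complex.re_sum]
  refine Finset.sum_congr rfl fun b _ => ?_
  split_ifs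
  · rfl
  · simp

variable {E F V}

lemma opO_posSemidef (hE : ∀ a, (E a).PosSemidef) (hF : ∀ b, (F b).PosSemidef) :
    (opO E F V).PosSemidef := by
  refine Matrix.posSemidef_sum _ fun a _ => Matrix.posSemidef_sum _ fun b _ => ?_
  split_ifs
  · exact (hE a).kronecker (hF b)
  · exact PosSemidef.zero

lemma one_sub_opO_posSemidef (hE : ∀ a, (E a).PosSemidef) (hF : ∀ b, (F b).PosSemidef)
    (hE1 : ∑ a, E a = 1) (hF1 : ∑ b, F b = 1) : (1 - opO E F V).PosSemidef := by
  have h1 : (1 : Matrix (i × k) (i × k) ℂ) = ∑ a, ∑ b, E a ⊗ₖ F b := by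
    have : ∑ a, ∑ b, E a ⊗ₖ F b = (∑ a, E a) ⊗ₖ (∑ b, F b) := by
      simp only [sum_kronecker_right, sum_kronecker_left]
    rw [this, hE1, hF1]
    simp
  have h2 : 1 - opO E F V = ∑ a, ∑ b, if V a b then 0 else E a ⊗ₖ F b := by
    rw [h1, opO, ← Finset.sum_sub_distrib]
    refine Finset.sum_congr rfl fun a _ => ?_
    rw [← Finset.sum_sub_distrib]
    refine Finset.sum_congr rfl fun b _ => ?_
    split_ifs <;> simp
  rw [h2]
  refine Matrix.posSemidef_sum _ fun a _ => Matrix.posSemidef_sum _ fun b _ => ?_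
  split_ifs
  · exact PosSemidef.zero
  · exact (hE a).kronecker (hF b)

theorem val_nonneg (hE : ∀ a, (E a).PosSemidef) (hF : ∀ b, (F b).PosSemidef)
    (X : Matrix i k ℂ) : 0 ≤ val E F V X := by
  refine Finset.sum_nonneg fun a _ => Finset.sum_nonneg fun b _ => ?_
  split_ifs
  · exact form_nonneg _ (hE a) (hF b)
  · exact le_rfl

theorem val_le_hsq (hE : ∀ a, (E a).PosSemidef) (hF : ∀ b, (F b).PosSemidef)
    (hE1 : ∑ a, E a = 1) (hF1 : ∑ b, F b = 1) (X : Matrix i k ℂ) : val E F V X ≤ hsq X := by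
  rw [val_eq, ← vec_norm, ← vnorm_sq]
  exact form_le_of_le_one (one_sub_opO_posSemidef hE hF hE1 hF1) _

lemma hsq_smul (c : ℂ) (X : Matrix i k ℂ) : hsq (c • X) = ‖c‖ ^ 2 * hsq X := by
  simp only [hsq, Matrix.smul_apply, smul_eq_mul, norm_mul, mul_pow, Finset.mul_sum]

omit [DecidableEq i] [DecidableEq k] in
lemma vec_smul (c : ℂ) (X : Matrix i k ℂ) : vec (c • X) = c • vec X := rfl

theorem val_smul (c : ℂ) (X : Matrix i k ℂ) : val E F V (c • X) = ‖c‖ ^ 2 * val E F V X := by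
  rw [val_eq, val_eq, vec_smul, mulVec_smul, star_smul, dotProduct_smul, smul_dotProduct,
    smul_eq_mul, smul_eq_mul, ← mul_assoc]
  have : c * star c = ((‖c‖ ^ 2 : ℝ) : ℂ) := by
    rw [Complex.star_def, Complex.mul_conj']; norm_cast
  rw [this, Complex.re_ofReal_mul]

/-- The perturbation inequality. -/
theorem val_ge (hE : ∀ a, (E a).PosSemidef) (hF : ∀ b, (F b).PosSemidef)
    (hE1 : ∑ a, E a = 1) (hF1 : ∑ b, F b = 1) (X Y : Matrix i k ℂ) :
    val E F V Y - Real.sqrt (hsq (X - Y)) * (Real.sqrt (hsq X) + Real.sqrt (hsq Y)) ≤ val E F V X := by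
  have h := quad_diff_le (opO_posSemidef (V := V) hE hF)
    (one_sub_opO_posSemidef hE hF hE1 hF1) (vec X) (vec Y)
  rw [← val_eq, ← val_eq, vnorm_sub_comm, ← vec_sub, vnorm_vec, vnorm_vec, vnorm_vec] at h
  linarith

/-- Triangle inequality for `√hsq`. -/
theorem sqrt_hsq_add_le (X Y : Matrix i k ℂ) :
    Real.sqrt (hsq (X + Y)) ≤ Real.sqrt (hsq X) + Real.sqrt (hsq Y) := by
  rw [← vnorm_vec, ← vnorm_vec, ← vnorm_vec]
  exact vnorm_add_le _ _

theorem sqrt_hsq_smul (c : ℂ) (X : Matrix i k ℂ) :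
    Real.sqrt (hsq (c • X)) = ‖c‖ * Real.sqrt (hsq X) := by
  rw [hsq_smul, Real.sqrt_mul (by positivity), Real.sqrt_sq (norm_nonneg _)]

end Crest.Agent.ParRep
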