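import Crest.Agent.Lib.ParRep.SamplerTrial
import Crest.Agent.Lib.ParRep.SamplerVal
import Crest.Agent.Lib.ParRep.SamplerReal

/-!
# The correlated sampler (row 342): main theorem
-/

set_option autoImplicit false

open scoped Kronecker ComplexOrder
open Matrix

namespace Crest.Agent.ParRep.Sampler

noncomputable section

variable {ι : Type} [Fintype ι] [DecidableEq ι]

/-- rounding a PSD unit target onto the ladder -/
theorem exists_rounded {G : Matrix ι ι ℂ} (hG : G.PosSemidef) (hn : hsq G = 1) {ϱ e : ℝ} {M : ℕ}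
    (hϱ0 : 0 < ϱ) (hϱ1 : ϱ < 1) (he : 1 - ϱ ≤ e) (hM : ϱ ^ M ≤ e) :
    ∃ (U : Matrix ι ι ℂ) (_ : Uᴴ * U = 1) (b : ι → ℕ), (∀ i, b i ≤ M) ∧
      hsq (tld ϱ U b - G) ≤ (Fintype.card ι : ℝ) * e ^ 2 := by
  obtain ⟨U, hU, μ, hnn, hspec⟩ : ∃ (U : Matrix ι ι ℂ) (_ : Uᴴ * U = 1) (μ : ι → ℝ) (_ : ∀ i, 0 ≤ μ i),
      G = U * diagonal (fun i => ((μ i : ℝ) : ℂ)) * Uᴴ := by
    have hH : G.IsHermitian := hG.1
    refine ⟨(hH.eigenvectorUnitary : Matrix ι ι ℂ), ?_, hH.eigenvalues, hG.eigenvalues_nonneg, ?_⟩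
    · have := Unitary.coe_star_mul_self hH.eigenvectorUnitary
      simpa [star_eq_conjTranspose] using this
    · have := hH.spectral_theorem
      rw [Unitary.conjStarAlgAut_apply] at this
      simpa [star_eq_conjTranspose, Function.comp_def] using this
  have hU2 : U * Uᴴ = 1 := mul_eq_one_comm.mp hU
  have hsum : ∑ i, μ i ^ 2 = 1 := by
    rw [← hn, hspec, hsq_mul_unitary (by simpa using hU), hsq_unitary_mul hU]
    simp only [hsq]
    refine Finset.sum_congr rfl fun i _ => ?_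
    rw [Finset.sum_eq_single i]
    · simp
    · intro j _ hj
      simp [diagonal_apply_ne _ (Ne.symm hj)]
    · simp
  have hle : ∀ i, μ i ≤ 1 := by
    intro i
    have h1 : μ i ^ 2 ≤ 1 := by
      rw [← hsum]
      exact Finset.single_le_sum (f := fun i => μ i ^ 2)
        (fun j _ => sq_nonneg _) (Finset.mem_univ i)
    nlinarith [hnn i]
  choose b hbM hbe using fun i => round_geom hϱ0 hϱ1 he hM (hnn i) (hle i)
  refine ⟨U, hU, b, hbM, ?_⟩
  have hdiff : tld ϱ U b - G = U * diagonal (fun i => (((ϱ ^ b i - μ i : ℝ)) : ℂ)) * Uᴴ := by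
    rw [hspec]
    unfold tld
    rw [← Matrix.sub_mul, ← Matrix.mul_sub, diagonal_sub]
    congr 3
    funext i
    simp
  rw [hdiff, hsq_mul_unitary (by simpa using hU), hsq_unitary_mul hU]
  have h2 : ∀ i, ∑ j, ‖diagonal (fun i => (((ϱ ^ b i - μ i : ℝ)) : ℂ)) i j‖ ^ 2 ≤ e ^ 2 := by
    intro i
    rw [Finset.sum_eq_single i]
    · simp only [diagonal_apply_eq, Complex.norm_real, Real.norm_eq_abs]
      have := hbe i
      exact pow_le_pow_left₀ (abs_nonneg _) this 2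
    · intro j _ hj
      simp [diagonal_apply_ne _ (Ne.symm hj)]
    · simp
  calc hsq (diagonal (fun i => (((ϱ ^ b i - μ i : ℝ)) : ℂ)))
      ≤ ∑ _i : ι, e ^ 2 := Finset.sum_le_sum fun i _ => h2 i
    _ = (Fintype.card ι : ℝ) * e ^ 2 := by simp

/-- choice of the window width -/
theorem exists_width {L e : ℝ} (hL : 0 < L) (hL1 : L ≤ 1) (he : 0 < e) :
    ∃ W : ℕ, 0 < W ∧ 1 - Real.exp (-(L / (2 * W))) ≤ e := by
  refine ⟨⌈1 / e⌉₊ + 1, Nat.succ_pos _, ?_⟩
  set W : ℕ := ⌈1 / e⌉₊ + 1 with hWdef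
  have hW : (0 : ℝ) < W := by
    rw [hWdef]
    positivity
  have h1 : 1 / e ≤ W := by
    rw [hWdef]
    push_cast
    exact (Nat.le_ceil _).trans (by linarith)
  have h2 : -(L / (2 * W)) + 1 ≤ Real.exp (-(L / (2 * W))) := Real.add_one_le_exp _
  have h3 : L / (2 * W) ≤ e := by
    rw [div_le_iff₀ (by positivity)]
    have : 1 ≤ e * W := by
      rw [div_le_iff₀ he] at h1
      linarith
    nlinarith
  linarith

/-- `γ² ≥ 1 - L` -/
theorem gam_sq_ge {L : ℝ} {W : ℕ} (hW : 0 < W) (hL : 0 < L) :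
    1 - L ≤ gam (Real.exp (-(L / (2 * W)))) W ^ 2 := by
  set ϱ := Real.exp (-(L / (2 * W))) with hϱ
  have hW' : (0 : ℝ) < W := by exact_mod_cast hW
  have h0 : 0 < ϱ := Real.exp_pos _
  have h1 : ϱ ≤ 1 := by
    apply Real.exp_le_one_iff.mpr
    have : 0 < L / (2 * W) := by positivity
    linarith
  have h2 := gam_ge_pow h0.le h1 hW
  have h3 : ϱ ^ W = Real.exp (-(L / 2)) := by
    rw [hϱ, ← Real.exp_nat_mul]
    congr 1
    field_simp
  have h4 : Real.exp (-(L / 2)) ^ 2 = Real.exp (-L) := by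
    rw [← Real.exp_nat_mul]
    congr 1
    push_cast
    ring
  have h5 : -L + 1 ≤ Real.exp (-L) := Real.add_one_le_exp _
  have h6 : Real.exp (-L) ≤ gam ϱ W ^ 2 := by
    rw [← h4, ← h3]
    exact pow_le_pow_left₀ (by positivity) h2 2
  linarith

/-- choosing the number of repetitions: all `τ ^ R ≤ L`. -/
theorem exists_reps {X Y : Type} [Fintype X] [Fintype Y] (τ : X → Y → ℝ) (h0 : ∀ x y, 0 ≤ τ x y)
    (h1 : ∀ x y, τ x y < 1) {L : ℝ} (hL : 0 < L) : ∃ R : ℕ, ∀ x y, τ x y ^ R ≤ L := by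
  have h : ∀ p : X × Y, ∃ R : ℕ, τ p.1 p.2 ^ R < L := fun p => exists_pow_lt_of_lt_one hL (h1 _ _)
  choose r hr using h
  refine ⟨∑ p, r p, fun x y => ?_⟩
  have hle : r (x, y) ≤ ∑ p, r p := Finset.single_le_sum (f := r) (fun _ _ => Nat.zero_le _) (Finset.mem_univ _)
  exact (pow_le_pow_of_le_one (h0 x y) (h1 x y).le hle).trans (hr (x, y)).le

theorem hsq_sub_comm {m n : Type} [Fintype m] [Fintype n] (X Y : Matrix m n ℂ) :
    hsq (X - Y) = hsq (Y - X) := by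
  simp only [hsq, Matrix.sub_apply]
  refine Finset.sum_congr rfl fun i _ => Finset.sum_congr rfl fun j _ => ?_
  rw [norm_sub_rev]

theorem sampler_const {L e ε η : ℝ} (hL : 0 < L) (hL1 : L ≤ 1) (he : e = L ^ 2 / 100) (hε0 : 0 ≤ ε)
    (hη1 : η ≤ (1 + 2 / L) * (2 * e + ε) + e) : 100 * (L + η + e) ≤ 300 * (L + ε / L) := by
  have hq0 : 0 ≤ ε / L := by positivity
  have hεq : ε = (ε / L) * L := by field_simp
  set q := ε / L with hqdef
  have h1 : (1 + 2 / L) * (2 * e + ε) = (L ^ 2 + 2 * L) / 50 + q * L + 2 * q := by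
    rw [he, hεq]
    field_simp
    ring
  have h2 : L ^ 2 ≤ L := by nlinarith
  have h3 : q * L ≤ q := by nlinarith
  have h4 : e ≤ L / 100 := by rw [he]; linarith
  rw [h1] at hη1
  linarith

set_option maxHeartbeats 4000000 in
/-- **The sampler for PSD targets.** -/
theorem sampler_core {X Y A B : Type} [Fintype X] [Fintype Y] [Fintype A] [Fintype B]
    [DecidableEq A] [DecidableEq B]
    (G : X → Matrix ι ι ℂ) (G' : Y → Matrix ι ι ℂ) (hG : ∀ x, (G x).PosSemidef)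
    (hG' : ∀ y, (G' y).PosSemidef) (hn : ∀ x, hsq (G x) = 1) (hn' : ∀ y, hsq (G' y) = 1)
    (E : X → A → Matrix ι ι ℂ) (F : Y → B → Matrix ι ι ℂ)
    (hE : ∀ x a, (E x a).PosSemidef) (hF : ∀ y b, (F y b).PosSemidef)
    (hEs : ∀ x, ∑ a, E x a = 1) (hFs : ∀ y, ∑ b, F y b = 1)
    (V : X → Y → A → B → Prop) [∀ x y a b, Decidable (V x y a b)]
    {L : ℝ} (hL : 0 < L) (hL1 : L ≤ 1) (a₀ : A) (b₀ : B) :
    ∃ (Ha Hb : Type) (_ : Fintype Ha) (_ : Fintype Hb) (_ : DecidableEq Ha) (_ : DecidableEq Hb)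
      (S : GS X Y A B Ha Hb), ∀ x y,
        val (E x) (F y) (V x y) (G x) - 300 * (L + Real.sqrt (hsq (G x - G' y)) / L) ≤
          S.win V x y := by
  classical
  by_cases hι : Nonempty ι
  swap
  · haveI : IsEmpty ι := not_nonempty_iff.mp hι
    refine ⟨Unit, Unit, inferInstance, inferInstance, inferInstance, inferInstance,
      GS.base a₀ b₀, fun x y => ?_⟩
    have := hn x
    simp [hsq] at this
  -- parameters
  set d : ℝ := (Fintype.card ι : ℝ) with hd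
  have hd0 : 0 < d := by
    rw [hd]
    exact_mod_cast Fintype.card_pos
  set e : ℝ := L ^ 2 / 100 with he
  have he0 : 0 < e := by positivity
  set e1 : ℝ := e / (d + 1) with he1
  have he10 : 0 < e1 := by positivity
  obtain ⟨W, hW, hwe⟩ := exists_width hL hL1 he10
  have hW' : (0 : ℝ) < W := by exact_mod_cast hW
  set ϱ : ℝ := Real.exp (-(L / (2 * W))) with hϱ
  have hϱ0 : 0 < ϱ := Real.exp_pos _
  have hϱ1 : ϱ < 1 := by
    rw [hϱ, ← Real.exp_zero]
    apply Real.exp_lt_exp.mpr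
    have : 0 < L / (2 * W) := by positivity
    linarith
  obtain ⟨M, hM⟩ := exists_pow_lt_of_lt_one he10 hϱ1
  set Dm : ℕ := M + W with hDm
  choose U hU b hbM hbe using fun x => exists_rounded (hG x) (hn x) hϱ0 hϱ1 hwe hM.le
  choose U' hU' b' hbM' hbe' using fun y => exists_rounded (hG' y) (hn' y) hϱ0 hϱ1 hwe hM.le
  have hb : ∀ x i, b x i + W ≤ Dm := fun x i => by
    have := hbM x i
    omega
  have hb' : ∀ y i, b' y i + W ≤ Dm := fun y i => by
    have := hbM' y i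
    omega
  -- the normalization of the resource
  haveI : NeZero Dm := ⟨by omega⟩
  obtain ⟨c, hc0, hc⟩ : ∃ c : ℝ, 0 < c ∧ ∑ k : ι × Fin Dm, (c * ϱ ^ (k.2 : ℕ)) ^ 2 = 1 := by
    have hZ : 0 < ∑ k : ι × Fin Dm, (ϱ ^ (k.2 : ℕ)) ^ 2 :=
      Finset.sum_pos (fun k _ => by positivity) Finset.univ_nonempty
    refine ⟨Real.sqrt (∑ k : ι × Fin Dm, (ϱ ^ (k.2 : ℕ)) ^ 2)⁻¹, by positivity, ?_⟩
    simp only [mul_pow]
    rw [← Finset.mul_sum, Real.sq_sqrt (by positivity), inv_mul_cancel₀ hZ.ne']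
  -- the trial
  let T := ladderTrial c ϱ hW hc U hU b hb U' hU' b' hb' E F hE hF hEs hFs
  have h1τ : ∀ x y, 1 - T.τ x y = c ^ 2 * (rho ϱ W * (hsq (tld ϱ (U x) (b x)) +
      hsq (tld ϱ (U' y) (b' y))) - hsq (Mbar ϱ W Dm (U x) (U' y) (b x) (b' y))) :=
    fun x y => ladderTrial_one_sub_tau c ϱ hW hc U hU b hb U' hU' b' hb' E F hE hF hEs hFs x y
  have hrho : 0 < rho ϱ W := by
    unfold rho
    refine div_pos (Finset.sum_pos (fun l _ => by positivity) ?_) hW'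
    exact Finset.nonempty_range_iff.mpr hW.ne'
  -- positivity of the denominator
  have hDn : ∀ x y, 0 < rho ϱ W * (hsq (tld ϱ (U x) (b x)) + hsq (tld ϱ (U' y) (b' y))) -
      hsq (Mbar ϱ W Dm (U x) (U' y) (b x) (b' y)) := by
    intro x y
    have h1 : form (Ups c ϱ Dm : (ι × Fin Dm) × (ι × Fin Dm) → ℂ)
        ((KrA W Dm (U x) (b x))ᴴ * KrA W Dm (U x) (b x))
        ((KrB W Dm (U' y) (b' y))ᴴ * KrB W Dm (U' y) (b' y)) ≤
        form (Ups c ϱ Dm : (ι × Fin Dm) × (ι × Fin Dm) → ℂ) 1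
        ((KrB W Dm (U' y) (b' y))ᴴ * KrB W Dm (U' y) (b' y)) := by
      have h2 := form_add_left (Ups c ϱ Dm : (ι × Fin Dm) × (ι × Fin Dm) → ℂ)
        (1 - (KrA W Dm (U x) (b x))ᴴ * KrA W Dm (U x) (b x))
        ((KrA W Dm (U x) (b x))ᴴ * KrA W Dm (U x) (b x))
        ((KrB W Dm (U' y) (b' y))ᴴ * KrB W Dm (U' y) (b' y))
      rw [sub_add_cancel] at h2
      have h3 := form_nonneg (Ups c ϱ Dm : (ι × Fin Dm) × (ι × Fin Dm) → ℂ)
        (one_sub_posSemidef_of_coisometry (KrA_mul (hU x) hW (hb x)))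
        (posSemidef_conjTranspose_mul_self (KrB W Dm (U' y) (b' y)))
      linarith
    rw [form_Ups_both, form_Ups_right (hU' y) c ϱ hW (hb' y)] at h1
    have h4 : hsq (Mbar ϱ W Dm (U x) (U' y) (b x) (b' y)) ≤ rho ϱ W * hsq (tld ϱ (U' y) (b' y)) :=
      le_of_mul_le_mul_left h1 (by positivity)
    have h5 : 0 < hsq (tld ϱ (U x) (b x)) := by
      rw [hsq_tld (hU x)]
      exact Finset.sum_pos (fun i _ => by positivity) Finset.univ_nonempty
    have h6 : 0 < rho ϱ W * hsq (tld ϱ (U x) (b x)) := by positivity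
    nlinarith
  have hτ0 : ∀ x y, 0 ≤ T.τ x y := fun x y => T.τ_nonneg x y
  have hτ1 : ∀ x y, T.τ x y < 1 := by
    intro x y
    have h1 := h1τ x y
    have h2 : 0 < c ^ 2 * (rho ϱ W * (hsq (tld ϱ (U x) (b x)) + hsq (tld ϱ (U' y) (b' y))) -
      hsq (Mbar ϱ W Dm (U x) (U' y) (b x) (b' y))) := mul_pos (by positivity) (hDn x y)
    linarith
  obtain ⟨R, hR⟩ := exists_reps T.τ hτ0 hτ1 hL
  obtain ⟨Ha, Hb, i1, i2, i3, i4, S, hS⟩ := exists_iterate T V a₀ b₀ R
  refine ⟨Ha, Hb, i1, i2, i3, i4, S, fun x y => ?_⟩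
  -- abbreviations for the pair `(x, y)`
  set γ := gam ϱ W with hγ
  set ρ := rho ϱ W with hρdef
  set Mb := Mbar ϱ W Dm (U x) (U' y) (b x) (b' y) with hMb
  set Gt := tld ϱ (U x) (b x) with hGt
  set Gt' := tld ϱ (U' y) (b' y) with hGt'
  set ε := Real.sqrt (hsq (G x - G' y)) with hε
  have hε0 : 0 ≤ ε := Real.sqrt_nonneg _
  have hγ0 : 0 ≤ γ := gam_nonneg hϱ0.le W
  have hγ1 : γ ≤ 1 := gam_le_one hϱ0.le hϱ1.le hW
  have hγ2 : 1 - L ≤ γ ^ 2 := gam_sq_ge hW hL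
  have hρ1 : ρ ≤ 1 := rho_le_one hϱ0.le hϱ1.le hW
  -- rounding errors
  have hde : d * e1 ^ 2 ≤ e ^ 2 := by
    rw [he1, div_pow]
    have h1 : d ≤ (d + 1) ^ 2 := by nlinarith
    have h2 : d * (e ^ 2 / (d + 1) ^ 2) = e ^ 2 * (d / (d + 1) ^ 2) := by ring
    rw [h2]
    have h3 : d / (d + 1) ^ 2 ≤ 1 := by
      rw [div_le_one (by positivity)]
      exact h1
    nlinarith [sq_nonneg e]
  have hr1 : Real.sqrt (hsq (Gt - G x)) ≤ e :=
    Real.sqrt_le_iff.mpr ⟨he0.le, (hbe x).trans hde⟩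
  have hr2 : Real.sqrt (hsq (Gt' - G' y)) ≤ e :=
    Real.sqrt_le_iff.mpr ⟨he0.le, (hbe' y).trans hde⟩
  have hnG : Real.sqrt (hsq (G x)) = 1 := by rw [hn x, Real.sqrt_one]
  have hnG' : Real.sqrt (hsq (G' y)) = 1 := by rw [hn' y, Real.sqrt_one]
  -- distance of the rounded targets
  have hgg : Real.sqrt (hsq (Gt - Gt')) ≤ 2 * e + ε := by
    have e1' : Gt - Gt' = (Gt - G x) + ((G x - G' y) + (G' y - Gt')) := by abel
    rw [e1']
    refine (sqrt_hsq_add_le _ _).trans ?_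
    have h1 := sqrt_hsq_add_le (G x - G' y) (G' y - Gt')
    rw [hsq_sub_comm (G' y) Gt'] at h1
    linarith
  -- main estimate
  have hL2 : 0 < 1 + 2 / L := by positivity
  have hmain : Real.sqrt (hsq (Mb - ((γ : ℝ) : ℂ) • Gt)) ≤ (1 + 2 / L) * Real.sqrt (hsq (Gt - Gt')) := by
    have h1 := hsq_Mbar_sub_le (hU x) (hU' y) hL hW (b := b x) (b' := b' y) (Dm := Dm) (hb x)
    refine Real.sqrt_le_iff.mpr ⟨by positivity, ?_⟩
    rw [mul_pow, Real.sq_sqrt (hsq_nonneg _)]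
    exact h1
  set η := Real.sqrt (hsq (Mb - ((γ : ℝ) : ℂ) • G x)) with hη
  have hη0 : 0 ≤ η := Real.sqrt_nonneg _
  have hnγ : Real.sqrt (hsq (((γ : ℝ) : ℂ) • G x)) = γ := by
    rw [sqrt_hsq_smul, hnG, Complex.norm_real, Real.norm_eq_abs, abs_of_nonneg hγ0, mul_one]
  have hη1 : η ≤ (1 + 2 / L) * (2 * e + ε) + e := by
    have e1' : Mb - ((γ : ℝ) : ℂ) • G x =
        (Mb - ((γ : ℝ) : ℂ) • Gt) + ((γ : ℝ) : ℂ) • (Gt - G x) := by
      rw [smul_sub]
      abel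
    rw [hη, e1']
    refine (sqrt_hsq_add_le _ _).trans ?_
    rw [sqrt_hsq_smul, Complex.norm_real, Real.norm_eq_abs, abs_of_nonneg hγ0]
    have h2 : γ * Real.sqrt (hsq (Gt - G x)) ≤ e := by
      calc γ * Real.sqrt (hsq (Gt - G x)) ≤ 1 * e :=
            mul_le_mul hγ1 hr1 (Real.sqrt_nonneg _) zero_le_one
        _ = e := one_mul e
    have h3 := mul_le_mul_of_nonneg_left hgg hL2.le
    linarith
  -- norm of the output
  have hnM1 : Real.sqrt (hsq Mb) ≤ η + γ := by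
    have e1' : Mb = (Mb - ((γ : ℝ) : ℂ) • G x) + ((γ : ℝ) : ℂ) • G x := by abel
    calc Real.sqrt (hsq Mb) = Real.sqrt (hsq ((Mb - ((γ : ℝ) : ℂ) • G x) + ((γ : ℝ) : ℂ) • G x)) := by
          rw [← e1']
      _ ≤ _ := by
          refine (sqrt_hsq_add_le _ _).trans ?_
          rw [hnγ]
  have hnM2 : γ - η ≤ Real.sqrt (hsq Mb) := by
    have e1' : ((γ : ℝ) : ℂ) • G x = Mb + (((γ : ℝ) : ℂ) • G x - Mb) := by abel
    have h1 : γ ≤ Real.sqrt (hsq Mb) + η := by
      calc γ = Real.sqrt (hsq (((γ : ℝ) : ℂ) • G x)) := hnγ.symm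
        _ = Real.sqrt (hsq (Mb + (((γ : ℝ) : ℂ) • G x - Mb))) := by rw [← e1']
        _ ≤ Real.sqrt (hsq Mb) + Real.sqrt (hsq (((γ : ℝ) : ℂ) • G x - Mb)) := sqrt_hsq_add_le _ _
        _ = Real.sqrt (hsq Mb) + η := by rw [hsq_sub_comm]
    linarith
  -- values
  set ω := val (E x) (F y) (V x y) (G x) with hω
  have hω0 : 0 ≤ ω := val_nonneg (hE x) (hF y) _
  have hω1 : ω ≤ 1 := by
    have := val_le_hsq (V := V x y) (hE x) (hF y) (hEs x) (hFs y) (G x)
    rwa [hn x] at this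
  set Vm := val (E x) (F y) (V x y) Mb with hVm
  have hVm0 : 0 ≤ Vm := val_nonneg (hE x) (hF y) _
  have hVm1 : γ ^ 2 * ω - η * (2 * γ + η) ≤ Vm := by
    have h1 := val_ge (V := V x y) (hE x) (hF y) (hEs x) (hFs y) Mb
      (((γ : ℝ) : ℂ) • G x)
    rw [val_smul, Complex.norm_real, Real.norm_eq_abs, abs_of_nonneg hγ0, hnγ] at h1
    have h2 : η * (Real.sqrt (hsq Mb) + γ) ≤ η * (2 * γ + η) :=
      mul_le_mul_of_nonneg_left (by linarith) hη0
    have h3 : γ ^ 2 * ω - η * (Real.sqrt (hsq Mb) + γ) ≤ Vm := h1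
    linarith
  have hHM : η ≤ γ → (γ - η) ^ 2 ≤ hsq Mb := by
    intro h
    have h1 := pow_le_pow_left₀ (sub_nonneg.mpr h) hnM2 2
    rwa [Real.sq_sqrt (hsq_nonneg _)] at h1
  have hHa : hsq Gt ≤ (1 + e) ^ 2 := by
    have h1 : Real.sqrt (hsq Gt) ≤ 1 + e := by
      have e1' : Gt = G x + (Gt - G x) := by abel
      calc Real.sqrt (hsq Gt) = Real.sqrt (hsq (G x + (Gt - G x))) := by rw [← e1']
        _ ≤ Real.sqrt (hsq (G x)) + Real.sqrt (hsq (Gt - G x)) := sqrt_hsq_add_le _ _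
        _ ≤ 1 + e := by rw [hnG]; linarith
    have h2 := pow_le_pow_left₀ (Real.sqrt_nonneg _) h1 2
    rwa [Real.sq_sqrt (hsq_nonneg _)] at h2
  have hHb : hsq Gt' ≤ (1 + e) ^ 2 := by
    have h1 : Real.sqrt (hsq Gt') ≤ 1 + e := by
      have e1' : Gt' = G' y + (Gt' - G' y) := by abel
      calc Real.sqrt (hsq Gt') = Real.sqrt (hsq (G' y + (Gt' - G' y))) := by rw [← e1']
        _ ≤ Real.sqrt (hsq (G' y)) + Real.sqrt (hsq (Gt' - G' y)) := sqrt_hsq_add_le _ _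
        _ ≤ 1 + e := by rw [hnG']; linarith
    have h2 := pow_le_pow_left₀ (Real.sqrt_nonneg _) h1 2
    rwa [Real.sq_sqrt (hsq_nonneg _)] at h2
  have hreal := SamplerReal.final_real2 hω1 hL.le hL1 hη0 he0.le hγ0 hγ1 hγ2
    (rho_nonneg ϱ W) hρ1 (pow_nonneg (hτ0 x y) R) (hR x y) hVm1 hVm0 hHM hHa hHb (hDn x y)
  -- the win value
  have hs : T.s V x y = c ^ 2 * Vm := by
    have h1 : T.s V x y = val (E x) (F y) (V x y) (((c : ℝ) : ℂ) • Mb) :=
      ladderTrial_s c ϱ hW hc U hU b hb U' hU' b' hb' E F hE hF hEs hFs V x y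
    rw [h1, val_smul, Complex.norm_real, Real.norm_eq_abs, abs_of_pos hc0]
  have hgeom : (∑ t ∈ Finset.range R, T.τ x y ^ t) * T.s V x y =
      (1 - T.τ x y ^ R) * Vm / (ρ * (hsq Gt + hsq Gt') - hsq Mb) := by
    have hne : T.τ x y ≠ 1 := (hτ1 x y).ne
    have hsub : T.τ x y - 1 ≠ 0 := sub_ne_zero.mpr hne
    have hc2 : c ^ 2 ≠ 0 := by positivity
    have hD := (hDn x y).ne'
    have h1 := h1τ x y
    rw [geom_sum_eq hne, hs]
    have h2 : T.τ x y - 1 = -(c ^ 2 * (ρ * (hsq Gt + hsq Gt') - hsq Mb)) := by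
      rw [← h1]
      ring
    rw [h2]
    field_simp
    ring
  have hfin := hS x y
  rw [hgeom] at hfin
  refine le_trans ?_ (hreal.trans hfin)
  -- constants
  have hq := sampler_const hL hL1 rfl hε0 hη1
  have hsum0 : 0 ≤ L + η + e := by positivity
  linarith

set_option maxHeartbeats 1000000 in
/-- **The correlated sampler.** Given unit vectors `A x` (known to Alice) and `B y` (known to Bob)
in `ℂ^ia ⊗ ℂ^ib`, and local POVMs, there is a strategy winning at `(x, y)` at least the value on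
`A x`, up to `600 (L + ‖A x - B y‖ / L)`. -/
theorem sampler_main {X Y A' B' ia ib : Type} [Fintype X] [Fintype Y] [Fintype A'] [Fintype B']
    [DecidableEq A'] [DecidableEq B'] [Fintype ia] [Fintype ib] [DecidableEq ia] [DecidableEq ib]
    (A : X → Matrix ia ib ℂ) (B : Y → Matrix ia ib ℂ) (hA : ∀ x, hsq (A x) = 1)
    (hB : ∀ y, hsq (B y) = 1)
    (E : X → A' → Matrix ia ia ℂ) (F : Y → B' → Matrix ib ib ℂ)
    (hE : ∀ x a, (E x a).PosSemidef) (hF : ∀ y b, (F y b).PosSemidef)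
    (hEs : ∀ x, ∑ a, E x a = 1) (hFs : ∀ y, ∑ b, F y b = 1)
    (V : X → Y → A' → B' → Prop) [∀ x y a b, Decidable (V x y a b)]
    {L : ℝ} (hL : 0 < L) (hL1 : L ≤ 1) (a₀ : A') (b₀ : B') :
    ∃ (Ha Hb : Type) (_ : Fintype Ha) (_ : Fintype Hb) (_ : DecidableEq Ha) (_ : DecidableEq Hb)
      (S : GS X Y A' B' Ha Hb), ∀ x y,
        val (E x) (F y) (V x y) (A x) - 600 * (L + Real.sqrt (hsq (A x - B y)) / L) ≤
          S.win V x y := by
  classical
  set t : ℝ := ((Fintype.card A' : ℝ))⁻¹ with ht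
  have hcard : (0 : ℝ) < Fintype.card A' := by
    have : Nonempty A' := ⟨a₀⟩
    exact_mod_cast Fintype.card_pos
  have ht0 : 0 ≤ t := by positivity
  let E' : X → A' → Matrix ib ib ℂ := fun x a =>
    (polarJ (A x))ᴴ * E x a * polarJ (A x) + ((t : ℝ) : ℂ) • (1 - (polarJ (A x))ᴴ * polarJ (A x))
  have hE' : ∀ x a, (E' x a).PosSemidef := fun x a => completion_posSemidef (A x) (hE x a) ht0
  have hEs' : ∀ x, ∑ a, E' x a = 1 := by
    intro x
    refine completion_sum (A x) (E x) (fun _ => ((t : ℝ) : ℂ)) (hEs x) ?_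
    simp only [Finset.sum_const, Finset.card_univ, nsmul_eq_mul]
    rw [← Complex.ofReal_natCast, ← Complex.ofReal_mul, ht, mul_inv_cancel₀ hcard.ne',
      Complex.ofReal_one]
  obtain ⟨Ha, Hb, i1, i2, i3, i4, S, hS⟩ := sampler_core (fun x => absM (A x)) (fun y => absM (B y))
    (fun x => absM_posSemidef (A x)) (fun y => absM_posSemidef (B y))
    (fun x => (hsq_absM (A x)).trans (hA x)) (fun y => (hsq_absM (B y)).trans (hB y))
    E' F hE' hF hEs' hFs V hL hL1 a₀ b₀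
  refine ⟨Ha, Hb, i1, i2, i3, i4, S, fun x y => ?_⟩
  refine le_trans ?_ (hS x y)
  have hval : val (E' x) (F y) (V x y) (absM (A x)) = val (E x) (F y) (V x y) (A x) := by
    unfold val
    refine Finset.sum_congr rfl fun a _ => Finset.sum_congr rfl fun b _ => ?_
    split_ifs
    · exact form_completion (A x) (E x a) _ (F y b)
    · rfl
  rw [hval]
  have h1 : Real.sqrt (hsq (absM (A x) - absM (B y))) ≤ 2 * Real.sqrt (hsq (A x - B y)) := by
    refine Real.sqrt_le_iff.mpr ⟨by positivity, ?_⟩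
    rw [mul_pow, Real.sq_sqrt (hsq_nonneg _)]
    have := hsq_absM_sub_le (A x) (B y)
    nlinarith [hsq_nonneg (A x - B y)]
  have h2 : Real.sqrt (hsq (absM (A x) - absM (B y))) / L ≤
      2 * (Real.sqrt (hsq (A x - B y)) / L) := by
    rw [← mul_div_assoc]
    exact div_le_div_of_nonneg_right h1 hL.le
  have h3 : 0 ≤ Real.sqrt (hsq (A x - B y)) / L := by positivity
  linarith

section Bound

open Crest.MathPhysics.NonlocalGame

/-- **Sampler bound, game form.** If the one-play value is at most `v`, unit vectors `A x`, `B y`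
and local POVMs satisfy: the average over `(x, y)` of the value on `A x`, minus the sampler
error, is at most `v`. -/
theorem sampler_bound (G : Game) (v : ℝ)
    (hv : ∀ (dA dB : ℕ) (S : Strategy G 1 dA dB), S.probWinsAtLeast 1 ≤ v)
    {ia ib : Type} [Fintype ia] [Fintype ib] [DecidableEq ia] [DecidableEq ib]
    (A : Fin G.nX → Matrix ia ib ℂ) (B : Fin G.nY → Matrix ia ib ℂ) (hA : ∀ x, hsq (A x) = 1)
    (hB : ∀ y, hsq (B y) = 1)
    (E : Fin G.nX → Fin G.nA → Matrix ia ia ℂ) (F : Fin G.nY → Fin G.nB → Matrix ib ib ℂ)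
    (hE : ∀ x a, (E x a).PosSemidef) (hF : ∀ y b, (F y b).PosSemidef)
    (hEs : ∀ x, ∑ a, E x a = 1) (hFs : ∀ y, ∑ b, F y b = 1)
    {L : ℝ} (hL : 0 < L) (hL1 : L ≤ 1) :
    ∑ x, ∑ y, G.prob x y * ((∑ a, ∑ b, if G.accept x y a b = true then
        form (vec (A x)) (E x a) (F y b) else 0) - 600 * (L + Real.sqrt (hsq (A x - B y)) / L)) ≤ v := by
  classical
  -- nonemptiness of the question and answer sets
  have hX : Nonempty (Fin G.nX) := by
    by_contra h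
    have hne : IsEmpty (Fin G.nX) := not_nonempty_iff.mp h
    have := G.prob_sum
    simp at this
  have hY : Nonempty (Fin G.nY) := by
    by_contra h
    have hne : IsEmpty (Fin G.nY) := not_nonempty_iff.mp h
    have := G.prob_sum
    simp at this
  obtain ⟨x₀⟩ := hX
  obtain ⟨y₀⟩ := hY
  have hia : Nonempty ia := by
    by_contra h
    have hne : IsEmpty ia := not_nonempty_iff.mp h
    have := hA x₀
    simp [hsq] at this
  have hib : Nonempty ib := by
    by_contra h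
    have hne : IsEmpty ib := not_nonempty_iff.mp h
    have := hB y₀
    simp [hsq] at this
  obtain ⟨i₀⟩ := hia
  obtain ⟨j₀⟩ := hib
  have ha : Nonempty (Fin G.nA) := by
    by_contra h
    have hne : IsEmpty (Fin G.nA) := not_nonempty_iff.mp h
    have h1 := congrFun (congrFun (hEs x₀) i₀) i₀
    simp at h1
  have hb : Nonempty (Fin G.nB) := by
    by_contra h
    have hne : IsEmpty (Fin G.nB) := not_nonempty_iff.mp h
    have h1 := congrFun (congrFun (hFs y₀) j₀) j₀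
    simp at h1
  obtain ⟨a₀⟩ := ha
  obtain ⟨b₀⟩ := hb
  obtain ⟨Ha, Hb, i1, i2, i3, i4, S, hS⟩ := sampler_main A B hA hB E F hE hF hEs hFs
    (fun x y a b => G.accept x y a b = true) hL hL1 a₀ b₀
  obtain ⟨dA, dB, S', hS'⟩ := GS.exists_strategy (G := G) S
  refine le_trans ?_ (hv dA dB S')
  rw [probWinsAtLeast_one]
  refine Finset.sum_le_sum fun x _ => Finset.sum_le_sum fun y _ => ?_
  refine mul_le_mul_of_nonneg_left ?_ (G.prob_nonneg x y)
  rw [hS']
  exact hS x y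

end Bound

end

end Crest.Agent.ParRep.Sampler

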