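import Crest.Agent.Lib.ParRep.Step536
import Crest.Agent.Lib.ParRep.SamplerMain

/-!
Row 342, S0536: the correlated sampler in the form used by `Step536`.
-/

set_option autoImplicit false

open scoped Kronecker ComplexOrder
open Matrix Crest.MathPhysics.NonlocalGame

namespace Crest.Agent.ParRep

/-- The correlated sampler, with `Cs = 600`. -/
theorem samplerProp_600 : SamplerProp 600 := by
  classical
  intro G RA RB _ _ _ _ A B hA hB E F hE hF hE1 hF1 L hL hL1 η hη
  -- matrices of the vectors
  let A' : Fin G.nX → Matrix RA RB ℂ := fun x => Matrix.of fun i j => A x (i, j)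
  let B' : Fin G.nY → Matrix RA RB ℂ := fun y => Matrix.of fun i j => B y (i, j)
  have hvecA : ∀ x, vec (A' x) = A x := fun x => by
    funext p
    rfl
  have hvecB : ∀ y, vec (B' y) = B y := fun y => by
    funext p
    rfl
  have hl2 : ∀ Z : Matrix RA RB ℂ, l2 (vec Z) = Real.sqrt (hsq Z) := fun Z => by
    unfold l2
    rw [vec_norm]
  have hsq1 : ∀ Z : Matrix RA RB ℂ, l2 (vec Z) = 1 → hsq Z = 1 := fun Z h => by
    have h2 := l2_sq (vec Z)
    rw [h, vec_norm] at h2
    linarith
  have hA' : ∀ x, hsq (A' x) = 1 := fun x => hsq1 _ (by rw [hvecA]; exact hA x)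
  have hB' : ∀ y, hsq (B' y) = 1 := fun y => hsq1 _ (by rw [hvecB]; exact hB y)
  -- nonemptiness of the question and answer sets
  have hX : Nonempty (Fin G.nX) := by
    by_contra h
    have hne : IsEmpty (Fin G.nX) := not_nonempty_iff.mp h
    have := G.prob_sum
    simp at this
  have hY : Nonempty (Fin G.nY) := by
    by_contra h
    have hne : IsEmpty (Fin G.nY) := not_nonempty_iff.mp h
    have := G.prob_sum
    simp at this
  obtain ⟨x₀⟩ := hX
  obtain ⟨y₀⟩ := hY
  have hia : Nonempty RA := by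
    by_contra h
    have hne : IsEmpty RA := not_nonempty_iff.mp h
    have := hA' x₀
    simp [hsq] at this
  have hib : Nonempty RB := by
    by_contra h
    have hne : IsEmpty RB := not_nonempty_iff.mp h
    have := hB' y₀
    simp [hsq] at this
  obtain ⟨i₀⟩ := hia
  obtain ⟨j₀⟩ := hib
  have ha : Nonempty (Fin G.nA) := by
    by_contra h
    have hne : IsEmpty (Fin G.nA) := not_nonempty_iff.mp h
    have h1 := congrFun (congrFun (hE1 x₀) i₀) i₀
    simp at h1
  have hb : Nonempty (Fin G.nB) := by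
    by_contra h
    have hne : IsEmpty (Fin G.nB) := not_nonempty_iff.mp h
    have h1 := congrFun (congrFun (hF1 y₀) j₀) j₀
    simp at h1
  obtain ⟨a₀⟩ := ha
  obtain ⟨b₀⟩ := hb
  obtain ⟨Ha, Hb, i1, i2, i3, i4, S, hS⟩ := Sampler.sampler_main A' B' hA' hB' E F hE hF hE1 hF1
    (fun x y a b => G.accept x y a b = true) hL hL1 a₀ b₀
  obtain ⟨dA, dB, S', hS'⟩ := Sampler.GS.exists_strategy (G := G) S
  refine ⟨dA, dB, S', fun x y => ?_⟩
  rw [hS']
  refine le_trans ?_ (hS x y)
  have h1 : qfm (accOpG G E F x y) (A x) =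
      val (E x) (F y) (fun a b => G.accept x y a b = true) (A' x) := by
    rw [qfm_accOpG]
    unfold val
    rw [hvecA]
    rfl
  have h2 : l2 (A x - B y) = Real.sqrt (hsq (A' x - B' y)) := by
    rw [← hl2]
    congr 1
  rw [h1, h2]
  have h3 : 600 * (L + Real.sqrt (hsq (A' x - B' y)) / L)
      = 600 * L + 600 / L * Real.sqrt (hsq (A' x - B' y)) := by
    field_simp
  rw [h3]
  linarith

end Crest.Agent.ParRep
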