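import Crest.Agent.Lib.ParRep.SamplerSpectral

/-!
# Quadratic forms of `0 ≤ O ≤ 1` (row 342, correlated sampler)

`|⟨w,Ow⟩ - ⟨u,Ou⟩| ≤ ‖u-w‖ (‖u‖+‖w‖)`; triangle inequality for `hsq`; value of a matrix `Z` close to
a unit matrix `G`.
-/

set_option autoImplicit false

open scoped Kronecker ComplexOrder Matrix BigOperators
open Matrix

namespace Crest.Agent.ParRep

section L2

variable {n : Type*} [Fintype n]

/-- The Euclidean norm of a complex vector. -/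
noncomputable def vnorm (u : n → ℂ) : ℝ := Real.sqrt (∑ i, ‖u i‖ ^ 2)

lemma vnorm_nonneg (u : n → ℂ) : 0 ≤ vnorm u := Real.sqrt_nonneg _

lemma vnorm_sq (u : n → ℂ) : vnorm u ^ 2 = ∑ i, ‖u i‖ ^ 2 :=
  Real.sq_sqrt (Finset.sum_nonneg fun _ _ => by positivity)

lemma vnorm_eq_norm (u : n → ℂ) : vnorm u = ‖(WithLp.toLp 2 u : EuclideanSpace ℂ n)‖ := by
  rw [EuclideanSpace.norm_eq]; rfl

lemma vnorm_add_le (u w : n → ℂ) : vnorm (u + w) ≤ vnorm u + vnorm w := by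
  simp only [vnorm_eq_norm, WithLp.toLp_add]
  exact norm_add_le _ _

lemma vnorm_neg (u : n → ℂ) : vnorm (-u) = vnorm u := by
  simp [vnorm]

lemma vnorm_sub_comm (u w : n → ℂ) : vnorm (u - w) = vnorm (w - u) := by
  rw [← vnorm_neg, neg_sub]

lemma vnorm_le_add_sub (u w : n → ℂ) : vnorm w ≤ vnorm u + vnorm (w - u) := by
  have := vnorm_add_le u (w - u)
  simpa using this

variable [DecidableEq n]

open scoped MatrixOrder Matrix.Norms.L2Operator in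
lemma exists_eq_star_mul_self {O : Matrix n n ℂ} (hO : O.PosSemidef) : ∃ S : Matrix n n ℂ, O = Sᴴ * S := by
  obtain ⟨y, hy⟩ := CStarAlgebra.nonneg_iff_eq_star_mul_self.mp hO.nonneg
  exact ⟨y, hy⟩

/-- `⟨u, Sᴴ S u⟩ = ‖S u‖²`. -/
lemma re_form_eq {m : Type*} [Fintype m] (S : Matrix m n ℂ) (u : n → ℂ) :
    (star u ⬝ᵥ ((Sᴴ * S) *ᵥ u)).re = vnorm (S *ᵥ u) ^ 2 := by
  rw [← mulVec_mulVec, dotProduct_mulVec, vnorm_sq]
  have : star u ᵥ* Sᴴ = star (S *ᵥ u) := by rw [star_mulVec]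
  rw [this, dotProduct, Complex.re_sum]
  refine Finset.sum_congr rfl fun i _ => ?_
  rw [Pi.star_apply, Complex.star_def, Complex.conj_mul']
  norm_cast

/-- The form of `0 ≤ O ≤ 1` is at most the square norm. -/
lemma form_le_of_le_one {O : Matrix n n ℂ} (hO1 : (1 - O).PosSemidef) (u : n → ℂ) :
    (star u ⬝ᵥ (O *ᵥ u)).re ≤ vnorm u ^ 2 := by
  have h := (Complex.le_def.1 (hO1.dotProduct_mulVec_nonneg u)).1
  rw [sub_mulVec, one_mulVec, dotProduct_sub, Complex.sub_re, Complex.zero_re] at h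
  have h2 : (star u ⬝ᵥ u).re = vnorm u ^ 2 := by
    rw [vnorm_sq, dotProduct, Complex.re_sum]
    refine Finset.sum_congr rfl fun i _ => ?_
    rw [Pi.star_apply, Complex.star_def, Complex.conj_mul']
    norm_cast
  linarith

/-- `⟨w,Ow⟩ - ⟨u,Ou⟩ ≤ ‖u-w‖ (‖u‖+‖w‖)` for `0 ≤ O ≤ 1`. -/
theorem quad_diff_le {O : Matrix n n ℂ} (hO : O.PosSemidef) (hO1 : (1 - O).PosSemidef)
    (u w : n → ℂ) :
    (star w ⬝ᵥ (O *ᵥ w)).re - (star u ⬝ᵥ (O *ᵥ u)).re ≤ vnorm (w - u) * (vnorm u + vnorm w) := by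
  obtain ⟨S, rfl⟩ := exists_eq_star_mul_self hO
  have hu := form_le_of_le_one hO1 u
  have hw := form_le_of_le_one hO1 w
  have hd := form_le_of_le_one hO1 (w - u)
  rw [re_form_eq] at hu hw hd
  rw [re_form_eq, re_form_eq]
  have a1 : vnorm (S *ᵥ u) ≤ vnorm u := le_of_abs_le (abs_le_of_sq_le_sq hu (vnorm_nonneg u))
  have a2 : vnorm (S *ᵥ w) ≤ vnorm w := le_of_abs_le (abs_le_of_sq_le_sq hw (vnorm_nonneg w))
  have a3 : vnorm (S *ᵥ (w - u)) ≤ vnorm (w - u) := le_of_abs_le (abs_le_of_sq_le_sq hd (vnorm_nonneg _))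
  have t : vnorm (S *ᵥ w) ≤ vnorm (S *ᵥ u) + vnorm (S *ᵥ (w - u)) := by
    have := vnorm_le_add_sub (S *ᵥ u) (S *ᵥ w)
    rwa [← mulVec_sub] at this
  have n1 := vnorm_nonneg (S *ᵥ u)
  have n2 := vnorm_nonneg (S *ᵥ w)
  have n3 := vnorm_nonneg (S *ᵥ (w - u))
  have n4 := vnorm_nonneg (w - u)
  have fac : vnorm (S *ᵥ w) ^ 2 - vnorm (S *ᵥ u) ^ 2
      = (vnorm (S *ᵥ w) - vnorm (S *ᵥ u)) * (vnorm (S *ᵥ w) + vnorm (S *ᵥ u)) := by ring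
  rw [fac]
  by_cases hs : vnorm (S *ᵥ w) ≤ vnorm (S *ᵥ u)
  · have h1 : (vnorm (S *ᵥ w) - vnorm (S *ᵥ u)) * (vnorm (S *ᵥ w) + vnorm (S *ᵥ u)) ≤ 0 :=
      mul_nonpos_of_nonpos_of_nonneg (by linarith) (by linarith)
    exact h1.trans (mul_nonneg n4 (add_nonneg (vnorm_nonneg _) (vnorm_nonneg _)))
  · push Not at hs
    calc (vnorm (S *ᵥ w) - vnorm (S *ᵥ u)) * (vnorm (S *ᵥ w) + vnorm (S *ᵥ u))
        ≤ vnorm (w - u) * (vnorm (S *ᵥ w) + vnorm (S *ᵥ u)) :=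
          mul_le_mul_of_nonneg_right (by linarith) (by linarith)
      _ ≤ vnorm (w - u) * (vnorm u + vnorm w) := mul_le_mul_of_nonneg_left (by linarith) n4

end L2

section Hsq

variable {a b : Type} [Fintype a] [Fintype b] [DecidableEq a] [DecidableEq b]

lemma vnorm_vec (Z : Matrix a b ℂ) : vnorm (vec Z) = Real.sqrt (hsq Z) := by
  rw [vnorm, vec_norm]

lemma vec_sub (Z Z' : Matrix a b ℂ) : vec (Z - Z') = vec Z - vec Z' := rfl

/-- If `‖G‖ = 1` and `‖Z - G‖ ≤ e`, then `1 - 2e ≤ ‖Z‖²`, `‖Z‖ ≤ 1 + e`. -/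
lemma hsq_ge_of_close {G Z : Matrix a b ℂ} {e : ℝ} (he : 0 ≤ e) (hG : hsq G = 1)
    (hZ : hsq (Z - G) ≤ e ^ 2) : 1 - 2 * e ≤ hsq Z ∧ Real.sqrt (hsq Z) ≤ 1 + e := by
  have h1 : vnorm (vec G) = 1 := by rw [vnorm_vec, hG, Real.sqrt_one]
  have h2 : vnorm (vec Z - vec G) ≤ e := by
    rw [← vec_sub, vnorm_vec]
    exact Real.sqrt_le_iff.2 ⟨he, hZ⟩
  have h3 : vnorm (vec G) ≤ vnorm (vec Z) + vnorm (vec G - vec Z) := vnorm_le_add_sub _ _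
  rw [vnorm_sub_comm] at h3
  have h4 : vnorm (vec Z) ≤ vnorm (vec G) + vnorm (vec Z - vec G) := vnorm_le_add_sub _ _
  have h5 : vnorm (vec Z) ^ 2 = hsq Z := by rw [vnorm_sq, vec_norm]
  have h6 : vnorm (vec Z) = Real.sqrt (hsq Z) := vnorm_vec Z
  rw [← h6, ← h5]
  refine ⟨?_, by linarith⟩
  nlinarith [sq_nonneg (vnorm (vec Z) - 1)]

end Hsq

end Crest.Agent.ParRep
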