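import Mathlib
import Crest.Agent.Lib.ParRep.SamplerRepeat

/-!
# Spectral part of the correlated sampler (row 342, finding #1280 (4))

For a rectangular complex matrix `A`: eigen data of `Aᴴ A`, the modulus `absM A`, the partial
isometry `polarE A`, `polarJ A`, and the Araki type bound
`hsq (absM A - absM B) ≤ 2 hsq (A - B)` (no Hermitian dilation: direct Bessel argument).
-/

set_option linter.unusedSectionVars false

open scoped Kronecker ComplexOrder Matrix BigOperators
open Matrix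

namespace Crest.Agent.ParRep

variable {a b c : Type*} [Fintype a] [Fintype b] [Fintype c] [DecidableEq a] [DecidableEq b]
  [DecidableEq c]

/-- Squared Hilbert–Schmidt (Frobenius) norm. -/
noncomputable def hsq (X : Matrix a b ℂ) : ℝ := ∑ i, ∑ j, ‖X i j‖ ^ 2

lemma hsq_nonneg (X : Matrix a b ℂ) : 0 ≤ hsq X :=
  Finset.sum_nonneg fun _ _ => Finset.sum_nonneg fun _ _ => by positivity

lemma trace_conjTranspose_mul_self (X : Matrix a b ℂ) :
    trace (Xᴴ * X) = ((hsq X : ℝ) : ℂ) := by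
  simp only [trace, diag_apply, mul_apply, conjTranspose_apply, hsq]
  rw [Complex.ofReal_sum, Finset.sum_comm]
  refine Finset.sum_congr rfl fun i _ => ?_
  rw [Complex.ofReal_sum]
  refine Finset.sum_congr rfl fun j _ => ?_
  rw [Complex.ofReal_pow, ← Complex.mul_conj', mul_comm]
  simp

lemma hsq_eq_re_trace (X : Matrix a b ℂ) : hsq X = (trace (Xᴴ * X)).re := by
  rw [trace_conjTranspose_mul_self]; simp

lemma hsq_sub (X Y : Matrix a b ℂ) :
    hsq (X - Y) = hsq X + hsq Y - 2 * (trace (Xᴴ * Y)).re := by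
  have h1 : trace (Yᴴ * X) = star (trace (Xᴴ * Y)) := by
    rw [← trace_conjTranspose, conjTranspose_mul, conjTranspose_conjTranspose]
  have h2 : (trace (Yᴴ * X)).re = (trace (Xᴴ * Y)).re := by
    rw [h1]; simp
  rw [hsq_eq_re_trace, hsq_eq_re_trace X, hsq_eq_re_trace Y, conjTranspose_sub, Matrix.sub_mul,
    Matrix.mul_sub, Matrix.mul_sub, trace_sub, trace_sub, trace_sub, Complex.sub_re, Complex.sub_re,
    Complex.sub_re, h2]
  ring

/-- Unitary invariance of `hsq` (left). -/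
lemma hsq_unitary_mul {U : Matrix a a ℂ} (hU : Uᴴ * U = 1) (X : Matrix a b ℂ) :
    hsq (U * X) = hsq X := by
  rw [hsq_eq_re_trace, hsq_eq_re_trace X, conjTranspose_mul, Matrix.mul_assoc, ← Matrix.mul_assoc Uᴴ,
    hU, Matrix.one_mul]

/-- Unitary invariance of `hsq` (right). -/
lemma hsq_mul_unitary {V : Matrix b b ℂ} (hV : V * Vᴴ = 1) (X : Matrix a b ℂ) :
    hsq (X * V) = hsq X := by
  rw [hsq_eq_re_trace, hsq_eq_re_trace X, conjTranspose_mul, trace_mul_comm, Matrix.mul_assoc,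
    ← Matrix.mul_assoc V, hV, Matrix.one_mul, trace_mul_comm]

section spectral

variable (A : Matrix a b ℂ)

/-- The Hermitian matrix `Aᴴ A` is Hermitian. -/
lemma herm (A : Matrix a b ℂ) : (Aᴴ * A).IsHermitian := isHermitian_conjTranspose_mul_self A

/-- Eigenvector unitary of `Aᴴ A`. -/
noncomputable def eigU (A : Matrix a b ℂ) : Matrix b b ℂ := ((herm A).eigenvectorUnitary : Matrix b b ℂ)

/-- Eigenvalues of `Aᴴ A`. -/
noncomputable def eigMu (A : Matrix a b ℂ) : b → ℝ := (herm A).eigenvalues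

lemma eigMu_nonneg (A : Matrix a b ℂ) (i : b) : 0 ≤ eigMu A i :=
  (posSemidef_conjTranspose_mul_self A).eigenvalues_nonneg i

/-- Singular values. -/
noncomputable def lam (A : Matrix a b ℂ) (i : b) : ℝ := Real.sqrt (eigMu A i)

lemma lam_nonneg (A : Matrix a b ℂ) (i : b) : 0 ≤ lam A i := Real.sqrt_nonneg _

lemma lam_sq (A : Matrix a b ℂ) (i : b) : lam A i ^ 2 = eigMu A i :=
  Real.sq_sqrt (eigMu_nonneg A i)

lemma eigU_star_mul (A : Matrix a b ℂ) : (eigU A)ᴴ * eigU A = 1 := by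
  have := Unitary.coe_star_mul_self (herm A).eigenvectorUnitary
  simpa [eigU, star_eq_conjTranspose] using this

lemma eigU_mul_star (A : Matrix a b ℂ) : eigU A * (eigU A)ᴴ = 1 := by
  have := Unitary.coe_mul_star_self (herm A).eigenvectorUnitary
  simpa [eigU, star_eq_conjTranspose] using this

lemma spectral (A : Matrix a b ℂ) :
    Aᴴ * A = eigU A * diagonal (fun i => ((eigMu A i : ℝ) : ℂ)) * (eigU A)ᴴ := by
  have := (herm A).spectral_theorem
  rw [Unitary.conjStarAlgAut_apply] at this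
  simpa [eigU, eigMu, star_eq_conjTranspose, Function.comp_def] using this

/-- `Uᴴ Aᴴ A U = diag μ`. -/
lemma conj_spectral (A : Matrix a b ℂ) :
    (A * eigU A)ᴴ * (A * eigU A) = diagonal (fun i => ((eigMu A i : ℝ) : ℂ)) := by
  rw [conjTranspose_mul, Matrix.mul_assoc, ← Matrix.mul_assoc Aᴴ, spectral, Matrix.mul_assoc,
    Matrix.mul_assoc, eigU_star_mul, Matrix.mul_one, ← Matrix.mul_assoc, eigU_star_mul,
    Matrix.one_mul]

/-- The modulus `|A| = (Aᴴ A)^{1/2}`. -/
noncomputable def absM (A : Matrix a b ℂ) : Matrix b b ℂ :=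
  eigU A * diagonal (fun i => ((lam A i : ℝ) : ℂ)) * (eigU A)ᴴ

/-- The columns `A u_i / λ_i`. -/
noncomputable def polarE (A : Matrix a b ℂ) : Matrix a b ℂ :=
  (A * eigU A) * diagonal (fun i => (((lam A i)⁻¹ : ℝ) : ℂ))

/-- The partial isometry `J` with `A = J |A|`. -/
noncomputable def polarJ (A : Matrix a b ℂ) : Matrix a b ℂ := polarE A * (eigU A)ᴴ

/-- The projection diagonal. -/
noncomputable def supp (A : Matrix a b ℂ) (i : b) : ℝ := if lam A i = 0 then 0 else 1

lemma supp_mem (A : Matrix a b ℂ) (i : b) : supp A i = 0 ∨ supp A i = 1 := by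
  unfold supp; split_ifs <;> simp

lemma lam_inv_lam (A : Matrix a b ℂ) (i : b) : (lam A i)⁻¹ * lam A i = supp A i := by
  unfold supp; split_ifs with h
  · simp [h]
  · exact inv_mul_cancel₀ h

/-- A column of `A U` with `λ_i = 0` vanishes. -/
lemma col_zero (A : Matrix a b ℂ) {i : b} (h : lam A i = 0) (k : a) : (A * eigU A) k i = 0 := by
  have h1 := congrFun (congrFun (conj_spectral A) i) i
  have hmu : eigMu A i = 0 := by rw [← lam_sq, h]; norm_num
  simp only [mul_apply, conjTranspose_apply, diagonal_apply_eq, hmu, Complex.ofReal_zero] at h1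
  have h2 : ∀ l ∈ Finset.univ, (star ((A * eigU A) l i) * (A * eigU A) l i) = ((‖(A * eigU A) l i‖ ^ 2 : ℝ) : ℂ) := by
    intro l _
    rw [Complex.ofReal_pow, ← Complex.conj_mul']; rfl
  simp only [mul_apply] at h2
  rw [Finset.sum_congr rfl h2, ← Complex.ofReal_sum, Complex.ofReal_eq_zero] at h1
  have h3 := (Finset.sum_eq_zero_iff_of_nonneg (fun l _ => by positivity)).1 h1 k (Finset.mem_univ _)
  have h4 : ‖(A * eigU A) k i‖ = 0 := by
    simpa [mul_apply] using h3
  simpa [mul_apply] using norm_eq_zero.1 h4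

/-- `A U diag(supp) = A U`. -/
lemma mul_supp (A : Matrix a b ℂ) :
    (A * eigU A) * diagonal (fun i => ((supp A i : ℝ) : ℂ)) = A * eigU A := by
  ext k i
  rw [mul_diagonal]
  by_cases h : lam A i = 0
  · rw [col_zero A h k]; simp
  · simp [supp, h]

lemma polarE_mul_lam (A : Matrix a b ℂ) :
    polarE A * diagonal (fun i => ((lam A i : ℝ) : ℂ)) = A * eigU A := by
  rw [polarE, Matrix.mul_assoc, diagonal_mul_diagonal]
  conv_rhs => rw [← mul_supp A]
  congr 2
  funext i
  rw [← lam_inv_lam]; push_cast; ring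

lemma polarE_star_mul (A : Matrix a b ℂ) :
    (polarE A)ᴴ * polarE A = diagonal (fun i => ((supp A i : ℝ) : ℂ)) := by
  rw [polarE, conjTranspose_mul, Matrix.mul_assoc, ← Matrix.mul_assoc (A * eigU A)ᴴ, conj_spectral,
    diagonal_conjTranspose, diagonal_mul_diagonal, diagonal_mul_diagonal]
  congr 1
  funext i
  have h1 : eigMu A i = lam A i ^ 2 := (lam_sq A i).symm
  have h2 := lam_inv_lam A i
  have h3 : supp A i = (lam A i)⁻¹ * lam A i := h2.symm
  have h4 : supp A i * supp A i = supp A i := by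
    rcases supp_mem A i with h | h <;> rw [h] <;> norm_num
  simp only [Pi.star_apply]
  rw [h1, ← h4]
  conv_rhs => rw [h3]
  simp only [Complex.star_def, Complex.conj_ofReal]
  push_cast
  ring

lemma polarE_mul_supp (A : Matrix a b ℂ) :
    polarE A * diagonal (fun i => ((supp A i : ℝ) : ℂ)) = polarE A := by
  ext k i
  rw [mul_diagonal]
  by_cases h : lam A i = 0
  · simp [polarE, mul_diagonal, h]
  · simp [supp, h]

/-- `1 - E Eᴴ` is positive semidefinite. -/
lemma one_sub_polarE_mul_star (A : Matrix a b ℂ) :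
    (1 - polarE A * (polarE A)ᴴ).PosSemidef := by
  have hid : (polarE A * (polarE A)ᴴ) * (polarE A * (polarE A)ᴴ) = polarE A * (polarE A)ᴴ := by
    rw [Matrix.mul_assoc, ← Matrix.mul_assoc (polarE A)ᴴ, polarE_star_mul, ← Matrix.mul_assoc,
      polarE_mul_supp]
  have hE : (1 - polarE A * (polarE A)ᴴ)ᴴ * (1 - polarE A * (polarE A)ᴴ)
      = 1 - polarE A * (polarE A)ᴴ := by
    rw [conjTranspose_sub, conjTranspose_one, conjTranspose_mul, conjTranspose_conjTranspose,
      Matrix.sub_mul, Matrix.mul_sub, Matrix.mul_sub, Matrix.one_mul, Matrix.mul_one,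
      Matrix.one_mul, hid]
    abel
  rw [← hE]
  exact posSemidef_conjTranspose_mul_self _

/-- Basic facts on `absM`. -/
lemma absM_conjTranspose (A : Matrix a b ℂ) : (absM A)ᴴ = absM A := by
  rw [absM, conjTranspose_mul, conjTranspose_mul, conjTranspose_conjTranspose, Matrix.mul_assoc,
    diagonal_conjTranspose]
  congr 3
  funext i
  simp

lemma absM_posSemidef (A : Matrix a b ℂ) : (absM A).PosSemidef := by
  have h : absM A = (diagonal (fun i => (((Real.sqrt (lam A i) : ℝ)) : ℂ)) * (eigU A)ᴴ)ᴴ *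
      (diagonal (fun i => (((Real.sqrt (lam A i) : ℝ)) : ℂ)) * (eigU A)ᴴ) := by
    rw [conjTranspose_mul, conjTranspose_conjTranspose, diagonal_conjTranspose, Matrix.mul_assoc,
      ← Matrix.mul_assoc _ (diagonal _) (eigU A)ᴴ, diagonal_mul_diagonal, absM, Matrix.mul_assoc]
    congr 3
    funext i
    simp only [Pi.star_apply, Complex.star_def, Complex.conj_ofReal]
    rw [← Complex.ofReal_mul, Real.mul_self_sqrt (lam_nonneg A i)]
  rw [h]
  exact posSemidef_conjTranspose_mul_self _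

lemma absM_sq (A : Matrix a b ℂ) : absM A * absM A = Aᴴ * A := by
  rw [absM, spectral, Matrix.mul_assoc, Matrix.mul_assoc, ← Matrix.mul_assoc (eigU A)ᴴ,
    ← Matrix.mul_assoc (eigU A)ᴴ, eigU_star_mul, Matrix.one_mul, ← Matrix.mul_assoc (diagonal _),
    diagonal_mul_diagonal, Matrix.mul_assoc]
  congr 3
  funext i
  rw [← lam_sq]; push_cast; ring

lemma hsq_absM (A : Matrix a b ℂ) : hsq (absM A) = hsq A := by
  rw [hsq_eq_re_trace, hsq_eq_re_trace A, absM_conjTranspose, absM_sq]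

/-- `J |A| = A`. -/
lemma polarJ_mul_absM (A : Matrix a b ℂ) : polarJ A * absM A = A := by
  rw [polarJ, absM, Matrix.mul_assoc, ← Matrix.mul_assoc (eigU A)ᴴ, ← Matrix.mul_assoc (eigU A)ᴴ,
    eigU_star_mul, Matrix.one_mul, ← Matrix.mul_assoc, polarE_mul_lam, Matrix.mul_assoc,
    eigU_mul_star, Matrix.mul_one]

/-- `Jᴴ J = U diag(supp) Uᴴ`. -/
lemma polarJ_star_mul (A : Matrix a b ℂ) :
    (polarJ A)ᴴ * polarJ A = eigU A * diagonal (fun i => ((supp A i : ℝ) : ℂ)) * (eigU A)ᴴ := by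
  rw [polarJ, conjTranspose_mul, conjTranspose_conjTranspose, Matrix.mul_assoc,
    ← Matrix.mul_assoc (polarE A)ᴴ, polarE_star_mul, Matrix.mul_assoc]

/-- `1 - Jᴴ J` is positive semidefinite. -/
lemma one_sub_polarJ_star_mul (A : Matrix a b ℂ) : (1 - (polarJ A)ᴴ * polarJ A).PosSemidef := by
  have hd : (diagonal (fun i => (((1 - supp A i : ℝ)) : ℂ)))ᴴ *
      diagonal (fun i => (((1 - supp A i : ℝ)) : ℂ))
      = 1 - diagonal (fun i => ((supp A i : ℝ) : ℂ)) := by
    ext i j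
    by_cases hij : i = j
    · subst hij
      simp only [mul_diagonal, conjTranspose_apply, diagonal_apply_eq, Matrix.sub_apply, one_apply_eq]
      rcases supp_mem A i with h | h <;> simp [h]
    · simp [mul_apply, diagonal_apply, one_apply_ne hij, hij]
  have h : 1 - (polarJ A)ᴴ * polarJ A =
      (diagonal (fun i => (((1 - supp A i : ℝ)) : ℂ)) * (eigU A)ᴴ)ᴴ *
      (diagonal (fun i => (((1 - supp A i : ℝ)) : ℂ)) * (eigU A)ᴴ) := by
    calc 1 - (polarJ A)ᴴ * polarJ A
        = eigU A * 1 * (eigU A)ᴴ - eigU A * diagonal (fun i => ((supp A i : ℝ) : ℂ)) * (eigU A)ᴴ := by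
          rw [polarJ_star_mul, Matrix.mul_one, eigU_mul_star]
      _ = eigU A * (1 - diagonal (fun i => ((supp A i : ℝ) : ℂ))) * (eigU A)ᴴ := by
          rw [Matrix.mul_sub, Matrix.sub_mul]
      _ = eigU A * ((diagonal (fun i => (((1 - supp A i : ℝ)) : ℂ)))ᴴ *
            diagonal (fun i => (((1 - supp A i : ℝ)) : ℂ))) * (eigU A)ᴴ := by rw [hd]
      _ = _ := by
          rw [conjTranspose_mul, conjTranspose_conjTranspose]
          simp only [Matrix.mul_assoc]
  rw [h]
  exact posSemidef_conjTranspose_mul_self _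

/-- `(1 - Jᴴ J) |A| = 0`. -/
lemma one_sub_polarJ_mul_absM (A : Matrix a b ℂ) : (1 - (polarJ A)ᴴ * polarJ A) * absM A = 0 := by
  have hd : diagonal (fun i => ((supp A i : ℝ) : ℂ)) * diagonal (fun i => ((lam A i : ℝ) : ℂ))
      = diagonal (fun i => ((lam A i : ℝ) : ℂ)) := by
    rw [diagonal_mul_diagonal]
    congr 1
    funext i
    rw [← Complex.ofReal_mul]
    congr 1
    by_cases h : lam A i = 0
    · simp [h]
    · simp [supp, h]
  have h2 : (polarJ A)ᴴ * polarJ A * absM A = absM A := by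
    rw [polarJ_star_mul, absM]
    calc eigU A * diagonal (fun i => ((supp A i : ℝ) : ℂ)) * (eigU A)ᴴ *
          (eigU A * diagonal (fun i => ((lam A i : ℝ) : ℂ)) * (eigU A)ᴴ)
        = eigU A * diagonal (fun i => ((supp A i : ℝ) : ℂ)) * ((eigU A)ᴴ * eigU A) *
            diagonal (fun i => ((lam A i : ℝ) : ℂ)) * (eigU A)ᴴ := by
          simp only [Matrix.mul_assoc]
      _ = eigU A * (diagonal (fun i => ((supp A i : ℝ) : ℂ)) * diagonal (fun i => ((lam A i : ℝ) : ℂ))) *
            (eigU A)ᴴ := by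
          rw [eigU_star_mul]; simp only [Matrix.mul_assoc, Matrix.mul_one]
      _ = _ := by rw [hd]
  rw [Matrix.sub_mul, Matrix.one_mul, h2, sub_self]

/-- `Gᴴ (Jᴴ X J + c (1 - Jᴴ J)) G = Aᴴ X A`. -/
lemma absM_conj_completion (A : Matrix a b ℂ) (X : Matrix a a ℂ) (t : ℂ) :
    (absM A)ᴴ * ((polarJ A)ᴴ * X * polarJ A + t • (1 - (polarJ A)ᴴ * polarJ A)) * absM A
      = Aᴴ * X * A := by
  have h1 : (absM A)ᴴ * ((polarJ A)ᴴ * X * polarJ A) * absM A = Aᴴ * X * A := by
    have h : (polarJ A * absM A)ᴴ * X * (polarJ A * absM A) = Aᴴ * X * A := by rw [polarJ_mul_absM]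
    rw [← h, conjTranspose_mul]
    simp only [Matrix.mul_assoc]
  have h2 : (absM A)ᴴ * (t • (1 - (polarJ A)ᴴ * polarJ A)) * absM A = 0 := by
    rw [Matrix.mul_smul, Matrix.smul_mul, Matrix.mul_assoc, one_sub_polarJ_mul_absM, Matrix.mul_zero,
      smul_zero]
  rw [Matrix.mul_add, Matrix.add_mul, h1, h2, add_zero]

/-- The completed POVM element is positive semidefinite. -/
lemma completion_posSemidef (A : Matrix a b ℂ) {X : Matrix a a ℂ} (hX : X.PosSemidef) {t : ℝ}
    (ht : 0 ≤ t) :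
    ((polarJ A)ᴴ * X * polarJ A + ((t : ℝ) : ℂ) • (1 - (polarJ A)ᴴ * polarJ A)).PosSemidef := by
  refine Matrix.PosSemidef.add (hX.conjTranspose_mul_mul_same _) ?_
  have := (one_sub_polarJ_star_mul A).smul ht
  convert this using 1
  ext i j
  simp

/-- `Aᴴ A` diagonal sum: `hsq A = ∑ λᵢ²`. -/
lemma hsq_eq_sum_lam (A : Matrix a b ℂ) : hsq A = ∑ i, lam A i ^ 2 := by
  rw [hsq_eq_re_trace, spectral, trace_mul_comm, ← Matrix.mul_assoc, eigU_star_mul, Matrix.one_mul,
    trace_diagonal, ← Complex.ofReal_sum, Complex.ofReal_re]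
  exact Finset.sum_congr rfl fun i _ => (lam_sq A i).symm

lemma supp_le_one (A : Matrix a b ℂ) (i : b) : supp A i ≤ 1 := by
  rcases supp_mem A i with h | h <;> rw [h] <;> norm_num

/-- `A = E diag(λ) Uᴴ`. -/
lemma eq_polar (A : Matrix a b ℂ) :
    A = polarE A * diagonal (fun i => ((lam A i : ℝ) : ℂ)) * (eigU A)ᴴ := by
  rw [polarE_mul_lam, Matrix.mul_assoc, eigU_mul_star, Matrix.mul_one]

/-- The trace of a product with two diagonals. -/
lemma trace_diag_mul_diag (d : b → ℂ) (e : c → ℂ) (K : Matrix b c ℂ) (W : Matrix c b ℂ) :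
    trace (diagonal d * K * diagonal e * W) = ∑ i, ∑ j, d i * K i j * e j * W j i := by
  simp only [trace, diag_apply]
  refine Finset.sum_congr rfl fun i _ => ?_
  rw [mul_apply]
  refine Finset.sum_congr rfl fun j _ => ?_
  rw [mul_diagonal, diagonal_mul]

/-- Row bound: `∑_j |K_ij|² ≤ 1` for `K = Eᴴ E'`. -/
lemma row_bound (A : Matrix a b ℂ) (B : Matrix a c ℂ) (i : b) :
    ∑ j, ‖((polarE A)ᴴ * polarE B) i j‖ ^ 2 ≤ 1 := by
  set K := (polarE A)ᴴ * polarE B with hK
  have h0 := ((one_sub_polarE_mul_star B).conjTranspose_mul_mul_same (polarE A))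
  have h1 : (polarE A)ᴴ * (1 - polarE B * (polarE B)ᴴ) * polarE A
      = diagonal (fun i => ((supp A i : ℝ) : ℂ)) - K * Kᴴ := by
    rw [Matrix.mul_sub, Matrix.sub_mul, Matrix.mul_one, polarE_star_mul, hK, conjTranspose_mul,
      conjTranspose_conjTranspose]
    simp only [Matrix.mul_assoc]
  rw [h1] at h0
  have h2 := h0.diag_nonneg (i := i)
  rw [Matrix.sub_apply, diagonal_apply_eq, mul_apply] at h2
  have h3 : ∑ j, K i j * Kᴴ j i = ((∑ j, ‖K i j‖ ^ 2 : ℝ) : ℂ) := by
    rw [Complex.ofReal_sum]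
    refine Finset.sum_congr rfl fun j _ => ?_
    rw [conjTranspose_apply, Complex.ofReal_pow, ← Complex.mul_conj']
    rfl
  rw [h3, ← Complex.ofReal_sub, Complex.zero_le_real] at h2
  linarith [supp_le_one A i]

lemma norm_conjTranspose_entry {X : Matrix b c ℂ} (i : c) (j : b) : ‖Xᴴ i j‖ = ‖X j i‖ := by
  rw [conjTranspose_apply, norm_star]

/-- Column bound: `∑_i |K_ij|² ≤ 1` for `K = Eᴴ E'`. -/
lemma col_bound (A : Matrix a b ℂ) (B : Matrix a c ℂ) (j : c) :
    ∑ i, ‖((polarE A)ᴴ * polarE B) i j‖ ^ 2 ≤ 1 := by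
  have h := row_bound B A j
  have h2 : ((polarE B)ᴴ * polarE A) = ((polarE A)ᴴ * polarE B)ᴴ := by
    rw [conjTranspose_mul, conjTranspose_conjTranspose]
  rw [h2] at h
  simpa [norm_conjTranspose_entry] using h

lemma diag_real_conjTranspose (d : b → ℝ) :
    (diagonal (fun i => ((d i : ℝ) : ℂ)))ᴴ = diagonal (fun i => ((d i : ℝ) : ℂ)) := by
  ext i j
  by_cases hij : i = j
  · subst hij; simp
  · have hji : ¬ j = i := fun h => hij h.symm
    simp [hij, hji, conjTranspose_apply, diagonal_apply_ne]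

/-- Trace formula for `Aᴴ B`. -/
lemma trace_star_mul_eq (A B : Matrix a b ℂ) :
    trace (Aᴴ * B) = ∑ i, ∑ j, ((lam A i : ℝ) : ℂ) * ((polarE A)ᴴ * polarE B) i j *
      ((lam B j : ℝ) : ℂ) * star (((eigU A)ᴴ * eigU B) i j) := by
  have hW : ∀ i j, star (((eigU A)ᴴ * eigU B) i j) = ((eigU B)ᴴ * eigU A) j i := by
    intro i j
    have : ((eigU B)ᴴ * eigU A) = ((eigU A)ᴴ * eigU B)ᴴ := by
      rw [conjTranspose_mul, conjTranspose_conjTranspose]
    rw [this, conjTranspose_apply]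
  simp only [hW]
  rw [← trace_diag_mul_diag]
  have hA : Aᴴ = eigU A * diagonal (fun i => ((lam A i : ℝ) : ℂ)) * (polarE A)ᴴ := by
    conv_lhs => rw [eq_polar A]
    rw [conjTranspose_mul, conjTranspose_mul, conjTranspose_conjTranspose, diag_real_conjTranspose]
    simp only [Matrix.mul_assoc]
  calc trace (Aᴴ * B)
      = trace (eigU A * (diagonal (fun i => ((lam A i : ℝ) : ℂ)) * (polarE A)ᴴ *
          (polarE B * diagonal (fun i => ((lam B i : ℝ) : ℂ)) * (eigU B)ᴴ))) := by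
        conv_lhs => rw [hA, eq_polar B]
        simp only [Matrix.mul_assoc]
    _ = _ := by
        rw [trace_mul_comm]
        simp only [Matrix.mul_assoc]

/-- Trace formula for `|A| |B|`. -/
lemma trace_absM_mul_eq (A B : Matrix a b ℂ) :
    trace (absM A * absM B) = ∑ i, ∑ j, ((lam A i : ℝ) : ℂ) * ((eigU A)ᴴ * eigU B) i j *
      ((lam B j : ℝ) : ℂ) * star (((eigU A)ᴴ * eigU B) i j) := by
  have hW : ∀ i j, star (((eigU A)ᴴ * eigU B) i j) = ((eigU B)ᴴ * eigU A) j i := by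
    intro i j
    have : ((eigU B)ᴴ * eigU A) = ((eigU A)ᴴ * eigU B)ᴴ := by
      rw [conjTranspose_mul, conjTranspose_conjTranspose]
    rw [this, conjTranspose_apply]
  simp only [hW]
  rw [← trace_diag_mul_diag]
  calc trace (absM A * absM B)
      = trace (eigU A * (diagonal (fun i => ((lam A i : ℝ) : ℂ)) * (eigU A)ᴴ *
          (eigU B * diagonal (fun i => ((lam B i : ℝ) : ℂ)) * (eigU B)ᴴ))) := by
        simp only [absM, Matrix.mul_assoc]
    _ = _ := by
        rw [trace_mul_comm]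
        simp only [Matrix.mul_assoc]

/-- `‖λ λ' (K conj W)‖`-type pointwise inequality. -/
lemma re_mul_conj_le (K W : ℂ) : 2 * (K * star W).re ≤ ‖K‖ ^ 2 + ‖W‖ ^ 2 := by
  have h := Complex.re_le_norm (K * star W)
  rw [norm_mul, norm_star] at h
  nlinarith [sq_nonneg (‖K‖ - ‖W‖)]

/-- ARAKI type bound, without dilation. -/
theorem hsq_absM_sub_le (A B : Matrix a b ℂ) : hsq (absM A - absM B) ≤ 2 * hsq (A - B) := by
  set K := (polarE A)ᴴ * polarE B with hK
  set W := (eigU A)ᴴ * eigU B with hW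
  have hAB : (trace (Aᴴ * B)).re = ∑ i, ∑ j, lam A i * lam B j * (K i j * star (W i j)).re := by
    rw [trace_star_mul_eq, Complex.re_sum]
    refine Finset.sum_congr rfl fun i _ => ?_
    rw [Complex.re_sum]
    refine Finset.sum_congr rfl fun j _ => ?_
    have : ((lam A i : ℝ) : ℂ) * K i j * ((lam B j : ℝ) : ℂ) * star (W i j)
        = ((lam A i * lam B j : ℝ) : ℂ) * (K i j * star (W i j)) := by push_cast; ring
    rw [this, Complex.re_ofReal_mul]
  have hGG : (trace (absM A * absM B)).re = ∑ i, ∑ j, lam A i * lam B j * ‖W i j‖ ^ 2 := by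
    rw [trace_absM_mul_eq, Complex.re_sum]
    refine Finset.sum_congr rfl fun i _ => ?_
    rw [Complex.re_sum]
    refine Finset.sum_congr rfl fun j _ => ?_
    have : ((lam A i : ℝ) : ℂ) * W i j * ((lam B j : ℝ) : ℂ) * star (W i j)
        = ((lam A i * lam B j : ℝ) : ℂ) * (W i j * star (W i j)) := by push_cast; ring
    rw [this, Complex.re_ofReal_mul]
    congr 1
    have h : W i j * star (W i j) = ((‖W i j‖ ^ 2 : ℝ) : ℂ) := by
      rw [Complex.ofReal_pow, ← Complex.mul_conj']; rfl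
    rw [h, Complex.ofReal_re]
  have hK2 : 2 * ∑ i, ∑ j, lam A i * lam B j * ‖K i j‖ ^ 2 ≤ hsq A + hsq B := by
    have h1 : ∀ i j, 2 * (lam A i * lam B j * ‖K i j‖ ^ 2)
        ≤ lam A i ^ 2 * ‖K i j‖ ^ 2 + lam B j ^ 2 * ‖K i j‖ ^ 2 := by
      intro i j
      nlinarith [mul_nonneg (sq_nonneg (lam A i - lam B j)) (sq_nonneg ‖K i j‖)]
    have h2 : ∑ i, ∑ j, lam A i ^ 2 * ‖K i j‖ ^ 2 ≤ hsq A := by
      rw [hsq_eq_sum_lam]
      refine Finset.sum_le_sum fun i _ => ?_
      rw [← Finset.mul_sum]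
      exact mul_le_of_le_one_right (sq_nonneg _) (row_bound A B i)
    have h3 : ∑ i, ∑ j, lam B j ^ 2 * ‖K i j‖ ^ 2 ≤ hsq B := by
      rw [Finset.sum_comm, hsq_eq_sum_lam]
      refine Finset.sum_le_sum fun j _ => ?_
      rw [← Finset.mul_sum]
      exact mul_le_of_le_one_right (sq_nonneg _) (col_bound A B j)
    have h4 : 2 * ∑ i, ∑ j, lam A i * lam B j * ‖K i j‖ ^ 2
        = ∑ i, ∑ j, 2 * (lam A i * lam B j * ‖K i j‖ ^ 2) := by
      simp only [Finset.mul_sum]
    have h5 : ∑ i, ∑ j, 2 * (lam A i * lam B j * ‖K i j‖ ^ 2) ≤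
        ∑ i, ∑ j, (lam A i ^ 2 * ‖K i j‖ ^ 2 + lam B j ^ 2 * ‖K i j‖ ^ 2) :=
      Finset.sum_le_sum fun i _ => Finset.sum_le_sum fun j _ => h1 i j
    simp only [Finset.sum_add_distrib] at h5
    rw [h4]
    linarith
  have hmain : 4 * (trace (Aᴴ * B)).re ≤ hsq A + hsq B + 2 * (trace (absM A * absM B)).re := by
    rw [hAB, hGG]
    have h1 : ∀ i j, 2 * (lam A i * lam B j * (K i j * star (W i j)).re)
        ≤ lam A i * lam B j * ‖K i j‖ ^ 2 + lam A i * lam B j * ‖W i j‖ ^ 2 := by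
      intro i j
      have h0 : 0 ≤ lam A i * lam B j := mul_nonneg (lam_nonneg _ _) (lam_nonneg _ _)
      nlinarith [mul_le_mul_of_nonneg_left (re_mul_conj_le (K i j) (W i j)) h0]
    have h5 : ∑ i, ∑ j, 2 * (lam A i * lam B j * (K i j * star (W i j)).re) ≤
        ∑ i, ∑ j, (lam A i * lam B j * ‖K i j‖ ^ 2 + lam A i * lam B j * ‖W i j‖ ^ 2) :=
      Finset.sum_le_sum fun i _ => Finset.sum_le_sum fun j _ => h1 i j
    simp only [Finset.sum_add_distrib, ← Finset.mul_sum] at h5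
    linarith
  have hG : (absM A)ᴴ = absM A := absM_conjTranspose A
  rw [hsq_sub, hsq_sub, hsq_absM, hsq_absM, hG]
  linarith

/-- Singular values of a matrix with `hsq A ≤ 1` are at most `1`. -/
lemma lam_le_one {A : Matrix a b ℂ} (hA : hsq A ≤ 1) (i : b) : lam A i ≤ 1 := by
  have h1 : lam A i ^ 2 ≤ ∑ j, lam A j ^ 2 :=
    Finset.single_le_sum (f := fun j => lam A j ^ 2) (fun _ _ => sq_nonneg _) (Finset.mem_univ i)
  rw [← hsq_eq_sum_lam] at h1
  nlinarith [lam_nonneg A i]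

/-- Completion of a POVM: the sum is the identity. -/
lemma completion_sum {ι : Type*} [Fintype ι] (A : Matrix a b ℂ) (X : ι → Matrix a a ℂ)
    (t : ι → ℂ) (hX : ∑ k, X k = 1) (ht : ∑ k, t k = 1) :
    ∑ k, ((polarJ A)ᴴ * X k * polarJ A + t k • (1 - (polarJ A)ᴴ * polarJ A)) = 1 := by
  rw [Finset.sum_add_distrib, ← Finset.sum_smul, ht, one_smul]
  have h : ∑ k, (polarJ A)ᴴ * X k * polarJ A = (polarJ A)ᴴ * polarJ A := by
    rw [← Matrix.sum_mul, ← Matrix.mul_sum, hX, Matrix.mul_one]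
  rw [h]
  abel

end spectral

/-- Rounding to a geometric grid: for `r ∈ (0,1)`, `e ≥ 1 - r`, `r ^ M ≤ e`: each `t ∈ [0,1]` is within
`e` of some `r ^ n`, `n ≤ M`. -/
theorem round_geom {r e : ℝ} (hr0 : 0 < r) (hr1 : r < 1) (he : 1 - r ≤ e) {M : ℕ} (hM : r ^ M ≤ e)
    {t : ℝ} (ht0 : 0 ≤ t) (ht1 : t ≤ 1) : ∃ n, n ≤ M ∧ |r ^ n - t| ≤ e := by
  classical
  by_cases h : ∃ n, n ≤ M ∧ r ^ n ≤ t
  · let n := Nat.find h
    obtain ⟨hn, hnt⟩ := Nat.find_spec h
    refine ⟨n, hn, ?_⟩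
    rcases Nat.eq_zero_or_pos n with h0 | h0
    · have : (n : ℕ) = 0 := h0
      have hn1 : r ^ n = 1 := by rw [this, pow_zero]
      rw [hn1] at hnt ⊢
      have : t = 1 := le_antisymm ht1 hnt
      rw [this, sub_self, abs_zero]
      have : 0 ≤ 1 - r := by linarith
      linarith
    · have hnm : n - 1 < n := Nat.sub_lt h0 one_pos
      have h1 : ¬ (n - 1 ≤ M ∧ r ^ (n - 1) ≤ t) := Nat.find_min h hnm
      have h2 : t < r ^ (n - 1) := by
        by_contra hc
        exact h1 ⟨by omega, not_lt.1 hc⟩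
      have h3 : r ^ n = r ^ (n - 1) * r := by
        rw [← pow_succ]; congr 1; omega
      have h4 : r ^ (n - 1) ≤ 1 := pow_le_one₀ hr0.le hr1.le
      have h5 : 0 ≤ r ^ (n - 1) := by positivity
      rw [abs_of_nonpos (by linarith : r ^ n - t ≤ 0)]
      rw [h3] at hnt ⊢
      nlinarith
  · push Not at h
    refine ⟨M, le_rfl, ?_⟩
    have := h M le_rfl
    rw [abs_of_pos (by linarith)]
    linarith

section FormLanguage

open Sampler

variable {a' b' : Type} [Fintype a'] [Fintype b'] [DecidableEq a'] [DecidableEq b']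

/-- Vectorisation of a matrix. -/
def vec {a' b' : Type} (Z : Matrix a' b' ℂ) : a' × b' → ℂ := fun p => Z p.1 p.2

lemma vec_norm (Z : Matrix a' b' ℂ) : ∑ i, ‖vec Z i‖ ^ 2 = hsq Z := by
  simp [Fintype.sum_prod_type, hsq, vec]

/-- `⟨vec Z, (M ⊗ N) vec Z⟩` only depends on `Zᴴ M Z`. -/
lemma cform_vec (Z : Matrix a' b' ℂ) (M : Matrix a' a' ℂ) (N : Matrix b' b' ℂ) :
    cform (vec Z) M N = ∑ j, ∑ l, (Zᴴ * M * Z) j l * N j l := by
  rw [cform_expand, Finset.sum_comm]
  refine Finset.sum_congr rfl fun j _ => ?_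
  simp only [vec]
  calc ∑ i, ∑ k, ∑ l, star (Z i j) * (M i k * N j l * Z k l)
      = ∑ k, ∑ i, ∑ l, star (Z i j) * (M i k * N j l * Z k l) := Finset.sum_comm
    _ = ∑ k, ∑ l, ∑ i, star (Z i j) * (M i k * N j l * Z k l) :=
        Finset.sum_congr rfl fun k _ => Finset.sum_comm
    _ = ∑ l, ∑ k, ∑ i, star (Z i j) * (M i k * N j l * Z k l) := Finset.sum_comm
    _ = ∑ l, (Zᴴ * M * Z) j l * N j l := by
        refine Finset.sum_congr rfl fun l _ => ?_
        rw [mul_apply, Finset.sum_mul]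
        refine Finset.sum_congr rfl fun k _ => ?_
        rw [mul_apply, Finset.sum_mul, Finset.sum_mul]
        refine Finset.sum_congr rfl fun i _ => ?_
        rw [conjTranspose_apply]
        ring

/-- The pull-back of a POVM element along the polar decomposition does not change the values. -/
theorem cform_completion (A : Matrix a' b' ℂ) (X : Matrix a' a' ℂ) (t : ℂ) (N : Matrix b' b' ℂ) :
    cform (vec (absM A)) ((polarJ A)ᴴ * X * polarJ A + t • (1 - (polarJ A)ᴴ * polarJ A)) N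
      = cform (vec A) X N := by
  rw [cform_vec, cform_vec, absM_conj_completion]

theorem form_completion (A : Matrix a' b' ℂ) (X : Matrix a' a' ℂ) (t : ℂ) (N : Matrix b' b' ℂ) :
    form (vec (absM A)) ((polarJ A)ᴴ * X * polarJ A + t • (1 - (polarJ A)ᴴ * polarJ A)) N
      = form (vec A) X N := by
  rw [form, cform_completion, form]

end FormLanguage

end Crest.Agent.ParRep
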