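import Crest.Agent.Lib.ParRep.SamplerLadder

/-!
# The ladder trial as a `Trial` (row 342, correlated sampler)
-/

set_option autoImplicit false

open scoped Kronecker ComplexOrder
open Matrix

namespace Crest.Agent.ParRep.Sampler

noncomputable section

section Kraus

variable {Ta Tb Da Db : Type} [Fintype Ta] [Fintype Tb] [Fintype Da] [Fintype Db]
  [DecidableEq Ta] [DecidableEq Tb] [DecidableEq Da] [DecidableEq Db]

/-- pulling Kraus maps through the form -/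
theorem cform_kraus (ψ : Ta × Tb → ℂ) (X : Matrix Da Ta ℂ) (Y : Matrix Db Tb ℂ)
    (E : Matrix Da Da ℂ) (F : Matrix Db Db ℂ) :
    cform ψ (Xᴴ * E * X) (Yᴴ * F * Y) = cform ((X ⊗ₖ Y) *ᵥ ψ) E F := by
  have h : (Xᴴ * E * X) ⊗ₖ (Yᴴ * F * Y) = (X ⊗ₖ Y)ᴴ * (E ⊗ₖ F) * (X ⊗ₖ Y) := by
    rw [conjTranspose_kronecker, mul_kronecker_mul, mul_kronecker_mul]
  unfold cform
  rw [h, ← mulVec_mulVec, ← mulVec_mulVec, star_mulVec, dotProduct_mulVec]

theorem form_kraus (ψ : Ta × Tb → ℂ) (X : Matrix Da Ta ℂ) (Y : Matrix Db Tb ℂ)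
    (E : Matrix Da Da ℂ) (F : Matrix Db Db ℂ) :
    form ψ (Xᴴ * E * X) (Yᴴ * F * Y) = form ((X ⊗ₖ Y) *ᵥ ψ) E F := by
  rw [form, cform_kraus, form]

/-- contraction from co-isometry -/
theorem one_sub_posSemidef_of_coisometry {X : Matrix Da Ta ℂ} (h : X * Xᴴ = 1) :
    (1 - Xᴴ * X).PosSemidef := by
  have h2 : Xᴴ * X * (Xᴴ * X) = Xᴴ * X := by
    calc Xᴴ * X * (Xᴴ * X) = Xᴴ * (X * Xᴴ) * X := by simp only [Matrix.mul_assoc]
      _ = Xᴴ * X := by rw [h, Matrix.mul_one]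
  have h1 : (1 - Xᴴ * X)ᴴ * (1 - Xᴴ * X) = 1 - Xᴴ * X := by
    have e : (1 - Xᴴ * X)ᴴ = 1 - Xᴴ * X := by simp [conjTranspose_sub, conjTranspose_mul]
    rw [e, Matrix.mul_sub, Matrix.sub_mul, Matrix.sub_mul, h2, Matrix.one_mul, Matrix.mul_one,
      Matrix.one_mul]
    abel
  rw [← h1]
  exact posSemidef_conjTranspose_mul_self _

/-- `‖ψ‖²` from the form -/
theorem form_one_one' (ψ : Ta × Tb → ℂ) :
    form ψ (1 : Matrix Ta Ta ℂ) (1 : Matrix Tb Tb ℂ) = ∑ i, ‖ψ i‖ ^ 2 := by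
  have h1 : ((1 : Matrix Ta Ta ℂ) ⊗ₖ (1 : Matrix Tb Tb ℂ)) = 1 := by simp
  rw [form, cform, h1, one_mulVec]
  have : star ψ ⬝ᵥ ψ = ((∑ i, ‖ψ i‖ ^ 2 : ℝ) : ℂ) := by
    simp only [dotProduct, Pi.star_apply, Complex.ofReal_sum, Complex.ofReal_pow]
    refine Finset.sum_congr rfl fun i _ => ?_
    rw [RCLike.star_def, Complex.conj_mul']
  rw [this, Complex.ofReal_re]

/-- the identity `τ = 1 - P_A - P_B + a` -/
theorem form_one_sub_one_sub (ψ : Ta × Tb → ℂ) (X : Matrix Ta Ta ℂ) (Y : Matrix Tb Tb ℂ) :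
    form ψ (1 - X) (1 - Y) = form ψ 1 1 - form ψ X 1 - form ψ 1 Y + form ψ X Y := by
  have h1 : form ψ 1 1 = form ψ (1 - X) 1 + form ψ X 1 := by
    rw [← form_add_left, sub_add_cancel]
  have h2 : form ψ 1 Y = form ψ (1 - X) Y + form ψ X Y := by
    rw [← form_add_left, sub_add_cancel]
  have h3 : form ψ (1 - X) 1 = form ψ (1 - X) (1 - Y) + form ψ (1 - X) Y := by
    rw [← form_add_right, sub_add_cancel]
  linarith

end Kraus

variable {ι : Type} [Fintype ι] [DecidableEq ι]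

/-- Alice's Kraus map -/
def KrA (W Dm : ℕ) (U : Matrix ι ι ℂ) (b : ι → ℕ) : Matrix ι (ι × Fin Dm) ℂ :=
  fun n k => Phi W U b k.2 n k.1

/-- Bob's Kraus map -/
def KrB (W Dm : ℕ) (U : Matrix ι ι ℂ) (b : ι → ℕ) : Matrix ι (ι × Fin Dm) ℂ :=
  fun n k => star (Phi W U b k.2 n k.1)

/-- the resource state -/
def Ups (c ϱ : ℝ) (Dm : ℕ) : (ι × Fin Dm) × (ι × Fin Dm) → ℂ :=
  fun p => if p.1 = p.2 then ((c * ϱ ^ (p.1.2 : ℕ) : ℝ) : ℂ) else 0

theorem Phi_apply_star (W : ℕ) (U : Matrix ι ι ℂ) (b : ι → ℕ) (D : ℕ) (i j : ι) :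
    star (Phi W U b D i j) = Phi W U b D j i := by
  have h := congrFun (congrFun (Phi_isHermitian W U b D) j) i
  rw [conjTranspose_apply] at h
  exact h

theorem Phi_mul_Phi_sum {U : Matrix ι ι ℂ} (hU : Uᴴ * U = 1) {W Dm : ℕ} (hW : 0 < W) {b : ι → ℕ}
    (hb : ∀ i, b i + W ≤ Dm) :
    ∑ D ∈ Finset.range Dm, Phi W U b D * Phi W U b D = 1 := by
  have hU2 : U * Uᴴ = 1 := mul_eq_one_comm.mp hU
  have h1 : ∀ D, Phi W U b D * Phi W U b D =
      U * diagonal (fun i => ((win W (b i) D ^ 2 : ℝ) : ℂ)) * Uᴴ := by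
    intro D
    simp only [Phi]
    calc U * diagonal (fun i => ((win W (b i) D : ℝ) : ℂ)) * Uᴴ *
          (U * diagonal (fun i => ((win W (b i) D : ℝ) : ℂ)) * Uᴴ)
        = U * (diagonal (fun i => ((win W (b i) D : ℝ) : ℂ)) * (Uᴴ * U) *
          diagonal (fun i => ((win W (b i) D : ℝ) : ℂ))) * Uᴴ := by
          simp only [Matrix.mul_assoc]
      _ = _ := by
          rw [hU, Matrix.mul_one, diagonal_mul_diagonal]
          congr 2
          funext i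
          simp [sq]
  simp_rw [h1]
  rw [← Matrix.sum_mul, ← Matrix.mul_sum]
  have h2 : ∑ D ∈ Finset.range Dm, diagonal (fun i => ((win W (b i) D ^ 2 : ℝ) : ℂ)) =
      (1 : Matrix ι ι ℂ) := by
    ext i j
    by_cases hij : i = j
    · subst hij
      rw [Matrix.sum_apply]
      simp only [diagonal_apply_eq, one_apply_eq]
      have := sum_win_sq_one (b := b i) hW (hb i)
      rw [← Complex.ofReal_sum, this, Complex.ofReal_one]
    · rw [Matrix.sum_apply]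
      simp [diagonal_apply_ne _ hij, one_apply_ne hij]
  rw [h2, Matrix.mul_one, hU2]

theorem KrA_mul {U : Matrix ι ι ℂ} (hU : Uᴴ * U = 1) {W Dm : ℕ} (hW : 0 < W) {b : ι → ℕ}
    (hb : ∀ i, b i + W ≤ Dm) : KrA W Dm U b * (KrA W Dm U b)ᴴ = 1 := by
  rw [← Phi_mul_Phi_sum hU hW hb]
  ext n m
  rw [Matrix.sum_apply, mul_apply, Fintype.sum_prod_type, Finset.sum_comm, Finset.sum_range]
  refine Finset.sum_congr rfl fun D _ => ?_
  rw [mul_apply]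
  refine Finset.sum_congr rfl fun n' _ => ?_
  simp only [KrA, conjTranspose_apply, Phi_apply_star]

theorem KrB_mul {U : Matrix ι ι ℂ} (hU : Uᴴ * U = 1) {W Dm : ℕ} (hW : 0 < W) {b : ι → ℕ}
    (hb : ∀ i, b i + W ≤ Dm) : KrB W Dm U b * (KrB W Dm U b)ᴴ = 1 := by
  have h := Phi_mul_Phi_sum hU hW hb
  ext n m
  have h2 : (1 : Matrix ι ι ℂ) n m = (1 : Matrix ι ι ℂ) m n := by
    simp [one_apply, eq_comm]
  rw [h2, ← h, Matrix.sum_apply, mul_apply, Fintype.sum_prod_type, Finset.sum_comm, Finset.sum_range]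
  refine Finset.sum_congr rfl fun D _ => ?_
  rw [mul_apply]
  refine Finset.sum_congr rfl fun n' _ => ?_
  simp only [KrB, conjTranspose_apply, Phi_apply_star]
  ring

/-- the output vector of the trial -/
theorem kraus_Ups_apply {U U' : Matrix ι ι ℂ} (c ϱ : ℝ) (W Dm : ℕ) (b b' : ι → ℕ) :
    (KrA W Dm U b ⊗ₖ KrB W Dm U' b') *ᵥ (Ups c ϱ Dm : (ι × Fin Dm) × (ι × Fin Dm) → ℂ) =
      vec (((c : ℝ) : ℂ) • Mbar ϱ W Dm U U' b b') := by
  funext p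
  obtain ⟨n, m⟩ := p
  have h1 : ((KrA W Dm U b ⊗ₖ KrB W Dm U' b') *ᵥ (Ups c ϱ Dm :
      (ι × Fin Dm) × (ι × Fin Dm) → ℂ)) (n, m) =
      ∑ k : ι × Fin Dm, KrA W Dm U b n k * KrB W Dm U' b' m k * ((c * ϱ ^ (k.2 : ℕ) : ℝ) : ℂ) := by
    simp only [mulVec, dotProduct]
    rw [Fintype.sum_prod_type]
    refine Finset.sum_congr rfl fun k _ => ?_
    rw [Finset.sum_eq_single k]
    · simp [Ups]
    · intro k' _ hk'
      simp [Ups, Ne.symm hk']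
    · simp
  rw [h1, Fintype.sum_prod_type, Finset.sum_comm]
  simp only [vec, Matrix.smul_apply, Mbar, Matrix.sum_apply, smul_eq_mul, Finset.mul_sum]
  rw [Finset.sum_range]
  refine Finset.sum_congr rfl fun D _ => ?_
  rw [mul_apply, Finset.mul_sum, Finset.mul_sum]
  refine Finset.sum_congr rfl fun n' _ => ?_
  simp only [KrA, KrB, Phi_apply_star, Complex.ofReal_mul, Complex.ofReal_pow]
  ring

theorem hsq_Phi {U : Matrix ι ι ℂ} (hU : Uᴴ * U = 1) (W : ℕ) (b : ι → ℕ) (D : ℕ) :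
    hsq (Phi W U b D) = ∑ i, win W (b i) D ^ 2 := by
  have hU2 : U * Uᴴ = 1 := mul_eq_one_comm.mp hU
  unfold Phi
  rw [hsq_mul_unitary (by simpa using hU), hsq_unitary_mul hU]
  simp only [hsq]
  refine Finset.sum_congr rfl fun i _ => ?_
  rw [Finset.sum_eq_single i]
  · simp
  · intro j _ hj
    simp [diagonal_apply_ne _ (Ne.symm hj)]
  · simp

theorem hsq_tld {U : Matrix ι ι ℂ} (hU : Uᴴ * U = 1) (ϱ : ℝ) (b : ι → ℕ) :
    hsq (tld ϱ U b) = ∑ i, (ϱ ^ 2) ^ b i := by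
  have hU2 : U * Uᴴ = 1 := mul_eq_one_comm.mp hU
  unfold tld
  rw [hsq_mul_unitary (by simpa using hU), hsq_unitary_mul hU]
  simp only [hsq]
  refine Finset.sum_congr rfl fun i _ => ?_
  rw [Finset.sum_eq_single i]
  · simp only [diagonal_apply_eq, Complex.norm_real, Real.norm_eq_abs, sq_abs]
    rw [← pow_mul, ← pow_mul, mul_comm]
  · intro j _ hj
    simp [diagonal_apply_ne _ (Ne.symm hj)]
  · simp

section Diag

variable {T Da Db : Type} [Fintype T] [Fintype Da] [Fintype Db] [DecidableEq T] [DecidableEq Da]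
  [DecidableEq Db]

/-- a state with diagonal coefficient matrix -/
def diagState (t : T → ℝ) : T × T → ℂ := fun p => if p.1 = p.2 then ((t p.1 : ℝ) : ℂ) else 0

theorem form_diag_left (t : T → ℝ) (X : Matrix Da T ℂ) :
    form (diagState t) (Xᴴ * X) 1 = ∑ n, ∑ k, ‖X n k‖ ^ 2 * t k ^ 2 := by
  have e : Xᴴ * X = Xᴴ * (1 : Matrix Da Da ℂ) * X := by rw [Matrix.mul_one]
  have e' : (1 : Matrix T T ℂ) = (1 : Matrix T T ℂ)ᴴ * 1 * 1 := by simp
  rw [e, e', form_kraus, form_one_one', Fintype.sum_prod_type]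
  refine Finset.sum_congr rfl fun n _ => Finset.sum_congr rfl fun k _ => ?_
  have : ((X ⊗ₖ (1 : Matrix T T ℂ)) *ᵥ (diagState t : T × T → ℂ)) (n, k) =
      X n k * ((t k : ℝ) : ℂ) := by
    simp only [mulVec, dotProduct]
    rw [Fintype.sum_prod_type, Finset.sum_eq_single k]
    · rw [Finset.sum_eq_single k]
      · simp [diagState]
      · intro k' _ hk'
        simp [one_apply_ne (Ne.symm hk')]
      · simp
    · intro k' _ hk'
      refine Finset.sum_eq_zero fun k'' _ => ?_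
      by_cases hk : k'' = k
      · subst hk
        simp [diagState, hk']
      · simp [one_apply_ne (Ne.symm hk)]
    · simp
  rw [this, norm_mul, mul_pow, Complex.norm_real, Real.norm_eq_abs, sq_abs]

theorem form_diag_right (t : T → ℝ) (Y : Matrix Db T ℂ) :
    form (diagState t) 1 (Yᴴ * Y) = ∑ n, ∑ k, ‖Y n k‖ ^ 2 * t k ^ 2 := by
  have e : Yᴴ * Y = Yᴴ * (1 : Matrix Db Db ℂ) * Y := by rw [Matrix.mul_one]
  have e' : (1 : Matrix T T ℂ) = (1 : Matrix T T ℂ)ᴴ * 1 * 1 := by simp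
  rw [e, e', form_kraus, form_one_one', Fintype.sum_prod_type, Finset.sum_comm]
  refine Finset.sum_congr rfl fun n _ => Finset.sum_congr rfl fun k _ => ?_
  have : (((1 : Matrix T T ℂ) ⊗ₖ Y) *ᵥ (diagState t : T × T → ℂ)) (k, n) =
      Y n k * ((t k : ℝ) : ℂ) := by
    simp only [mulVec, dotProduct]
    rw [Fintype.sum_prod_type, Finset.sum_eq_single k]
    · rw [Finset.sum_eq_single k]
      · simp [diagState]
      · intro k' _ hk'
        simp [diagState, Ne.symm hk']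
      · simp
    · intro k' _ hk'
      refine Finset.sum_eq_zero fun k'' _ => ?_
      simp [one_apply_ne (Ne.symm hk')]
    · simp
  rw [this, norm_mul, mul_pow, Complex.norm_real, Real.norm_eq_abs, sq_abs]

theorem diagState_norm (t : T → ℝ) : ∑ p, ‖diagState t p‖ ^ 2 = ∑ k, t k ^ 2 := by
  rw [Fintype.sum_prod_type]
  refine Finset.sum_congr rfl fun k _ => ?_
  rw [Finset.sum_eq_single k]
  · simp [diagState]
  · intro k' _ hk'
    simp [diagState, Ne.symm hk']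
  · simp

end Diag

theorem Ups_eq_diagState (c ϱ : ℝ) (Dm : ℕ) :
    (Ups c ϱ Dm : (ι × Fin Dm) × (ι × Fin Dm) → ℂ) =
      diagState (fun k : ι × Fin Dm => c * ϱ ^ (k.2 : ℕ)) := rfl

/-- the common sum of the acceptance probabilities -/
theorem ladder_accept_sum {U : Matrix ι ι ℂ} (hU : Uᴴ * U = 1) (c ϱ : ℝ)
    {W Dm : ℕ} (hW : 0 < W) {b : ι → ℕ} (hb : ∀ i, b i + W ≤ Dm) (Y : Matrix ι (ι × Fin Dm) ℂ)
    (hY : ∀ n k, ‖Y n k‖ = ‖Phi W U b k.2 n k.1‖) :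
    ∑ n, ∑ k : ι × Fin Dm, ‖Y n k‖ ^ 2 * (c * ϱ ^ (k.2 : ℕ)) ^ 2 =
      c ^ 2 * (rho ϱ W * hsq (tld ϱ U b)) := by
  have h3 : ∑ n : ι, ∑ k : ι × Fin Dm, ‖Y n k‖ ^ 2 * (c * ϱ ^ (k.2 : ℕ)) ^ 2 =
      c ^ 2 * ∑ D ∈ Finset.range Dm, (ϱ ^ 2) ^ D * hsq (Phi W U b D) := by
    rw [Finset.sum_range, Finset.mul_sum]
    simp only [Fintype.sum_prod_type, hY]
    calc ∑ n : ι, ∑ n' : ι, ∑ D : Fin Dm, ‖Phi W U b D n n'‖ ^ 2 * (c * ϱ ^ (D : ℕ)) ^ 2
        = ∑ n : ι, ∑ D : Fin Dm, ∑ n' : ι, ‖Phi W U b D n n'‖ ^ 2 * (c * ϱ ^ (D : ℕ)) ^ 2 :=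
          Finset.sum_congr rfl fun _ _ => Finset.sum_comm
      _ = ∑ D : Fin Dm, ∑ n : ι, ∑ n' : ι, ‖Phi W U b D n n'‖ ^ 2 * (c * ϱ ^ (D : ℕ)) ^ 2 :=
          Finset.sum_comm
      _ = _ := by
          refine Finset.sum_congr rfl fun D _ => ?_
          simp only [hsq, Finset.mul_sum]
          refine Finset.sum_congr rfl fun n _ => Finset.sum_congr rfl fun n' _ => ?_
          ring
  rw [h3]
  simp_rw [hsq_Phi hU]
  congr 1
  rw [hsq_tld hU, Finset.mul_sum]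
  simp_rw [Finset.mul_sum]
  rw [Finset.sum_comm]
  refine Finset.sum_congr rfl fun i _ => ?_
  exact sum_win_sq hW (hb i)

/-- Alice's acceptance probability. -/
theorem form_Ups_left {U : Matrix ι ι ℂ} (hU : Uᴴ * U = 1) (c ϱ : ℝ) {W Dm : ℕ} (hW : 0 < W)
    {b : ι → ℕ} (hb : ∀ i, b i + W ≤ Dm) :
    form (Ups c ϱ Dm : (ι × Fin Dm) × (ι × Fin Dm) → ℂ)
      ((KrA W Dm U b)ᴴ * KrA W Dm U b) 1 = c ^ 2 * (rho ϱ W * hsq (tld ϱ U b)) := by
  rw [Ups_eq_diagState, form_diag_left]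
  exact ladder_accept_sum hU c ϱ hW hb _ (fun _ _ => rfl)

/-- Bob's acceptance probability. -/
theorem form_Ups_right {U : Matrix ι ι ℂ} (hU : Uᴴ * U = 1) (c ϱ : ℝ) {W Dm : ℕ} (hW : 0 < W)
    {b : ι → ℕ} (hb : ∀ i, b i + W ≤ Dm) :
    form (Ups c ϱ Dm : (ι × Fin Dm) × (ι × Fin Dm) → ℂ) 1
      ((KrB W Dm U b)ᴴ * KrB W Dm U b) = c ^ 2 * (rho ϱ W * hsq (tld ϱ U b)) := by
  rw [Ups_eq_diagState, form_diag_right]
  exact ladder_accept_sum hU c ϱ hW hb _ (fun _ _ => by simp [KrB])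

/-- Both accept. -/
theorem form_Ups_both {U U' : Matrix ι ι ℂ} (c ϱ : ℝ) (W Dm : ℕ) (b b' : ι → ℕ) :
    form (Ups c ϱ Dm : (ι × Fin Dm) × (ι × Fin Dm) → ℂ)
      ((KrA W Dm U b)ᴴ * KrA W Dm U b) ((KrB W Dm U' b')ᴴ * KrB W Dm U' b') =
      c ^ 2 * hsq (Mbar ϱ W Dm U U' b b') := by
  have e : (KrA W Dm U b)ᴴ * KrA W Dm U b = (KrA W Dm U b)ᴴ * (1 : Matrix ι ι ℂ) * KrA W Dm U b := by
    rw [Matrix.mul_one]
  have e' : (KrB W Dm U' b')ᴴ * KrB W Dm U' b' = (KrB W Dm U' b')ᴴ * (1 : Matrix ι ι ℂ) * KrB W Dm U' b' := by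
    rw [Matrix.mul_one]
  rw [e, e', form_kraus, kraus_Ups_apply, form_one_one', vec_norm]
  simp only [hsq, Matrix.smul_apply, smul_eq_mul, norm_mul, mul_pow, Complex.norm_real,
    Real.norm_eq_abs, sq_abs, Finset.mul_sum]

/-- The POVM part: win value of both accepting. -/
theorem form_Ups_povm {U U' : Matrix ι ι ℂ} (c ϱ : ℝ) (W Dm : ℕ) (b b' : ι → ℕ)
    (E F : Matrix ι ι ℂ) :
    form (Ups c ϱ Dm : (ι × Fin Dm) × (ι × Fin Dm) → ℂ)
      ((KrA W Dm U b)ᴴ * E * KrA W Dm U b) ((KrB W Dm U' b')ᴴ * F * KrB W Dm U' b') =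
      form (vec (((c : ℝ) : ℂ) • Mbar ϱ W Dm U U' b b')) E F := by
  rw [form_kraus, kraus_Ups_apply]

theorem Ups_eq_diagState_norm {Dm : ℕ} (c ϱ : ℝ)
    (hc : ∑ k : ι × Fin Dm, (c * ϱ ^ (k.2 : ℕ)) ^ 2 = 1) :
    (1 : ℝ) = ∑ i, ‖(Ups c ϱ Dm : (ι × Fin Dm) × (ι × Fin Dm) → ℂ) i‖ ^ 2 := by
  rw [Ups_eq_diagState, diagState_norm, hc]

section TrialInstance

variable {X Y A B : Type} [Fintype A] [Fintype B]

/-- The ladder trial.  The families `U`, `U'` are the eigenbases of the targets, `b`, `b'` the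
rounded logarithmic eigenvalues; `E`, `F` are the final POVMs on the register `ι`. -/
def ladderTrial (c ϱ : ℝ) {W Dm : ℕ} (hW : 0 < W)
    (hc : ∑ k : ι × Fin Dm, (c * ϱ ^ (k.2 : ℕ)) ^ 2 = 1)
    (U : X → Matrix ι ι ℂ) (hU : ∀ x, (U x)ᴴ * U x = 1) (b : X → ι → ℕ)
    (hb : ∀ x i, b x i + W ≤ Dm)
    (U' : Y → Matrix ι ι ℂ) (hU' : ∀ y, (U' y)ᴴ * U' y = 1) (b' : Y → ι → ℕ)
    (hb' : ∀ y i, b' y i + W ≤ Dm)
    (E : X → A → Matrix ι ι ℂ) (F : Y → B → Matrix ι ι ℂ)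
    (hE : ∀ x a, (E x a).PosSemidef) (hF : ∀ y b, (F y b).PosSemidef)
    (hEs : ∀ x, ∑ a, E x a = 1) (hFs : ∀ y, ∑ b, F y b = 1) :
    Trial X Y A B (ι × Fin Dm) (ι × Fin Dm) ι ι where
  Υ := Ups c ϱ Dm
  Υ_norm := by
    rw [Ups_eq_diagState, diagState_norm, hc]
  Fa x := KrA W Dm (U x) (b x)
  Fb y := KrB W Dm (U' y) (b' y)
  Fa_contr x := one_sub_posSemidef_of_coisometry (KrA_mul (hU x) hW (hb x))
  Fb_contr y := one_sub_posSemidef_of_coisometry (KrB_mul (hU' y) hW (hb' y))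
  E := E
  F := F
  E_psd := hE
  F_psd := hF
  E_sum := hEs
  F_sum := hFs

variable (c ϱ : ℝ) {W Dm : ℕ} (hW : 0 < W)
    (hc : ∑ k : ι × Fin Dm, (c * ϱ ^ (k.2 : ℕ)) ^ 2 = 1)
    (U : X → Matrix ι ι ℂ) (hU : ∀ x, (U x)ᴴ * U x = 1) (b : X → ι → ℕ)
    (hb : ∀ x i, b x i + W ≤ Dm)
    (U' : Y → Matrix ι ι ℂ) (hU' : ∀ y, (U' y)ᴴ * U' y = 1) (b' : Y → ι → ℕ)
    (hb' : ∀ y i, b' y i + W ≤ Dm)
    (E : X → A → Matrix ι ι ℂ) (F : Y → B → Matrix ι ι ℂ)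
    (hE : ∀ x a, (E x a).PosSemidef) (hF : ∀ y b, (F y b).PosSemidef)
    (hEs : ∀ x, ∑ a, E x a = 1) (hFs : ∀ y, ∑ b, F y b = 1)

/-- `1 - τ = c² (ρ (‖G̃‖² + ‖G̃'‖²) - ‖M̄‖²)` -/
theorem ladderTrial_one_sub_tau (x : X) (y : Y) :
    1 - (ladderTrial c ϱ hW hc U hU b hb U' hU' b' hb' E F hE hF hEs hFs).τ x y =
      c ^ 2 * (rho ϱ W * (hsq (tld ϱ (U x) (b x)) + hsq (tld ϱ (U' y) (b' y))) -
        hsq (Mbar ϱ W Dm (U x) (U' y) (b x) (b' y))) := by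
  unfold Trial.τ
  simp only [ladderTrial]
  rw [form_one_sub_one_sub, form_one_one', ← Ups_eq_diagState_norm c ϱ hc,
    form_Ups_left (hU x) c ϱ hW (hb x), form_Ups_right (hU' y) c ϱ hW (hb' y), form_Ups_both]
  ring

/-- the one-trial win value -/
theorem ladderTrial_s (V : X → Y → A → B → Prop) [∀ x y a b, Decidable (V x y a b)] (x : X) (y : Y) :
    (ladderTrial c ϱ hW hc U hU b hb U' hU' b' hb' E F hE hF hEs hFs).s V x y =
      ∑ a, ∑ b'', if V x y a b'' then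
        form (vec (((c : ℝ) : ℂ) • Mbar ϱ W Dm (U x) (U' y) (b x) (b' y))) (E x a) (F y b'') else 0 := by
  unfold Trial.s
  simp only [ladderTrial]
  refine Finset.sum_congr rfl fun a _ => Finset.sum_congr rfl fun b'' _ => ?_
  split_ifs
  · exact form_Ups_povm c ϱ W Dm _ _ _ _
  · rfl

end TrialInstance

end

end Crest.Agent.ParRep.Sampler
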