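import Mathlib

/-!
# The resolvent gauge: matrix core of the parallel repetition proof (row 342, finding #1280 (0))

For a positive semidefinite `R` and `s > 0`:
`res s R = (R + s)⁻¹`, `phi s R = 1 - s (R + s)⁻¹ = R (R + s)⁻¹`.

STAR: if `Rbar = ∑ p x R x` then `phi s Rbar - ∑ p x phi s (R x) - ∑ p x (phi s (R x) - phi s Rbar)^2`
is positive semidefinite.
-/

set_option linter.unusedSectionVars false

open scoped Kronecker ComplexOrder Matrix BigOperators

namespace Crest.Agent.ParRep

variable {n : Type*} [Fintype n] [DecidableEq n] {ι : Type*} [Fintype ι]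

/-- The resolvent `(A + s)⁻¹`. -/
noncomputable def res (s : ℝ) (A : Matrix n n ℂ) : Matrix n n ℂ := (A + s • (1 : Matrix n n ℂ))⁻¹

/-- `phi s A = 1 - s (A + s)⁻¹` (that is, `A (A + s)⁻¹`). -/
noncomputable def phi (s : ℝ) (A : Matrix n n ℂ) : Matrix n n ℂ := 1 - s • res s A

lemma posDef_add_smul {A : Matrix n n ℂ} (hA : A.PosSemidef) {s : ℝ} (hs : 0 < s) :
    (A + s • (1 : Matrix n n ℂ)).PosDef := by
  have h1 : (s • (1 : Matrix n n ℂ)).PosDef := Matrix.PosDef.one.smul hs
  exact h1.posSemidef_add hA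

lemma isUnit_add_smul {A : Matrix n n ℂ} (hA : A.PosSemidef) {s : ℝ} (hs : 0 < s) :
    IsUnit (A + s • (1 : Matrix n n ℂ)) := (posDef_add_smul hA hs).isUnit

lemma add_mul_res {A : Matrix n n ℂ} (hA : A.PosSemidef) {s : ℝ} (hs : 0 < s) :
    (A + s • (1 : Matrix n n ℂ)) * res s A = 1 := by
  unfold res
  exact Matrix.mul_nonsing_inv _ ((Matrix.isUnit_iff_isUnit_det _).1 (isUnit_add_smul hA hs))

lemma res_mul_add {A : Matrix n n ℂ} (hA : A.PosSemidef) {s : ℝ} (hs : 0 < s) :
    res s A * (A + s • (1 : Matrix n n ℂ)) = 1 := by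
  unfold res
  exact Matrix.nonsing_inv_mul _ ((Matrix.isUnit_iff_isUnit_det _).1 (isUnit_add_smul hA hs))

lemma res_posDef {A : Matrix n n ℂ} (hA : A.PosSemidef) {s : ℝ} (hs : 0 < s) :
    (res s A).PosDef := (posDef_add_smul hA hs).inv

lemma res_isHermitian {A : Matrix n n ℂ} (hA : A.PosSemidef) {s : ℝ} (hs : 0 < s) :
    (res s A).IsHermitian := (res_posDef hA hs).isHermitian

lemma smul_isHermitian {A : Matrix n n ℂ} (hA : A.IsHermitian) (s : ℝ) :
    (s • A).IsHermitian := by
  unfold Matrix.IsHermitian at *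
  rw [Matrix.conjTranspose_smul, hA]; simp

lemma phi_isHermitian {A : Matrix n n ℂ} (hA : A.PosSemidef) {s : ℝ} (hs : 0 < s) :
    (phi s A).IsHermitian := by
  unfold phi
  exact Matrix.isHermitian_one.sub (smul_isHermitian (res_isHermitian hA hs) s)

/-- `phi s A = A (A + s)⁻¹`. -/
lemma phi_eq_mul_res {A : Matrix n n ℂ} (hA : A.PosSemidef) {s : ℝ} (hs : 0 < s) :
    phi s A = A * res s A := by
  unfold phi
  have h := add_mul_res hA hs
  rw [add_mul, smul_mul_assoc, one_mul] at h
  rw [← h]; abel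

/-- `X - Y = - X (R - B) Y` for the resolvents `X`, `Y` of `R`, `B`. -/
lemma res_sub_eq_left {R B : Matrix n n ℂ} (hR : R.PosSemidef) (hB : B.PosSemidef) {s : ℝ}
    (hs : 0 < s) : res s R - res s B = - (res s R * (R - B) * res s B) := by
  have h1 := res_mul_add hR hs
  have h2 := add_mul_res hB hs
  have e : R - B = (R + s • (1 : Matrix n n ℂ)) - (B + s • (1 : Matrix n n ℂ)) := by abel
  rw [e, mul_sub, sub_mul, h1, one_mul, mul_assoc (res s R), h2, mul_one]
  abel

/-- `X - Y = - Y (R - B) X` for the resolvents `X`, `Y` of `R`, `B`. -/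
lemma res_sub_eq_right {R B : Matrix n n ℂ} (hR : R.PosSemidef) (hB : B.PosSemidef) {s : ℝ}
    (hs : 0 < s) : res s R - res s B = - (res s B * (R - B) * res s R) := by
  have h1 := res_mul_add hB hs
  have h2 := add_mul_res hR hs
  have e : R - B = (R + s • (1 : Matrix n n ℂ)) - (B + s • (1 : Matrix n n ℂ)) := by abel
  rw [e, mul_sub, sub_mul, mul_assoc (res s B), h2, mul_one, h1, one_mul]
  abel

/-- `X = X R X + s X²`. -/
lemma res_eq {R : Matrix n n ℂ} (hR : R.PosSemidef) {s : ℝ} (hs : 0 < s) :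
    res s R = res s R * R * res s R + s • (res s R * res s R) := by
  have h1 := res_mul_add hR hs
  calc res s R = (res s R * (R + s • (1 : Matrix n n ℂ))) * res s R := by rw [h1, one_mul]
    _ = _ := by rw [mul_add, add_mul]; simp

/-- The exact form of the key identity: the defect of STAR is an explicit positive sum. -/
theorem star_identity {p : ι → ℝ} (hp1 : ∑ x, p x = 1) {R : ι → Matrix n n ℂ}
    (hR : ∀ x, (R x).PosSemidef) {B : Matrix n n ℂ} (hB : B.PosSemidef)
    (hBar : B = ∑ x, p x • R x) {s : ℝ} (hs : 0 < s) :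
    phi s B - ∑ x, p x • phi s (R x) - ∑ x, p x • ((phi s (R x) - phi s B) * (phi s (R x) - phi s B))
      = ∑ x, (p x * s) • ((res s B * (R x - B) * res s (R x)) * R x *
          (res s (R x) * (R x - B) * res s B)) := by
  set Y := res s B with hY
  have hD : ∑ x, p x • (R x - B) = 0 := by
    simp only [smul_sub, Finset.sum_sub_distrib, ← hBar, ← Finset.sum_smul, hp1, one_smul, sub_self]
  have hpt : ∀ x, res s (R x) - Y = - (Y * (R x - B) * Y) +
      Y * (R x - B) * res s (R x) * (R x - B) * Y := by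
    intro x
    set X := res s (R x) with hX
    have h1 : X - Y = - (Y * (R x - B) * X) := res_sub_eq_right (hR x) hB hs
    have h2 : X - Y = - (X * (R x - B) * Y) := res_sub_eq_left (hR x) hB hs
    have h3 : X = Y - X * (R x - B) * Y := by
      have := sub_eq_iff_eq_add.1 h2
      rw [sub_eq_add_neg, add_comm]; exact this
    calc X - Y = - (Y * (R x - B) * X) := h1
      _ = - (Y * (R x - B) * (Y - X * (R x - B) * Y)) := by rw [← h3]
      _ = _ := by noncomm_ring
  have hsum : ∑ x, p x • (res s (R x) - Y) =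
      ∑ x, p x • (Y * (R x - B) * res s (R x) * (R x - B) * Y) := by
    have : ∑ x, p x • (Y * (R x - B) * Y) = 0 := by
      have : ∀ x, p x • (Y * (R x - B) * Y) = Y * (p x • (R x - B)) * Y := by
        intro x; simp
      simp_rw [this]
      rw [← Finset.sum_mul, ← Finset.mul_sum, hD]; simp
    calc ∑ x, p x • (res s (R x) - Y) =
        ∑ x, (p x • (Y * (R x - B) * res s (R x) * (R x - B) * Y) - p x • (Y * (R x - B) * Y)) := by
          refine Finset.sum_congr rfl fun x _ => ?_
          rw [hpt x, smul_add, smul_neg]; abel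
      _ = _ := by rw [Finset.sum_sub_distrib, this, sub_zero]
  have hfirst : phi s B - ∑ x, p x • phi s (R x) =
      s • ∑ x, p x • (Y * (R x - B) * res s (R x) * (R x - B) * Y) := by
    rw [← hsum]
    have h0 : phi s B = ∑ x, p x • phi s B := by rw [← Finset.sum_smul, hp1, one_smul]
    rw [h0, ← Finset.sum_sub_distrib, Finset.smul_sum]
    refine Finset.sum_congr rfl fun x _ => ?_
    unfold phi
    rw [← hY, smul_sub, smul_sub, smul_sub, smul_sub, smul_comm s (p x), smul_comm s (p x)]
    abel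
  rw [hfirst, Finset.smul_sum, ← Finset.sum_sub_distrib]
  refine Finset.sum_congr rfl fun x _ => ?_
  set X := res s (R x) with hX
  have h1 : X - Y = - (Y * (R x - B) * X) := res_sub_eq_right (hR x) hB hs
  have h2 : X - Y = - (X * (R x - B) * Y) := res_sub_eq_left (hR x) hB hs
  have h4 : phi s (R x) - phi s B = (-s) • (X - Y) := by
    unfold phi; rw [← hY, ← hX, smul_sub]; simp only [neg_smul]; abel
  have h5 : X = X * R x * X + s • (X * X) := res_eq (hR x) hs
  have h6 : Y * (R x - B) * X * (R x - B) * Y =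
      (Y * (R x - B) * X) * R x * (X * (R x - B) * Y) + s • ((X - Y) * (X - Y)) := by
    have : (X - Y) * (X - Y) = (Y * (R x - B) * X) * (X * (R x - B) * Y) := by
      nth_rewrite 1 [h1]; rw [h2]; noncomm_ring
    rw [this]
    calc Y * (R x - B) * X * (R x - B) * Y = Y * (R x - B) * (X * R x * X + s • (X * X)) * (R x - B) * Y := by
          rw [← h5]
      _ = _ := by
        simp only [mul_add, add_mul, smul_mul_assoc, mul_smul_comm, mul_assoc]
  rw [h4, h6]
  have e1 : (-s) • (X - Y) * (-s) • (X - Y) = (s * s) • ((X - Y) * (X - Y)) := by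
    simp only [smul_mul_assoc, mul_smul_comm, smul_smul]; simp
  rw [e1]
  simp only [smul_add, smul_smul]
  have e2 : s * (p x * s) = p x * (s * s) := by ring
  have e3 : s * p x = p x * s := by ring
  rw [e2, e3]
  abel

/-- STAR: the operator inequality (constant one). -/
theorem star {p : ι → ℝ} (hp0 : ∀ x, 0 ≤ p x) (hp1 : ∑ x, p x = 1) {R : ι → Matrix n n ℂ}
    (hR : ∀ x, (R x).PosSemidef) {B : Matrix n n ℂ} (hB : B.PosSemidef)
    (hBar : B = ∑ x, p x • R x) {s : ℝ} (hs : 0 < s) :
    (phi s B - ∑ x, p x • phi s (R x) -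
      ∑ x, p x • ((phi s (R x) - phi s B) * (phi s (R x) - phi s B))).PosSemidef := by
  rw [star_identity hp1 hR hB hBar hs]
  refine Matrix.posSemidef_sum _ fun x _ => ?_
  refine Matrix.PosSemidef.smul ?_ (mul_nonneg (hp0 x) hs.le)
  have hH : (res s (R x) * (R x - B) * res s B)ᴴ = res s B * (R x - B) * res s (R x) := by
    have h1 := res_isHermitian (hR x) hs
    have h2 := res_isHermitian hB hs
    have h3 : (R x - B).IsHermitian := (hR x).isHermitian.sub hB.isHermitian
    simp only [Matrix.conjTranspose_mul, h1.eq, h2.eq, h3.eq, mul_assoc]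
  have := (hR x).conjTranspose_mul_mul_same (res s (R x) * (R x - B) * res s B)
  rwa [hH] at this

end Crest.Agent.ParRep
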