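import Mathlib

/-!
Row 342, S0537: the real analysis of the one-coordinate step: from the per-coordinate bounds of the
path argument, the posterior lemma and the chain, for an arbitrary grid, to the final bound.
-/

set_option autoImplicit false

namespace Crest.Agent.ParRep

open Finset

/-- Cauchy-Schwarz for a sum of square roots. -/
lemma sum_sqrt_le {ι : Type*} [Fintype ι] (V : ι → ℝ) (hV : ∀ j, 0 ≤ V j) :
    ∑ j, Real.sqrt (V j) ≤ Real.sqrt ((Fintype.card ι : ℝ) * ∑ j, V j) := by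
  apply Real.le_sqrt_of_sq_le
  have := sq_sum_le_card_mul_sum_sq (s := (Finset.univ : Finset ι)) (f := fun j => Real.sqrt (V j))
  simp only [Finset.card_univ] at this
  calc (∑ j, Real.sqrt (V j)) ^ 2 ≤ (Fintype.card ι : ℝ) * ∑ j, Real.sqrt (V j) ^ 2 := this
    _ = (Fintype.card ι : ℝ) * ∑ j, V j := by
        congr 1
        exact Finset.sum_congr rfl fun j _ => Real.sq_sqrt (hV j)

/-- One grid: per-coordinate bounds to the summed bound. -/
lemma step_core_grid {m : ℕ} {N u κ v e : ℝ} (hN : 0 < N) (hκ : 0 ≤ κ)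
    {Win V TV : Fin m → ℝ} (hV : ∀ j, 0 ≤ V j)
    (hWin : ∀ j, Win j / N ≤ v + TV j + Real.sqrt (8 * κ * V j / N))
    (hTV : ∑ j, TV j ≤ Real.sqrt (m * u))
    (hChain : ∑ j, V j ≤ 2 * (N * u) + m * (N * e)) :
    ∑ j, Win j ≤ m * N * (v + Real.sqrt (m * u) / m
      + Real.sqrt (m * (8 * κ * (2 * u + m * e))) / m) := by
  rcases Nat.eq_zero_or_pos m with rfl | hm
  · simp
  have hm' : (0 : ℝ) < m := by exact_mod_cast hm
  have h1 : ∑ j, Win j / N ≤ ∑ j, (v + TV j + Real.sqrt (8 * κ * V j / N)) :=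
    Finset.sum_le_sum fun j _ => hWin j
  have h2 : ∑ j, Real.sqrt (8 * κ * V j / N) ≤ Real.sqrt (m * (8 * κ * (2 * u + m * e))) := by
    have h3 := sum_sqrt_le (fun j : Fin m => 8 * κ * V j / N) (fun j => by
      have := hV j
      positivity)
    simp only [Fintype.card_fin] at h3
    refine h3.trans (Real.sqrt_le_sqrt ?_)
    refine mul_le_mul_of_nonneg_left ?_ hm'.le
    have h4 : ∑ j, 8 * κ * V j / N = 8 * κ * (∑ j, V j) / N := by
      rw [Finset.mul_sum, Finset.sum_div]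
    rw [h4]
    have h5 : (∑ j, V j) / N ≤ 2 * u + m * e := by
      rw [div_le_iff₀ hN]
      nlinarith
    calc 8 * κ * (∑ j, V j) / N = 8 * κ * ((∑ j, V j) / N) := by ring
      _ ≤ 8 * κ * (2 * u + m * e) := mul_le_mul_of_nonneg_left h5 (by positivity)
  have h6 : (∑ j, Win j) / N ≤ m * v + Real.sqrt (m * u) + Real.sqrt (m * (8 * κ * (2 * u + m * e))) := by
    rw [Finset.sum_div]
    refine h1.trans ?_
    rw [Finset.sum_add_distrib, Finset.sum_add_distrib]
    simp only [Finset.sum_const, Finset.card_univ, Fintype.card_fin, nsmul_eq_mul]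
    linarith
  rw [div_le_iff₀ hN] at h6
  have hne : (m : ℝ) ≠ 0 := hm'.ne'
  calc ∑ j, Win j ≤ (m * v + Real.sqrt (m * u) + Real.sqrt (m * (8 * κ * (2 * u + m * e)))) * N := h6
    _ = _ := by field_simp

/-- For `N > 0`, `ε > 0`, there is a grid `(Δ, n)` with small error. -/
lemma exists_grid {N ε : ℝ} (hN : 0 < N) (hε : 0 < ε) :
    ∃ (Δ : ℝ) (n : ℕ), 0 < Δ ∧ 8 * Δ + 8 * N / (((n : ℝ) + 1) * Δ) ≤ N * ε := by
  have hΔ : 0 < N * ε / 16 := by positivity
  obtain ⟨n, hn⟩ := exists_nat_gt (16 * N / (N * ε / 16 * (N * ε)))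
  refine ⟨N * ε / 16, n, hΔ, ?_⟩
  have h0 : (0 : ℝ) ≤ n := n.cast_nonneg
  have h1 : 0 < ((n : ℝ) + 1) * (N * ε / 16) := by positivity
  have h2 : 8 * N / (((n : ℝ) + 1) * (N * ε / 16)) ≤ N * ε / 2 := by
    rw [div_le_iff₀ h1]
    have h3 : 16 * N / (N * ε / 16 * (N * ε)) < (n : ℝ) + 1 := by linarith
    rw [div_lt_iff₀ (by positivity)] at h3
    nlinarith
  nlinarith

/-- The limit: if the grid bound holds for every error `e > 0`, then it holds with `e = 0`,
in the form used by `StepBound`. -/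
lemma step_core_limit {m : ℕ} {N u κ v W : ℝ} (hκ : 0 ≤ κ) (hu : 0 ≤ u) (hN : 0 < N)
    (hm : 1 ≤ m)
    (h : ∀ e : ℝ, 0 < e → W ≤ m * N * (v + Real.sqrt (m * u) / m
      + Real.sqrt (m * (8 * κ * (2 * u + m * e))) / m)) :
    W ≤ m * N * (v + Real.sqrt (33 * (1 + κ) * u / m)) := by
  have hm' : (0 : ℝ) < m := by exact_mod_cast hm
  -- pass to the limit e → 0
  have hcont : Filter.Tendsto (fun e : ℝ => (m : ℝ) * N * (v + Real.sqrt (m * u) / m
      + Real.sqrt (m * (8 * κ * (2 * u + m * e))) / m)) (nhdsWithin 0 (Set.Ioi 0))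
      (nhds ((m : ℝ) * N * (v + Real.sqrt (m * u) / m
      + Real.sqrt (m * (8 * κ * (2 * u + m * 0))) / m))) := by
    apply Filter.Tendsto.mono_left _ nhdsWithin_le_nhds
    apply Continuous.tendsto
    fun_prop
  have hlim : W ≤ (m : ℝ) * N * (v + Real.sqrt (m * u) / m
      + Real.sqrt (m * (8 * κ * (2 * u + m * 0))) / m) :=
    ge_of_tendsto hcont (by
      filter_upwards [self_mem_nhdsWithin] with e he using h e he)
  refine hlim.trans ?_
  refine mul_le_mul_of_nonneg_left ?_ (by positivity)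
  -- `√(m u)/m + √(16 κ m u)/m ≤ √(33 (1+κ) u / m)`
  have hs : Real.sqrt (m * u) / m + Real.sqrt (m * (8 * κ * (2 * u + m * 0))) / m
      ≤ Real.sqrt (33 * (1 + κ) * u / m) := by
    apply Real.le_sqrt_of_sq_le
    set a := Real.sqrt (m * u)
    set b := Real.sqrt (m * (8 * κ * (2 * u + m * 0)))
    have ha : a ^ 2 = m * u := Real.sq_sqrt (by positivity)
    have hb : b ^ 2 = m * (8 * κ * (2 * u + m * 0)) := Real.sq_sqrt (by positivity)
    have hb' : b ^ 2 = 16 * κ * (m * u) := by rw [hb]; ring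
    have hab : 2 * a * b ≤ a ^ 2 + b ^ 2 := by nlinarith [sq_nonneg (a - b)]
    have : (a / m + b / m) ^ 2 = (a ^ 2 + 2 * a * b + b ^ 2) / m ^ 2 := by
      field_simp
      ring
    rw [this, div_le_iff₀ (by positivity)]
    have h7 : 33 * (1 + κ) * u / m * m ^ 2 = 33 * (1 + κ) * (m * u) := by
      field_simp
    rw [h7]
    have hmu : 0 ≤ (m : ℝ) * u := by positivity
    nlinarith
  linarith

end Crest.Agent.ParRep
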