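import Crest.Agent.Lib.ParRep.CoordForm
import Crest.Agent.Lib.ParRep.FinalCore
import Crest.Agent.Lib.ParRep.CoordData
import Crest.Agent.Lib.ParRep.StepCore

/-!
Row 342, S0536: one coordinate, with the correlated sampler.
-/

set_option autoImplicit false

open scoped Kronecker ComplexOrder
open Matrix Crest.MathPhysics.NonlocalGame

namespace Crest.Agent.ParRep

section Acc

variable {G : Game} {RA RB : Type} [Fintype RA] [Fintype RB] [DecidableEq RA] [DecidableEq RB]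

/-- The operator of the accepted answer pairs at the question pair `x, y`. -/
noncomputable def accOpG (G : Game) (E : Fin G.nX → Fin G.nA → Matrix RA RA ℂ)
    (F : Fin G.nY → Fin G.nB → Matrix RB RB ℂ) (x : Fin G.nX) (y : Fin G.nY) :
    Matrix (RA × RB) (RA × RB) ℂ :=
  ∑ a, ∑ b, if G.accept x y a b = true then E x a ⊗ₖ F y b else 0

variable {E : Fin G.nX → Fin G.nA → Matrix RA RA ℂ} {F : Fin G.nY → Fin G.nB → Matrix RB RB ℂ}

lemma accOpG_psd (hE : ∀ x a, (E x a).PosSemidef) (hF : ∀ y b, (F y b).PosSemidef)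
    (x : Fin G.nX) (y : Fin G.nY) : (accOpG G E F x y).PosSemidef := by
  unfold accOpG
  refine Matrix.posSemidef_sum _ fun a _ => Matrix.posSemidef_sum _ fun b _ => ?_
  split_ifs
  · exact (hE x a).kronecker (hF y b)
  · exact PosSemidef.zero

lemma one_sub_accOpG_psd (hE : ∀ x a, (E x a).PosSemidef) (hF : ∀ y b, (F y b).PosSemidef)
    (hE1 : ∀ x, ∑ a, E x a = 1) (hF1 : ∀ y, ∑ b, F y b = 1) (x : Fin G.nX) (y : Fin G.nY) :
    (1 - accOpG G E F x y).PosSemidef := by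
  have h1 : (1 : Matrix (RA × RB) (RA × RB) ℂ) = ∑ a, ∑ b, E x a ⊗ₖ F y b := by
    have : ∑ a, ∑ b, E x a ⊗ₖ F y b = (∑ a, E x a) ⊗ₖ (∑ b, F y b) := by
      ext i j
      simp only [Matrix.sum_apply, kroneckerMap_apply, Finset.sum_mul, Finset.mul_sum]
      exact Finset.sum_comm
    rw [this, hE1, hF1]
    simp
  have h2 : 1 - accOpG G E F x y =
      ∑ a, ∑ b, if G.accept x y a b = true then 0 else E x a ⊗ₖ F y b := by
    rw [h1]
    unfold accOpG
    rw [← Finset.sum_sub_distrib]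
    refine Finset.sum_congr rfl fun a _ => ?_
    rw [← Finset.sum_sub_distrib]
    refine Finset.sum_congr rfl fun b _ => ?_
    split_ifs <;> simp
  rw [h2]
  refine Matrix.posSemidef_sum _ fun a _ => Matrix.posSemidef_sum _ fun b _ => ?_
  split_ifs
  · exact PosSemidef.zero
  · exact (hE x a).kronecker (hF y b)

lemma qfm_accOpG (x : Fin G.nX) (y : Fin G.nY) (ξ : RA × RB → ℂ) :
    qfm (accOpG G E F x y) ξ =
      ∑ a, ∑ b, if G.accept x y a b = true then bra ξ (E x a) (F y b) else 0 := by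
  unfold accOpG qfm
  simp only [Matrix.sum_mulVec, dotProduct_sum, Complex.re_sum]
  refine Finset.sum_congr rfl fun a _ => Finset.sum_congr rfl fun b _ => ?_
  split_ifs
  · rfl
  · simp

end Acc

/-- The correlated sampler, as a property of the constant `Cs`. -/
def SamplerProp (Cs : ℝ) : Prop :=
  ∀ (G : Game) (RA RB : Type) [Fintype RA] [Fintype RB] [DecidableEq RA] [DecidableEq RB]
    (A : Fin G.nX → RA × RB → ℂ) (B : Fin G.nY → RA × RB → ℂ)
    (_ : ∀ x, l2 (A x) = 1) (_ : ∀ y, l2 (B y) = 1)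
    (E : Fin G.nX → Fin G.nA → Matrix RA RA ℂ) (F : Fin G.nY → Fin G.nB → Matrix RB RB ℂ)
    (_ : ∀ x a, (E x a).PosSemidef) (_ : ∀ y b, (F y b).PosSemidef)
    (_ : ∀ x, ∑ a, E x a = 1) (_ : ∀ y, ∑ b, F y b = 1)
    (L : ℝ) (_ : 0 < L) (_ : L ≤ 1) (η : ℝ) (_ : 0 < η),
    ∃ (dA dB : ℕ) (S : Strategy G 1 dA dB), ∀ x y,
      qfm (accOpG G E F x y) (A x) - (Cs * L + η + Cs / L * l2 (A x - B y)) ≤ Sampler.winOne S x y

section OneCoord

variable {G : Game} {dA dB : ℕ}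

lemma winOne_nonneg (S : Strategy G 1 dA dB) (x : Fin G.nX) (y : Fin G.nY) :
    0 ≤ Sampler.winOne S x y := by
  unfold Sampler.winOne
  refine Finset.sum_nonneg fun a _ => Finset.sum_nonneg fun b _ => ?_
  split_ifs
  · exact answerProb_nonneg S _ _ _ _
  · exact le_rfl

lemma winOne_le_one (S : Strategy G 1 dA dB) (x : Fin G.nX) (y : Fin G.nY) :
    Sampler.winOne S x y ≤ 1 := by
  have h := sum_answerProb S (fun _ => x) (fun _ => y)
  rw [Sampler.sum_fin_one_fun] at h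
  simp only [Sampler.sum_fin_one_fun (n := G.nB)] at h
  rw [← h]
  unfold Sampler.winOne
  refine Finset.sum_le_sum fun a _ => Finset.sum_le_sum fun b _ => ?_
  split_ifs
  · exact le_rfl
  · exact answerProb_nonneg S _ _ _ _

/-- One coordinate with the sampler: finite registers, vectors and POVMs. -/
theorem coord_sampler {Cs : ℝ} (hs : SamplerProp Cs) (hCs : 0 ≤ Cs) {v : ℝ}
    (hv : ∀ (dA dB : ℕ) (S : Strategy G 1 dA dB), S.probWinsAtLeast 1 ≤ v)
    {RA RB : Type} [Fintype RA] [Fintype RB] [DecidableEq RA] [DecidableEq RB]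
    (T : Fin G.nX → Fin G.nY → RA × RB → ℂ) (Av : Fin G.nX → RA × RB → ℂ)
    (Bv : Fin G.nY → RA × RB → ℂ)
    (E : Fin G.nX → Fin G.nA → Matrix RA RA ℂ) (F : Fin G.nY → Fin G.nB → Matrix RB RB ℂ)
    (hE : ∀ x a, (E x a).PosSemidef) (hF : ∀ y b, (F y b).PosSemidef)
    (hE1 : ∀ x, ∑ a, E x a = 1) (hF1 : ∀ y, ∑ b, F y b = 1)
    {L η : ℝ} (hL : 0 < L) (hL1 : L ≤ 1) (hη : 0 < η)
    (hN : 0 < ∑ x, ∑ y, G.prob x y * l2 (T x y) ^ 2) :
    let N : ℝ := ∑ x, ∑ y, G.prob x y * l2 (T x y) ^ 2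
    let V : ℝ := ∑ x, ∑ y, G.prob x y * (l2 (T x y - Av x) ^ 2 + l2 (T x y - Bv y) ^ 2)
    ∑ x, ∑ y, G.prob x y * (∑ a, ∑ b, if G.accept x y a b = true then bra (T x y) (E x a) (F y b) else 0)
      ≤ N * (v + (Cs * L + η)) + (∑ x, ∑ y, G.prob x y * |l2 (T x y) ^ 2 - N|) +
        (4 * (Cs / L) + 8) * Real.sqrt (N * V) := by
  intro N V
  -- a fallback unit vector
  obtain ⟨ω₀⟩ : Nonempty (RA × RB) := by
    by_contra hcon
    have hemp : IsEmpty (RA × RB) := not_nonempty_iff.1 hcon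
    have : ∑ x, ∑ y, G.prob x y * l2 (T x y) ^ 2 = 0 := by
      refine Finset.sum_eq_zero fun x _ => Finset.sum_eq_zero fun y _ => ?_
      rw [l2_sq, Finset.univ_eq_empty, Finset.sum_empty, mul_zero]
    exact hN.ne' this
  let e : RA × RB → ℂ := fun ω => if ω = ω₀ then 1 else 0
  have he : l2 e = 1 := by
    unfold l2
    have : ∑ i, ‖e i‖ ^ 2 = 1 := by
      rw [Finset.sum_eq_single ω₀]
      · simp [e]
      · intro b _ hb
        simp [e, hb]
      · simp
    rw [this, Real.sqrt_one]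
  obtain ⟨dA', dB', S, hS⟩ := hs G RA RB (fun x => hat e (Av x)) (fun y => hat e (Bv y))
    (fun x => l2_hat he _) (fun y => l2_hat he _) E F hE hF hE1 hF1 L hL hL1 η hη
  have hc' : 0 ≤ Cs / L := by positivity
  have hmain := coord_average (π := G.prob) (O := accOpG G E F) (e := e) (T := T) (A := Av) (B := Bv)
    (val := Sampler.winOne S) (c := Cs * L + η) (c' := Cs / L) (v := v)
    G.prob_nonneg (accOpG_psd hE hF) (one_sub_accOpG_psd hE hF hE1 hF1) he hc'
    (winOne_nonneg S) (winOne_le_one S)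
    (by rw [← Sampler.probWinsAtLeast_one]; exact hv _ _ S)
    (fun x y => by
      have := hS x y
      linarith)
  simp only [qfm_accOpG] at hmain
  exact hmain

end OneCoord

section Step

variable {G : Game}

lemma sum_prob_Nxy {m dA dB : ℕ} (R : Rect G m dA dB) (j : Fin m) :
    ∑ s, ∑ t, G.prob s t * R.Nxy j s t = R.N := by
  have h := prodExp_coord G.prob_nonneg G.prob_sum j (fun x y => bra R.ψ (R.PP x) (R.QQ y))
  rw [R.N_eq, ← h]
  rfl

/-- The rectangle bound from the correlated sampler, for a fixed smoothing `L`. -/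
theorem stepBound_of_sampler {Cs : ℝ} (hs : SamplerProp Cs) (hCs : 0 ≤ Cs) {v : ℝ}
    (hv : ∀ (dA dB : ℕ) (S : Strategy G 1 dA dB), S.probWinsAtLeast 1 ≤ v)
    {L : ℝ} (hL : 0 < L) (hL1 : L ≤ 1) :
    StepBound G v (fun u m => Cs * L + (2 + 2 * (4 * (Cs / L) + 8)) * Real.sqrt (u / (m : ℝ))) := by
  intro m dA dB R hm hN
  obtain ⟨hA, hB⟩ := R.nonempty_of_N_pos hm hN
  have hN1 : R.N ≤ 1 := Rect.N_le_one R
  have hu : 0 ≤ Real.log (1 / R.N) := Real.log_nonneg (by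
    rw [le_div_iff₀ hN]; linarith)
  have hC : 0 ≤ 4 * (Cs / L) + 8 := by positivity
  refine step536_core_limit hC hu hN hm (fun e he => ?_)
  obtain ⟨D, n, hD, hDn⟩ := exists_grid hN he
  -- the bound at every coordinate
  have key : ∀ j, R.Win j ≤ R.N * (v + (Cs * L + e)) +
      2 * R.N * (((1 : ℝ) / 2) * ∑ a, ∑ b, |G.prob a b * R.Nxy j a b / R.N - G.prob a b|) +
      (4 * (Cs / L) + 8) * Real.sqrt (R.N * (R.VA D n j + R.VB D n j)) := by
    intro j
    obtain ⟨T, Av, Bv, E, F, hE, hE1, hF, hF1, hT, hVB, hVA, hW⟩ := R.exists_coord_data hD n j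
    have hT' : ∀ s t, l2 (T s t) ^ 2 = R.Nxy j s t := fun s t => by rw [l2_sq, hT]
    have hNN : ∑ x, ∑ y, G.prob x y * l2 (T x y) ^ 2 = R.N := by
      simp only [hT']
      exact sum_prob_Nxy R j
    have h := coord_sampler hs hCs hv T Av Bv E F hE hF hE1 hF1 hL hL1 he (by rw [hNN]; exact hN)
    simp only [hNN] at h
    rw [hW] at h
    have hVV : ∑ x, ∑ y, G.prob x y * (l2 (T x y - Av x) ^ 2 + l2 (T x y - Bv y) ^ 2)
        = R.VA D n j + R.VB D n j := by
      rw [← hVA, ← hVB, ← Finset.sum_add_distrib]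
      refine Finset.sum_congr rfl fun s _ => ?_
      rw [← Finset.sum_add_distrib]
      refine Finset.sum_congr rfl fun t _ => ?_
      rw [l2_sq, l2_sq, mul_add, add_comm]
      simp only [Pi.sub_apply]
    rw [hVV] at h
    have habs : ∑ x, ∑ y, G.prob x y * |l2 (T x y) ^ 2 - R.N| =
        2 * R.N * (((1 : ℝ) / 2) * ∑ a, ∑ b, |G.prob a b * R.Nxy j a b / R.N - G.prob a b|) := by
      have : 2 * R.N * (((1 : ℝ) / 2) * ∑ a, ∑ b, |G.prob a b * R.Nxy j a b / R.N - G.prob a b|)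
          = ∑ a, ∑ b, R.N * |G.prob a b * R.Nxy j a b / R.N - G.prob a b| := by
        simp only [Finset.mul_sum]
        refine Finset.sum_congr rfl fun a _ => Finset.sum_congr rfl fun b _ => ?_
        ring
      rw [this]
      refine Finset.sum_congr rfl fun s _ => Finset.sum_congr rfl fun t _ => ?_
      rw [hT']
      have h1 : G.prob s t * R.Nxy j s t / R.N - G.prob s t =
          G.prob s t * (R.Nxy j s t - R.N) / R.N := by
        field_simp
      rw [h1, abs_div, abs_mul, abs_of_nonneg (G.prob_nonneg s t), abs_of_pos hN]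
      field_simp
    rw [habs] at h
    exact h
  refine step536_core_grid hN hC
    (V := fun j => R.VA D n j + R.VB D n j)
    (TV := fun j => ((1 : ℝ) / 2) * ∑ a, ∑ b, |G.prob a b * R.Nxy j a b / R.N - G.prob a b|)
    (fun j => add_nonneg (R.VA_nonneg hm hN hD n j) (R.VB_nonneg hm hN hD n j))
    key (R.sum_tv_le hN) ?_
  refine (R.sum_V_le hD n).trans ?_
  have hlog : Real.negMulLog R.N = R.N * Real.log (1 / R.N) := by
    rw [Real.negMulLog, one_div, Real.log_inv]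
    ring
  rw [hlog]
  have hm0 : (0 : ℝ) ≤ m := Nat.cast_nonneg m
  suffices hh : (4 * D + 4 * D + (4 * (((n : ℝ) + 1) * D)⁻¹ + 4 * (((n : ℝ) + 1) * D)⁻¹) * R.N)
      ≤ R.N * e by
    have := mul_le_mul_of_nonneg_left hh hm0
    linarith
  have hn1 : (0 : ℝ) < ((n : ℝ) + 1) * D := by positivity
  have e1 : 4 * (((n : ℝ) + 1) * D)⁻¹ + 4 * (((n : ℝ) + 1) * D)⁻¹ = 8 * (((n : ℝ) + 1) * D)⁻¹ := by
    ring
  rw [e1]
  have e2 : 8 * (((n : ℝ) + 1) * D)⁻¹ * R.N = 8 * R.N / (((n : ℝ) + 1) * D) := by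
    field_simp
  rw [e2]
  linarith

/-- The rectangle bound in the form of S0536. -/
theorem stepBound_536 {Cs : ℝ} (hs : SamplerProp Cs) (hCs : 1 ≤ Cs) {v : ℝ}
    (hv : ∀ (dA dB : ℕ) (S : Strategy G 1 dA dB), S.probWinsAtLeast 1 ≤ v)
    {δ : ℝ} (hδ : 0 < δ) (hδv : δ < 1 - v) :
    StepBound G v (fun u m => δ / 8 + (18 + 64 * Cs ^ 2) / δ * Real.sqrt (u / (m : ℝ))) := by
  intro m dA dB R hm hN
  obtain ⟨⟨a₀⟩, ⟨b₀⟩⟩ := R.nonempty_of_N_pos hm hN
  have hA : 0 < G.nA := a₀.pos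
  have hB : 0 < G.nB := b₀.pos
  have hv0 : 0 ≤ v := v_nonneg hv hA hB
  have hδ1 : δ < 1 := by linarith
  have hCs0 : 0 < Cs := by linarith
  have hL : 0 < δ / (8 * Cs) := by positivity
  have hL1 : δ / (8 * Cs) ≤ 1 := by
    rw [div_le_one (by positivity)]
    linarith
  have h := stepBound_of_sampler hs hCs0.le hv hL hL1 m dA dB R hm hN
  simp only at h ⊢
  refine h.trans ?_
  have hN1 : R.N ≤ 1 := Rect.N_le_one R
  have hm0 : (0 : ℝ) ≤ m := Nat.cast_nonneg m
  refine mul_le_mul_of_nonneg_left ?_ (mul_nonneg hm0 hN.le)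
  have e1 : Cs * (δ / (8 * Cs)) = δ / 8 := by
    field_simp
  have e2 : 2 + 2 * (4 * (Cs / (δ / (8 * Cs))) + 8) ≤ (18 + 64 * Cs ^ 2) / δ := by
    have e3 : Cs / (δ / (8 * Cs)) = 8 * Cs ^ 2 / δ := by
      field_simp
    rw [e3, le_div_iff₀ hδ]
    have e4 : (2 + 2 * (4 * (8 * Cs ^ 2 / δ) + 8)) * δ = 18 * δ + 64 * Cs ^ 2 := by
      field_simp
      ring
    rw [e4]
    nlinarith
  rw [e1]
  have h3 := mul_le_mul_of_nonneg_right e2 (Real.sqrt_nonneg (Real.log (1 / R.N) / (m : ℝ)))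
  linarith

/-- S0536, given the correlated sampler. -/
theorem final_536_of_sampler {Cs : ℝ} (hs : SamplerProp Cs) (hCs : 1 ≤ Cs) :
    ∃ κ₀ : ℝ, 0 < κ₀ ∧ ∀ (G : Game) (v : ℝ),
      (∀ (dA dB : ℕ) (S : Strategy G 1 dA dB), S.probWinsAtLeast 1 ≤ v) →
      ∀ δ : ℝ, 0 < δ → δ < 1 - v → ∀ (k dA dB : ℕ) (S : Strategy G k dA dB), 1 ≤ k →
        S.probWinsAtLeast ((v + δ) * k) ≤
          Real.exp (-(κ₀ * δ ^ 5 / (1 + Real.log ((G.nA * G.nB : ℕ) : ℝ)) * k)) :=
  final_536_of_step (C := 18 + 64 * Cs ^ 2) (by nlinarith)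
    (fun _ _ hv _ hδ hδv => stepBound_536 hs hCs hv hδ hδv)

end Step

end Crest.Agent.ParRep
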