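import Crest.Agent.Lib.ParRep.CoordData
import Crest.Agent.Lib.ParRep.StepCore
import Crest.Agent.Lib.ParRep.PathMain
import Crest.Agent.Lib.ParRep.FinalCore

/-!
Row 342, S0537: the one-coordinate bound of a rectangle: path bound + posterior lemma + chain.
-/

set_option autoImplicit false
set_option linter.unusedSectionVars false

open Function Finset
open Crest.MathPhysics.NonlocalGame
open scoped Kronecker ComplexOrder

namespace Crest.Agent.ParRep

variable {G : Game} {m dA dB : ℕ}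

/-- The bridge between the two forms of the total variation distance. -/
lemma sum_max_eq_half_abs {ι : Type*} [Fintype ι] {t : ι → ℝ} (ht : ∑ i, t i = 0) :
    ∑ i, max 0 (t i) = (1 / 2) * ∑ i, |t i| := by
  have h : ∀ i, max 0 (t i) = (1 / 2) * |t i| + (1 / 2) * t i := by
    intro i
    rcases le_total 0 (t i) with h | h
    · rw [max_eq_right h, abs_of_nonneg h]; ring
    · rw [max_eq_left h, abs_of_nonpos h]; ring
  simp_rw [h]
  rw [Finset.sum_add_distrib, ← Finset.mul_sum, ← Finset.mul_sum, ht]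
  ring

/-- `∑ π Nxy = N`. -/
lemma Rect.sum_Nxy (R : Rect G m dA dB) (j : Fin m) :
    ∑ s, ∑ t, G.prob s t * R.Nxy j s t = R.N := by
  rw [R.N_eq, ← prodExp_coord G.prob_nonneg G.prob_sum j]
  rfl

/-- The per-coordinate bound. -/
theorem Rect.coord_bound (R : Rect G m dA dB) (hm : 1 ≤ m) (hN : 0 < R.N) (v : ℝ)
    (hv : ∀ (dA dB : ℕ) (S : Strategy G 1 dA dB), S.probWinsAtLeast 1 ≤ v) (κ : ℝ)
    (hκ : ∀ z : Fin G.nX × Fin G.nY, 0 < G.prob z.1 z.2 → ∀ w ∈ G.supportComponent z,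
      8 * ((G.supportComponent z).card - 1 : ℝ) * (∑ u ∈ G.supportComponent z, G.prob u.1 u.2)
        ≤ κ * G.prob w.1 w.2)
    {D : ℝ} (hD : 0 < D) (n : ℕ) (j : Fin m) :
    R.Win j / R.N ≤ v + ((1 : ℝ) / 2) * ∑ a, ∑ b, |G.prob a b * R.Nxy j a b / R.N - G.prob a b|
      + Real.sqrt (8 * κ * (R.VA D n j + R.VB D n j) / R.N) := by
  classical
  obtain ⟨hA, hB⟩ := R.nonempty_of_N_pos hm hN
  obtain ⟨T, Av, Bv, E, F, hE0, hE1, hF0, hF1, hT, hVB, hVA, hW⟩ := R.exists_coord_data hD n j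
  have hmass : massT G T = R.N := by
    unfold massT
    rw [← R.sum_Nxy j]
    refine Finset.sum_congr rfl fun s _ => Finset.sum_congr rfl fun t _ => ?_
    rw [← hT]
    rfl
  have hdef : defectT G T Av Bv = R.VA D n j + R.VB D n j := by
    unfold defectT
    rw [← hVA, ← hVB, add_comm]
    rw [← Finset.sum_add_distrib]
    refine Finset.sum_congr rfl fun s _ => ?_
    rw [← Finset.sum_add_distrib]
    refine Finset.sum_congr rfl fun t _ => ?_
    rw [mul_add]
    rfl
  have hwin : ∑ x, ∑ y, G.prob x y * winAt G E F x y (T x y) = R.Win j := by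
    rw [← hW]
    rfl
  have htv : tvT G T = ((1 : ℝ) / 2) * ∑ a, ∑ b, |G.prob a b * R.Nxy j a b / R.N - G.prob a b| := by
    unfold tvT
    rw [hmass]
    have h1 : ∀ a b, nsq (T a b) = R.Nxy j a b := fun a b => by rw [← hT]; rfl
    simp_rw [h1]
    simp only [← Fintype.sum_prod_type']
    apply sum_max_eq_half_abs
    rw [Finset.sum_sub_distrib]
    rw [Fintype.sum_prod_type, Fintype.sum_prod_type]
    have h2 : ∑ x, ∑ y, G.prob x y * R.Nxy j x y / R.N = 1 := by
      simp_rw [← Finset.sum_div]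
      rw [R.sum_Nxy j, div_self hN.ne']
    simp only
    rw [h2, G.prob_sum, sub_self]
  have hmain := coordinate_bound (G := G) (T := T) (A := Av) (B := Bv) v hv κ hκ E F hE0 hE1 hF0 hF1
    (by rw [hmass]; exact hN)
  rw [hwin, hmass, htv, hdef] at hmain
  exact hmain

/-- **The one-coordinate bound of S0537.** -/
theorem stepBound_537 (G : Game) (v : ℝ)
    (hv : ∀ (dA dB : ℕ) (S : Strategy G 1 dA dB), S.probWinsAtLeast 1 ≤ v) (κ : ℝ)
    (hκ : ∀ z : Fin G.nX × Fin G.nY, 0 < G.prob z.1 z.2 → ∀ w ∈ G.supportComponent z,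
      8 * ((G.supportComponent z).card - 1 : ℝ) * (∑ u ∈ G.supportComponent z, G.prob u.1 u.2)
        ≤ κ * G.prob w.1 w.2) :
    StepBound G v (fun u m => Real.sqrt (33 * (1 + κ) * u / (m : ℝ))) := by
  intro m dA dB R hm hN
  have hκ0 : 0 ≤ κ := kappa_nonneg hκ
  have hN1 : R.N ≤ 1 := R.N_le_one
  have hu : 0 ≤ Real.log (1 / R.N) := by
    apply Real.log_nonneg
    rw [le_div_iff₀ hN]
    linarith
  refine step_core_limit hκ0 hu hN hm fun e he => ?_
  obtain ⟨D, n, hD, hgrid⟩ := exists_grid hN he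
  refine step_core_grid hN hκ0 (V := fun j => R.VA D n j + R.VB D n j)
    (TV := fun j => ((1 : ℝ) / 2) * ∑ a, ∑ b, |G.prob a b * R.Nxy j a b / R.N - G.prob a b|)
    (fun j => add_nonneg (R.VA_nonneg hm hN hD n j) (R.VB_nonneg hm hN hD n j))
    (fun j => R.coord_bound hm hN v hv κ hκ hD n j) (R.sum_tv_le hN) ?_
  refine (R.sum_V_le hD n).trans ?_
  have hneg : Real.negMulLog R.N = R.N * Real.log (1 / R.N) := by
    unfold Real.negMulLog
    rw [one_div, Real.log_inv]
    ring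
  rw [hneg]
  have hm0 : (0 : ℝ) ≤ m := m.cast_nonneg
  have hrew : 4 * D + 4 * D + (4 * (((n : ℝ) + 1) * D)⁻¹ + 4 * (((n : ℝ) + 1) * D)⁻¹) * R.N
      = 8 * D + 8 * R.N / (((n : ℝ) + 1) * D) := by
    rw [div_eq_mul_inv]
    ring
  rw [hrew]
  have := mul_le_mul_of_nonneg_left hgrid hm0
  linarith

end Crest.Agent.ParRep
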