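import Crest.Agent.Lib.ParRep.Rect
import Crest.Agent.Lib.ParRep.Condition
import Crest.Agent.Lib.ParRep.Cond
import Crest.Agent.Lib.ParRep.Posterior

/-!
Row 342: the posterior lemma in the language of rectangles: the law of the `j`-th question pair,
tilted by the rectangle, is close to the question law on average over `j`.
-/

set_option autoImplicit false

open Function Finset
open Crest.MathPhysics.NonlocalGame
open scoped Kronecker ComplexOrder

namespace Crest.Agent.ParRep

variable {G : Game} {m dA dB : ℕ}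

section bra

variable {dA dB : Type*} [Fintype dA] [Fintype dB]

lemma bra_le_one [DecidableEq dA] [DecidableEq dB] (ψ : dA × dB → ℂ) (hψ : ∑ i, ‖ψ i‖ ^ 2 = 1)
    {X : Matrix dA dA ℂ} {Y : Matrix dB dB ℂ}
    (hY : Y.PosSemidef) (hX1 : (1 - X).PosSemidef) (hY1 : (1 - Y).PosSemidef) :
    bra ψ X Y ≤ 1 := by
  have h1 : 0 ≤ bra ψ (1 - X) Y := bra_nonneg ψ hX1 hY
  have h2 : 0 ≤ bra ψ 1 (1 - Y) := bra_nonneg ψ Matrix.PosSemidef.one hY1
  have h3 : bra ψ (1 - X) Y = bra ψ 1 Y - bra ψ X Y := by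
    have := bra_add_left ψ (1 - X) X Y
    rw [sub_add_cancel] at this
    linarith
  have h4 : bra ψ 1 (1 - Y) = bra ψ 1 1 - bra ψ 1 Y := by
    have := bra_add_right ψ 1 (1 - Y) Y
    rw [sub_add_cancel] at this
    linarith
  have h5 : bra ψ 1 1 = 1 := bra_one_one ψ hψ
  linarith

end bra

namespace Rect

/-- The total operator of the first player. -/
noncomputable def PP (R : Rect G m dA dB) (x : Fin m → Fin G.nX) : Matrix (Fin dA) (Fin dA) ℂ :=
  ∑ a, R.P x a

/-- The total operator of the second player. -/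
noncomputable def QQ (R : Rect G m dA dB) (y : Fin m → Fin G.nY) : Matrix (Fin dB) (Fin dB) ℂ :=
  ∑ b, R.Q y b

lemma PP_psd (R : Rect G m dA dB) (x : Fin m → Fin G.nX) : (R.PP x).PosSemidef :=
  Matrix.posSemidef_sum _ fun a _ => R.P_psd x a

lemma QQ_psd (R : Rect G m dA dB) (y : Fin m → Fin G.nY) : (R.QQ y).PosSemidef :=
  Matrix.posSemidef_sum _ fun b _ => R.Q_psd y b

lemma N_eq (R : Rect G m dA dB) :
    R.N = prodExp G.prob (fun x y => bra R.ψ (R.PP x) (R.QQ y)) := by
  unfold Rect.N prodExp Rect.mass PP QQ prodLaw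
  refine Finset.sum_congr rfl fun x _ => Finset.sum_congr rfl fun y _ => ?_
  show _ = (∏ i, G.prob (x i) (y i)) * bra R.ψ (∑ a, R.P x a) (∑ b, R.Q y b)
  rw [bra_sum_left]
  congr 1
  refine Finset.sum_congr rfl fun a _ => ?_
  rw [bra_sum_right]

/-- The mass of the rectangle conditioned on the `j`-th questions. -/
noncomputable def Nxy (R : Rect G m dA dB) (j : Fin m) (a : Fin G.nX) (b : Fin G.nY) : ℝ :=
  prodExp G.prob (fun x y => bra R.ψ (R.PP (update x j a)) (R.QQ (update y j b)))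

/-- The posterior lemma for rectangles. -/
theorem sum_tv_le (R : Rect G m dA dB) (hN : 0 < R.N) :
    ∑ j, ((1 : ℝ) / 2) * ∑ a, ∑ b, |G.prob a b * R.Nxy j a b / R.N - G.prob a b| ≤
      Real.sqrt ((m : ℝ) * Real.log (1 / R.N)) := by
  classical
  let π' : Fin G.nX × Fin G.nY → ℝ := fun z => G.prob z.1 z.2
  let f : (Fin m → Fin G.nX × Fin G.nY) → ℝ :=
    fun z => bra R.ψ (R.PP fun i => (z i).1) (R.QQ fun i => (z i).2)
  let e := Equiv.arrowProdEquivProdArrow (Fin m) (fun _ => Fin G.nX) (fun _ => Fin G.nY)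
  have hsumz : ∀ g : (Fin m → Fin G.nX) → (Fin m → Fin G.nY) → ℝ,
      ∑ z : Fin m → Fin G.nX × Fin G.nY, g (fun i => (z i).1) (fun i => (z i).2) = ∑ x, ∑ y, g x y := by
    intro g
    rw [← Fintype.sum_prod_type']
    exact Fintype.sum_equiv e _ _ fun z => rfl
  have hpiJ : ∀ z : Fin m → Fin G.nX × Fin G.nY,
      piJ π' z = prodLaw G.prob (fun i => (z i).1) (fun i => (z i).2) := fun z => rfl
  have hmass : massN π' f = R.N := by
    rw [N_eq]
    unfold massN prodExp
    simp only [hpiJ, f]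
    rw [hsumz (fun x y => prodLaw G.prob x y * bra R.ψ (R.PP x) (R.QQ y))]
  have hpost : ∀ j (w : Fin G.nX × Fin G.nY),
      post π' f j w = G.prob w.1 w.2 * R.Nxy j w.1 w.2 / R.N := by
    intro j w
    unfold post tilted
    rw [hmass]
    have h1 := prodExp_indicator (π := G.prob) G.prob_nonneg G.prob_sum j w.1 w.2
      (fun x y => bra R.ψ (R.PP x) (R.QQ y))
    unfold Rect.Nxy
    rw [← h1]
    unfold prodExp
    rw [← hsumz (fun x y => prodLaw G.prob x y *
      ((if x j = w.1 ∧ y j = w.2 then 1 else 0) * bra R.ψ (R.PP x) (R.QQ y)))]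
    rw [Finset.sum_div]
    refine Finset.sum_congr rfl fun z _ => ?_
    have : (z j = w) ↔ ((z j).1 = w.1 ∧ (z j).2 = w.2) := Prod.ext_iff
    by_cases h : z j = w
    · have h' := this.mp h
      simp only [h, if_true, and_self, hpiJ, f, one_mul]
    · have h' : ¬((z j).1 = w.1 ∧ (z j).2 = w.2) := fun hh => h (this.mpr hh)
      simp [h, h']
  have hmain := sum_tv_post_le (π := π') (f := f) (fun w => G.prob_nonneg _ _)
    (by rw [Fintype.sum_prod_type]; exact G.prob_sum)
    (fun z => bra_nonneg _ (R.PP_psd _) (R.QQ_psd _))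
    (fun z => bra_le_one _ R.ψ_norm (R.QQ_psd _) (R.P_le _) (R.Q_le _))
    (by rw [hmass]; exact hN)
  rw [hmass] at hmain
  simp only [Fintype.card_fin] at hmain
  refine le_trans (le_of_eq ?_) hmain
  refine Finset.sum_congr rfl fun j _ => ?_
  congr 1
  rw [Fintype.sum_prod_type]
  refine Finset.sum_congr rfl fun a _ => Finset.sum_congr rfl fun b _ => ?_
  rw [hpost]

end Rect

end Crest.Agent.ParRep
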