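import Crest.Agent.Lib.ParRep.TvRect
import Crest.Agent.Lib.ParRep.ChainMat

/-!
Row 342: the conditional tower property, and the link between the coordinate-wise quantities of a
rectangle and the resampled families.
-/

set_option autoImplicit false

open Function Finset
open Crest.MathPhysics.NonlocalGame
open scoped Kronecker ComplexOrder

namespace Crest.Agent.ParRep

section Tower

variable {X Y J : Type*} [Fintype X] [Fintype Y] [Fintype J] [DecidableEq X] [DecidableEq Y]
  [DecidableEq J]
variable {π : X → Y → ℝ}

/-- Freezing a coordinate outside `A` commutes with the resampling. -/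
lemma resample_comp_update {M : Type*} [AddCommMonoid M] [Module ℝ M] {A : Finset J} {j : J}
    (hj : j ∉ A) (F : (J → X) → M) (s : X) (x : J → X) (y : J → Y) :
    resample π A (fun u => F (update u j s)) x y = resample π A F (update x j s) y := by
  induction A using Finset.induction_on generalizing x with
  | empty => simp only [resample_empty]
  | insert i A hi ih =>
    have hji : j ≠ i := fun h => hj (h ▸ Finset.mem_insert_self _ _)
    have hjA : j ∉ A := fun h => hj (Finset.mem_insert_of_mem h)
    rw [resample_insert hi, resample_insert hi]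
    refine Finset.sum_congr rfl fun t _ => ?_
    rw [ih hjA, update_comm hji]

variable {𝒜 ℬ : Type*} [AddCommGroup 𝒜] [Module ℝ 𝒜] [AddCommGroup ℬ] [Module ℝ ℬ]

/-- The tower property with the `j`-th coordinates frozen. -/
theorem tower_cond (hπ : ∀ x y, 0 ≤ π x y) (ω : 𝒜 →ₗ[ℝ] ℬ →ₗ[ℝ] ℝ) {A B : Finset J}
    (hAB : Disjoint A B) {j : J} (hjA : j ∉ A) (hjB : j ∉ B)
    (F : (J → X) → 𝒜) (G : (J → Y) → ℬ) (s : X) (t : Y) :
    prodExp π (fun x y => ω (resample π A F (update x j s) y)
        (resample (flip π) B G (update y j t) x))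
      = prodExp π (fun x y => ω (F (update x j s)) (G (update y j t))) := by
  have := tower hπ ω hAB (fun u => F (update u j s)) (fun v => G (update v j t))
  simpa only [resample_comp_update hjA, resample_comp_update hjB] using this

end Tower

variable {G : Game} {m dA dB : ℕ}

namespace Rect

/-- The first player's operator for the answer `a` at coordinate `j`. -/
noncomputable def PA (R : Rect G m dA dB) (j : Fin m) (a : Fin G.nA) (x : Fin m → Fin G.nX) :
    Matrix (Fin dA) (Fin dA) ℂ :=
  ∑ c ∈ Finset.univ.filter (fun c : Fin m → Fin G.nA => c j = a), R.P x c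

/-- The second player's operator for the answer `b` at coordinate `j`. -/
noncomputable def QB (R : Rect G m dA dB) (j : Fin m) (b : Fin G.nB) (y : Fin m → Fin G.nY) :
    Matrix (Fin dB) (Fin dB) ℂ :=
  ∑ c ∈ Finset.univ.filter (fun c : Fin m → Fin G.nB => c j = b), R.Q y c

lemma PA_psd (R : Rect G m dA dB) (j : Fin m) (a : Fin G.nA) (x : Fin m → Fin G.nX) :
    (R.PA j a x).PosSemidef :=
  Matrix.posSemidef_sum _ fun _ _ => R.P_psd _ _

lemma QB_psd (R : Rect G m dA dB) (j : Fin m) (b : Fin G.nB) (y : Fin m → Fin G.nY) :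
    (R.QB j b y).PosSemidef :=
  Matrix.posSemidef_sum _ fun _ _ => R.Q_psd _ _

lemma sum_PA (R : Rect G m dA dB) (j : Fin m) (x : Fin m → Fin G.nX) :
    ∑ a, R.PA j a x = R.PP x := by
  unfold PA PP
  exact Finset.sum_fiberwise _ _ _

lemma sum_QB (R : Rect G m dA dB) (j : Fin m) (y : Fin m → Fin G.nY) :
    ∑ b, R.QB j b y = R.QQ y := by
  unfold QB QQ
  exact Finset.sum_fiberwise _ _ _

/-- `Win j` in terms of the coarse operators. -/
lemma Win_eq (R : Rect G m dA dB) (j : Fin m) :
    R.Win j = prodExp G.prob (fun x y => ∑ a, ∑ b,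
      if G.accept (x j) (y j) a b = true then bra R.ψ (R.PA j a x) (R.QB j b y) else 0) := by
  unfold Rect.Win prodExp prodLaw
  refine Finset.sum_congr rfl fun x _ => Finset.sum_congr rfl fun y _ => ?_
  congr 1
  have h1 : ∀ (a : Fin G.nA) (b : Fin G.nB), bra R.ψ (R.PA j a x) (R.QB j b y)
      = ∑ c ∈ Finset.univ.filter (fun c : Fin m → Fin G.nA => c j = a),
        ∑ d ∈ Finset.univ.filter (fun d : Fin m → Fin G.nB => d j = b), R.mass x y c d := by
    intro a b
    unfold PA QB Rect.mass
    rw [bra_sum_left]
    refine Finset.sum_congr rfl fun c _ => ?_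
    rw [bra_sum_right]
  simp_rw [h1]
  -- fibrewise sums
  have h2 : ∀ c : Fin m → Fin G.nA,
      (∑ d, if G.accept (x j) (y j) (c j) (d j) = true then R.mass x y c d else 0)
      = ∑ b, if G.accept (x j) (y j) (c j) b = true then
          ∑ d ∈ Finset.univ.filter (fun d : Fin m → Fin G.nB => d j = b), R.mass x y c d else 0 := by
    intro c
    rw [← Finset.sum_fiberwise (Finset.univ) (fun d : Fin m → Fin G.nB => d j)]
    refine Finset.sum_congr rfl fun b _ => ?_
    split_ifs with hb
    · refine Finset.sum_congr rfl fun d hd => ?_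
      rw [(Finset.mem_filter.1 hd).2, if_pos hb]
    · refine Finset.sum_eq_zero fun d hd => ?_
      rw [(Finset.mem_filter.1 hd).2, if_neg hb]
  simp_rw [h2]
  rw [← Finset.sum_fiberwise (Finset.univ) (fun c : Fin m → Fin G.nA => c j)]
  refine Finset.sum_congr rfl fun a _ => ?_
  rw [Finset.sum_comm]
  refine Finset.sum_congr rfl fun b _ => ?_
  split_ifs with hb
  · refine Finset.sum_congr rfl fun c hc => ?_
    rw [(Finset.mem_filter.1 hc).2, if_pos hb]
  · refine Finset.sum_eq_zero fun c hc => ?_
    rw [(Finset.mem_filter.1 hc).2, if_neg hb]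

/-- The win mass in terms of resampled families. -/
theorem Win_eq_resample (R : Rect G m dA dB) (j : Fin m) {A B : Finset (Fin m)}
    (hAB : Disjoint A B) (hjA : j ∉ A) (hjB : j ∉ B) :
    ∑ s, ∑ t, G.prob s t * prodExp G.prob (fun x y => ∑ a, ∑ b,
      if G.accept s t a b = true then
        bra R.ψ (resample G.prob A (R.PA j a) (update x j s) y)
          (resample (flip G.prob) B (R.QB j b) (update y j t) x) else 0) = R.Win j := by
  rw [Win_eq, ← prodExp_coord G.prob_nonneg G.prob_sum j]
  refine Finset.sum_congr rfl fun s _ => Finset.sum_congr rfl fun t _ => ?_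
  congr 1
  simp only [update_self]
  -- exchange the sums and use the conditional tower for each `a, b`
  have hsum : ∀ H : Fin G.nA → Fin G.nB → (Fin m → Fin G.nX) → (Fin m → Fin G.nY) → ℝ,
      prodExp G.prob (fun x y => ∑ a, ∑ b, H a b x y)
        = ∑ a, ∑ b, prodExp G.prob (H a b) := by
    intro H
    unfold prodExp
    simp only [Finset.mul_sum]
    exact sum4_comm _
  rw [hsum, hsum]
  refine Finset.sum_congr rfl fun a _ => Finset.sum_congr rfl fun b _ => ?_
  split_ifs with h
  · exact tower_cond G.prob_nonneg (braL R.ψ) hAB hjA hjB (R.PA j a) (R.QB j b) s t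
  · rfl

/-- The conditional mass in terms of resampled families. -/
theorem Nxy_eq_resample (R : Rect G m dA dB) (j : Fin m) {A B : Finset (Fin m)}
    (hAB : Disjoint A B) (hjA : j ∉ A) (hjB : j ∉ B) (s : Fin G.nX) (t : Fin G.nY) :
    prodExp G.prob (fun x y => bra R.ψ (resample G.prob A R.PP (update x j s) y)
      (resample (flip G.prob) B R.QQ (update y j t) x)) = R.Nxy j s t :=
  tower_cond G.prob_nonneg (braL R.ψ) hAB hjA hjB R.PP R.QQ s t

end Rect

end Crest.Agent.ParRep
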